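import Vale.Agent.P137.Defs

namespace Vale.Agent.P137

open MeasureTheory Metric Set Filter Topology
open scoped ENNReal RealInnerProductSpace

/-- mass on sets which are eventually left tends to zero -/
lemma lim_set {α : Type*} [MeasurableSpace α] {μ : Measure α} {w : α → ℝ≥0∞}
    (hw : AEMeasurable w μ) (hf : ∫⁻ x, w x ∂μ ≠ ⊤) {B : ℕ → Set α} (hB : ∀ m, MeasurableSet (B m))
    (h : ∀ᵐ x ∂μ, w x = 0 ∨ ∀ᶠ m in atTop, x ∉ B m) :
    Tendsto (fun m => ∫⁻ x in B m, w x ∂μ) atTop (𝓝 0) := by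
  have := tendsto_lintegral_of_dominated_convergence' (μ := μ) (F := fun m => (B m).indicator w)
    (f := fun _ => 0) w (fun m => hw.indicator (hB m))
    (fun m => Eventually.of_forall fun x => indicator_le_self _ _ x) hf (by
      filter_upwards [h] with x hx
      refine tendsto_const_nhds.congr' ?_
      rcases hx with hx | hx
      · exact Eventually.of_forall fun m => (le_antisymm (hx ▸ indicator_le_self _ w x) zero_le).symm
      · filter_upwards [hx] with m hm
        rw [indicator_of_notMem hm])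
  simpa only [lintegral_indicator (hB _), lintegral_zero] using this

lemma lim_mul {α : Type*} [MeasurableSpace α] {μ : Measure α} {a : ℕ → α → ℝ} {b ψ : α → ℝ}
    {w : ℕ → α → ℝ≥0∞} {B : ℝ} (hb : AEStronglyMeasurable (fun x => b x * ψ x) μ)
    (ha : ∀ n, Integrable (fun x => a n x * ψ x) μ)
    (h : ∀ n x, ‖a n x * ψ x - b x * ψ x‖ₑ ≤ ENNReal.ofReal B * w n x)
    (hw : Tendsto (fun n => ∫⁻ x, w n x ∂μ) atTop (𝓝 0)) :
    Tendsto (fun n => ∫ x, a n x * ψ x ∂μ) atTop (𝓝 (∫ x, b x * ψ x ∂μ)) := by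
  refine tendsto_integral_of_L1 _ hb (Eventually.of_forall ha) ?_
  have t := ENNReal.Tendsto.const_mul (a := ENNReal.ofReal B) hw (Or.inr ENNReal.ofReal_ne_top)
  rw [mul_zero] at t
  refine tendsto_of_tendsto_of_tendsto_of_le_of_le tendsto_const_nhds t (fun _ => zero_le)
    fun n => ?_
  exact (lintegral_mono (h n)).trans
    (lintegral_const_mul' _ _ ENNReal.ofReal_ne_top).le

variable {E : Type*} [NormedAddCommGroup E] [InnerProductSpace ℝ E] [FiniteDimensional ℝ E]
  [MeasurableSpace E] [BorelSpace E]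

omit [FiniteDimensional ℝ E] [MeasurableSpace E] [BorelSpace E] in
lemma lim_fderiv_eq {a b : E → ℝ} {x : E} (h : ∀ y, a y ≤ b y) (hx : a x = b x)
    (ha : DifferentiableAt ℝ a x) (hb : DifferentiableAt ℝ b x) : fderiv ℝ a x = fderiv ℝ b x := by
  have m : IsLocalMin (fun y => b y - a y) x := Eventually.of_forall fun y => by
    show b x - a x ≤ b y - a y
    linarith [h y]
  exact (sub_eq_zero.1 (m.hasFDerivAt_eq_zero (hb.hasFDerivAt.fun_sub ha.hasFDerivAt))).symm

/-- the gradients converge in mean -/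
lemma lim_L1 (g : ℕ → E → ℝ) (hlip : ∀ n, ∃ K, LipschitzWith K (g n))
    (hmono : ∀ x, Monotone fun n => g n x) (M : ℝ≥0∞) (hM : M ≠ ⊤)
    (hb : ∀ n, ∫⁻ x, ‖fderiv ℝ (g n) x‖ₑ ≤ M) (ε : ℕ → ℝ≥0∞) (hε : Tendsto ε atTop (𝓝 0))
    (hs : ∀ m n, m ≤ n → ∫⁻ x in {x | g m x < g n x}, ‖fderiv ℝ (g n) x‖ₑ ≤ ε m) :
    ∃ T : E → E →L[ℝ] ℝ, AEStronglyMeasurable T volume ∧ ∫⁻ x, ‖T x‖ₑ ≤ M ∧
      Tendsto (fun n => ∫⁻ x, ‖fderiv ℝ (g n) x - T x‖ₑ) atTop (𝓝 0) := by
  have gm : ∀ n, Measurable (g n) := fun n => (hlip n).elim fun K h => h.continuous.measurable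
  have hd : ∀ᵐ x, ∀ n, DifferentiableAt ℝ (g n) x :=
    ae_all_iff.2 fun n => (hlip n).elim fun K h => h.ae_differentiableAt
  have Tm : ∀ n, Measurable (fderiv ℝ (g n)) := fun n => measurable_fderiv ℝ (g n)
  have eqd : ∀ {x m n}, (∀ n, DifferentiableAt ℝ (g n) x) → m ≤ n → g m x = g n x →
      fderiv ℝ (g m) x = fderiv ℝ (g n) x := fun hx h e =>
    lim_fderiv_eq (fun y => hmono y h) e (hx _) (hx _)
  set N : ℕ → Set E := fun m => ⋃ k, {x | g m x < g k x} with hN
  have Nm : ∀ m, MeasurableSet (N m) := fun m =>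
    MeasurableSet.iUnion fun k => measurableSet_lt (gm m) (gm k)
  have nN : ∀ {x m}, x ∉ N m ↔ ∀ k, g k x ≤ g m x := by simp [hN]
  set A : ℕ → E → E →L[ℝ] ℝ := fun m => (N m)ᶜ.indicator (fderiv ℝ (g m)) with hA
  have Am : ∀ m, Measurable (A m) := fun m => (Tm m).indicator (Nm m).compl
  have key : ∀ x, ∃ t, (∀ n, DifferentiableAt ℝ (g n) x) →
      (∀ᶠ m in atTop, A m x = t) ∧ ∀ m, A m x = t ∨ A m x = 0 := by
    intro x
    by_cases h : ∃ m, x ∉ N m
    · obtain ⟨m, hm⟩ := h
      refine ⟨fderiv ℝ (g m) x, fun hx => ?_⟩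
      have e : ∀ k, x ∉ N k → A k x = fderiv ℝ (g m) x := fun k hk => by
        have e1 : g k x = g m x := le_antisymm (nN.1 hm k) (nN.1 hk m)
        rw [hA]
        simp only [indicator_of_mem (mem_compl hk)]
        rcases le_total k m with h | h
        · exact eqd hx h e1
        · exact (eqd hx h e1.symm).symm
      refine ⟨(eventually_ge_atTop m).mono fun k hk =>
        e k (nN.2 fun j => (nN.1 hm j).trans (hmono x hk)), fun k => ?_⟩
      by_cases hk : x ∈ N k
      · exact Or.inr (indicator_of_notMem (notMem_compl_iff.2 hk) _)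
      · exact Or.inl (e k hk)
    · have e : ∀ m, A m x = 0 := fun m =>
        indicator_of_notMem (notMem_compl_iff.2 (by_contra fun hm => h ⟨m, hm⟩)) _
      exact ⟨0, fun _ => ⟨Eventually.of_forall e, fun m => Or.inl (e m)⟩⟩
  choose T hT using key
  have t1 : ∀ᵐ x, Tendsto (fun m => A m x) atTop (𝓝 (T x)) :=
    hd.mono fun x hx => tendsto_const_nhds.congr' ((hT x hx).1.mono fun m hm => hm.symm)
  have Ts : AEStronglyMeasurable T volume :=
    aestronglyMeasurable_of_tendsto_ae atTop (fun m => (Am m).aestronglyMeasurable) t1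
  have bT : ∫⁻ x, ‖T x‖ₑ ≤ M := by
    calc _ = ∫⁻ x, liminf (fun m => ‖A m x‖ₑ) atTop :=
          lintegral_congr_ae (t1.mono fun x hx => hx.enorm.liminf_eq.symm)
      _ ≤ liminf (fun m => ∫⁻ x, ‖A m x‖ₑ) atTop :=
          lintegral_liminf_le' fun m => (Am m).enorm.aemeasurable
      _ ≤ M := liminf_le_of_frequently_le' (Frequently.of_forall fun m =>
          le_trans (lintegral_mono fun x => by
            rw [← ofReal_norm, ← ofReal_norm]
            exact ENNReal.ofReal_le_ofReal (norm_indicator_le_norm_self _ _)) (hb m))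
  have t2 : Tendsto (fun m => ∫⁻ x, ‖A m x - T x‖ₑ) atTop (𝓝 0) := by
    have := tendsto_lintegral_of_dominated_convergence' (F := fun m x => ‖A m x - T x‖ₑ)
      (f := fun _ => 0) (fun x => ‖T x‖ₑ) (fun m => ((Am m).aestronglyMeasurable.sub Ts).enorm)
      (fun m => hd.mono fun x hx => by
        show ‖A m x - T x‖ₑ ≤ ‖T x‖ₑ
        rcases (hT x hx).2 m with h | h
        · rw [h, sub_self, ← ofReal_norm, norm_zero, ENNReal.ofReal_zero]; exact zero_le
        · rw [h, zero_sub, ← ofReal_norm, norm_neg, ofReal_norm])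
      (ne_top_of_le_ne_top hM bT) (hd.mono fun x hx =>
        tendsto_const_nhds.congr' ((hT x hx).1.mono fun m hm => by
          show 0 = ‖A m x - T x‖ₑ
          rw [hm, sub_self, ← ofReal_norm, norm_zero, ENNReal.ofReal_zero]))
    simpa using this
  have t3 : Tendsto (fun m => ∫⁻ x in N m, ‖fderiv ℝ (g m) x‖ₑ) atTop (𝓝 0) := by
    rw [ENNReal.tendsto_nhds_zero]
    intro δ hδ
    have hδ' := ENNReal.half_pos hδ.ne'
    obtain ⟨k, hk⟩ := ((ENNReal.tendsto_nhds_zero.1 hε) _ hδ').exists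
    have Bm : ∀ m, MeasurableSet ({x | g k x = g m x} ∩ N m) := fun m =>
      (measurableSet_eq_fun (gm k) (gm m)).inter (Nm m)
    have t4 := lim_set (Tm k).enorm.aemeasurable (ne_top_of_le_ne_top hM (hb k)) Bm
      (Eventually.of_forall fun x => Or.inr (by
        by_cases hx : x ∈ N k
        · obtain ⟨j, hj⟩ := mem_iUnion.1 hx
          filter_upwards [eventually_ge_atTop j] with m hm h
          exact (lt_of_lt_of_le hj (hmono x hm)).ne h.1
        · filter_upwards [eventually_ge_atTop k] with m hm h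
          exact nN.2 (fun j => (nN.1 hx j).trans (hmono x hm)) h.2))
    filter_upwards [(ENNReal.tendsto_nhds_zero.1 t4) _ hδ', eventually_ge_atTop k] with m h1 h2
    calc _ ≤ ∫⁻ x in {x | g k x < g m x} ∪ {x | g k x = g m x} ∩ N m, ‖fderiv ℝ (g m) x‖ₑ :=
          lintegral_mono_set fun x hx => (hmono x h2).lt_or_eq.imp id fun h => ⟨h, hx⟩
      _ ≤ δ / 2 + δ / 2 := by
          refine (lintegral_union_le _ _ _).trans (add_le_add ((hs k m h2).trans hk)
            (le_trans (le_of_eq (setLIntegral_congr_fun_ae (Bm m) ?_)) h1))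
          exact hd.mono fun x hx h => by rw [eqd hx h2 h.1]
      _ = δ := ENNReal.add_halves δ
  refine ⟨T, Ts, bT, ?_⟩
  have t5 := t3.add t2
  rw [add_zero] at t5
  refine tendsto_of_tendsto_of_tendsto_of_le_of_le tendsto_const_nhds t5 (fun _ => zero_le)
    fun m => ?_
  show _ ≤ _ + _
  rw [← lintegral_indicator (Nm m), ← lintegral_add_left ((Tm m).enorm.indicator (Nm m))]
  refine lintegral_mono fun x => ?_
  by_cases hx : x ∈ N m
  · simp only [hA, indicator_of_mem hx, indicator_of_notMem (notMem_compl_iff.2 hx), zero_sub,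
      enorm_neg]
    exact enorm_sub_le
  · simp only [hA, indicator_of_notMem hx, indicator_of_mem (mem_compl hx), zero_add, le_refl]

/-- passing to the limit in an increasing sequence of Lipschitz functions -/
theorem limit_grad (g : ℕ → E → ℝ) (u : E → ℝ) (hlip : ∀ n, ∃ K, LipschitzWith K (g n))
    (hmono : ∀ x, Monotone fun n => g n x) (M : ℝ≥0∞) (hM : M ≠ ⊤)
    (hb : ∀ n, ∫⁻ x, ‖fderiv ℝ (g n) x‖ₑ ≤ M) (ε : ℕ → ℝ≥0∞) (hε : Tendsto ε atTop (𝓝 0))
    (hs : ∀ m n, m ≤ n → ∫⁻ x in {x | g m x < g n x}, ‖fderiv ℝ (g n) x‖ₑ ≤ ε m)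
    (hu : AEStronglyMeasurable u volume)
    (hconv : Tendsto (fun n => ∫⁻ x, ‖u x - g n x‖ₑ) atTop (𝓝 0)) :
    LocallyIntegrable u volume ∧
      ∃ H : E → E, Integrable H ∧ IsWeakGrad u H ∧ ∫⁻ x, ‖H x‖ₑ ≤ M := by
  obtain ⟨T, Ts, bT, hT⟩ := lim_L1 g hlip hmono M hM hb ε hε hs
  have gc : ∀ n, Continuous (g n) := fun n => (hlip n).elim fun K h => h.continuous
  have hn : ∀ x, ‖(InnerProductSpace.toDual ℝ E).symm (T x)‖ₑ = ‖T x‖ₑ := fun x =>
    LinearIsometryEquiv.enorm_map _ _
  have bH : ∫⁻ x, ‖(InnerProductSpace.toDual ℝ E).symm (T x)‖ₑ ≤ M := by simpa only [hn] using bT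
  refine ⟨?_, fun x => (InnerProductSpace.toDual ℝ E).symm (T x),
    ⟨(InnerProductSpace.toDual ℝ E).symm.continuous.comp_aestronglyMeasurable Ts,
      bH.trans_lt hM.lt_top⟩, fun φ hφ hc v => ?_, bH⟩
  · obtain ⟨n, hn⟩ := (hconv.eventually (gt_mem_nhds ENNReal.zero_lt_top)).exists
    have i : Integrable fun x => u x - g n x := ⟨hu.sub (gc n).aestronglyMeasurable, hn⟩
    have := i.locallyIntegrable.add (gc n).locallyIntegrable
    refine (show u = _ from funext fun x => ?_) ▸ this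
    simp
  obtain ⟨B, hB⟩ := hφ.continuous.bounded_above_of_compact_support hc
  have cD : Continuous fun y => fderiv ℝ φ y v :=
    (hφ.continuous_fderiv (by simp)).clm_apply continuous_const
  have sD := hc.fderiv_apply ℝ v
  obtain ⟨B', hB'⟩ := cD.bounded_above_of_compact_support sD
  obtain ⟨K', hK'⟩ := ContDiff.lipschitzWith_of_hasCompactSupport hc hφ (by simp)
  have e : ∀ n, ∫ x, g n x * fderiv ℝ φ x v = -∫ x, fderiv ℝ (g n) x v * φ x := fun n => by
    obtain ⟨K, hK⟩ := hlip n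
    have h1 := hK.integral_lineDeriv_mul_eq (μ := volume) hK' hc v
    simp only [(hφ.differentiable (by simp) _).lineDeriv_eq_fderiv, map_neg, neg_mul,
      integral_neg] at h1
    have h2 : ∫ x, fderiv ℝ (g n) x v * φ x = ∫ x, lineDeriv ℝ (g n) x v * φ x :=
      integral_congr_ae (hK.ae_differentiableAt.mono fun x hx => by
        simp only [hx.lineDeriv_eq_fderiv])
    rw [h2, h1, neg_neg]
    simp only [mul_comm]
  have t1 := lim_mul (B := B') (hu.mul cD.aestronglyMeasurable) (fun n =>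
    ((gc n).mul cD).integrable_of_hasCompactSupport sD.mul_left) (fun n x => by
      rw [← sub_mul, enorm_mul, mul_comm, enorm_sub_rev, ← ofReal_norm (fderiv ℝ φ x v)]
      exact mul_le_mul_left (ENNReal.ofReal_le_ofReal (hB' x)) _) hconv
  have t2 := lim_mul (a := fun n x => fderiv ℝ (g n) x v) (b := fun x => T x v) (ψ := φ)
    (B := B * ‖v‖) ((Ts.apply_continuousLinearMap v).mul hφ.continuous.aestronglyMeasurable)
    (fun n => by
      have i : Integrable (fderiv ℝ (g n)) :=
        ⟨(measurable_fderiv ℝ (g n)).aestronglyMeasurable, (hb n).trans_lt hM.lt_top⟩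
      exact (i.apply_continuousLinearMap v).mul_bdd hφ.continuous.aestronglyMeasurable
        (Eventually.of_forall hB)) (fun n x => by
      have hB0 := (norm_nonneg _).trans (hB x)
      rw [← ofReal_norm, ← ofReal_norm, ← ENNReal.ofReal_mul (by positivity), ← sub_mul, norm_mul]
      refine ENNReal.ofReal_le_ofReal ?_
      calc _ ≤ ‖fderiv ℝ (g n) x - T x‖ * ‖v‖ * B :=
            mul_le_mul ((fderiv ℝ (g n) x - T x).le_opNorm v) (hB x) (norm_nonneg _) (by positivity)
        _ = _ := by ring) hT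
  simp only [InnerProductSpace.toDual_symm_apply]
  exact tendsto_nhds_unique (t1.congr e) t2.neg

end Vale.Agent.P137
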