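import Vale.Agent.P137.Sob
import Vale.Agent.P137.Lim

namespace Vale.Agent.P137

open MeasureTheory Metric Set Filter Topology
open scoped ENNReal RealInnerProductSpace

variable {E : Type*} [NormedAddCommGroup E] [InnerProductSpace ℝ E] [FiniteDimensional ℝ E]
  [MeasurableSpace E] [BorelSpace E]

lemma bad_refl (h : E → ℝ≥0∞) (c : E) (r : ℝ) :
    ∫⁻ y in ball c r, h (c + c - y) = ∫⁻ y in ball c r, h y := by
  rw [← lintegral_indicator measurableSet_ball, ← lintegral_indicator measurableSet_ball,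
    ← lintegral_sub_left_eq_self ((ball c r).indicator h) (c + c)]
  refine lintegral_congr fun y => ?_
  have e : c + c - y ∈ ball c r ↔ y ∈ ball c r := by
    rw [mem_ball_iff_norm, mem_ball_iff_norm', show c + c - y - c = c - y by abel]
  by_cases hy : y ∈ ball c r
  · rw [indicator_of_mem hy, indicator_of_mem (e.2 hy)]
  · rw [indicator_of_notMem hy, indicator_of_notMem (mt e.1 hy)]

lemma bad_point {f : E → ℝ} (hf : Measurable f) {G0 c y : E} {r t b : ℝ} (ht : 0 ≤ t) (hb : 0 ≤ b)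
    (hI : ∫⁻ y' in ball c r, ENNReal.ofReal |f y'| ≤ ENNReal.ofReal t * V E r) (hy : t < f y)
    (hc : b ≤ ⟪G0, c - y⟫) :
    ENNReal.ofReal b * V E r ≤ ∫⁻ y' in ball c r, ENNReal.ofReal |f y' - f y - ⟪G0, y' - y⟫| := by
  set h : E → ℝ≥0∞ := fun y' => ENNReal.ofReal |f y' - f y - ⟪G0, y' - y⟫| + ENNReal.ofReal |f y'|
    with hh
  have m1 : Measurable fun y' => ENNReal.ofReal |f y' - f y - ⟪G0, y' - y⟫| := by fun_prop
  have m : Measurable h := m1.add (by fun_prop)
  have h1 : 2 * ((ENNReal.ofReal b + ENNReal.ofReal t) * V E r) ≤ 2 * ∫⁻ y' in ball c r, h y' := by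
    rw [two_mul (∫⁻ y' in ball c r, h y'), ← mul_assoc, ← vol_ball c, ← setLIntegral_const]
    nth_rewrite 2 [← bad_refl h c r]
    rw [← lintegral_add_left m]
    refine lintegral_mono fun y' => ?_
    simp only [hh]
    rw [← ENNReal.ofReal_add hb ht, ← ENNReal.ofReal_ofNat 2, ← ENNReal.ofReal_mul (by norm_num),
      ← ENNReal.ofReal_add (abs_nonneg _) (abs_nonneg _),
      ← ENNReal.ofReal_add (abs_nonneg _) (abs_nonneg _),
      ← ENNReal.ofReal_add (by positivity) (by positivity)]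
    refine ENNReal.ofReal_le_ofReal ?_
    have e : ⟪G0, y' - y⟫ + ⟪G0, c + c - y' - y⟫ = 2 * ⟪G0, c - y⟫ := by
      simp only [inner_sub_right, inner_add_right]; ring
    linarith [neg_abs_le (f y' - f y - ⟪G0, y' - y⟫), le_abs_self (f y'),
      neg_abs_le (f (c + c - y') - f y - ⟪G0, c + c - y' - y⟫), le_abs_self (f (c + c - y'))]
  rw [ENNReal.mul_le_mul_iff_right two_ne_zero ENNReal.ofNat_ne_top, hh, lintegral_add_left m1,
    add_mul] at h1
  exact ENNReal.le_of_add_le_add_right (ENNReal.mul_ne_top ENNReal.ofReal_ne_top (V_ne_top r))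
    (h1.trans (add_le_add le_rfl hI))

lemma bad_side {f : E → ℝ} {G : E → E} (hf : Measurable f) (hG : Measurable G)
    (hfi : Integrable f) (hGi : Integrable G) (hw : IsWeakGrad f G) {A a s t δ : ℝ} (hA : 0 < A)
    (ha : 0 < a) (ht : 0 ≤ t) {y0 x w G0 : E} (hG0 : G0 ≠ 0) (hx : dist x y0 ≤ A * a)
    (hw0 : dist w y0 ≤ A * a) (hs : 3 * ((5 * A + 5) * a) ≤ s) (hs' : s ≤ 6 * (5 * A + 5) * a)
    (hδ0 : 0 ≤ δ) (hδ : 8 * (5 * A + 5) * ((6 * (5 * A + 5)) ^ Module.finrank ℝ E) ^ 2 * δ ≤ 1)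
    (hL : ∫⁻ y in ball y0 s, ‖G y - G0‖ₑ ≤ ENNReal.ofReal (δ * ‖G0‖) * V E s)
    (hH : ∀ c, dist x c ≤ (2 * A + 2) * a → ∫⁻ y in ball c ((2 * A + 2) * a),
      ENNReal.ofReal |f y| ≤ ENNReal.ofReal t * V E ((2 * A + 2) * a)) :
    4 * volume ({y | t < f y} ∩ ball w a) ≤ V E a := by
  have hn : 0 < ‖G0‖ := norm_pos_iff.2 hG0
  set r := (2 * A + 2) * a with hr
  set ρ := (5 * A + 5) * a with hρ
  set C := (6 * (5 * A + 5)) ^ Module.finrank ℝ E with hC
  have hC0 : 0 < C := by positivity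
  have hr0 : 0 < r := by positivity
  have hAa : 0 < A * a := by positivity
  set c := x + (r / ‖G0‖) • G0 with hc
  have hxc : dist x c = r := by
    rw [hc, dist_self_add_right, norm_smul, Real.norm_eq_abs, abs_of_pos (by positivity)]
    field_simp
  set T := {y | t < f y} ∩ ball w a with hT
  have Tm : MeasurableSet T := (measurableSet_lt measurable_const hf).inter measurableSet_ball
  have hTs : T ⊆ ball y0 ρ := inter_subset_right.trans (ball_subset_ball' (by linarith))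
  have m : Measurable fun p : E × E =>
      ENNReal.ofReal |f (p.1 + p.2) - f p.1 - ⟪G0, p.2⟫| := by fun_prop
  have h1 : ∀ y ∈ T, ENNReal.ofReal (‖G0‖ * a) * V E r ≤
      ∫⁻ v in ball (0 : E) (2 * ρ), ENNReal.ofReal |f (y + v) - f y - ⟪G0, v⟫| := by
    intro y hy
    have d1 : dist y w < a := hy.2
    refine (bad_point (G0 := G0) hf ht (by positivity) (hH c hxc.le) hy.1 ?_).trans ?_
    · have d2 : ‖x - y‖ ≤ (2 * A + 1) * a := by
        rw [← dist_eq_norm]
        linarith [dist_triangle_right x y y0, dist_triangle y w y0]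
      have e : ⟪G0, c - y⟫ = ⟪G0, x - y⟫ + ‖G0‖ * r := by
        rw [hc, add_sub_right_comm, inner_add_right, inner_smul_right,
          real_inner_self_eq_norm_sq]
        field_simp
      have := neg_abs_le ⟪G0, x - y⟫
      have := abs_real_inner_le_norm G0 (x - y)
      have := mul_le_mul_of_nonneg_left d2 hn.le
      rw [e, hr]
      linarith
    · have e := setLIntegral_ball_add
        (fun y' => ENNReal.ofReal |f y' - f y - ⟪G0, y' - y⟫|) 0 y (2 * ρ)
      simp only [add_comm _ y, add_sub_cancel_left, add_zero] at e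
      rw [e]
      refine lintegral_mono_set (ball_subset_ball' ?_)
      linarith [dist_triangle_left c y x, dist_triangle_right x y y0, dist_triangle y w y0]
  have h2 : ENNReal.ofReal (‖G0‖ * a) * V E r * volume T ≤
      ENNReal.ofReal (2 * ρ) * (ENNReal.ofReal (δ * ‖G0‖) * V E s) * V E (2 * ρ) := by
    rw [← setLIntegral_const]
    refine (setLIntegral_mono' Tm h1).trans ((lintegral_mono_set hTs).trans ?_)
    rw [lintegral_lintegral_swap m.aemeasurable, V.eq_1 _ (2 * ρ), ← setLIntegral_const]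
    refine setLIntegral_mono' measurableSet_ball fun v hv => ?_
    have hv' := mem_ball_zero_iff.1 hv
    refine (LT0 hf hG hfi hGi hw G0 v measurableSet_ball measurableSet_ball
      fun y hy u hu => ?_).trans (mul_le_mul' (ENNReal.ofReal_le_ofReal hv'.le) hL)
    have d1 : dist (y + u • v) y ≤ ‖v‖ := by
      rw [dist_self_add_left, norm_smul, Real.norm_eq_abs, abs_of_nonneg hu.1]
      exact mul_le_of_le_one_left (norm_nonneg v) hu.2
    rw [mem_ball] at hy ⊢
    linarith [dist_triangle (y + u • v) y y0]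
  have v1 : V E s ≤ ENNReal.ofReal C * V E a := V_le_of_le_mul (by positivity) hs'
  have v2 : V E (2 * ρ) ≤ ENNReal.ofReal C * V E r :=
    V_le_of_le_mul (by positivity) (by rw [hρ, hr]; nlinarith)
  have n1 : ENNReal.ofReal (‖G0‖ * a) * V E r ≠ 0 :=
    mul_ne_zero (ENNReal.ofReal_pos.2 (by positivity)).ne' (V_ne_zero hr0)
  rw [← ENNReal.mul_le_mul_iff_right n1 (ENNReal.mul_ne_top ENNReal.ofReal_ne_top (V_ne_top r))]
  calc _ = 4 * (ENNReal.ofReal (‖G0‖ * a) * V E r * volume T) := by ring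
    _ ≤ 4 * (ENNReal.ofReal (2 * ρ) * (ENNReal.ofReal (δ * ‖G0‖) * (ENNReal.ofReal C * V E a)) *
        (ENNReal.ofReal C * V E r)) := by
        refine mul_le_mul_right (h2.trans ?_) _
        gcongr
    _ = ENNReal.ofReal 4 * ENNReal.ofReal (2 * ρ) * ENNReal.ofReal (δ * ‖G0‖) * ENNReal.ofReal C *
        ENNReal.ofReal C * V E r * V E a := by rw [ENNReal.ofReal_ofNat]; ring
    _ ≤ _ := by
        rw [← ENNReal.ofReal_mul (by positivity), ← ENNReal.ofReal_mul (by positivity),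
          ← ENNReal.ofReal_mul (by positivity), ← ENNReal.ofReal_mul (by positivity)]
        refine mul_le_mul_left (mul_le_mul_left (ENNReal.ofReal_le_ofReal ?_) _) _
        calc _ = 8 * (5 * A + 5) * C ^ 2 * δ * (‖G0‖ * a) := by rw [hρ]; ring
          _ ≤ _ := mul_le_of_le_one_left (by positivity) hδ

lemma bad_neg {f : E → ℝ} {G : E → E} (hw : IsWeakGrad f G) :
    IsWeakGrad (fun y => -f y) fun y => -G y := fun φ hφ hc v => by
  simp only [neg_mul, inner_neg_left, integral_neg, hw φ hφ hc v]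

lemma bad_leb {G : E → E} (hGi : Integrable G) : ∀ᵐ y0, ∀ ε : ℝ, 0 < ε → ∃ σ : ℝ, 0 < σ ∧
    ∀ s, 0 < s → s < σ → ∫⁻ y in ball y0 s, ‖G y - G y0‖ₑ ≤ ENNReal.ofReal ε * V E s := by
  filter_upwards [(Besicovitch.vitaliFamily (volume : Measure E)).ae_tendsto_lintegral_enorm_sub_div
    hGi.locallyIntegrable] with y0 h ε hε
  have t := (ENNReal.tendsto_nhds_zero.1 (h.comp (Besicovitch.tendsto_filterAt _ y0))) _
    (ENNReal.ofReal_pos.2 hε)
  obtain ⟨σ, hσ, h2⟩ := (nhdsGT_basis (0 : ℝ)).eventually_iff.1 t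
  refine ⟨σ, hσ, fun s h0 h1 => ?_⟩
  have h3 : (∫⁻ y in closedBall y0 s, ‖G y - G y0‖ₑ) / volume (closedBall y0 s) ≤ _ := h2 ⟨h0, h1⟩
  rw [Measure.addHaar_closedBall _ _ h0.le, ← Measure.addHaar_ball_of_pos _ y0 h0, vol_ball,
    ENNReal.div_le_iff (V_ne_zero h0) (V_ne_top s)] at h3
  exact (lintegral_mono_set ball_subset_closedBall).trans h3

/-- bad sets of small gradient mass outside which superlevel sets of `|f|` are half empty -/
theorem exists_Bad {f : E → ℝ} {G : E → E} (hf : Measurable f) (hG : Measurable G)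
    (hfi : Integrable f) (hGi : Integrable G) (hw : IsWeakGrad f G) (A : ℝ) (hA : 0 < A) :
    ∃ Bad : ℕ → Set E, (∀ m, MeasurableSet (Bad m)) ∧
      Tendsto (fun m => ∫⁻ y in Bad m, ‖G y‖ₑ) atTop (𝓝 0) ∧
      ∀ (m : ℕ) (η : ℝ) (g : E → ℝ), 0 < η → (∀ y, 0 ≤ g y) → H1 (fun y => |f y|) g η →
        HG (fun y => |f y|) g (Bad m) η ((1 / 2) ^ m) A := by
  obtain ⟨δ, hδ0, hδ⟩ : ∃ δ : ℝ, 0 < δ ∧
      8 * (5 * A + 5) * ((6 * (5 * A + 5)) ^ Module.finrank ℝ E) ^ 2 * δ ≤ 1 :=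
    ⟨_⁻¹, by positivity, (mul_inv_cancel₀ (by positivity)).le⟩
  set Bad : ℕ → Set E := fun m => {y0 | G y0 = 0} ∪ ⋃ s : ℚ,
    ⋃ _ : 0 < (s : ℝ) ∧ (s : ℝ) ≤ 6 * (5 * A + 5) * A * (1 / 2) ^ m,
      {y0 | ENNReal.ofReal (δ * ‖G y0‖) * V E s < ∫⁻ y in ball y0 s, ‖G y - G y0‖ₑ} with hB
  have Bm : ∀ m, MeasurableSet (Bad m) := fun m =>
    (hG (measurableSet_singleton 0)).union (MeasurableSet.iUnion fun s =>
      MeasurableSet.iUnion fun _ => measurableSet_lt (by fun_prop)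
        (measurable_ball_lintegral (f := fun y0 y => ‖G y - G y0‖ₑ) (by fun_prop) measurable_id _))
  have nB : ∀ {m y0}, y0 ∉ Bad m ↔ G y0 ≠ 0 ∧ ∀ s : ℚ, 0 < (s : ℝ) →
      (s : ℝ) ≤ 6 * (5 * A + 5) * A * (1 / 2) ^ m →
      ∫⁻ y in ball y0 s, ‖G y - G y0‖ₑ ≤ ENNReal.ofReal (δ * ‖G y0‖) * V E s := by
    simp only [hB, mem_union, mem_iUnion, mem_ofPred_eq, not_or, not_exists, not_lt, and_imp,
      ne_eq, implies_true]
  refine ⟨Bad, Bm, lim_set hG.enorm.aemeasurable hGi.2.ne Bm ?_,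
    fun m η g hη hg h1 y0 hy x w a ha ha' hx hw0 => ?_⟩
  · filter_upwards [bad_leb hGi] with y0 h
    by_cases h0 : G y0 = 0
    · exact Or.inl (by simp [h0])
    obtain ⟨σ, hσ, h2⟩ := h (δ * ‖G y0‖) (mul_pos hδ0 (norm_pos_iff.2 h0))
    have t := (tendsto_pow_atTop_nhds_zero_of_lt_one (r := (1 / 2 : ℝ)) (by norm_num)
      (by norm_num)).const_mul (6 * (5 * A + 5) * A)
    rw [mul_zero] at t
    exact Or.inr ((t.eventually (gt_mem_nhds hσ)).mono fun m hm =>
      nB.2 ⟨h0, fun s s0 s1 => h2 s s0 (s1.trans_lt hm)⟩)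
  obtain ⟨h0, h2⟩ := nB.1 hy
  have a0 : 0 < a := hη.trans_le ha
  have hρ : 0 < (5 * A + 5) * a := by positivity
  obtain ⟨s, s1, s2⟩ := exists_rat_btwn
    (show 3 * ((5 * A + 5) * a) < 6 * (5 * A + 5) * a by linarith)
  have hL := h2 s (by linarith) (s2.le.trans (by rw [mul_assoc _ A]; gcongr))
  have hH := fun c hc => h1 x c ((2 * A + 2) * a) (ha.trans (by nlinarith)) hc
  have e1 := bad_side hf hG hfi hGi hw hA a0 (hg x) h0 hx hw0 s1.le s2.le hδ0.le hδ hL hH
  have e2 := bad_side hf.neg hG.neg hfi.neg hGi.neg (bad_neg hw) hA a0 (hg x) (neg_ne_zero.2 h0) hx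
    hw0 s1.le s2.le hδ0.le hδ (by
      simpa only [Pi.neg_apply, neg_sub_neg, norm_neg, enorm_sub_rev (G y0)] using hL) (by
      simpa only [Pi.neg_apply, abs_neg, I] using hH)
  rw [← ENNReal.mul_le_mul_iff_right two_ne_zero ENNReal.ofNat_ne_top, two_mul (V E a)]
  refine le_trans ?_ (add_le_add e1 e2)
  rw [← mul_add, ← mul_assoc, show (2 : ℝ≥0∞) * 2 = 4 by norm_num]
  refine mul_le_mul_right ((measure_mono fun y hy => ?_).trans (measure_union_le _ _)) _
  rcases lt_abs.1 (show g x < |f y| from hy.1) with h | h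
  · exact Or.inl ⟨h, hy.2⟩
  · exact Or.inr ⟨h, hy.2⟩

end Vale.Agent.P137
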