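import Vale.Agent.P137.CDefs

namespace Vale.Agent.P137

open MeasureTheory Metric Set Filter Topology
open scoped ENNReal RealInnerProductSpace

variable {E : Type*} [NormedAddCommGroup E] [InnerProductSpace ℝ E] [FiniteDimensional ℝ E]
  [MeasurableSpace E] [BorelSpace E]

lemma cap_pt_le {φ : ℝ → ℝ} (h1 : Monotone φ) (h2 : LipschitzWith 1 φ) (a b c : ℝ) :
    pt (φ a) (φ b) (φ c) ≤ pt a b c := by
  have k0 : ∀ x y : ℝ, x ≤ y → 0 ≤ φ y - φ x ∧ φ y - φ x ≤ y - x := by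
    intro x y hxy
    refine ⟨sub_nonneg.2 (h1 hxy), ?_⟩
    have := h2.dist_le_mul y x
    rw [NNReal.coe_one, one_mul, Real.dist_eq, Real.dist_eq, abs_of_nonneg (sub_nonneg.2 hxy)]
      at this
    exact (le_abs_self _).trans this
  have k : ∀ x y : ℝ, (|φ y - φ x| = φ y - φ x ∧ |y - x| = y - x ∧ 0 ≤ φ y - φ x ∧
      φ y - φ x ≤ y - x) ∨ (|φ y - φ x| = φ x - φ y ∧ |y - x| = x - y ∧ 0 ≤ φ x - φ y ∧
      φ x - φ y ≤ x - y) := by
    intro x y
    rcases le_total x y with hxy | hxy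
    · exact Or.inl ⟨abs_of_nonneg (k0 x y hxy).1, abs_of_nonneg (sub_nonneg.2 hxy), k0 x y hxy⟩
    · refine Or.inr ⟨?_, ?_, k0 y x hxy⟩
      · rw [abs_sub_comm, abs_of_nonneg (k0 y x hxy).1]
      · rw [abs_sub_comm, abs_of_nonneg (sub_nonneg.2 hxy)]
  unfold pt
  refine ENNReal.ofReal_le_ofReal ?_
  rcases k a b with ⟨a1, a2, a3, a4⟩ | ⟨a1, a2, a3, a4⟩ <;>
  rcases k b c with ⟨b1, b2, b3, b4⟩ | ⟨b1, b2, b3, b4⟩ <;>
  rcases k a c with ⟨c1, c2, c3, c4⟩ | ⟨c1, c2, c3, c4⟩ <;> linarith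

lemma cap_PL_mono (F : E → ℝ) (z : E) (R : ℝ) {τ τ' : ℝ} (h : τ ≤ τ') :
    PL F z R τ ≤ PL F z R τ' :=
  lintegral_mono_set (ball_subset_ball h)

lemma cap_two_smul (f : E → ℝ≥0∞) (τ : ℝ) :
    ENNReal.ofReal (2 ^ Module.finrank ℝ E) * ∫⁻ s in ball (0 : E) τ, f ((2 : ℝ) • s) =
      ∫⁻ s in ball (0 : E) (2 * τ), f s := by
  rw [← lintegral_indicator measurableSet_ball, ← lintegral_indicator measurableSet_ball,
    lintegral_smul_eq (t := 2) ((ball (0 : E) (2 * τ)).indicator _) two_pos]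
  congr 1
  refine lintegral_congr fun s => ?_
  by_cases hs : s ∈ ball (0 : E) τ
  · rw [indicator_of_mem hs, indicator_of_mem]
    rw [mem_ball_zero_iff] at hs ⊢
    rw [norm_smul, Real.norm_two]; linarith
  · rw [indicator_of_notMem hs, indicator_of_notMem]
    rw [mem_ball_zero_iff] at hs ⊢
    rw [norm_smul, Real.norm_two]; linarith

/-- normalised pattern mass -/
noncomputable def cap_T (F : E → ℝ) (z : E) (R τ : ℝ) : ℝ≥0∞ :=
  (ENNReal.ofReal (2 * τ))⁻¹ * (V E τ)⁻¹ * PL F z R τ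

lemma cap_T_eq (F : E → ℝ) (z : E) (R : ℝ) {τ : ℝ} (hτ : 0 < τ) :
    ENNReal.ofReal (2 * τ) * V E τ * cap_T F z R τ = PL F z R τ := by
  have e1 : ENNReal.ofReal (2 * τ) * (ENNReal.ofReal (2 * τ))⁻¹ = 1 :=
    ENNReal.mul_inv_cancel (by simpa using hτ) ENNReal.ofReal_ne_top
  have e2 : V E τ * (V E τ)⁻¹ = 1 := ENNReal.mul_inv_cancel (V_ne_zero hτ) (V_ne_top τ)
  unfold cap_T
  calc _ = (ENNReal.ofReal (2 * τ) * (ENNReal.ofReal (2 * τ))⁻¹) * (V E τ * (V E τ)⁻¹) *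
        PL F z R τ := by ring
    _ = _ := by rw [e1, e2, one_mul, one_mul]

lemma cap_core {F : E → ℝ} (hF : Measurable F) {z : E} {ρ R : ℝ} (m : ℕ) :
    ∀ τ : ℝ, 0 < τ → ρ + 2 ^ m * τ ≤ R →
      ∫⁻ s in ball (0 : E) τ, ∫⁻ u in ball z ρ,
        ENNReal.ofReal (p1_apr (fun k => F (u + (k : ℝ) • s)) m) ≤
      2 ^ m * ENNReal.ofReal τ * V E τ * ∑ i ∈ Finset.range m, cap_T F z R (2 ^ i * τ) := by
  induction m with
  | zero => intro τ _ _; simp [p1_apr]
  | succ m ih =>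
    intro τ hτ hR
    have hp : (1 : ℝ) ≤ 2 ^ m := one_le_pow₀ (by norm_num)
    have h2τ : ENNReal.ofReal (2 * τ) = 2 * ENNReal.ofReal τ := by
      rw [ENNReal.ofReal_mul (by norm_num), ENNReal.ofReal_ofNat]
    simp only [p1_apr_succ]
    rw [p1_add _ _ (f := fun s u => ENNReal.ofReal
        (p1_apr (fun k => F (u + ((2 * k : ℕ) : ℝ) • s)) m)) (by
      have := (p1_meas hF m).comp (f := fun p : E × E => ((2 : ℝ) • p.1, p.2)) (by fun_prop)
      simpa only [Function.comp_def, smul_smul, Nat.cast_mul, Nat.cast_ofNat, mul_comm] using this),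
      p1_sum _ _ _ (f := fun k s u => pt (F (u + ((2 * k : ℕ) : ℝ) • s))
        (F (u + ((2 * k + 1 : ℕ) : ℝ) • s)) (F (u + ((2 * k + 2 : ℕ) : ℝ) • s)))
        fun k => by fun_prop, Finset.sum_range_succ', mul_add]
    refine add_le_add ?_ ?_
    · have h1 := ih (2 * τ) (by linarith) (by rw [pow_succ] at hR; linarith)
      have hc : ENNReal.ofReal ((2 : ℝ) ^ Module.finrank ℝ E) ≠ 0 := by
        simp
      rw [← cap_two_smul, V_mul two_pos, h2τ] at h1
      refine (ENNReal.mul_le_mul_iff_right hc ENNReal.ofReal_ne_top).1 ?_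
      refine le_trans (le_of_eq ?_) (h1.trans (le_of_eq ?_))
      · simp only [smul_smul, Nat.cast_mul, Nat.cast_ofNat, mul_comm]
      · have e : ∀ i : ℕ, (2 : ℝ) ^ i * (2 * τ) = 2 ^ (i + 1) * τ := fun i => by ring
        simp only [e]
        ring
    · rw [pow_zero, one_mul]
      have e : (2 : ℝ≥0∞) ^ (m + 1) * ENNReal.ofReal τ * V E τ * cap_T F z R τ =
          2 ^ m * PL F z R τ := by
        rw [← cap_T_eq F z R hτ, h2τ]
        ring
      rw [e]
      refine (Finset.sum_le_card_nsmul _ _ (PL F z R τ) fun k hk => ?_).trans (by simp)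
      have hk' : (k : ℝ) + 1 ≤ 2 ^ m := by exact_mod_cast Finset.mem_range.1 hk
      rw [pow_succ] at hR
      refine setLIntegral_mono' measurableSet_ball fun s hs => ?_
      refine le_trans (le_of_eq (lintegral_congr fun u => ?_)) (setLIntegral_add_le
        (fun y => pt (F (y - s)) (F y) (F (y + s))) measurableSet_ball measurableSet_ball
        (((2 * k + 1 : ℕ) : ℝ) • s) fun u hu => p1_mem hu hs ?_)
      · congr 2
        · push_cast; module
        · push_cast; module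
      · rw [abs_of_nonneg (Nat.cast_nonneg _)]
        push_cast
        nlinarith

lemma cap_dyadic {a τ : ℝ} (hτ : 0 < τ) (hτa : τ ≤ a) :
    ∃ m : ℕ, 2 ^ m * τ ≤ a ∧ a < 2 ^ (m + 1) * τ := by
  obtain ⟨m, h1, h2⟩ := exists_nat_pow_near (x := a / τ) (y := 2) ((one_le_div hτ).2 hτa)
    one_lt_two
  exact ⟨m, (le_div_iff₀ hτ).1 h1, (div_lt_iff₀ hτ).1 h2⟩

lemma cap_term (F : E → ℝ) (z : E) (R : ℝ) {τ σ ρ ρm : ℝ} (hτ : 0 < τ) (hρm : 0 < ρm)
    (h0 : τ ≤ σ) (h1 : σ ≤ ρ) (h2 : ρ ≤ 2 * σ) :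
    ENNReal.ofReal τ * cap_T F z R σ ≤
      ENNReal.ofReal (max τ ρm) * (ENNReal.ofReal (2 ^ Module.finrank ℝ E) *
        (ENNReal.ofReal (min 1 (ρ / ρm)) *
          ((ENNReal.ofReal ρ)⁻¹ * (V E ρ)⁻¹ * PL F z R ρ))) := by
  have hσ : 0 < σ := by linarith
  have hρ : 0 < ρ := by linarith
  have a1 : ENNReal.ofReal τ ≤ ENNReal.ofReal (max τ ρm) * ENNReal.ofReal (min 1 (ρ / ρm)) := by
    rw [← ENNReal.ofReal_mul (le_max_of_le_left hτ.le)]
    refine ENNReal.ofReal_le_ofReal ?_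
    rcases le_total 1 (ρ / ρm) with k | k
    · rw [min_eq_left k, mul_one]
      exact le_max_left _ _
    · rw [min_eq_right k]
      calc τ ≤ ρm * (ρ / ρm) := by rw [mul_div_cancel₀ _ hρm.ne']; linarith
        _ ≤ _ := mul_le_mul_of_nonneg_right (le_max_right _ _) (by positivity)
  have a2 : (ENNReal.ofReal (2 * σ))⁻¹ ≤ (ENNReal.ofReal ρ)⁻¹ :=
    ENNReal.inv_le_inv.2 (ENNReal.ofReal_le_ofReal h2)
  have a3 : (V E σ)⁻¹ ≤ ENNReal.ofReal (2 ^ Module.finrank ℝ E) * (V E ρ)⁻¹ := by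
    have b1 := V_le_of_le_mul (E := E) two_pos h2
    have e1 : V E ρ * (V E ρ)⁻¹ = 1 := ENNReal.mul_inv_cancel (V_ne_zero hρ) (V_ne_top ρ)
    have e2 : V E σ * (V E σ)⁻¹ = 1 := ENNReal.mul_inv_cancel (V_ne_zero hσ) (V_ne_top σ)
    calc (V E σ)⁻¹ = V E ρ * (V E ρ)⁻¹ * (V E σ)⁻¹ := by rw [e1, one_mul]
      _ ≤ ENNReal.ofReal (2 ^ Module.finrank ℝ E) * V E σ * (V E ρ)⁻¹ * (V E σ)⁻¹ := by gcongr
      _ = ENNReal.ofReal (2 ^ Module.finrank ℝ E) * (V E ρ)⁻¹ * (V E σ * (V E σ)⁻¹) := by ring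
      _ = _ := by rw [e2, mul_one]
  have a4 := cap_PL_mono F z R h1
  unfold cap_T
  calc _ ≤ ENNReal.ofReal (max τ ρm) * ENNReal.ofReal (min 1 (ρ / ρm)) * ((ENNReal.ofReal ρ)⁻¹ *
        (ENNReal.ofReal (2 ^ Module.finrank ℝ E) * (V E ρ)⁻¹) * PL F z R ρ) := by gcongr
    _ = _ := by ring

theorem APH_of_NN : ∃ C : ℝ≥0∞, C ≠ ⊤ ∧ ∀ (F : E → ℝ), Measurable F → ∀ (z : E) (h R ρm H : ℝ),
    0 < h → 0 < R → 0 < ρm → 0 ≤ H →
    C * NN F z (2 * R) ρm * ENNReal.ofReal h ≤ ENNReal.ofReal H * V E h → APH F z h R ρm H := by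
  refine ⟨ENNReal.ofReal (2 ^ Module.finrank ℝ E), ENNReal.ofReal_ne_top,
    fun F hF z h R ρm H hh hR hρm hH hN φ h1 h2 τ m hτ hm => ?_⟩
  have hG : Measurable fun y => φ (F y) := h2.continuous.measurable.comp hF
  have hp : (1 : ℝ) ≤ 2 ^ m := one_le_pow₀ (by norm_num)
  refine (cap_core hG (z := z) (ρ := R) (R := 2 * R) m τ hτ (by linarith)).trans ?_
  obtain ⟨l, hl1, hl2⟩ := cap_dyadic (a := 2 * R) hτ (by nlinarith)
  have hml : m < l := by
    have : (2 : ℝ) ^ (m + 1) * τ < 2 ^ (l + 1) * τ := by rw [pow_succ]; linarith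
    have := (pow_lt_pow_iff_right₀ (a := (2 : ℝ)) one_lt_two).1 (lt_of_mul_lt_mul_right this hτ.le)
    omega
  set f : ℕ → ℝ≥0∞ := fun j => ENNReal.ofReal (min 1 (2 * R / 2 ^ j / ρm)) *
    ((ENNReal.ofReal (2 * R / 2 ^ j))⁻¹ * (V E (2 * R / 2 ^ j))⁻¹ *
      PL F z (2 * R) (2 * R / 2 ^ j)) with hf
  have s1 : ∀ i ∈ Finset.range m, ENNReal.ofReal τ * cap_T (fun y => φ (F y)) z (2 * R) (2 ^ i * τ) ≤
      ENNReal.ofReal (max τ ρm) * (ENNReal.ofReal (2 ^ Module.finrank ℝ E) * f (l - i)) := by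
    intro i hi
    have hi' : i ≤ l := by have := Finset.mem_range.1 hi; omega
    have hpi : (1 : ℝ) ≤ 2 ^ i := one_le_pow₀ (by norm_num)
    have e : (2 : ℝ) ^ l = 2 ^ (l - i) * 2 ^ i := by rw [← pow_add, Nat.sub_add_cancel hi']
    have hq : (0 : ℝ) < 2 ^ (l - i) := by positivity
    refine le_trans ?_ (cap_term F z (2 * R) (σ := 2 ^ i * τ) hτ hρm (by nlinarith) ?_ ?_)
    · unfold cap_T PL
      gcongr with v y
      exact cap_pt_le h1 h2 _ _ _
    · rw [le_div_iff₀ hq]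
      rw [e] at hl1
      linarith
    · rw [div_le_iff₀ hq]
      rw [pow_succ, e] at hl2
      linarith
  have s2 : ∑ i ∈ Finset.range m, f (l - i) ≤ NN F z (2 * R) ρm := by
    rw [← Finset.sum_image (f := f) (g := fun i => l - i) (fun i hi j hj hij => by
      have := Finset.mem_range.1 hi
      have := Finset.mem_range.1 hj
      simp only at hij
      omega)]
    exact ENNReal.sum_le_tsum _
  have s3 : ENNReal.ofReal τ * ∑ i ∈ Finset.range m, cap_T (fun y => φ (F y)) z (2 * R) (2 ^ i * τ) ≤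
      ENNReal.ofReal (max τ ρm) * (ENNReal.ofReal (2 ^ Module.finrank ℝ E) * NN F z (2 * R) ρm) := by
    rw [Finset.mul_sum]
    refine (Finset.sum_le_sum s1).trans ?_
    rw [← Finset.mul_sum, ← Finset.mul_sum]
    gcongr
  have hq : 0 ≤ max τ ρm / h := div_nonneg (le_max_of_le_left hτ.le) hh.le
  have e1 : ENNReal.ofReal (max τ ρm) = ENNReal.ofReal (max τ ρm / h) * ENNReal.ofReal h := by
    rw [← ENNReal.ofReal_mul hq, div_mul_cancel₀ _ hh.ne']
  rw [ENNReal.ofReal_mul hq]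
  calc _ = 2 ^ m * V E τ * (ENNReal.ofReal τ *
        ∑ i ∈ Finset.range m, cap_T (fun y => φ (F y)) z (2 * R) (2 ^ i * τ)) := by ring
    _ ≤ 2 ^ m * V E τ * (ENNReal.ofReal (max τ ρm) *
        (ENNReal.ofReal (2 ^ Module.finrank ℝ E) * NN F z (2 * R) ρm)) := by gcongr
    _ = 2 ^ m * V E τ * ENNReal.ofReal (max τ ρm / h) *
        (ENNReal.ofReal (2 ^ Module.finrank ℝ E) * NN F z (2 * R) ρm * ENNReal.ofReal h) := by
        rw [e1]; ring
    _ ≤ 2 ^ m * V E τ * ENNReal.ofReal (max τ ρm / h) * (ENNReal.ofReal H * V E h) := by gcongr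
    _ = _ := by ring

theorem PP_le_NN (F : E → ℝ) (z : E) {R ρm : ℝ} (hρ : 0 < ρm) (hR : ρm ≤ R) :
    PP F z R ≤ ENNReal.ofReal R * V E R * NN F z R ρm := by
  have hR0 : 0 < R := by linarith
  have e1 : ENNReal.ofReal R * (ENNReal.ofReal R)⁻¹ = 1 :=
    ENNReal.mul_inv_cancel (by simpa using hR0) ENNReal.ofReal_ne_top
  have e2 : V E R * (V E R)⁻¹ = 1 := ENNReal.mul_inv_cancel (V_ne_zero hR0) (V_ne_top R)
  refine le_trans ?_ (mul_le_mul_right (ENNReal.le_tsum 0) _)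
  rw [pow_zero, div_one, min_eq_left ((one_le_div hρ).2 hR), ENNReal.ofReal_one, one_mul]
  calc PP F z R = (ENNReal.ofReal R * (ENNReal.ofReal R)⁻¹) * (V E R * (V E R)⁻¹) * PL F z R R := by
        rw [e1, e2, one_mul, one_mul]; rfl
    _ = _ := by ring
    _ ≤ _ := le_rfl

lemma cap_measurable_PL {F : E → ℝ} (hF : Measurable F) (R τ : ℝ) :
    Measurable fun z => PL F z R τ := by
  unfold PL
  refine Measurable.lintegral_prod_right' (f := fun p : E × E =>
    ∫⁻ y in ball p.1 R, pt (F (y - p.2)) (F y) (F (y + p.2))) ?_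
  exact measurable_ball_lintegral (α := E × E)
    (f := fun p y => pt (F (y - p.2)) (F y) (F (y + p.2))) (by fun_prop) measurable_fst R

theorem measurable_NN {F : E → ℝ} (hF : Measurable F) (R ρm : ℝ) :
    Measurable fun z => NN F z R ρm := by
  unfold NN
  exact Measurable.tsum fun i => ((cap_measurable_PL hF R _).const_mul _).const_mul _

lemma cap_intPL {F : E → ℝ} (hF : Measurable F) (R τ : ℝ) :
    ∫⁻ z, PL F z R τ = V E R * ∫⁻ v in ball (0 : E) τ, p2_n F v := by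
  have e : ∀ z v : E, ∫⁻ y in ball z R, pt (F (y - v)) (F y) (F (y + v)) =
      ∫⁻ y in ball (0 : E) R, pt (F (y + z - v)) (F (y + z)) (F (y + z + v)) := by
    intro z v
    rw [setLIntegral_ball_add (fun y => pt (F (y - v)) (F y) (F (y + v))), zero_add]
  unfold PL
  simp only [e]
  rw [lintegral_lintegral_swap (Measurable.lintegral_prod_right'
    (f := fun q : (E × E) × E => pt (F (q.2 + q.1.1 - q.1.2)) (F (q.2 + q.1.1))
      (F (q.2 + q.1.1 + q.1.2))) (by fun_prop)).aemeasurable,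
    ← lintegral_const_mul' _ _ (V_ne_top R)]
  refine lintegral_congr fun v => ?_
  rw [lintegral_lintegral_swap (Measurable.aemeasurable (by unfold Function.uncurry; fun_prop))]
  have e2 : ∀ y : E, ∫⁻ z, pt (F (y + z - v)) (F (y + z)) (F (y + z + v)) = p2_n F v := fun y =>
    lintegral_add_left_eq_self (fun y => pt (F (y - v)) (F y) (F (y + v))) y
  simp only [e2]
  rw [setLIntegral_const, vol_ball, mul_comm]

theorem int_NN {F : E → ℝ} (hF : Measurable F) {R : ℝ} (hR : 0 < R) (ρm : ℝ) :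
    ∫⁻ z, NN F z R ρm =
      V E R * ∑' i : ℕ, ENNReal.ofReal (min 1 (R / 2 ^ i / ρm)) * bb F 1 (R / 2 ^ i) := by
  unfold NN
  rw [lintegral_tsum fun i =>
    (((cap_measurable_PL hF R _).const_mul _).const_mul _).aemeasurable, ← ENNReal.tsum_mul_left]
  refine tsum_congr fun i => ?_
  have hq : 0 < R / 2 ^ i := by positivity
  generalize R / 2 ^ i = q at hq ⊢
  have e2 : V E q * (V E q)⁻¹ = 1 := ENNReal.mul_inv_cancel (V_ne_zero hq) (V_ne_top q)
  rw [lintegral_const_mul _ ((cap_measurable_PL hF R _).const_mul _),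
    lintegral_const_mul _ (cap_measurable_PL hF R _), cap_intPL hF, bb, one_mul, p2_intPP hF,
    ENNReal.inv_pow]
  calc _ = ENNReal.ofReal (min 1 (q / ρm)) * ((ENNReal.ofReal q)⁻¹ * (V E q)⁻¹ *
        (V E R * ∫⁻ v in ball (0 : E) q, p2_n F v)) * (V E q * (V E q)⁻¹) := by rw [e2, mul_one]
    _ = _ := by ring

lemma cap_sum_abs (a : ℕ → ℝ) (m : ℕ) :
    ∑ k ∈ Finset.range (2 ^ m), ENNReal.ofReal |a (k + 1) - a k| =
      2 * ENNReal.ofReal (p1_apr a m) + ENNReal.ofReal |a (2 ^ m) - a 0| := by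
  have h0 := p1_apr_nonneg a m
  rw [← ENNReal.ofReal_sum_of_nonneg fun _ _ => abs_nonneg _, two_mul, ← ENNReal.ofReal_add h0 h0,
    ← ENNReal.ofReal_add (add_nonneg h0 h0) (abs_nonneg _)]
  congr 1
  unfold p1_apr
  ring

lemma cap_osc_pt {G : E → ℝ} (hG : Measurable G) {B U U' : Set E} (c : ℝ)
    (hU : MeasurableSet U) (hU' : MeasurableSet U') (hUR : U ⊆ B) {a τ : ℝ} {m : ℕ}
    (hm : 2 ^ m * τ ≤ a) (hUU : ∀ w ∈ U', ball w a ⊆ U) {s : E} (hs : s ∈ ball (0 : E) τ) :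
    2 ^ m * ∫⁻ w in U', ENNReal.ofReal |G (w + s) - G w| ≤
      2 * (∫⁻ u in B, ENNReal.ofReal (p1_apr (fun k => G (u + (k : ℝ) • s)) m)) +
        2 * ∫⁻ w in U, ENNReal.ofReal |G w - c| := by
  rw [mem_ball_zero_iff] at hs
  have hτ : 0 < τ := lt_of_le_of_lt (norm_nonneg _) hs
  have hp : (0 : ℝ) < 2 ^ m := by positivity
  have hmem : ∀ w ∈ U', ∀ t : ℝ, |t| ≤ 2 ^ m → w + t • s ∈ U := by
    intro w hw t ht
    refine hUU w hw ?_
    rw [mem_ball, dist_eq_norm, add_sub_cancel_left, norm_smul, Real.norm_eq_abs]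
    calc |t| * ‖s‖ ≤ 2 ^ m * ‖s‖ := mul_le_mul_of_nonneg_right ht (norm_nonneg _)
      _ < 2 ^ m * τ := mul_lt_mul_of_pos_left hs hp
      _ ≤ a := hm
  have hS : MeasurableSet (U ∩ {u | u + (2 : ℝ) ^ m • s ∈ U}) :=
    hU.inter (hU.preimage (by fun_prop : Measurable fun u => u + (2 : ℝ) ^ m • s))
  have s1 : 2 ^ m * ∫⁻ w in U', ENNReal.ofReal |G (w + s) - G w| ≤
      ∑ k ∈ Finset.range (2 ^ m), ∫⁻ u in U ∩ {u | u + (2 : ℝ) ^ m • s ∈ U},
        ENNReal.ofReal |G (u + ((k + 1 : ℕ) : ℝ) • s) - G (u + (k : ℝ) • s)| := by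
    refine le_trans (by simp) (Finset.card_nsmul_le_sum _ _
      (∫⁻ w in U', ENNReal.ofReal |G (w + s) - G w|) fun k hk => ?_)
    have hk' : (k : ℝ) ≤ 2 ^ m := by exact_mod_cast (Finset.mem_range.1 hk).le
    have hk0 : (0 : ℝ) ≤ k := Nat.cast_nonneg _
    refine le_trans (le_of_eq (lintegral_congr fun w => ?_)) (setLIntegral_add_le
      (fun u => ENNReal.ofReal |G (u + ((k + 1 : ℕ) : ℝ) • s) - G (u + (k : ℝ) • s)|) hU' hS
      ((-k : ℝ) • s) fun w hw => ⟨hmem w hw _ (by rw [abs_neg, abs_of_nonneg hk0]; exact hk'), ?_⟩)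
    · congr 4
      · push_cast; module
      · module
    · have := hmem w hw (2 ^ m - k) (by rw [abs_of_nonneg (by linarith)]; linarith)
      rwa [show w + ((2 : ℝ) ^ m - k) • s = w + (-k : ℝ) • s + (2 : ℝ) ^ m • s by module] at this
  refine s1.trans ?_
  rw [← lintegral_finsetSum _ fun k _ => by fun_prop]
  have e : ∀ u : E, ∑ k ∈ Finset.range (2 ^ m),
      ENNReal.ofReal |G (u + ((k + 1 : ℕ) : ℝ) • s) - G (u + (k : ℝ) • s)| ≤
      2 * ENNReal.ofReal (p1_apr (fun k => G (u + (k : ℝ) • s)) m) +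
        (ENNReal.ofReal |G u - c| + ENNReal.ofReal |G (u + (2 : ℝ) ^ m • s) - c|) := by
    intro u
    rw [cap_sum_abs (fun k => G (u + (k : ℝ) • s)) m,
      ← ENNReal.ofReal_add (abs_nonneg _) (abs_nonneg _)]
    refine add_le_add le_rfl (ENNReal.ofReal_le_ofReal ?_)
    push_cast
    rw [zero_smul, add_zero]
    have := abs_sub_le (G (u + (2 : ℝ) ^ m • s)) c (G u)
    rw [abs_sub_comm c] at this
    linarith
  refine (lintegral_mono e).trans ?_
  have hm1 : Measurable fun u => ENNReal.ofReal (p1_apr (fun k => G (u + (k : ℝ) • s)) m) :=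
    (p1_meas hG m).comp (f := fun u : E => (s, u)) measurable_prodMk_left
  rw [lintegral_add_left (hm1.const_mul _), lintegral_add_left (by fun_prop),
    lintegral_const_mul _ hm1, two_mul (∫⁻ w in U, ENNReal.ofReal |G w - c|)]
  refine add_le_add (mul_le_mul_right (lintegral_mono_set (inter_subset_left.trans hUR)) _)
    (add_le_add (lintegral_mono_set inter_subset_left) ?_)
  exact setLIntegral_add_le (fun u => ENNReal.ofReal |G u - c|) hS hU _ fun u hu => hu.2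

/-- oscillation of a monotone truncation in a region where it is close to a constant -/
theorem OSC {F : E → ℝ} (hF : Measurable F) {z : E} {h R ρm H : ℝ} (hA : APH F z h R ρm H)
    {φ : ℝ → ℝ} (h1 : Monotone φ) (h2 : LipschitzWith 1 φ) (c : ℝ) {U U' : Set E}
    (hU : MeasurableSet U) (hU' : MeasurableSet U') (hUR : U ⊆ ball z R) {a τ : ℝ} (hτ : 0 < τ)
    (hτa : τ ≤ a) (haR : a ≤ R) (hUU : ∀ w ∈ U', ball w a ⊆ U) :
    ∫⁻ s in ball (0 : E) τ, ∫⁻ w in U', ENNReal.ofReal |φ (F (w + s)) - φ (F w)| ≤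
      (2 * ENNReal.ofReal (max τ ρm / h * H) * V E h +
        ENNReal.ofReal (4 * τ / a) * ∫⁻ w in U, ENNReal.ofReal |φ (F w) - c|) * V E τ := by
  have hG : Measurable fun y => φ (F y) := h2.continuous.measurable.comp hF
  obtain ⟨m, hm1, hm2⟩ := cap_dyadic hτ hτa
  have hA' := hA φ h1 h2 τ m hτ (hm1.trans haR)
  have ha : 0 < a := by linarith
  have hp : (2 : ℝ≥0∞) ^ m ≠ ⊤ := by finiteness
  refine (ENNReal.mul_le_mul_iff_right (by positivity) hp).1 ?_
  rw [← lintegral_const_mul' _ _ hp]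
  refine (setLIntegral_mono' measurableSet_ball fun s hs =>
    cap_osc_pt hG c hU hU' hUR hm1 hUU hs).trans ?_
  have hm3 : Measurable fun s : E => ∫⁻ u in ball z R,
      ENNReal.ofReal (p1_apr (fun k => φ (F (u + (k : ℝ) • s))) m) :=
    Measurable.lintegral_prod_right' (p1_meas hG m)
  rw [lintegral_add_left (hm3.const_mul _), lintegral_const_mul _ hm3, setLIntegral_const, vol_ball]
  have k1 : (2 : ℝ≥0∞) ≤ 2 ^ m * ENNReal.ofReal (4 * τ / a) := by
    rw [← ENNReal.ofReal_ofNat 2, ← ENNReal.ofReal_pow (by norm_num),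
      ← ENNReal.ofReal_mul (by positivity)]
    refine ENNReal.ofReal_le_ofReal ?_
    rw [← mul_div_assoc, le_div_iff₀ ha]
    rw [pow_succ] at hm2
    linarith
  calc _ ≤ 2 * (2 ^ m * ENNReal.ofReal (max τ ρm / h * H) * V E τ * V E h) +
        2 ^ m * ENNReal.ofReal (4 * τ / a) * (∫⁻ w in U, ENNReal.ofReal |φ (F w) - c|) * V E τ := by
        gcongr
    _ = _ := by ring

theorem OM : ∃ C : ℝ, 0 < C ∧ ∀ (F : E → ℝ), Measurable F → ∀ (z : E) (h R ρm H : ℝ),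
    APH F z h R ρm H → ∀ φ : ℝ → ℝ, Monotone φ → LipschitzWith 1 φ → ∀ (c : ℝ) (U U' : Set E)
    (a ρ L : ℝ), MeasurableSet U → MeasurableSet U' → U ⊆ ball z R → 0 < h → 0 ≤ H → 0 ≤ L →
    0 < ρ → 2 * ρ ≤ a → a ≤ R → (∀ w ∈ U', ball w a ⊆ U) →
    ∫⁻ w in U, ENNReal.ofReal |φ (F w) - c| ≤ ENNReal.ofReal L * V E h →
    ∫⁻ w in U', om (fun y => φ (F y)) ρ w ≤
      ENNReal.ofReal (C * (max ρ ρm / h * H + ρ / a * L)) * V E h := by
  refine ⟨2 ^ Module.finrank ℝ E * 8, by positivity,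
    fun F hF z h R ρm H hA φ h1 h2 c U U' a ρ L hU hU' hUR hh hH hL hρ hρa haR hUU hI => ?_⟩
  have hφ : Measurable φ := h2.continuous.measurable
  have ha : 0 < a := by linarith
  have s1 := OSC hF hA h1 h2 c hU hU' hUR (τ := 2 * ρ) (by linarith) hρa haR hUU
  have e2 : V E ρ * (V E ρ)⁻¹ = 1 := ENNReal.mul_inv_cancel (V_ne_zero hρ) (V_ne_top ρ)
  have hq : 0 ≤ max ρ ρm / h * H :=
    mul_nonneg (div_nonneg (le_max_of_le_left hρ.le) hh.le) hH
  have hq' : 0 ≤ ρ / a * L := by positivity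
  have k1 : 2 * ENNReal.ofReal (max (2 * ρ) ρm / h * H) ≤ ENNReal.ofReal (8 * (max ρ ρm / h * H)) := by
    rw [← ENNReal.ofReal_ofNat 2, ← ENNReal.ofReal_mul (by norm_num)]
    refine ENNReal.ofReal_le_ofReal ?_
    have b1 : max (2 * ρ) ρm ≤ 2 * max ρ ρm :=
      max_le (by linarith [le_max_left ρ ρm]) (by linarith [le_max_left ρ ρm, le_max_right ρ ρm])
    have b2 : max (2 * ρ) ρm / h * H ≤ 2 * max ρ ρm / h * H := by gcongr
    have b3 : 2 * max ρ ρm / h * H = 2 * (max ρ ρm / h * H) := by ring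
    linarith
  have k2 : ENNReal.ofReal (4 * (2 * ρ) / a) * ENNReal.ofReal L = ENNReal.ofReal (8 * (ρ / a * L)) := by
    rw [← ENNReal.ofReal_mul (by positivity)]
    congr 1
    ring
  unfold om
  rw [lintegral_const_mul' _ _ (ENNReal.inv_ne_top.2 (V_ne_zero hρ)),
    lintegral_lintegral_swap (Measurable.aemeasurable (by unfold Function.uncurry; fun_prop))]
  refine (mul_le_mul_right s1 _).trans ?_
  rw [V_mul two_pos, mul_assoc (2 ^ Module.finrank ℝ E : ℝ),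
    ENNReal.ofReal_mul (p := 2 ^ Module.finrank ℝ E) (by positivity),
    mul_add (8 : ℝ), ENNReal.ofReal_add (by positivity) (by positivity), ← k2]
  calc _ ≤ (V E ρ)⁻¹ * ((ENNReal.ofReal (8 * (max ρ ρm / h * H)) * V E h +
        ENNReal.ofReal (4 * (2 * ρ) / a) * (ENNReal.ofReal L * V E h)) *
        (ENNReal.ofReal (2 ^ Module.finrank ℝ E) * V E ρ)) := by gcongr
    _ = (V E ρ * (V E ρ)⁻¹) * (ENNReal.ofReal (2 ^ Module.finrank ℝ E) *
        (ENNReal.ofReal (8 * (max ρ ρm / h * H)) +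
          ENNReal.ofReal (4 * (2 * ρ) / a) * ENNReal.ofReal L) * V E h) := by ring
    _ = _ := by rw [e2, one_mul]

/-- an exact step is the sum of two averaged steps -/
lemma cap_two {F : E → ℝ} (hF : Measurable F) {U U₁ U₂ W : Set E} (hU : MeasurableSet U)
    (hU₂ : MeasurableSet U₂) (p : E) (ρ c : ℝ) (h1 : U ⊆ U₁)
    (h2 : ∀ w ∈ U, ∀ s ∈ ball p ρ, w + c • s ∈ U₂) (hW : ball p ρ ⊆ W) :
    V E ρ * ∫⁻ w in U, ENNReal.ofReal (F w - F (w + (2 * c) • p)) ≤
      (∫⁻ s in W, ∫⁻ w in U₁, ENNReal.ofReal (F w - F (w + c • s))) +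
        ∫⁻ s in W, ∫⁻ w in U₂, ENNReal.ofReal (F w - F (w + c • s)) := by
  rw [mul_comm, ← vol_ball p, ← setLIntegral_const]
  refine le_trans (lintegral_mono fun s => lintegral_mono
    (g := fun w => ENNReal.ofReal (F w - F (w + c • s)) +
      ENNReal.ofReal (F (w + c • s) - F (w + c • s + c • ((2 : ℝ) • p - s)))) fun w => ?_) ?_
  · dsimp only
    rw [show w + c • s + c • ((2 : ℝ) • p - s) = w + (2 * c) • p by module]
    refine le_trans (le_of_eq ?_) ENNReal.ofReal_add_le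
    congr 1
    ring
  rw [p1_add _ _ (by fun_prop)]
  refine add_le_add ((lintegral_mono fun s => lintegral_mono_set h1).trans
    (lintegral_mono_set hW)) ?_
  refine le_trans (setLIntegral_mono' measurableSet_ball fun s hs => setLIntegral_add_le
    (fun w => ENNReal.ofReal (F w - F (w + c • ((2 : ℝ) • p - s)))) hU hU₂ _
    fun w hw => h2 w hw s hs) (le_trans (le_of_eq ?_) (lintegral_mono_set hW))
  rw [← lintegral_indicator measurableSet_ball, ← lintegral_indicator measurableSet_ball,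
    ← lintegral_sub_left_eq_self ((ball p ρ).indicator
      fun s => ∫⁻ w in U₂, ENNReal.ofReal (F w - F (w + c • s))) ((2 : ℝ) • p)]
  refine lintegral_congr fun s => ?_
  have k : (2 : ℝ) • p - s ∈ ball p ρ ↔ s ∈ ball p ρ := by
    rw [mem_ball, mem_ball, dist_eq_norm, dist_eq_norm, ← norm_neg,
      show -((2 : ℝ) • p - s - p) = s - p by module]
  by_cases hs : s ∈ ball p ρ
  · rw [indicator_of_mem hs, indicator_of_mem (k.2 hs)]
  · rw [indicator_of_notMem hs, indicator_of_notMem (mt k.1 hs)]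

end Vale.Agent.P137
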