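import Vale.Agent.P137.CAP

namespace Vale.Agent.P137

open MeasureTheory Metric Set Filter Topology
open scoped ENNReal RealInnerProductSpace

variable {E : Type*} [NormedAddCommGroup E] [InnerProductSpace ℝ E] [FiniteDimensional ℝ E]
  [MeasurableSpace E] [BorelSpace E]

lemma cneg_sum (a : ℕ → ℝ) (m : ℕ) :
    ∑ k ∈ Finset.range (2 ^ m), ENNReal.ofReal (a k - a (k + 1)) =
      ENNReal.ofReal (p1_apr a m) + ENNReal.ofReal (a 0 - a (2 ^ m)) := by
  have mz : ∀ x : ℝ, ENNReal.ofReal x = ENNReal.ofReal ((|x| + x) / 2) := by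
    intro x
    rcases le_total 0 x with k | k
    · rw [abs_of_nonneg k, add_self_div_two]
    · rw [abs_of_nonpos k, neg_add_cancel, zero_div, ENNReal.ofReal_zero,
        ENNReal.ofReal_of_nonpos k]
  have nn : ∀ x : ℝ, 0 ≤ (|x| + x) / 2 := fun x => by linarith [neg_abs_le x]
  rw [mz (a 0 - a (2 ^ m)), Finset.sum_congr rfl fun k _ => mz (a k - a (k + 1)),
    ← ENNReal.ofReal_sum_of_nonneg fun k _ => nn _,
    ← ENNReal.ofReal_add (p1_apr_nonneg a m) (nn _)]
  congr 1
  unfold p1_apr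
  rw [← Finset.sum_div, Finset.sum_add_distrib, Finset.sum_range_sub' a (2 ^ m)]
  simp only [abs_sub_comm (a _) (a (_ + 1)), abs_sub_comm (a 0)]
  ring

lemma cneg_mid {G : E → ℝ} (hG : Measurable G) {t : ℝ} (ht : ∀ y, t ≤ G y) {P U : Set E}
    (hP : MeasurableSet P) (hU : MeasurableSet U) {n n' m : ℕ} (hm : n + n' ≤ 2 ^ m) {s : E}
    (hs : ∀ w ∈ U, ∀ k : ℕ, n ≤ k → k < n + n' → w - (k : ℝ) • s ∈ P) :
    n' * ∫⁻ w in U, ENNReal.ofReal (G w - G (w + s)) ≤
      (∫⁻ u in P, ENNReal.ofReal (p1_apr (fun k => G (u + (k : ℝ) • s)) m)) +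
        ∫⁻ u in P, ENNReal.ofReal (G u - t) := by
  have s1 : n' * ∫⁻ w in U, ENNReal.ofReal (G w - G (w + s)) ≤
      ∑ k ∈ Finset.Ico n (n + n'), ∫⁻ u in P,
        ENNReal.ofReal (G (u + (k : ℝ) • s) - G (u + ((k + 1 : ℕ) : ℝ) • s)) := by
    refine le_trans (by simp) (Finset.card_nsmul_le_sum _ _
      (∫⁻ w in U, ENNReal.ofReal (G w - G (w + s))) fun k hk => ?_)
    rw [Finset.mem_Ico] at hk
    refine le_trans (le_of_eq (lintegral_congr fun w => ?_)) (setLIntegral_add_le
      (fun u => ENNReal.ofReal (G (u + (k : ℝ) • s) - G (u + ((k + 1 : ℕ) : ℝ) • s))) hU hP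
      (-((k : ℝ) • s)) fun w hw => ?_)
    · congr 3
      · module
      · push_cast; module
    · rw [← sub_eq_add_neg]
      exact hs w hw k hk.1 hk.2
  have s2 : Finset.Ico n (n + n') ⊆ Finset.range (2 ^ m) := fun k hk => by
    rw [Finset.mem_Ico] at hk
    rw [Finset.mem_range]
    omega
  refine s1.trans ((Finset.sum_le_sum_of_subset s2).trans ?_)
  have hm1 : Measurable fun u => ENNReal.ofReal (p1_apr (fun k => G (u + (k : ℝ) • s)) m) :=
    (p1_meas hG m).comp (f := fun u : E => (s, u)) measurable_prodMk_left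
  rw [← lintegral_finsetSum _ fun k _ => by fun_prop, ← lintegral_add_left hm1]
  refine lintegral_mono fun u => ?_
  dsimp only
  rw [cneg_sum (fun k => G (u + (k : ℝ) • s)) m]
  refine add_le_add le_rfl (ENNReal.ofReal_le_ofReal ?_)
  have := ht (u + ((2 ^ m : ℕ) : ℝ) • s)
  rw [Nat.cast_zero, zero_smul, add_zero]
  linarith

lemma cneg_num {D h l : ℝ} (hD : 1 ≤ D) (hl : 0 < l) (hlh : l ≤ h) :
    ∃ n n' m : ℕ, n + n' ≤ 2 ^ m ∧ h ≤ n' * l ∧ 2 ^ m * l ≤ (4 * D + 6) * h ∧
      ∀ k : ℕ, n ≤ k → k < n + n' → 2 * D * h ≤ k * l ∧ k * l ≤ (2 * D + 2) * h := by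
  have hh : 0 < h := by linarith
  have a0 : 0 ≤ 2 * D * h / l := by positivity
  have b0 : 0 < h / l := by positivity
  have a1 := (div_le_iff₀ hl).1 (Nat.le_ceil (2 * D * h / l))
  have b1 := (div_le_iff₀ hl).1 (Nat.le_ceil (h / l))
  have a2 : (⌈2 * D * h / l⌉₊ : ℝ) * l ≤ 2 * D * h + l := by
    calc _ ≤ (2 * D * h / l + 1) * l := by gcongr; exact (Nat.ceil_lt_add_one a0).le
      _ = _ := by field_simp
  have b2 : (⌈h / l⌉₊ : ℝ) * l ≤ h + l := by
    calc _ ≤ (h / l + 1) * l := by gcongr; exact (Nat.ceil_lt_add_one b0.le).le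
      _ = _ := by field_simp
  have b3 : 1 ≤ ⌈h / l⌉₊ := Nat.ceil_pos.2 b0
  generalize ⌈2 * D * h / l⌉₊ = n at *
  generalize ⌈h / l⌉₊ = n' at *
  obtain ⟨m, hm1, hm2⟩ := cap_dyadic (a := ((n + n' : ℕ) : ℝ)) one_pos
    (by exact_mod_cast (by omega : 1 ≤ n + n'))
  rw [mul_one] at hm1 hm2
  refine ⟨n, n', m + 1, by exact_mod_cast hm2.le, b1, ?_, fun k hk1 hk2 => ⟨?_, ?_⟩⟩
  · push_cast at hm1
    have : (2 : ℝ) ^ m * l ≤ (n + n') * l := by gcongr
    rw [pow_succ]
    nlinarith
  · have : (n : ℝ) * l ≤ k * l := by gcongr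
    linarith
  · have c1 : (k : ℝ) + 1 ≤ n + n' := by exact_mod_cast hk2
    have : ((k : ℝ) + 1) * l ≤ (n + n') * l := by gcongr
    nlinarith

lemma cneg_split {tl th : ℝ} (h : tl ≤ th) (a b : ℝ) :
    ENNReal.ofReal (a - b) ≤ ENNReal.ofReal (max tl (min a th) - max tl (min b th)) +
      (ENNReal.ofReal |max (b - th) 0 - max (a - th) 0| +
        ENNReal.ofReal |min (b - tl) 0 - min (a - tl) 0|) := by
  have e : ∀ x : ℝ, x = max tl (min x th) + max (x - th) 0 + min (x - tl) 0 := by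
    intro x
    rcases le_total x tl with k | k
    · rw [min_eq_left (k.trans h), max_eq_left k, max_eq_right (by linarith),
        min_eq_left (by linarith)]
      ring
    · rcases le_total x th with k' | k'
      · rw [min_eq_left k', max_eq_right k, max_eq_right (by linarith), min_eq_right (by linarith)]
        ring
      · rw [min_eq_right k', max_eq_right h, max_eq_left (by linarith), min_eq_right (by linarith)]
        ring
  rw [← ENNReal.ofReal_add (abs_nonneg _) (abs_nonneg _)]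
  refine le_trans (ENNReal.ofReal_le_ofReal ?_) ENNReal.ofReal_add_le
  have ea := e a
  have eb := e b
  have k1 := neg_le_abs (max (b - th) 0 - max (a - th) 0)
  have k2 := neg_le_abs (min (b - tl) 0 - min (a - tl) 0)
  linarith

lemma cneg_lip_sub (c : ℝ) : LipschitzWith 1 fun t : ℝ => t - c :=
  LipschitzWith.of_dist_le_mul fun a b => by simp

lemma cneg_avg {D : ℝ} (hD : 1 ≤ D) {F : E → ℝ} (hF : Measurable F) {z m ω : E} {h ρm H l : ℝ}
    (hH : 0 ≤ H) (hω : ‖ω‖ ≤ 2) (hmz : dist m z ≤ h) (hA : APH F z h ((8 * D + 40) * h) ρm H)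
    (hO : ORp F m h ω D (ENNReal.ofReal H * V E h ^ 2)) (hl : 0 < l) (hlh : l ≤ h) :
    ∫⁻ s in ball ((l / 2) • ω) (1 / (4 * D) * l), ∫⁻ w in ball m (6 * h),
      ENNReal.ofReal (F w - F (w + s)) ≤
      (2 * ENNReal.ofReal (4 * D + 6) + 17) * ENNReal.ofReal (max l ρm / h * H) * V E h *
        V E (2 * l) := by
  have hh : 0 < h := by linarith
  obtain ⟨tl, th, htt, o1, o2, o3⟩ := hO
  have canc : ∀ Y : ℝ≥0∞, Y * V E h ≤ ENNReal.ofReal H * V E h ^ 2 →
      Y ≤ ENNReal.ofReal H * V E h := fun Y hY => by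
    rw [pow_two, ← mul_assoc] at hY
    exact (ENNReal.mul_le_mul_iff_left (V_ne_zero hh) (V_ne_top h)).1 hY
  replace o1 := canc _ o1
  replace o2 := canc _ o2
  replace o3 := canc _ o3
  have hκ : 1 / (4 * D) * l ≤ l := by
    have : 1 / (4 * D) ≤ 1 := by rw [div_le_one (by linarith)]; linarith
    nlinarith
  have hW : ball ((l / 2) • ω) (1 / (4 * D) * l) ⊆ ball 0 (2 * l) := by
    refine ball_subset_ball' ?_
    rw [dist_zero_right, norm_smul, Real.norm_of_nonneg (by linarith)]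
    nlinarith
  have hq : 0 ≤ max l ρm / h * H := mul_nonneg (div_nonneg (le_max_of_le_left hl.le) hh.le) hH
  have q1 : ENNReal.ofReal (max (2 * l) ρm / h * H) ≤ 2 * ENNReal.ofReal (max l ρm / h * H) := by
    rw [← ENNReal.ofReal_ofNat 2, ← ENNReal.ofReal_mul (by norm_num)]
    refine ENNReal.ofReal_le_ofReal ?_
    have b1 : max (2 * l) ρm ≤ 2 * max l ρm :=
      max_le (by linarith [le_max_left l ρm]) (by linarith [le_max_left l ρm, le_max_right l ρm])
    calc _ ≤ 2 * max l ρm / h * H := by gcongr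
      _ = _ := by ring
  have q2 : ENNReal.ofReal (l / h) * ENNReal.ofReal H ≤ ENNReal.ofReal (max l ρm / h * H) := by
    rw [← ENNReal.ofReal_mul (by positivity)]
    refine ENNReal.ofReal_le_ofReal ?_
    have := le_max_left l ρm
    gcongr
  have q3 : ENNReal.ofReal (4 * (2 * l) / (2 * h)) = 4 * ENNReal.ofReal (l / h) := by
    rw [← ENNReal.ofReal_ofNat 4, ← ENNReal.ofReal_mul (by norm_num)]
    congr 1
    field_simp
  set Q := ENNReal.ofReal (max l ρm / h * H) with hQ
  have osc : ∀ φ : ℝ → ℝ, Monotone φ → LipschitzWith 1 φ →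
      ∫⁻ w in ball m (8 * h), ENNReal.ofReal |φ (F w) - 0| ≤ ENNReal.ofReal H * V E h →
      ∫⁻ s in ball ((l / 2) • ω) (1 / (4 * D) * l), ∫⁻ w in ball m (6 * h),
        ENNReal.ofReal |φ (F (w + s)) - φ (F w)| ≤ 8 * Q * V E h * V E (2 * l) := by
    intro φ h1 h2 h3
    refine (lintegral_mono_set hW).trans ((OSC hF hA h1 h2 0 (U := ball m (8 * h))
      measurableSet_ball measurableSet_ball (ball_subset_ball' (by nlinarith)) (a := 2 * h)
      (τ := 2 * l) (by linarith) (by linarith) (by nlinarith) fun w hw => ball_subset_ball' ?_).trans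
      ?_)
    · rw [mem_ball] at hw
      linarith
    · rw [q3]
      calc _ ≤ (2 * (2 * Q) * V E h + 4 * ENNReal.ofReal (l / h) * (ENNReal.ofReal H * V E h)) *
            V E (2 * l) := by gcongr
        _ = (4 * Q + 4 * (ENNReal.ofReal (l / h) * ENNReal.ofReal H)) * V E h * V E (2 * l) := by
            ring
        _ ≤ (4 * Q + 4 * Q) * V E h * V E (2 * l) := by gcongr
        _ = _ := by ring
  have s1 := osc (fun t => max (t - th) 0) (fun a b hab => max_le_max (by linarith) le_rfl)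
    ((cneg_lip_sub th).max_const 0) (le_trans (le_of_eq (lintegral_congr fun w => by
      rw [sub_zero, abs_of_nonneg (le_max_right _ _), ENNReal.ofReal_max, ENNReal.ofReal_zero,
        max_eq_left zero_le])) o1)
  have s2 := osc (fun t => min (t - tl) 0) (fun a b hab => min_le_min (by linarith) le_rfl)
    ((cneg_lip_sub tl).min_const 0) (le_trans (le_of_eq (lintegral_congr fun w => by
      rw [sub_zero, abs_of_nonpos (min_le_right _ _), ← max_neg_neg, neg_zero, neg_sub,
        ENNReal.ofReal_max, ENNReal.ofReal_zero, max_eq_left zero_le])) o2)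
  obtain ⟨n, n', k0, n1, n2, n3, n4⟩ := cneg_num hD hl hlh
  have φ1 : Monotone fun t : ℝ => max tl (min t th) := fun a b hab =>
    max_le_max le_rfl (min_le_min hab le_rfl)
  have φ2 : LipschitzWith 1 fun t : ℝ => max tl (min t th) :=
    (LipschitzWith.id.min_const th).const_max tl
  have hG : Measurable fun y => max tl (min (F y) th) := by fun_prop
  have hA' := hA _ φ1 φ2 (2 * l) k0 (by linarith) (by nlinarith)
  have hP : ball (m - (D * h) • ω) (20 * h) ⊆ ball z ((8 * D + 40) * h) := by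
    refine ball_subset_ball' ?_
    have k1 := dist_triangle (m - (D * h) • ω) m z
    rw [dist_eq_norm (m - (D * h) • ω) m, sub_sub_cancel_left, norm_neg, norm_smul,
      Real.norm_of_nonneg (by positivity)] at k1
    have k2 : D * h * ‖ω‖ ≤ D * h * 2 := by gcongr
    nlinarith
  have s3 : n' * ∫⁻ s in ball ((l / 2) • ω) (1 / (4 * D) * l), ∫⁻ w in ball m (6 * h),
      ENNReal.ofReal (max tl (min (F w) th) - max tl (min (F (w + s)) th)) ≤
      2 ^ k0 * (2 * Q) * V E (2 * l) * V E h + ENNReal.ofReal H * V E h * V E (2 * l) := by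
    rw [← lintegral_const_mul' _ _ (ENNReal.natCast_ne_top n')]
    refine (setLIntegral_mono' measurableSet_ball fun s hs => cneg_mid hG (t := tl)
      (fun y => le_max_left _ _) (P := ball (m - (D * h) • ω) (20 * h)) measurableSet_ball
      measurableSet_ball n1 fun w hw k hk1 hk2 => ?_).trans ?_
    · obtain ⟨k1, k2⟩ := n4 k hk1 hk2
      rw [mem_ball, dist_eq_norm] at hs hw ⊢
      have g1 : ‖(k : ℝ) • (s - (l / 2) • ω)‖ ≤ h := by
        rw [norm_smul, Real.norm_of_nonneg (Nat.cast_nonneg _)]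
        calc _ ≤ k * (1 / (4 * D) * l) := by gcongr
          _ = k * l / (4 * D) := by ring
          _ ≤ h := by rw [div_le_iff₀ (by linarith)]; nlinarith
      have g2 : ‖(k * l / 2 - D * h) • ω‖ ≤ h * 2 := by
        rw [norm_smul, Real.norm_of_nonneg (by linarith)]
        exact mul_le_mul (by linarith) hω (norm_nonneg _) hh.le
      rw [show w - (k : ℝ) • s - (m - (D * h) • ω) =
        (w - m) - (k : ℝ) • (s - (l / 2) • ω) - (k * l / 2 - D * h) • ω by module]
      linarith [norm_sub_le ((w - m) - (k : ℝ) • (s - (l / 2) • ω)) ((k * l / 2 - D * h) • ω),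
        norm_sub_le (w - m) ((k : ℝ) • (s - (l / 2) • ω))]
    · rw [lintegral_add_right _ measurable_const, setLIntegral_const]
      refine add_le_add ((lintegral_mono_set hW).trans ((lintegral_mono fun s =>
        lintegral_mono_set hP).trans (hA'.trans (by gcongr)))) ?_
      refine mul_le_mul' (le_trans (le_of_eq (lintegral_congr fun u => ?_)) o3) (measure_mono hW)
      rcases le_total tl (min (F u) th) with k | k
      · rw [max_eq_right k]
      · rw [max_eq_left k, sub_self, ENNReal.ofReal_zero, ENNReal.ofReal_of_nonpos (by linarith)]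
  have r1 : (1 : ℝ≥0∞) ≤ ENNReal.ofReal (l / h) * n' := by
    rw [← ENNReal.ofReal_natCast, ← ENNReal.ofReal_mul (by positivity), ENNReal.one_le_ofReal,
      div_mul_eq_mul_div, one_le_div hh]
    linarith
  have r2 : ENNReal.ofReal (l / h) * 2 ^ k0 ≤ ENNReal.ofReal (4 * D + 6) := by
    rw [← ENNReal.ofReal_ofNat 2, ← ENNReal.ofReal_pow (by norm_num),
      ← ENNReal.ofReal_mul (by positivity)]
    refine ENNReal.ofReal_le_ofReal ?_
    rw [div_mul_eq_mul_div, div_le_iff₀ hh]
    linarith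
  refine le_trans (lintegral_mono fun s => lintegral_mono fun w =>
    cneg_split htt (F w) (F (w + s))) ?_
  rw [p1_add _ _ (by fun_prop), p1_add _ _ (by fun_prop)]
  generalize (∫⁻ s in ball ((l / 2) • ω) (1 / (4 * D) * l), ∫⁻ w in ball m (6 * h),
      ENNReal.ofReal (max tl (min (F w) th) - max tl (min (F (w + s)) th))) = J at s3 ⊢
  have s4 : J ≤ (2 * ENNReal.ofReal (4 * D + 6) + 1) * Q * V E h * V E (2 * l) := by
    calc J = 1 * J := (one_mul _).symm
      _ ≤ ENNReal.ofReal (l / h) * n' * J := by gcongr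
      _ = ENNReal.ofReal (l / h) * (n' * J) := by ring
      _ ≤ ENNReal.ofReal (l / h) * (2 ^ k0 * (2 * Q) * V E (2 * l) * V E h +
          ENNReal.ofReal H * V E h * V E (2 * l)) := by gcongr
      _ = (2 * (ENNReal.ofReal (l / h) * 2 ^ k0) * Q +
          ENNReal.ofReal (l / h) * ENNReal.ofReal H) * V E h * V E (2 * l) := by ring
      _ ≤ (2 * ENNReal.ofReal (4 * D + 6) * Q + Q) * V E h * V E (2 * l) := by gcongr
      _ = _ := by ring
  refine (add_le_add s4 (add_le_add s1 s2)).trans (le_of_eq ?_)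
  ring

/-- orientation and few patterns give small negative increments at all scales -/
theorem NEG (D : ℝ) (hD : 1 ≤ D) : ∃ C : ℝ, 1 ≤ C ∧ ∀ (F : E → ℝ), Measurable F →
    ∀ (z m ω : E) (h ρm H : ℝ), 0 < h → 0 ≤ H → ‖ω‖ ≤ 2 → dist m z ≤ h →
    APH F z h ((8 * D + 40) * h) ρm H → ORp F m h ω D (ENNReal.ofReal H * V E h ^ 2) →
    NegP F m h ω (1 / (4 * D)) ρm (C * H) := by
  obtain ⟨C1, c1, -, hC1⟩ := exists_V_le (E := E) (16 * D)
  obtain ⟨K, hK, hK'⟩ : ∃ K : ℝ≥0∞, K = 2 * (2 * ENNReal.ofReal (4 * D + 6) + 17) * C1 ∧ K ≠ ⊤ :=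
    ⟨_, rfl, by finiteness⟩
  refine ⟨max 1 K.toReal, le_max_left _ _,
    fun F hF z m ω h ρm H hh hH hω hmz hA hO v l hl hlh hv => ?_⟩
  have s1 := cneg_avg hD hF hH hω hmz hA hO hl hlh
  have hκ : 1 / (4 * D) * l ≤ l := by
    have : 1 / (4 * D) ≤ 1 := by rw [div_le_one (by linarith)]; linarith
    nlinarith
  have hρ : 0 < 1 / (4 * D) * l / 2 := by positivity
  have hW : ball ((1 / 2 : ℝ) • v) (1 / (4 * D) * l / 2) ⊆
      ball ((l / 2) • ω) (1 / (4 * D) * l) := by
    refine ball_subset_ball' ?_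
    rw [dist_eq_norm, show (1 / 2 : ℝ) • v - (l / 2) • ω = (1 / 2 : ℝ) • (v - l • ω) by module,
      norm_smul, Real.norm_of_nonneg (by norm_num)]
    linarith
  have s2 := cap_two hF (U := ball m (4 * h) ∩ {w | w + v ∈ ball m (4 * h)})
    (U₁ := ball m (6 * h)) (U₂ := ball m (6 * h))
    (measurableSet_ball.inter (measurableSet_ball.preimage
      (by fun_prop : Measurable fun w => w + v))) measurableSet_ball ((1 / 2 : ℝ) • v)
    (1 / (4 * D) * l / 2) 1 (inter_subset_left.trans (ball_subset_ball (by linarith)))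
    (fun w hw s hs => by
      have k1 := hW hs
      have k2 := hw.1
      rw [mem_ball, dist_eq_norm] at k1 k2 ⊢
      have k3 : ‖(l / 2) • ω‖ ≤ l := by
        rw [norm_smul, Real.norm_of_nonneg (by linarith)]
        nlinarith
      rw [show w + (1 : ℝ) • s - m = (w - m) + (s - (l / 2) • ω) + (l / 2) • ω by module]
      linarith [norm_add_le ((w - m) + (s - (l / 2) • ω)) ((l / 2) • ω),
        norm_add_le (w - m) (s - (l / 2) • ω)]) hW
  simp only [one_smul, show (2 * 1 : ℝ) • (1 / 2 : ℝ) • v = v by module] at s2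
  have v1 := hC1 (1 / (4 * D) * l / 2) (2 * l) hρ.le (le_of_eq (by field_simp; ring))
  have hq : 0 ≤ max l ρm / h * H := mul_nonneg (div_nonneg (le_max_of_le_left hl.le) hh.le) hH
  have e1 : ENNReal.ofReal (max l ρm / h * (max 1 K.toReal * H)) =
      ENNReal.ofReal (max 1 K.toReal) * ENNReal.ofReal (max l ρm / h * H) := by
    rw [← ENNReal.ofReal_mul (le_max_of_le_left zero_le_one)]
    congr 1
    ring
  have e2 : K ≤ ENNReal.ofReal (max 1 K.toReal) := by
    conv_lhs => rw [← ENNReal.ofReal_toReal hK']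
    exact ENNReal.ofReal_le_ofReal (le_max_right _ _)
  rw [e1]
  refine (ENNReal.mul_le_mul_iff_right (V_ne_zero (E := E) hρ) (V_ne_top _)).1
    (s2.trans ((add_le_add s1 s1).trans ?_))
  calc _ = 2 * (2 * ENNReal.ofReal (4 * D + 6) + 17) * V E (2 * l) *
        ENNReal.ofReal (max l ρm / h * H) * V E h := by ring
    _ ≤ 2 * (2 * ENNReal.ofReal (4 * D + 6) + 17) * (C1 * V E (1 / (4 * D) * l / 2)) *
        ENNReal.ofReal (max l ρm / h * H) * V E h := by gcongr
    _ = V E (1 / (4 * D) * l / 2) * (K * ENNReal.ofReal (max l ρm / h * H) * V E h) := by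
        rw [hK]; ring
    _ ≤ _ := by gcongr

end Vale.Agent.P137
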