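import Vale.Agent.P137.Defs

namespace Vale.Agent.P137

open MeasureTheory Metric Set Filter Topology
open scoped ENNReal RealInnerProductSpace

variable {E : Type*} [NormedAddCommGroup E] [InnerProductSpace ℝ E] [FiniteDimensional ℝ E]
  [MeasurableSpace E] [BorelSpace E]

theorem measurableSet_Inj {g : E → ℝ} (hg : Continuous g) (ω : E) (σ : ℝ) :
    MeasurableSet (Inj g ω σ) := by
  have h1 : MeasurableSet {x : E | DifferentiableAt ℝ g x} :=
    measurableSet_of_differentiableAt ℝ g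
  have h2 : MeasurableSet {x : E | 0 < fderiv ℝ g x ω} :=
    measurableSet_lt measurable_const (measurable_fderiv_apply_const ℝ g ω)
  have h3 : IsClosed (⋂ ρ ∈ Icc (0 : ℝ) σ, {x : E | g x ≤ g (x + ρ • ω)}) :=
    isClosed_biInter fun ρ _ => isClosed_le hg (hg.comp (by fun_prop))
  have : Inj g ω σ = {x : E | DifferentiableAt ℝ g x} ∩ ({x : E | 0 < fderiv ℝ g x ω} ∩
      ⋂ ρ ∈ Icc (0 : ℝ) σ, {x : E | g x ≤ g (x + ρ • ω)}) := by
    ext x
    simp only [Inj, mem_setOf_eq, mem_inter_iff, mem_iInter]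
  rw [this]
  exact h1.inter (h2.inter h3.measurableSet)

omit [FiniteDimensional ℝ E] [MeasurableSpace E] [BorelSpace E] in
lemma cyl_hasDerivAt {g : E → ℝ} {y ω : E} {t : ℝ} (h : DifferentiableAt ℝ g (y + t • ω)) :
    HasDerivAt (fun s : ℝ => g (y + s • ω)) (fderiv ℝ g (y + t • ω) ω) t := by
  have h1 : HasDerivAt (fun s : ℝ => y + s • ω) ω t := by
    simpa using ((hasDerivAt_id t).smul_const ω).const_add y
  exact h.hasFDerivAt.comp_hasDerivAt t h1

lemma cyl_exists_lt {γ : ℝ → ℝ} {c t a : ℝ} (h : HasDerivAt γ c t) (hc : 0 < c) (ha : a < t) :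
    ∃ s, a < s ∧ s < t ∧ γ s < γ t := by
  have h1 := hasDerivAt_iff_tendsto_slope.mp h
  have h2 : ∀ᶠ s in 𝓝[≠] t, 0 < slope γ t s := h1.eventually (lt_mem_nhds hc)
  have h3 : ∀ᶠ s in 𝓝[<] t, 0 < slope γ t s := h2.filter_mono (nhdsLT_le_nhdsNE t)
  have h4 : ∀ᶠ s in 𝓝[<] t, s ∈ Ioo a t := Ioo_mem_nhdsLT ha
  obtain ⟨s, hs, hs'⟩ := (h3.and h4).exists
  refine ⟨s, hs'.1, hs'.2, ?_⟩
  rw [slope_def_field] at hs
  have hneg : s - t < 0 := by linarith [hs'.2]
  have := (div_pos_iff.mp hs)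
  rcases this with ⟨_, h6⟩ | ⟨h5, _⟩
  · linarith
  · linarith

omit [FiniteDimensional ℝ E] [MeasurableSpace E] [BorelSpace E] in
lemma cyl_injOn (g : E → ℝ) (y ω : E) (σ : ℝ) :
    InjOn (fun s : ℝ => g (y + s • ω)) {t | t ∈ Icc (0 : ℝ) σ ∧ y + t • ω ∈ Inj g ω σ} := by
  have key : ∀ t t' : ℝ, t ∈ Icc (0 : ℝ) σ → y + t • ω ∈ Inj g ω σ → t' ∈ Icc (0 : ℝ) σ →
      y + t' • ω ∈ Inj g ω σ → t < t' → g (y + t • ω) ≠ g (y + t' • ω) := by
    intro t t' ht hI ht' hI' hlt heq
    obtain ⟨s, hs1, hs2, hs3⟩ := cyl_exists_lt (cyl_hasDerivAt hI'.1) hI'.2.1 hlt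
    have h1 := hI.2.2 (s - t) ⟨by linarith, by linarith [ht.1, ht'.2]⟩
    have h2 : y + t • ω + (s - t) • ω = y + s • ω := by
      rw [add_assoc, ← add_smul]; congr 2; ring
    rw [h2] at h1
    linarith
  intro t ht t' ht' heq
  rcases lt_trichotomy t t' with h | h | h
  · exact absurd heq (key t t' ht.1 ht.2 ht'.1 ht'.2 h)
  · exact h
  · exact absurd heq.symm (key t' t ht'.1 ht'.2 ht.1 ht.2 h)

/-- one dimensional bound along a line -/
lemma cyl_line {g : E → ℝ} (hg : Continuous g) (y ω : E) (σ : ℝ) (u : ℝ → ℝ≥0∞) :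
    ∫⁻ t in Icc (0 : ℝ) σ, (Inj g ω σ).indicator
      (fun x => ENNReal.ofReal (fderiv ℝ g x ω) * u (g x)) (y + t • ω) ≤ ∫⁻ t, u t := by
  set T : Set ℝ := {t | t ∈ Icc (0 : ℝ) σ ∧ y + t • ω ∈ Inj g ω σ} with hT
  have hm : MeasurableSet {t : ℝ | y + t • ω ∈ Inj g ω σ} :=
    (measurableSet_Inj hg ω σ).preimage (f := fun t : ℝ => y + t • ω) (by fun_prop)
  have hTm : MeasurableSet T := measurableSet_Icc.inter hm
  have h1 := lintegral_image_eq_lintegral_abs_deriv_mul (f := fun s : ℝ => g (y + s • ω))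
    (f' := fun t => fderiv ℝ g (y + t • ω) ω) hTm
    (fun t ht => (cyl_hasDerivAt ht.2.1).hasDerivWithinAt) (cyl_injOn g y ω σ) u
  calc ∫⁻ t in Icc (0 : ℝ) σ, (Inj g ω σ).indicator
        (fun x => ENNReal.ofReal (fderiv ℝ g x ω) * u (g x)) (y + t • ω)
      = ∫⁻ t in T, ENNReal.ofReal |fderiv ℝ g (y + t • ω) ω| * u (g (y + t • ω)) := by
        rw [← lintegral_indicator measurableSet_Icc, ← lintegral_indicator hTm]
        refine lintegral_congr fun t => ?_
        by_cases h : t ∈ Icc (0 : ℝ) σ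
        · rw [indicator_of_mem h]
          by_cases h' : y + t • ω ∈ Inj g ω σ
          · rw [indicator_of_mem h', indicator_of_mem (show t ∈ T from ⟨h, h'⟩),
              abs_of_pos h'.2.1]
          · rw [indicator_of_notMem h', indicator_of_notMem (fun hh : t ∈ T => h' hh.2)]
        · rw [indicator_of_notMem h, indicator_of_notMem (fun hh : t ∈ T => h hh.1)]
    _ = ∫⁻ x in (fun s : ℝ => g (y + s • ω)) '' T, u x := h1.symm
    _ ≤ ∫⁻ t, u t := setLIntegral_le_lintegral _ _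

/-- averaging along lines -/
lemma cyl_avg {φ : E → ℝ≥0∞} (hφ : Measurable φ) (ω : E) (σ : ℝ) :
    ENNReal.ofReal σ * ∫⁻ x, φ x = ∫⁻ y, ∫⁻ t in Icc (0 : ℝ) σ, φ (y + t • ω) := by
  rw [lintegral_lintegral_swap (by fun_prop)]
  have : ∀ t : ℝ, ∫⁻ y, φ (y + t • ω) = ∫⁻ x, φ x := fun t =>
    lintegral_add_right_eq_self φ (t • ω)
  simp only [this, lintegral_const, Measure.restrict_apply MeasurableSet.univ, univ_inter,
    Real.volume_Icc, sub_zero]
  rw [mul_comm]

/-- bound for a fixed centre -/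
lemma cyl_fix {g : E → ℝ} (hg : Continuous g) (ω z : E) {σ R : ℝ}
    {u : ℝ → ℝ≥0∞} (hu : Measurable u) :
    ENNReal.ofReal σ * ∫⁻ x, (Inj g ω σ ∩ ball z R).indicator
      (fun x => ENNReal.ofReal (fderiv ℝ g x ω) * u (g x)) x ≤
      V E (R + σ * ‖ω‖) * ∫⁻ t, u t := by
  have hm : Measurable fun x => ENNReal.ofReal (fderiv ℝ g x ω) * u (g x) :=
    (measurable_fderiv_apply_const ℝ g ω).ennreal_ofReal.mul (hu.comp hg.measurable)
  rw [cyl_avg (hm.indicator ((measurableSet_Inj hg ω σ).inter measurableSet_ball)) ω σ]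
  calc ∫⁻ y, ∫⁻ t in Icc (0 : ℝ) σ, (Inj g ω σ ∩ ball z R).indicator
        (fun x => ENNReal.ofReal (fderiv ℝ g x ω) * u (g x)) (y + t • ω)
      ≤ ∫⁻ y, (ball z (R + σ * ‖ω‖)).indicator (fun _ => ∫⁻ t, u t) y := by
        refine lintegral_mono fun y => ?_
        by_cases hy : y ∈ ball z (R + σ * ‖ω‖)
        · rw [indicator_of_mem hy]
          refine le_trans (lintegral_mono fun t => ?_) (cyl_line hg y ω σ u)
          exact indicator_le_indicator_of_subset inter_subset_left (fun _ => zero_le) _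
        · rw [indicator_of_notMem hy]
          refine le_of_eq ?_
          rw [setLIntegral_congr_fun measurableSet_Icc (g := fun _ => 0), lintegral_zero]
          intro t ht
          refine indicator_of_notMem (fun hh => hy ?_) _
          have h1 : dist (y + t • ω) z < R := hh.2
          have h2 : dist y (y + t • ω) ≤ σ * ‖ω‖ := by
            rw [dist_self_add_right, norm_smul, Real.norm_of_nonneg ht.1]
            exact mul_le_mul_of_nonneg_right ht.2 (norm_nonneg _)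
          rw [mem_ball]
          linarith [dist_triangle y (y + t • ω) z]
    _ = V E (R + σ * ‖ω‖) * ∫⁻ t, u t := by
        rw [lintegral_indicator measurableSet_ball, setLIntegral_const, vol_ball, mul_comm]

/-- area formula bound on sets where the graph map is injective on slabs -/
theorem MAS (ω : E) (hω : ω ≠ 0) (A θ : ℝ) (hA : 0 < A) (hθ : 0 < θ) :
    ∃ C : ℝ≥0∞, C ≠ ⊤ ∧ ∀ (g : E → ℝ), Continuous g → ∀ (h : ℝ), 0 < h →
    ∀ (W : E × ℝ → ℝ≥0∞), Measurable W →
    ENNReal.ofReal h * ∫⁻ x in Inj g ω (θ * h), ENNReal.ofReal (fderiv ℝ g x ω) *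
      ∫⁻ z in ball x (A * h), W (z, g x) ≤ C * V E h * ∫⁻ p, W p := by
  obtain ⟨C, hC, -, hCV⟩ := exists_V_le (E := E) (A + θ * ‖ω‖)
  refine ⟨ENNReal.ofReal θ⁻¹ * C, ENNReal.mul_ne_top ENNReal.ofReal_ne_top hC, ?_⟩
  intro g hg h hh W hW
  have hI := measurableSet_Inj hg ω (θ * h)
  have hD : Measurable fun x => ENNReal.ofReal (fderiv ℝ g x ω) :=
    (measurable_fderiv_apply_const ℝ g ω).ennreal_ofReal
  have hgm := hg.measurable
  set Φ : E → E → ℝ≥0∞ := fun x z => (Inj g ω (θ * h) ∩ ball z (A * h)).indicator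
      (fun x => ENNReal.ofReal (fderiv ℝ g x ω) * W (z, g x)) x with hΦ
  have hΦm : Measurable (Function.uncurry Φ) := by
    have : Function.uncurry Φ = ((Prod.fst ⁻¹' Inj g ω (θ * h)) ∩
        {p : E × E | dist p.1 p.2 < A * h}).indicator
        (fun p => ENNReal.ofReal (fderiv ℝ g p.1 ω) * W (p.2, g p.1)) := by
      funext p
      rfl
    rw [this]
    refine Measurable.indicator ?_ ((measurable_fst hI).inter
      (measurableSet_lt (by fun_prop) measurable_const))
    exact (hD.comp measurable_fst).mul (hW.comp (by fun_prop))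
  have h1 : ∫⁻ x in Inj g ω (θ * h), ENNReal.ofReal (fderiv ℝ g x ω) *
      ∫⁻ z in ball x (A * h), W (z, g x) = ∫⁻ x, ∫⁻ z, Φ x z := by
    rw [← lintegral_indicator hI]
    refine lintegral_congr fun x => ?_
    by_cases hx : x ∈ Inj g ω (θ * h)
    · rw [indicator_of_mem hx, ← lintegral_const_mul' _ _ ENNReal.ofReal_ne_top,
        ← lintegral_indicator measurableSet_ball]
      refine lintegral_congr fun z => ?_
      by_cases hz : z ∈ ball x (A * h)
      · rw [indicator_of_mem hz, hΦ]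
        exact (indicator_of_mem (show x ∈ Inj g ω (θ * h) ∩ ball z (A * h) from
          ⟨hx, mem_ball_comm.mp hz⟩)
          (fun x => ENNReal.ofReal (fderiv ℝ g x ω) * W (z, g x))).symm
      · rw [indicator_of_notMem hz, hΦ]
        exact (indicator_of_notMem (fun hh : x ∈ Inj g ω (θ * h) ∩ ball z (A * h) =>
          hz (mem_ball_comm.mp hh.2)) _).symm
    · rw [indicator_of_notMem hx]
      symm
      rw [← lintegral_zero (μ := (volume : Measure E))]
      refine lintegral_congr fun z => ?_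
      exact indicator_of_notMem (fun hh : x ∈ Inj g ω (θ * h) ∩ ball z (A * h) => hx hh.1) _
  have h2 : ENNReal.ofReal h = ENNReal.ofReal θ⁻¹ * ENNReal.ofReal (θ * h) := by
    rw [← ENNReal.ofReal_mul (inv_pos.mpr hθ).le, ← mul_assoc, inv_mul_cancel₀ hθ.ne', one_mul]
  have h3 : ∫⁻ p, W p = ∫⁻ z, ∫⁻ t, W (z, t) := by
    rw [Measure.volume_eq_prod, lintegral_prod _ hW.aemeasurable]
  have h4 : V E (A * h + θ * h * ‖ω‖) ≤ C * V E h := hCV h _ hh.le (le_of_eq (by ring))
  rw [h1, lintegral_lintegral_swap hΦm.aemeasurable, h2, h3, mul_assoc, mul_assoc, mul_assoc]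
  refine mul_le_mul_right ?_ _
  rw [← lintegral_const_mul' _ _ ENNReal.ofReal_ne_top, ← mul_assoc,
    ← lintegral_const_mul' _ _ (ENNReal.mul_ne_top hC (V_ne_top h))]
  refine lintegral_mono fun z => ?_
  refine (cyl_fix hg ω z (σ := θ * h) (R := A * h) (u := fun t => W (z, t))
    (hW.comp (by fun_prop))).trans ?_
  exact mul_le_mul_left h4 _

end Vale.Agent.P137
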