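import Vale.Agent.P137.CNar
import Vale.Agent.P137.CNeg
import Vale.Agent.P137.Cyl

namespace Vale.Agent.P137

open MeasureTheory Metric Set Filter Topology
open scoped ENNReal RealInnerProductSpace

variable {E : Type*} [NormedAddCommGroup E] [InnerProductSpace ℝ E] [FiniteDimensional ℝ E]
  [MeasurableSpace E] [BorelSpace E]

/-- line version of the area formula bound -/
theorem LMAS {g : E → ℝ} (hg : Continuous g) (ω : E) {σ : ℝ} (hσ : 0 < σ) {Z : Set E}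
    (hZ : MeasurableSet Z) (hZI : Z ⊆ Inj g ω σ) {B : E → ℝ≥0∞}
    (h : ∀ x ∈ Z, ∀ τ ∈ Ioc (0 : ℝ) (σ / 2), x + τ • ω ∈ Z → ∀ τ' ∈ Icc (0 : ℝ) (σ / 2),
      ENNReal.ofReal (g (x + τ • ω) - g x) ≤ B (x + τ • ω - τ' • ω)) :
    ENNReal.ofReal (σ / 2) * nuW g ω Z ≤ ∫⁻ y, B y := by
  rw [nuW, withDensity_apply _ hZ, ← lintegral_indicator hZ,
    cyl_avg ((measurable_fderiv_apply_const ℝ g ω).ennreal_ofReal.indicator hZ)]
  refine lintegral_mono fun y => ?_
  have hm : MeasurableSet {t : ℝ | y + t • ω ∈ Z} :=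
    hZ.preimage (f := fun t : ℝ => y + t • ω) (by fun_prop)
  have hT := hm.inter (measurableSet_Icc (a := (0 : ℝ)) (b := σ / 2))
  have h1 := lintegral_image_eq_lintegral_abs_deriv_mul (f := fun s : ℝ => g (y + s • ω))
    (f' := fun t => fderiv ℝ g (y + t • ω) ω) hT
    (fun t ht => (cyl_hasDerivAt (hZI ht.1).1).hasDerivWithinAt)
    ((cyl_injOn g y ω σ).mono fun t ht => And.intro ⟨ht.2.1, by linarith [ht.2.2]⟩ (hZI ht.1))
    fun _ => 1
  have key : ∀ t ∈ {t : ℝ | y + t • ω ∈ Z} ∩ Icc 0 (σ / 2),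
      ∀ t' ∈ {t : ℝ | y + t • ω ∈ Z} ∩ Icc 0 (σ / 2), t < t' →
      edist (g (y + t' • ω)) (g (y + t • ω)) ≤ B y := fun t ht t' ht' k => by
    have e : y + t • ω + (t' - t) • ω = y + t' • ω := by
      rw [add_assoc, ← add_smul, add_sub_cancel]
    have k1 := h _ ht.1 (t' - t) ⟨sub_pos.2 k, by linarith [ht.2.1, ht'.2.2]⟩ (e ▸ ht'.1) t' ht'.2
    have k2 := (hZI ht.1).2.2 (t' - t) ⟨(sub_pos.2 k).le, by linarith [ht.2.1, ht'.2.2]⟩
    rw [e] at k1 k2
    rw [add_sub_cancel_right] at k1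
    rwa [edist_dist, Real.dist_eq, abs_of_nonneg (sub_nonneg.2 k2)]
  calc _ = ∫⁻ t in {t : ℝ | y + t • ω ∈ Z} ∩ Icc 0 (σ / 2),
        ENNReal.ofReal |fderiv ℝ g (y + t • ω) ω| * 1 := by
        rw [← Measure.restrict_restrict hm, ← lintegral_indicator hm]
        refine lintegral_congr fun t => ?_
        by_cases k : y + t • ω ∈ Z
        · rw [indicator_of_mem k, indicator_of_mem (show t ∈ {t : ℝ | y + t • ω ∈ Z} from k),
            abs_of_pos (hZI k).2.1, mul_one]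
        · rw [indicator_of_notMem k,
            indicator_of_notMem (show t ∉ {t : ℝ | y + t • ω ∈ Z} from k)]
    _ ≤ B y := by
        rw [← h1, setLIntegral_one]
        refine (Real.volume_le_diam _).trans (ediam_image_le_iff.2 fun t ht t' ht' => ?_)
        rcases lt_trichotomy t t' with k | rfl | k
        · exact (edist_comm _ _).trans_le (key t ht t' ht' k)
        · simp
        · exact key t' ht' t ht k

lemma cell_tonelli (ν : Measure E) [SFinite ν] {f : E → ℝ≥0∞} (hf : Measurable f) (r : ℝ) :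
    ∫⁻ z, ∫⁻ x in ball z r, f x ∂ν = V E r * ∫⁻ x, f x ∂ν := by
  have hS : MeasurableSet {p : E × E | dist p.2 p.1 < r} :=
    measurableSet_lt (by fun_prop) measurable_const
  have e : ∀ z, ∫⁻ x in ball z r, f x ∂ν =
      ∫⁻ x, {p : E × E | dist p.2 p.1 < r}.indicator (fun p => f p.2) (z, x) ∂ν := fun z =>
    (lintegral_indicator measurableSet_ball f).symm
  simp only [e]
  rw [lintegral_lintegral_swap
    (f := fun z x => {p : E × E | dist p.2 p.1 < r}.indicator (fun p => f p.2) (z, x))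
    ((hf.comp measurable_snd).indicator hS).aemeasurable, ← lintegral_const_mul _ hf]
  refine lintegral_congr fun x => ?_
  rw [← vol_ball x r, mul_comm, ← setLIntegral_const, ← lintegral_indicator measurableSet_ball]
  refine lintegral_congr fun z => ?_
  simp only [indicator, mem_ofPred_eq, mem_ball, dist_comm]

lemma cell_int (c : ℕ) : ∃ C : ℝ≥0∞, C ≠ ⊤ ∧ ∀ (ν : Measure E) [SFinite ν] (Y : Set E) (F : E → ℝ)
    (h ρm : ℝ) (K : ℝ≥0∞), Measurable F → 0 < h → K ≠ 0 → K ≠ ⊤ →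
    (∀ z, NN F z (2 ^ c * h) ρm ≠ ⊤ → ν (Y ∩ ball z (h / 2)) ≤ K * NN F z (2 ^ c * h) ρm) →
    ν Y ≤ C * K * ∑' i : ℕ, ENNReal.ofReal (min 1 (2 ^ c * h / 2 ^ i / ρm)) *
      bb F 1 (2 ^ c * h / 2 ^ i) := by
  obtain ⟨C, hC, -, H⟩ := exists_V_le (E := E) (2 * 2 ^ c)
  refine ⟨C, hC, fun ν _ Y F h ρm K hF hh hK hK' h1 => ?_⟩
  have hm := measurableSet_toMeasurable ν Y
  have h2 := cell_tonelli ν (measurable_one.indicator hm) (h / 2)
  rw [lintegral_indicator_one hm, measure_toMeasurable] at h2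
  rw [← ENNReal.mul_le_mul_iff_right (V_ne_zero (E := E) (half_pos hh)) (V_ne_top _), ← h2]
  calc _ ≤ ∫⁻ z, K * NN F z (2 ^ c * h) ρm := by
        refine lintegral_mono fun z => ?_
        rw [lintegral_indicator_one hm, Measure.restrict_apply hm,
          Measure.measure_toMeasurable_inter_of_sFinite measurableSet_ball]
        by_cases k : NN F z (2 ^ c * h) ρm = ⊤
        · rw [k, ENNReal.mul_top hK]
          exact le_top
        · exact h1 z k
    _ ≤ _ := by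
        rw [lintegral_const_mul' _ _ hK', int_NN hF (by positivity), ← mul_assoc, ← mul_assoc]
        refine mul_le_mul_left ?_ _
        rw [← mul_assoc, mul_comm K, mul_comm _ C]
        exact mul_le_mul_left (H _ _ (by positivity) (le_of_eq (by ring))) _

lemma ORp.mono {F : E → ℝ} {x ω : E} {h D : ℝ} {X X' : ℝ≥0∞} (h1 : ORp F x h ω D X)
    (h2 : X ≤ X') : ORp F x h ω D X' :=
  let ⟨a, b, k1, k2, k3, k4⟩ := h1
  ⟨a, b, k1, k2.trans h2, k3.trans h2, k4.trans h2⟩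

lemma cell_H (D A : ℝ) (hD : 1 ≤ D) (hA : 0 < A) (C0 : ℝ≥0∞) (hC0 : C0 ≠ ⊤) :
    ∃ (c : ℕ) (C : ℝ≥0∞), C ≠ ⊤ ∧ ∀ (F : E → ℝ) (z : E) (h ρm : ℝ), Measurable F → 0 < h →
    0 < ρm → ρm ≤ h → NN F z (2 ^ c * h) ρm ≠ ⊤ → ∃ H : ℝ, 0 ≤ H ∧
      ENNReal.ofReal H * V E h ≤ C * NN F z (2 ^ c * h) ρm * ENNReal.ofReal h ∧
      APH F z h (40 * h) ρm H ∧ PP F z (40 * h) ≤ ENNReal.ofReal H * V E h ^ 2 ∧
      ∀ m ω : E, ‖ω‖ ≤ 2 → dist m z < h / 2 → ORp F m h ω D (C0 * PP F m (A * h)) →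
        NegP F m h ω (1 / (4 * D)) ρm H := by
  obtain ⟨Ca, hCa, Ha⟩ := APH_of_NN (E := E)
  obtain ⟨Cn, hCn, Hn⟩ := NEG (E := E) D hD
  obtain ⟨c, hc⟩ := pow_unbounded_of_one_lt (2 * (8 * D + 40) + A) (one_lt_two (α := ℝ))
  obtain ⟨Cv, hCv, -, Hv⟩ := exists_V_le (E := E) (2 ^ c)
  obtain ⟨C, hC, h1, h2, h3⟩ : ∃ C : ℝ≥0∞, C ≠ ⊤ ∧ Ca ≤ C ∧ ENNReal.ofReal (2 ^ c) * Cv ≤ C ∧
      C0 * (ENNReal.ofReal (2 ^ c) * Cv) ≤ C :=
    ⟨Ca + ENNReal.ofReal (2 ^ c) * Cv + C0 * (ENNReal.ofReal (2 ^ c) * Cv), by finiteness,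
      le_self_add.trans le_self_add, le_add_self.trans le_self_add, le_add_self⟩
  refine ⟨c, ENNReal.ofReal Cn * C, by finiteness, fun F z h ρm hF hh hρ hρh hN => ?_⟩
  have hc' := mul_lt_mul_of_pos_right hc hh
  have hDh := mul_le_mul_of_nonneg_right hD hh.le
  have hAh := mul_pos hA hh
  obtain ⟨H, hH, e⟩ : ∃ H : ℝ, 0 ≤ H ∧
      ENNReal.ofReal H * V E h = C * NN F z (2 ^ c * h) ρm * ENNReal.ofReal h :=
    ⟨(C * NN F z (2 ^ c * h) ρm * ENNReal.ofReal h / V E h).toReal, ENNReal.toReal_nonneg, by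
      rw [ENNReal.ofReal_toReal (ENNReal.div_ne_top (by finiteness) (V_ne_zero hh)),
        ENNReal.div_mul_cancel (V_ne_zero hh) (V_ne_top h)]⟩
  have k1 : APH F z h (2 ^ c * h / 2) ρm H := Ha F hF z h _ ρm H hh (by positivity) hρ hH (by
    rw [e, mul_div_cancel₀ _ two_ne_zero]
    gcongr)
  have k2 : ∀ X Y : ℝ≥0∞, X * (ENNReal.ofReal (2 ^ c) * Cv) ≤ C → Y ≤ PP F z (2 ^ c * h) →
      X * Y ≤ ENNReal.ofReal H * V E h ^ 2 := fun X Y j1 j2 =>
    calc X * Y ≤ X * (ENNReal.ofReal (2 ^ c * h) * (Cv * V E h) * NN F z (2 ^ c * h) ρm) :=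
          mul_le_mul_right (j2.trans ((PP_le_NN F z hρ (by linarith)).trans
            (mul_le_mul_left (mul_le_mul_right (Hv _ _ hh.le le_rfl) _) _))) _
      _ = X * (ENNReal.ofReal (2 ^ c) * Cv) * NN F z (2 ^ c * h) ρm * ENNReal.ofReal h * V E h := by
          rw [ENNReal.ofReal_mul (by positivity)]
          ring
      _ ≤ _ := by
          rw [sq, ← mul_assoc (ENNReal.ofReal H), e]
          gcongr
  have k3 : H ≤ Cn * H := le_mul_of_one_le_left hH hCn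
  refine ⟨Cn * H, hH.trans k3, le_of_eq ?_, k1.mono hh (by linarith) k3, ?_,
    fun m ω hω hm hO => Hn F hF z m ω h ρm H hh hH hω (by linarith)
      (k1.mono hh (by linarith) le_rfl) (hO.mono (k2 _ _ h3 (PP_mono F (by linarith))))⟩
  · rw [ENNReal.ofReal_mul (by linarith), mul_assoc, e]
    ring
  · refine (one_mul _).symm.trans_le ((k2 1 _ (by rwa [one_mul])
      (PP_mono F (by rw [dist_self]; linarith))).trans ?_)
    gcongr

lemma cell_av_le {F g : E → ℝ} {η r : ℝ} (hF0 : ∀ y, 0 ≤ F y) (hF : LocallyIntegrable F volume)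
    (hg0 : ∀ y, 0 ≤ g y) (hη : 0 < η) (hH : H1c F g η) (hr : η ≤ r) (x : E) : av F x r ≤ g x := by
  have := hH x r hr
  rwa [I_eq_av hF0 hF x (hη.trans_le hr),
    ENNReal.mul_le_mul_iff_left (V_ne_zero (hη.trans_le hr)) (V_ne_top r),
    ENNReal.ofReal_le_ofReal_iff (hg0 x)] at this

lemma cell_short {g : E → ℝ} (hg : Continuous g) {ω z : E} (hω : ‖ω‖ ≤ 2) {σ h : ℝ} (hσ : 0 < σ)
    (hh : 2 * σ ≤ h) {B : E → ℝ≥0∞} (hB : Measurable B) {Y : Set E}
    (hY : ∀ m ∈ Y, m ∈ Inj g ω σ ∧ m ∉ Inj g ω (2 * σ) ∧ dist m z < h / 2 ∧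
      ∀ τ ∈ Ioc 0 (σ / 2), ∀ ρ ∈ Icc (σ / 2) (2 * σ), ∀ y ∈ ball m σ,
        ENNReal.ofReal (g m - max (g (m - τ • ω)) (g (m + ρ • ω))) ≤ B y) :
    ENNReal.ofReal (σ / 2) * nuW g ω Y ≤
      ENNReal.ofReal (2 ^ Module.finrank ℝ E) * ∫⁻ y in ball z h, B y := by
  have h1 := hB.indicator (measurableSet_ball (x := z) (ε := h))
  have h2 : ∀ r, Measurable fun m => ∫⁻ y in ball m r, (ball z h).indicator B y := fun r =>
    measurable_ball_lintegral (f := fun _ => (ball z h).indicator B) (h1.comp measurable_snd)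
      measurable_id r
  let β : E → ℝ≥0∞ := fun m => ⨆ p ∈ Ioc 0 (σ / 2) ×ˢ Icc (σ / 2) (2 * σ),
    ENNReal.ofReal (g m - max (g (m - p.1 • ω)) (g (m + p.2 • ω)))
  have h3 : Measurable β := (lowerSemicontinuous_biSup fun p _ =>
    (ENNReal.continuous_ofReal.comp (by fun_prop)).lowerSemicontinuous).measurable
  have h4 := LMAS hg ω hσ (Z := (Inj g ω σ \ Inj g ω (2 * σ)) ∩
      {m | β m * V E σ ≤ ∫⁻ y in ball m σ, (ball z h).indicator B y})
    (((measurableSet_Inj hg ω _).diff (measurableSet_Inj hg ω _)).inter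
      (measurableSet_le (h3.mul_const _) (h2 σ))) (fun x hx => hx.1.1)
    (B := fun y => (V E σ)⁻¹ * ∫⁻ y in ball y (2 * σ), (ball z h).indicator B y)
    fun x hx τ hτ hm τ' hτ' => by
      obtain ⟨ρ, k1, k2⟩ : ∃ ρ ∈ Icc 0 (2 * σ), g (x + ρ • ω) < g x := by
        by_contra k
        push Not at k
        exact hx.1.2 ⟨hx.1.1.1, hx.1.1.2.1, k⟩
      have k3 : σ < ρ := lt_of_not_ge fun k => k2.not_ge (hx.1.1.2.2 ρ ⟨k1.1, k⟩)
      have k4 : ENNReal.ofReal (g (x + τ • ω) - g x) ≤ β (x + τ • ω) := by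
        refine le_iSup₂_of_le (τ, ρ - τ)
          ⟨hτ, by linarith [hτ.2], by linarith [hτ.1, k1.2]⟩ (le_of_eq ?_)
        rw [add_sub_cancel_right, add_assoc, ← add_smul, add_sub_cancel, max_eq_left k2.le]
      rw [mul_comm, ← div_eq_mul_inv, ENNReal.le_div_iff_mul_le (Or.inl (V_ne_zero hσ))
        (Or.inl (V_ne_top σ))]
      refine (mul_le_mul_left k4 _).trans (le_trans hm.2 (lintegral_mono_set
        (ball_subset_ball' ?_)))
      rw [dist_self_sub_right, norm_smul, Real.norm_of_nonneg hτ'.1]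
      nlinarith [hτ'.1, hτ'.2, norm_nonneg ω]
  refine (mul_le_mul_right (measure_mono fun m hm => ?_) _).trans (h4.trans_eq ?_)
  · obtain ⟨k1, k2, k3, k4⟩ := hY m hm
    refine ⟨⟨k1, k2⟩, ?_⟩
    rw [mem_ofPred_eq, ← vol_ball m σ, ← setLIntegral_const]
    refine setLIntegral_mono' measurableSet_ball fun y hy => ?_
    rw [indicator_of_mem (ball_subset_ball' (by linarith) hy)]
    exact iSup₂_le fun p hp => k4 _ hp.1 _ hp.2 y hy
  · rw [lintegral_const_mul _ (h2 _), cell_tonelli volume h1, V_mul two_pos,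
      lintegral_indicator measurableSet_ball, mul_comm _ (V E σ), mul_assoc, ← mul_assoc,
      ENNReal.inv_mul_cancel (V_ne_zero hσ) (V_ne_top σ), one_mul]

lemma cell_long {g : E → ℝ} (hg : Continuous g) {ω z : E} (hω : ‖ω‖ ≤ 2) {h H : ℝ} (hh : 0 < h)
    {Y : Set E} (hY : ∀ m ∈ Y, m ∈ Inj g ω (h / 8) ∧ dist m z < h / 2 ∧
      ∀ τ ∈ Ioc 0 (h / 8 / 2), g m ≤ H + g (m - τ • ω)) :
    ENNReal.ofReal (h / 8 / 2) * nuW g ω Y ≤ ENNReal.ofReal H * V E h := by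
  have h1 : IsClosed (⋂ τ ∈ Ioc 0 (h / 8 / 2), {m : E | g m ≤ H + g (m - τ • ω)}) :=
    isClosed_biInter fun τ _ => isClosed_le hg (by fun_prop)
  have h4 := LMAS hg ω (σ := h / 8) (by positivity) (((measurableSet_Inj hg ω (h / 8)).inter
      (measurableSet_ball (x := z) (ε := h / 2))).inter h1.measurableSet) (fun x hx => hx.1.1)
    (B := (ball z h).indicator fun _ => ENNReal.ofReal H) fun x _ τ hτ hm τ' hτ' => by
      have k1 : g (x + τ • ω) ≤ H + g (x + τ • ω - τ • ω) := mem_iInter₂.1 hm.2 τ hτ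
      rw [add_sub_cancel_right] at k1
      rw [indicator_of_mem]
      · exact ENNReal.ofReal_le_ofReal (by linarith)
      have k2 := dist_triangle (x + τ • ω - τ' • ω) (x + τ • ω) z
      rw [dist_self_sub_left, norm_smul, Real.norm_of_nonneg hτ'.1] at k2
      rw [mem_ball]
      nlinarith [hτ'.1, hτ'.2, norm_nonneg ω, mem_ball.1 hm.1.2]
  refine (mul_le_mul_right (measure_mono fun m hm => ?_) _).trans (h4.trans_eq ?_)
  · exact ⟨⟨(hY m hm).1, (hY m hm).2.1⟩, mem_iInter₂.2 (hY m hm).2.2⟩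
  · rw [lintegral_indicator measurableSet_ball, setLIntegral_const, vol_ball]

lemma cell_first {F g : E → ℝ} (hF : Measurable F) (hg0 : ∀ y, 0 ≤ g y) {η h s κ H τ : ℝ}
    {m ω : E} (hκ : 0 ≤ κ) (hω : ‖ω‖ ≤ 2) (hH : H1c F g η) (hη : η ≤ s) (hs : s ∈ Icc h (2 * h))
    (hI : I F m s = ENNReal.ofReal (g m) * V E s) (h0 : 0 ≤ H) (hN : NegP F m h (-ω) κ h H)
    (hτ : 0 < τ) (hτh : τ ≤ h) : g m ≤ H + g (m - τ • ω) := by
  have hh := hτ.trans_le hτh
  have hs0 := hh.trans_le hs.1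
  have h1 := hN (τ • -ω) τ hτ hτh (by rw [sub_self, norm_zero]; positivity)
  rw [max_eq_right hτh, div_self hh.ne', one_mul] at h1
  rw [← ENNReal.ofReal_le_ofReal_iff (add_nonneg h0 (hg0 _)),
    ← ENNReal.mul_le_mul_iff_left (V_ne_zero (E := E) hs0) (V_ne_top s), ← hI,
    ENNReal.ofReal_add h0 (hg0 _), add_mul]
  calc I F m s ≤ ∫⁻ w in ball m s, (ENNReal.ofReal (F w - F (w + τ • -ω)) +
        ENNReal.ofReal (F (w + τ • -ω))) := lintegral_mono fun w =>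
          le_trans (by rw [sub_add_cancel]) ENNReal.ofReal_add_le
    _ ≤ _ := by
        rw [lintegral_add_left (by fun_prop),
          setLIntegral_ball_add (fun w => ENNReal.ofReal (F w))]
        refine add_le_add ((lintegral_mono_set fun w hw => ?_).trans
          (h1.trans (mul_le_mul_right (V_mono hs.1) _))) ?_
        · have k := dist_triangle (w + τ • -ω) w m
          rw [dist_self_add_left, norm_smul, norm_neg, Real.norm_of_nonneg hτ.le] at k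
          refine ⟨ball_subset_ball (by linarith [hs.2]) hw, mem_ball.2 ?_⟩
          nlinarith [mem_ball.1 hw, hs.2, norm_nonneg ω]
        · rw [smul_neg, ← sub_eq_add_neg]
          exact hH _ s hη

/-- points with a short window, and downhill points with a long window -/
theorem CELL [Nontrivial E] (D A : ℝ) (hD : 1 ≤ D) (hA : 0 < A) (C0 : ℝ≥0∞) (hC0 : C0 ≠ ⊤) :
    ∃ (c M : ℕ) (C : ℝ≥0∞), 0 < M ∧ C ≠ ⊤ ∧ ∀ (F g : E → ℝ) (ω : E) (η h : ℝ), Measurable F →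
    (∀ y, 0 ≤ F y) → Integrable F → Continuous g → (∀ y, 0 ≤ g y) → 0 < η → 2 * η ≤ h →
    H1c F g η → ‖ω‖ ≤ 2 →
    (∀ σ κ : ℝ, 0 < σ → 16 * σ ≤ h → 0 < κ → κ ≤ 1 → σ ≤ κ ^ M * h →
      nuW g ω {m | m ∈ Inj g ω σ ∧ m ∉ Inj g ω (2 * σ) ∧
        (∃ s ∈ Icc h (2 * h), I F m s = ENNReal.ofReal (g m) * V E s) ∧
        (ORp F m h ω D (C0 * PP F m (A * h)) ∨ ORp F m h (-ω) D (C0 * PP F m (A * h)))} ≤
      C * ENNReal.ofReal κ * ∑' i : ℕ, ENNReal.ofReal (min 1 (2 ^ c * h / 2 ^ i / (σ ^ 2 / h))) *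
        bb F 1 (2 ^ c * h / 2 ^ i)) ∧
    nuW g ω {m | m ∈ Inj g ω (h / 8) ∧
        (∃ s ∈ Icc h (2 * h), I F m s = ENNReal.ofReal (g m) * V E s) ∧
        ORp F m h (-ω) D (C0 * PP F m (A * h))} ≤
      C * ∑' i : ℕ, ENNReal.ofReal (min 1 (2 ^ c * h / 2 ^ i / h)) * bb F 1 (2 ^ c * h / 2 ^ i) := by
  obtain ⟨c, C1, hC1, H1⟩ := cell_H (E := E) D A hD hA C0 hC0
  obtain ⟨C2, hC2, H2⟩ := cell_int (E := E) c
  obtain ⟨M, C3, hM, hC3, H3⟩ := NARpt (E := E) (1 / (4 * D)) (by positivity)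
    ((div_le_one (by positivity)).2 (by linarith))
  obtain ⟨K, hK0, hK, hK1, hK2⟩ : ∃ K : ℝ≥0∞, K ≠ 0 ∧ K ≠ ⊤ ∧ ENNReal.ofReal 16 * C1 ≤ K ∧
      ENNReal.ofReal (2 ^ Module.finrank ℝ E) * ENNReal.ofReal (2 * C3) * C1 ≤ K :=
    ⟨1 + ENNReal.ofReal 16 * C1 +
      ENNReal.ofReal (2 ^ Module.finrank ℝ E) * ENNReal.ofReal (2 * C3) * C1, by simp,
      by finiteness, le_add_self.trans le_self_add, le_add_self⟩
  refine ⟨c, M, C2 * K, hM, by finiteness, fun F g ω η h hF hF0 hFi hg hg0 hη hηh hH hω =>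
    ⟨fun σ κ hσ hσh hκ hκ1 hσκ => ?_, ?_⟩⟩
  · have hh : 0 < h := by linarith
    rw [mul_assoc C2]
    unfold nuW
    refine H2 _ _ F h _ _ hF hh (mul_ne_zero hK0 (by simpa using hκ)) (by finiteness)
      fun z hz => ?_
    obtain ⟨H, k0, k1, k2, k3, k4⟩ := H1 F z h _ hF hh (by positivity)
      ((div_le_iff₀ hh).2 (by nlinarith)) hz
    obtain ⟨B, hB, k5, k6⟩ := H3 F z ω h σ κ H hF hF0 hFi hσ hσh hκ hκ1 hσκ k0 hω k2 k3
    rw [← ENNReal.mul_le_mul_iff_right (a := ENNReal.ofReal (σ / 2)) (by simpa using hσ)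
      ENNReal.ofReal_ne_top]
    refine (cell_short hg hω hσ (by linarith) hB (z := z) fun m hm => ⟨hm.1.1, hm.1.2.1, hm.2,
      fun τ hτ ρ hρ y hy => ?_⟩).trans ((mul_le_mul_right k5 _).trans ?_)
    · obtain ⟨s, hs, hI⟩ := hm.1.2.2.1
      have hs0 : 0 < s := hh.trans_le hs.1
      have e : av F m s = g m := by
        rwa [I_eq_av hF0 hFi.locallyIntegrable m hs0,
          ENNReal.mul_left_inj (V_ne_zero hs0) (V_ne_top s),
          ENNReal.ofReal_eq_ofReal_iff (av_nonneg hF0 m s) (hg0 m)] at hI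
      rw [← e]
      refine k6 m s τ ρ _ hm.2 ⟨hs.1, hs.2, hτ.1, hτ.2, hρ.1, hρ.2, fun s' hs' => ?_⟩
        (hm.1.2.2.2.imp (k4 m ω hω hm.2) (k4 m (-ω) (by rwa [norm_neg]) hm.2)) y
        (ball_subset_ball (by linarith) hy)
      have j := cell_av_le hF0 hFi.locallyIntegrable hg0 hη hH (show η ≤ s' by linarith [hs'.1])
      exact ⟨le_max_of_le_left (j _), le_max_of_le_right (j _)⟩
    · have e1 : ENNReal.ofReal (C3 * (κ * (σ / h) * H)) =
          ENNReal.ofReal (C3 * (κ * (σ / h))) * ENNReal.ofReal H := by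
        rw [← ENNReal.ofReal_mul (by positivity), mul_assoc C3]
      have e2 : ENNReal.ofReal (C3 * (κ * (σ / h))) * ENNReal.ofReal h =
          ENNReal.ofReal (2 * C3) * ENNReal.ofReal κ * ENNReal.ofReal (σ / 2) := by
        rw [← ENNReal.ofReal_mul (by positivity), ← ENNReal.ofReal_mul (by positivity),
          ← ENNReal.ofReal_mul (by positivity)]
        congr 1
        field_simp
      rw [e1, mul_assoc _ _ (V E h)]
      refine (mul_le_mul_right (mul_le_mul_right k1 _) _).trans ?_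
      calc _ = ENNReal.ofReal (σ / 2) * (ENNReal.ofReal (2 ^ Module.finrank ℝ E) *
            ENNReal.ofReal (2 * C3) * C1 * ENNReal.ofReal κ * NN F z (2 ^ c * h) (σ ^ 2 / h)) := by
            rw [mul_comm _ (ENNReal.ofReal h), ← mul_assoc (ENNReal.ofReal (C3 * _)), e2]
            ring
        _ ≤ _ := by gcongr
  · have hh : 0 < h := by linarith
    unfold nuW
    refine H2 _ _ F h _ _ hF hh hK0 hK fun z hz => ?_
    obtain ⟨H, k0, k1, -, -, k4⟩ := H1 F z h _ hF hh hh le_rfl hz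
    rw [← ENNReal.mul_le_mul_iff_right (a := ENNReal.ofReal (h / 8 / 2)) (by simpa using hh)
      ENNReal.ofReal_ne_top]
    refine (cell_long hg hω hh (z := z) (H := H) fun m hm => ⟨hm.1.1, hm.2, fun τ hτ => ?_⟩).trans
      (k1.trans ?_)
    · obtain ⟨s, hs, hI⟩ := hm.1.2.1
      exact cell_first hF hg0 (by positivity) hω hH (by linarith [hs.1]) hs hI k0
        (k4 m (-ω) (by rwa [norm_neg]) hm.2 hm.1.2.2) hτ.1 (by linarith [hτ.2])
    · calc _ = ENNReal.ofReal (h / 8 / 2) * (ENNReal.ofReal 16 * C1 * NN F z (2 ^ c * h) h) := by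
            rw [show h = h / 8 / 2 * 16 by ring, ENNReal.ofReal_mul (by positivity),
              show h / 8 / 2 * 16 = h by ring]
            ring
        _ ≤ _ := by gcongr

end Vale.Agent.P137
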