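import Vale.Agent.P137.Defs

namespace Vale.Agent.P137

open MeasureTheory Metric Set Filter Topology
open scoped ENNReal RealInnerProductSpace

variable {E : Type*} [NormedAddCommGroup E] [InnerProductSpace ℝ E] [FiniteDimensional ℝ E]
  [MeasurableSpace E] [BorelSpace E]

lemma p2_pt {t a c : ℝ} (ha : t ≤ a) (hc : t ≤ c) (b : ℝ) : ENNReal.ofReal (t - b) ≤ pt a b c := by
  by_cases h : t ≤ b
  · rw [ENNReal.ofReal_of_nonpos (by linarith)]; exact zero_le
  · refine ENNReal.ofReal_le_ofReal ?_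
    rw [abs_of_nonpos (by linarith : b - a ≤ 0), abs_of_nonneg (by linarith : 0 ≤ c - b)]
    rcases abs_cases (c - a) with ⟨k, _⟩ | ⟨k, _⟩ <;> linarith

/-- basic one sided estimate -/
theorem S1 {F : E → ℝ} (hF : Measurable F) (t : ℝ) {T : Set E} (hT : MeasurableSet T)
    (hFT : ∀ y, y ∉ T → t ≤ F y) {w u z : E} {ρ a R : ℝ} (ha : 0 < a)
    (h1 : 4 * volume (T ∩ ball (w + u) (ρ + a)) ≤ V E a)
    (h2 : 4 * volume (T ∩ ball (w - u) (ρ + a)) ≤ V E a)
    (hw : dist w z + ρ ≤ R) (hu : ‖u‖ + a ≤ R) :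
    dv F t (ball w ρ) * V E a ≤ 2 * PP F z R := by
  have pw : ∀ y ∈ ball w ρ, ENNReal.ofReal (t - F y) * V E a ≤
      2 * ∫⁻ v in ball u a, pt (F (y - v)) (F y) (F (y + v)) := by
    intro y hy
    let Gd : Set E := ball u a ∩ {v | y + v ∉ T ∧ y - v ∉ T}
    have hG : MeasurableSet Gd := measurableSet_ball.inter
      ((hT.compl.preimage (by fun_prop : Measurable fun v => y + v)).inter
        (hT.compl.preimage (by fun_prop : Measurable fun v => y - v)))
    have c1 : ball u a ⊆ Gd ∪ ((fun v => y + v) ⁻¹' (T ∩ ball (w + u) (ρ + a)) ∪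
        (fun v => -v) ⁻¹' ((fun v => y + v) ⁻¹' (T ∩ ball (w - u) (ρ + a)))) := by
      intro v hv
      have hv' := hv
      rw [mem_ball, dist_eq_norm] at hy hv'
      by_cases k1 : y + v ∈ T
      · refine Or.inr (Or.inl ⟨k1, ?_⟩)
        rw [mem_ball, dist_eq_norm, show y + v - (w + u) = (y - w) + (v - u) by abel]
        linarith [norm_add_le (y - w) (v - u)]
      by_cases k2 : y - v ∈ T
      · refine Or.inr (Or.inr ⟨by simpa only [sub_eq_add_neg] using k2, ?_⟩)
        rw [mem_ball, dist_eq_norm, show y + -v - (w - u) = (y - w) - (v - u) by abel]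
        linarith [norm_sub_le (y - w) (v - u)]
      exact Or.inl ⟨hv, k1, k2⟩
    have c2 := (measure_mono (μ := volume) c1).trans ((measure_union_le _ _).trans
      (add_le_add le_rfl (measure_union_le _ _)))
    rw [Measure.measure_preimage_neg, measure_preimage_add, measure_preimage_add, vol_ball] at c2
    have c3 : V E a ≤ 2 * volume Gd := by
      generalize volume (T ∩ ball (w + u) (ρ + a)) = α at *
      generalize volume (T ∩ ball (w - u) (ρ + a)) = β at *
      have d1 : 2 * (2 * (α + β)) ≤ 2 * V E a := by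
        calc 2 * (2 * (α + β)) = 4 * α + 4 * β := by ring
          _ ≤ V E a + V E a := add_le_add h1 h2
          _ = 2 * V E a := by ring
      have d2 : 2 * (α + β) ≤ V E a :=
        (ENNReal.mul_le_mul_iff_right two_ne_zero ENNReal.ofNat_ne_top).1 d1
      have d3 : V E a + V E a ≤ 2 * volume Gd + V E a := by
        calc V E a + V E a = 2 * V E a := by ring
          _ ≤ 2 * (volume Gd + (α + β)) := by gcongr
          _ = 2 * volume Gd + 2 * (α + β) := by ring
          _ ≤ _ := by gcongr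
      exact ENNReal.le_of_add_le_add_right (V_ne_top a) d3
    calc ENNReal.ofReal (t - F y) * V E a ≤ ENNReal.ofReal (t - F y) * (2 * volume Gd) := by gcongr
      _ = 2 * ∫⁻ _ in Gd, ENNReal.ofReal (t - F y) := by rw [setLIntegral_const]; ring
      _ ≤ 2 * ∫⁻ v in Gd, pt (F (y - v)) (F y) (F (y + v)) := by
        refine mul_le_mul_right (setLIntegral_mono' hG fun v hv => ?_) _
        exact p2_pt (hFT _ hv.2.2) (hFT _ hv.2.1) _
      _ ≤ _ := mul_le_mul_right (lintegral_mono_set inter_subset_left) _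
  unfold dv PP
  rw [← lintegral_mul_const' _ _ (V_ne_top a)]
  refine (setLIntegral_mono' measurableSet_ball pw).trans ?_
  rw [lintegral_const_mul' _ _ ENNReal.ofNat_ne_top,
    lintegral_lintegral_swap (Measurable.aemeasurable (by unfold Function.uncurry; fun_prop))]
  refine mul_le_mul_right ((lintegral_mono_set (ball_subset_ball' ?_)).trans
    (lintegral_mono fun v => lintegral_mono_set (ball_subset_ball' (by linarith)))) _
  rw [dist_zero_right]; linarith

theorem S1lo {F : E → ℝ} (hF : Measurable F) (t : ℝ) {w u z : E} {ρ a R : ℝ} (ha : 0 < a)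
    (h1 : 4 * volume ({y | t < F y}ᶜ ∩ ball (w + u) (ρ + a)) ≤ V E a)
    (h2 : 4 * volume ({y | t < F y}ᶜ ∩ ball (w - u) (ρ + a)) ≤ V E a)
    (hw : dist w z + ρ ≤ R) (hu : ‖u‖ + a ≤ R) :
    dv F t (ball w ρ) * V E a ≤ 2 * PP F z R := by
  exact S1 hF t (measurableSet_lt measurable_const hF).compl
    (fun y hy => le_of_lt (not_not.1 hy)) ha h1 h2 hw hu

theorem S1hi {F : E → ℝ} (hF : Measurable F) (t : ℝ) {w u z : E} {ρ a R : ℝ} (ha : 0 < a)
    (h1 : 4 * volume ({y | t < F y} ∩ ball (w + u) (ρ + a)) ≤ V E a)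
    (h2 : 4 * volume ({y | t < F y} ∩ ball (w - u) (ρ + a)) ≤ V E a)
    (hw : dist w z + ρ ≤ R) (hu : ‖u‖ + a ≤ R) :
    du F t (ball w ρ) * V E a ≤ 2 * PP F z R := by
  have := S1 (F := fun y => -F y) hF.neg (-t) (measurableSet_lt measurable_const hF)
    (fun y hy => neg_le_neg (not_lt.1 hy)) ha h1 h2 hw hu
  rw [PP_neg] at this
  simpa only [dv, du, neg_sub_neg] using this

/-- sparse implies very sparse when there are few patterns -/
theorem UPhi {F : E → ℝ} (hF : Measurable F) (t : ℝ) {w z : E} {ρ a R : ℝ} (ha : 0 < a)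
    (h1 : 4 * volume ({y | t < F y} ∩ ball w (ρ + a)) ≤ V E a)
    (hw : dist w z + ρ ≤ R) (hu : a ≤ R) :
    volume ({y | t < F y} ∩ ball w ρ) * V E a ≤ 2 * PP (lev F t) z R := by
  have hS : MeasurableSet {y | t < F y} := measurableSet_lt measurable_const hF
  have := S1 (F := fun y => -lev F t y) (measurable_lev hF t).neg 0 hS
    (fun y hy => by simp only [lev]; rw [if_neg (show ¬ t < F y from hy)]; simp) (u := 0) ha (by rwa [add_zero])
    (by rwa [sub_zero]) hw (by rwa [norm_zero, zero_add])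
  rw [PP_neg] at this
  refine le_trans (le_of_eq ?_) this
  congr 1
  rw [dv, ← Measure.restrict_apply hS, ← lintegral_indicator_one hS]
  refine lintegral_congr fun y => ?_
  by_cases k : t < F y
  · rw [indicator_of_mem (by exact k)]; simp [lev, k]
  · rw [indicator_of_notMem (by exact k)]; simp [lev, k]

theorem UPlo {F : E → ℝ} (hF : Measurable F) (t : ℝ) {w z : E} {ρ a R : ℝ} (ha : 0 < a)
    (h1 : 4 * volume ({y | t < F y}ᶜ ∩ ball w (ρ + a)) ≤ V E a)
    (hw : dist w z + ρ ≤ R) (hu : a ≤ R) :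
    volume ({y | t < F y}ᶜ ∩ ball w ρ) * V E a ≤ 2 * PP (lev F t) z R := by
  have hS : MeasurableSet {y | t < F y}ᶜ := (measurableSet_lt measurable_const hF).compl
  have := S1 (F := lev F t) (measurable_lev hF t) 1 hS
    (fun y hy => by simp only [lev]; rw [if_pos (show t < F y from not_not.1 hy)]) (u := 0) ha (by rwa [add_zero])
    (by rwa [sub_zero]) hw (by rwa [norm_zero, zero_add])
  refine le_trans (le_of_eq ?_) this
  congr 1
  rw [dv, ← Measure.restrict_apply hS, ← lintegral_indicator_one hS]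
  refine lintegral_congr fun y => ?_
  by_cases k : t < F y
  · rw [indicator_of_notMem (by exact not_not.2 k)]; simp [lev, k]
  · rw [indicator_of_mem (by exact k)]; simp [lev, k]

lemma p2_da {F : E → ℝ} (hF : Measurable F) (t : ℝ) (U : Set E) :
    da F t U = du F t U + dv F t U := by
  unfold da du dv
  rw [← lintegral_add_left (by fun_prop)]
  refine lintegral_congr fun y => ?_
  rcases le_total t (F y) with k | k
  · rw [abs_of_nonneg (by linarith), ENNReal.ofReal_of_nonpos (by linarith : t - F y ≤ 0), add_zero]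
  · rw [abs_of_nonpos (by linarith), ENNReal.ofReal_of_nonpos (by linarith : F y - t ≤ 0), zero_add,
      neg_sub]

lemma p2_bal {F : E → ℝ} (hF : Measurable F) (hF0 : ∀ y, 0 ≤ F y) {t : ℝ} (ht : 0 ≤ t)
    (c : E) (r : ℝ) :
    I F c r + dv F t (ball c r) = ENNReal.ofReal t * V E r + du F t (ball c r) := by
  unfold I du dv
  rw [← vol_ball c, ← setLIntegral_const, ← lintegral_add_left (by fun_prop),
    ← lintegral_add_left (by fun_prop)]
  refine lintegral_congr fun y => ?_
  rcases le_total t (F y) with k | k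
  · rw [ENNReal.ofReal_of_nonpos (by linarith : t - F y ≤ 0), add_zero,
      ← ENNReal.ofReal_add ht (by linarith), add_sub_cancel]
  · rw [ENNReal.ofReal_of_nonpos (by linarith : F y - t ≤ 0), add_zero,
      ← ENNReal.ofReal_add (hF0 y) (by linarith), add_sub_cancel]

/-- if the mean is at most `t` the total deviation is at most twice the deviation below -/
theorem da_le_dv {F : E → ℝ} (hF : Measurable F) (hF0 : ∀ y, 0 ≤ F y) {t : ℝ} (ht : 0 ≤ t)
    {c : E} {r : ℝ} (h : I F c r ≤ ENNReal.ofReal t * V E r) :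
    da F t (ball c r) ≤ 2 * dv F t (ball c r) := by
  have h1 := p2_bal hF hF0 ht c r
  have h2 : du F t (ball c r) ≤ dv F t (ball c r) := by
    refine ENNReal.le_of_add_le_add_left
      (ENNReal.mul_ne_top (ENNReal.ofReal_ne_top (r := t)) (V_ne_top (E := E) r)) ?_
    rw [← h1]
    exact add_le_add h le_rfl
  rw [p2_da hF, two_mul]
  exact add_le_add h2 le_rfl

/-- if the mean is `t` the total deviation is at most twice the deviation above -/
theorem da_le_du {F : E → ℝ} (hF : Measurable F) (hF0 : ∀ y, 0 ≤ F y) {t : ℝ} (ht : 0 ≤ t)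
    {c : E} {r : ℝ} (h : I F c r = ENNReal.ofReal t * V E r) :
    da F t (ball c r) ≤ 2 * du F t (ball c r) := by
  have h1 := p2_bal hF hF0 ht c r
  rw [h] at h1
  have h2 : dv F t (ball c r) = du F t (ball c r) := (ENNReal.add_right_inj
    (ENNReal.mul_ne_top (ENNReal.ofReal_ne_top (r := t)) (V_ne_top (E := E) r))).1 h1
  rw [p2_da hF, two_mul, h2]

lemma p2_layer (a b c : ℝ) : ∫⁻ t, pt (if t < a then 1 else 0) (if t < b then 1 else 0)
    (if t < c then 1 else 0) ≤ pt a b c := by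
  have pw : ∀ t, pt (if t < a then 1 else 0) (if t < b then 1 else 0) (if t < c then 1 else 0) ≤
      (Ico (max a c) b).indicator 1 t + (Ico b (min a c)).indicator 1 t := by
    intro t
    by_cases ka : t < a <;> by_cases kb : t < b <;> by_cases kc : t < c
    · simp [pt, ka, kb, kc]
    · simp [pt, ka, kb, kc]
    · rw [indicator_of_mem (show t ∈ Ico b (min a c) from ⟨not_lt.1 kb, lt_min ka kc⟩)]
      refine le_trans ?_ le_add_self
      simp [pt, ka, kb, kc]
    · simp [pt, ka, kb, kc]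
    · simp [pt, ka, kb, kc]
    · rw [indicator_of_mem
        (show t ∈ Ico (max a c) b from ⟨max_le (not_lt.1 ka) (not_lt.1 kc), kb⟩)]
      refine le_trans ?_ le_self_add
      simp [pt, ka, kb, kc]
    · simp [pt, ka, kb, kc]
    · simp [pt, ka, kb, kc]
  refine (lintegral_mono pw).trans ?_
  rw [lintegral_add_left (measurable_one.indicator measurableSet_Ico),
    lintegral_indicator_one measurableSet_Ico, lintegral_indicator_one measurableSet_Ico,
    Real.volume_Ico, Real.volume_Ico]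
  unfold pt
  have h1 : min a c ≤ max a c := min_le_max
  have h2 : |c - a| = max a c - min a c := by rw [max_sub_min_eq_abs]
  have h3 : max a c + min a c = a + c := max_add_min a c
  by_cases k : b ≤ min a c
  · rw [ENNReal.ofReal_of_nonpos (by linarith : b - max a c ≤ 0), zero_add]
    refine ENNReal.ofReal_le_ofReal ?_
    linarith [neg_le_abs (b - a), le_abs_self (c - b)]
  · rw [ENNReal.ofReal_of_nonpos (by linarith : min a c - b ≤ 0), add_zero]
    refine ENNReal.ofReal_le_ofReal ?_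
    linarith [le_abs_self (b - a), neg_le_abs (c - b)]

/-- layer cake for patterns -/
theorem layer_PP {F : E → ℝ} (hF : Measurable F) (z : E) (R : ℝ) :
    ∫⁻ t, PP (lev F t) z R ≤ PP F z R := by
  have hm : Measurable fun q : (ℝ × E) × E => pt (lev F q.1.1 (q.2 - q.1.2)) (lev F q.1.1 q.2)
      (lev F q.1.1 (q.2 + q.1.2)) := by
    refine Measurable.pt' ?_ ?_ ?_
    · exact (measurable_lev₂ hF).comp (f := fun q : (ℝ × E) × E => (q.2 - q.1.2, q.1.1))
        (by fun_prop)
    · exact (measurable_lev₂ hF).comp (f := fun q : (ℝ × E) × E => (q.2, q.1.1)) (by fun_prop)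
    · exact (measurable_lev₂ hF).comp (f := fun q : (ℝ × E) × E => (q.2 + q.1.2, q.1.1))
        (by fun_prop)
  unfold PP
  rw [lintegral_lintegral_swap (Measurable.lintegral_prod_right' hm).aemeasurable]
  refine lintegral_mono fun v => ?_
  rw [lintegral_lintegral_swap (f := fun x y => pt (lev F x (y - v)) (lev F x y) (lev F x (y + v)))
    (hm.comp (f := fun q : ℝ × E => ((q.1, v), q.2)) (by fun_prop)).aemeasurable]
  exact lintegral_mono fun y => p2_layer _ _ _

/-- total mass of patterns with step `v` -/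
noncomputable def p2_n (F : E → ℝ) (v : E) : ℝ≥0∞ := ∫⁻ y, pt (F (y - v)) (F y) (F (y + v))

/-- total increment with step `v` -/
noncomputable def p2_D (F : E → ℝ) (v : E) : ℝ≥0∞ := ∫⁻ y, ENNReal.ofReal |F (y + v) - F y|

lemma p2_two {F : E → ℝ} (hF : Measurable F) (v : E) :
    2 * p2_n F v + p2_D F ((2 : ℝ) • v) = 2 * p2_D F v := by
  have e1 : p2_D F ((2 : ℝ) • v) = ∫⁻ y, ENNReal.ofReal |F (y + v) - F (y - v)| := by
    rw [p2_D, ← lintegral_sub_right_eq_self _ v]
    refine lintegral_congr fun y => ?_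
    rw [show y - v + (2 : ℝ) • v = y + v by module]
  have e2 : p2_D F v = ∫⁻ y, ENNReal.ofReal |F y - F (y - v)| := by
    rw [p2_D, ← lintegral_sub_right_eq_self _ v]
    simp only [sub_add_cancel]
  rw [e1, two_mul (p2_D F v)]
  nth_rewrite 1 [e2]
  rw [p2_n, p2_D, ← lintegral_const_mul' _ _ ENNReal.ofNat_ne_top,
    ← lintegral_add_left (by fun_prop), ← lintegral_add_left (by fun_prop)]
  refine lintegral_congr fun y => ?_
  have := abs_sub_le (F (y + v)) (F y) (F (y - v))
  rw [pt, ← ENNReal.ofReal_ofNat 2, ← ENNReal.ofReal_mul (by norm_num),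
    ← ENNReal.ofReal_add (by linarith) (abs_nonneg _),
    ← ENNReal.ofReal_add (abs_nonneg _) (abs_nonneg _)]
  congr 1
  ring

lemma p2_tel {F : E → ℝ} (hF : Measurable F) (v : E) (J : ℕ) :
    ∑ j ∈ Finset.range J, 2⁻¹ ^ j * p2_n F ((2 : ℝ) ^ j • v) +
      2⁻¹ ^ J * p2_D F ((2 : ℝ) ^ J • v) = p2_D F v := by
  induction J with
  | zero => simp
  | succ J ih =>
    have h2 : (2⁻¹ : ℝ≥0∞) * 2 = 1 := ENNReal.inv_mul_cancel two_ne_zero ENNReal.ofNat_ne_top
    rw [← ih, Finset.sum_range_succ, add_assoc, pow_succ' (2 : ℝ), mul_smul]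
    congr 1
    have := p2_two hF ((2 : ℝ) ^ J • v)
    generalize p2_n F ((2 : ℝ) ^ J • v) = x at this ⊢
    generalize p2_D F ((2 : ℝ) • (2 : ℝ) ^ J • v) = y at this ⊢
    generalize p2_D F ((2 : ℝ) ^ J • v) = w at this ⊢
    calc 2⁻¹ ^ J * x + 2⁻¹ ^ (J + 1) * y = 2⁻¹ ^ J * (2⁻¹ * 2) * x + 2⁻¹ ^ (J + 1) * y := by
          rw [h2, mul_one]
      _ = 2⁻¹ ^ J * 2⁻¹ * (2 * x + y) := by ring
      _ = 2⁻¹ ^ J * (2⁻¹ * 2) * w := by rw [this]; ring
      _ = _ := by rw [h2, mul_one]

lemma p2_intPP {F : E → ℝ} (hF : Measurable F) (R : ℝ) :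
    ∫⁻ z, PP F z R = V E R * ∫⁻ v in ball (0 : E) R, p2_n F v := by
  have e : ∀ z v : E, ∫⁻ y in ball z R, pt (F (y - v)) (F y) (F (y + v)) =
      ∫⁻ y in ball (0 : E) R, pt (F (y + z - v)) (F (y + z)) (F (y + z + v)) := by
    intro z v
    rw [setLIntegral_ball_add (fun y => pt (F (y - v)) (F y) (F (y + v))), zero_add]
  unfold PP
  simp only [e]
  rw [lintegral_lintegral_swap (Measurable.lintegral_prod_right'
    (f := fun q : (E × E) × E => pt (F (q.2 + q.1.1 - q.1.2)) (F (q.2 + q.1.1))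
      (F (q.2 + q.1.1 + q.1.2))) (by fun_prop)).aemeasurable,
    ← lintegral_const_mul' _ _ (V_ne_top R)]
  refine lintegral_congr fun v => ?_
  rw [lintegral_lintegral_swap (Measurable.aemeasurable (by unfold Function.uncurry; fun_prop))]
  have e2 : ∀ y : E, ∫⁻ z, pt (F (y + z - v)) (F (y + z)) (F (y + z + v)) = p2_n F v := fun y =>
    lintegral_add_left_eq_self (fun y => pt (F (y - v)) (F y) (F (y + v))) y
  simp only [e2]
  rw [setLIntegral_const, vol_ball, mul_comm]

lemma p2_bb {F : E → ℝ} (hF : Measurable F) {A h : ℝ} (hA : 0 < A) (hh : 0 < h) :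
    bb F A h = ENNReal.ofReal (A ^ Module.finrank ℝ E) * (V E 1)⁻¹ *
      ((ENNReal.ofReal h)⁻¹ * ∫⁻ w in ball (0 : E) A, p2_n F (h • w)) := by
  have e1 : ∫⁻ v in ball (0 : E) (A * h), p2_n F v =
      ENNReal.ofReal (h ^ Module.finrank ℝ E) * ∫⁻ w in ball (0 : E) A, p2_n F (h • w) := by
    rw [← lintegral_indicator measurableSet_ball, ← lintegral_indicator measurableSet_ball,
      lintegral_smul_eq _ hh]
    congr 1
    refine lintegral_congr fun w => ?_
    have k : h • w ∈ ball (0 : E) (A * h) ↔ w ∈ ball (0 : E) A := by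
      rw [mem_ball_zero_iff, mem_ball_zero_iff, norm_smul, Real.norm_of_nonneg hh.le, mul_comm,
        mul_lt_mul_iff_left₀ hh]
    by_cases hw : w ∈ ball (0 : E) A
    · rw [indicator_of_mem hw, indicator_of_mem (k.2 hw)]
    · rw [indicator_of_notMem hw, indicator_of_notMem (mt k.1 hw)]
  have e2 : V E h = ENNReal.ofReal (h ^ Module.finrank ℝ E) * V E 1 := by
    rw [← V_mul hh, mul_one]
  have e3 : V E h * (V E h)⁻¹ = 1 := ENNReal.mul_inv_cancel (V_ne_zero hh) (V_ne_top h)
  have e4 : V E 1 * (V E 1)⁻¹ = 1 := ENNReal.mul_inv_cancel (V_ne_zero one_pos) (V_ne_top 1)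
  rw [bb, p2_intPP hF, e1, V_mul hA, ENNReal.inv_pow]
  generalize ∫⁻ w in ball (0 : E) A, p2_n F (h • w) = X
  generalize ENNReal.ofReal (h ^ Module.finrank ℝ E) = H at e2 ⊢
  generalize (V E h)⁻¹ = y at e3 ⊢
  generalize (V E 1)⁻¹ = y1 at e4 ⊢
  have e5 : H * y = y1 := by
    calc H * y = H * y * (V E 1 * y1) := by rw [e4, mul_one]
      _ = H * V E 1 * y * y1 := by ring
      _ = y1 := by rw [← e2, e3, one_mul]
  calc _ = (ENNReal.ofReal h)⁻¹ * ENNReal.ofReal (A ^ Module.finrank ℝ E) * (V E h * y) *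
        (H * y) * X := by ring
    _ = _ := by rw [e3, e5]; ring

/-- telescoping over dyadic scales -/
theorem sum_bb (A : ℝ) (hA : 0 < A) : ∃ C : ℝ≥0∞, C ≠ ⊤ ∧ ∀ (F : E → ℝ), Measurable F →
    ∀ M : ℝ≥0∞, (∀ v : E, ∫⁻ y, ENNReal.ofReal |F (y + v) - F y| ≤ ENNReal.ofReal ‖v‖ * M) →
    ∀ (η : ℝ), 0 < η → ∀ J : ℕ, ∑ j ∈ Finset.range J, bb F A (2 ^ j * η) ≤ C * M := by
  refine ⟨ENNReal.ofReal (A ^ Module.finrank ℝ E) * (V E 1)⁻¹ * (V E A * ENNReal.ofReal A),
    ENNReal.mul_ne_top (ENNReal.mul_ne_top ENNReal.ofReal_ne_top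
      (ENNReal.inv_ne_top.2 (V_ne_zero one_pos)))
      (ENNReal.mul_ne_top (V_ne_top A) ENNReal.ofReal_ne_top), fun F hF M hM η hη J => ?_⟩
  have hn : Measurable (p2_n F) := Measurable.lintegral_prod_right'
    (f := fun p : E × E => pt (F (p.2 - p.1)) (F p.2) (F (p.2 + p.1))) (by fun_prop)
  have e1 : ∀ j : ℕ, bb F A (2 ^ j * η) = ENNReal.ofReal (A ^ Module.finrank ℝ E) * (V E 1)⁻¹ *
      ((ENNReal.ofReal η)⁻¹ * ∫⁻ w in ball (0 : E) A, 2⁻¹ ^ j * p2_n F ((2 : ℝ) ^ j • η • w)) := by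
    intro j
    rw [p2_bb hF hA (by positivity), ENNReal.ofReal_mul (by positivity), ENNReal.ofReal_pow
      (p := 2) (by norm_num), ENNReal.mul_inv (Or.inr ENNReal.ofReal_ne_top)
      (Or.inr (by simpa using hη)), ENNReal.inv_pow, lintegral_const_mul' _ _ (by simp)]
    simp only [smul_smul, ENNReal.ofReal_ofNat]
    ring
  simp only [e1]
  rw [← Finset.mul_sum, ← Finset.mul_sum, mul_assoc _ _ M, ← lintegral_finsetSum _
    (f := fun j w => 2⁻¹ ^ j * p2_n F ((2 : ℝ) ^ j • η • w)) fun j _ =>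
    (hn.comp (by fun_prop : Measurable fun w : E => (2 : ℝ) ^ j • η • w)).const_mul _]
  refine mul_le_mul_right ?_ _
  have e2 : ∫⁻ w in ball (0 : E) A, ∑ j ∈ Finset.range J, 2⁻¹ ^ j * p2_n F ((2 : ℝ) ^ j • η • w) ≤
      ENNReal.ofReal η * (V E A * ENNReal.ofReal A * M) := by
    calc _ ≤ ∫⁻ _ in ball (0 : E) A, ENNReal.ofReal η * ENNReal.ofReal A * M := by
          refine setLIntegral_mono' measurableSet_ball fun w hw => ?_
          refine le_trans le_self_add ((p2_tel hF (η • w) J).le.trans ((hM _).trans ?_))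
          rw [← ENNReal.ofReal_mul hη.le, norm_smul, Real.norm_of_nonneg hη.le]
          rw [mem_ball_zero_iff] at hw
          gcongr
      _ = _ := by rw [setLIntegral_const, vol_ball]; ring
  refine (mul_le_mul_right e2 _).trans (le_of_eq ?_)
  rw [← mul_assoc, ENNReal.inv_mul_cancel (by simpa using hη) ENNReal.ofReal_ne_top, one_mul]

end Vale.Agent.P137
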