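import Vale.Agent.P137.Pat1
import Vale.Agent.P137.Pat2

namespace Vale.Agent.P137

open MeasureTheory Metric Set Filter Topology
open scoped ENNReal RealInnerProductSpace

variable {E : Type*} [NormedAddCommGroup E] [InnerProductSpace ℝ E] [FiniteDimensional ℝ E]
  [MeasurableSpace E] [BorelSpace E]

lemma tl_two {F : E → ℝ} (hF : Measurable F) (hF0 : ∀ y, 0 ≤ F y) {c v : E} {r : ℝ}
    (h1 : I F c r ≠ ⊤) (h2 : I F (c + v) r ≤ I F c r) :
    ∫⁻ y in ball c r, ENNReal.ofReal |F (y + v) - F y| ≤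
      2 * ∫⁻ y in ball c r, ENNReal.ofReal (F y - F (y + v)) := by
  have e1 : ∫⁻ y in ball c r, ENNReal.ofReal |F (y + v) - F y| =
      (∫⁻ y in ball c r, ENNReal.ofReal (F y - F (y + v))) +
        ∫⁻ y in ball c r, ENNReal.ofReal (F (y + v) - F y) := by
    rw [← lintegral_add_left (by fun_prop)]
    refine lintegral_congr fun y => ?_
    rcases le_total (F y) (F (y + v)) with k | k
    · rw [abs_of_nonneg (by linarith),
        ENNReal.ofReal_of_nonpos (by linarith : F y - F (y + v) ≤ 0), zero_add]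
    · rw [abs_of_nonpos (by linarith),
        ENNReal.ofReal_of_nonpos (by linarith : F (y + v) - F y ≤ 0), add_zero, neg_sub]
  have e2 : I F c r + ∫⁻ y in ball c r, ENNReal.ofReal (F (y + v) - F y) =
      I F (c + v) r + ∫⁻ y in ball c r, ENNReal.ofReal (F y - F (y + v)) := by
    unfold I
    rw [← setLIntegral_ball_add (fun y => ENNReal.ofReal (F y)) c v,
      ← lintegral_add_left (by fun_prop), ← lintegral_add_left (by fun_prop)]
    refine lintegral_congr fun y => ?_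
    rcases le_total (F y) (F (y + v)) with k | k
    · rw [ENNReal.ofReal_of_nonpos (by linarith : F y - F (y + v) ≤ 0), add_zero,
        ← ENNReal.ofReal_add (hF0 _) (by linarith), add_sub_cancel]
    · rw [ENNReal.ofReal_of_nonpos (by linarith : F (y + v) - F y ≤ 0), add_zero,
        ← ENNReal.ofReal_add (hF0 _) (by linarith), add_sub_cancel]
  rw [e1, two_mul]
  refine add_le_add le_rfl (ENNReal.le_of_add_le_add_left h1 ?_)
  rw [e2]
  exact add_le_add h2 le_rfl

omit [InnerProductSpace ℝ E] [FiniteDimensional ℝ E] in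
lemma tl_mset {B : Set E} (hB : MeasurableSet B) (d : E) : MeasurableSet (B ∩ {y | y + d ∈ B}) :=
  hB.inter (hB.preimage (by fun_prop : Measurable fun y => y + d))

lemma tl_three {F : E → ℝ} (hF : Measurable F) {B : Set E} (hB : MeasurableSet B) (p d : E)
    (M : ℝ) {τ : ℝ} (hd : ‖d‖ ≤ τ / 2) :
    V E (τ / 2) * ∫⁻ y in B ∩ {y | y + M • d ∈ B}, ENNReal.ofReal |F (y + M • d) - F y| ≤
      2 * ∫⁻ s in ball p τ, ∫⁻ y in B, ENNReal.ofReal |F (y + M • s) - F y| := by
  have hτ : τ / 2 ≤ τ := by linarith [norm_nonneg d]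
  rw [mul_comm, ← vol_ball p, ← setLIntegral_const, two_mul]
  refine le_trans (lintegral_mono fun s => lintegral_mono
    (g := fun y => ENNReal.ofReal |F (y + M • s) - F y| +
      ENNReal.ofReal |F (y + M • d + M • (s + -d)) - F (y + M • d)|) fun y => ?_) ?_
  · dsimp only
    rw [← ENNReal.ofReal_add (abs_nonneg _) (abs_nonneg _),
      show y + M • d + M • (s + -d) = y + M • s by module]
    refine ENNReal.ofReal_le_ofReal ?_
    have := abs_sub_le (F (y + M • d)) (F (y + M • s)) (F y)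
    rw [abs_sub_comm (F (y + M • d)) (F (y + M • s))] at this
    linarith
  rw [p1_add _ _ (by fun_prop)]
  refine add_le_add ((lintegral_mono fun s => lintegral_mono_set inter_subset_left).trans
    (lintegral_mono_set (ball_subset_ball hτ))) ?_
  refine le_trans (lintegral_mono fun s => setLIntegral_add_le
    (fun y => ENNReal.ofReal |F (y + M • (s + -d)) - F y|) (tl_mset hB _) hB _
    fun y hy => hy.2) ?_
  refine setLIntegral_add_le (fun s => ∫⁻ y in B, ENNReal.ofReal |F (y + M • s) - F y|)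
    measurableSet_ball measurableSet_ball _ fun s hs => ?_
  rw [mem_ball, dist_eq_norm] at hs ⊢
  rw [show s + -d - p = (s - p) - d by abel]
  linarith [norm_sub_le (s - p) d]

lemma tl_four {F : E → ℝ} (hF : Measurable F) (c : E) (r : ℝ) (d : E) (N : ℕ) :
    ∫⁻ y in ball c r ∩ {y | y + (N : ℝ) • d ∈ ball c r},
        ENNReal.ofReal |F (y + (N : ℝ) • d) - F y| ≤
      N * ∫⁻ y in ball c r ∩ {y | y + d ∈ ball c r}, ENNReal.ofReal |F (y + d) - F y| := by
  have cv : ∀ y ∈ ball c r ∩ {y | y + (N : ℝ) • d ∈ ball c r}, ∀ i : ℕ, i ≤ N →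
      y + (i : ℝ) • d ∈ ball c r := by
    intro y hy i hi
    rcases Nat.eq_zero_or_pos N with rfl | hN
    · obtain rfl : i = 0 := by omega
      exact hy.2
    have hN' : (0 : ℝ) < N := by exact_mod_cast hN
    have := (convex_ball c r).add_smul_mem hy.1 hy.2 (t := i / N)
      ⟨by positivity, (div_le_one hN').2 (by exact_mod_cast hi)⟩
    rwa [smul_smul, div_mul_cancel₀ _ hN'.ne'] at this
  refine le_trans (lintegral_mono (g := fun y => ∑ k ∈ Finset.range N,
    ENNReal.ofReal |F (y + (k : ℝ) • d + d) - F (y + (k : ℝ) • d)|) fun y => ?_) ?_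
  · have := p1_tri (fun k => F (y + (k : ℝ) • d)) (Nat.zero_le N)
    dsimp only
    rw [← ENNReal.ofReal_sum_of_nonneg fun _ _ => abs_nonneg _]
    refine ENNReal.ofReal_le_ofReal ?_
    simpa only [Nat.cast_zero, zero_smul, add_zero, ← Finset.range_eq_Ico, Nat.cast_add,
      Nat.cast_one, add_smul, one_smul, add_assoc] using this
  rw [lintegral_finsetSum _ fun k _ => by fun_prop]
  refine (Finset.sum_le_card_nsmul _ _ _ fun k hk => setLIntegral_add_le
    (fun y => ENNReal.ofReal |F (y + d) - F y|) (tl_mset measurableSet_ball _)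
    (tl_mset measurableSet_ball d) _ fun y hy => ⟨cv y hy k (Finset.mem_range.1 hk).le, ?_⟩).trans
    (by simp)
  have := cv y hy (k + 1) (Finset.mem_range.1 hk)
  rwa [Nat.cast_add, Nat.cast_one, add_smul, one_smul, ← add_assoc] at this

lemma tl_five {F : E → ℝ} (hF : Measurable F) (hF0 : ∀ y, 0 ≤ F y) {t : ℝ} (ht : 0 ≤ t) {c : E}
    {r : ℝ} (h : I F c r = ENNReal.ofReal t * V E r) :
    da F t (ball c r) * V E r ≤ ∫⁻ w in ball (0 : E) (2 * r),
      ∫⁻ y in ball c r ∩ {y | y + w ∈ ball c r}, ENNReal.ofReal |F (y + w) - F y| := by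
  have pw : ∀ b : ℝ, 0 ≤ b → ENNReal.ofReal |b - t| * V E r ≤
      ∫⁻ y in ball c r, ENNReal.ofReal |F y - b| := by
    intro b hb
    rcases le_total t b with k | k
    · refine ENNReal.le_of_add_le_add_left
        (ENNReal.mul_ne_top (ENNReal.ofReal_ne_top (r := t)) (V_ne_top (E := E) r)) ?_
      rw [← add_mul, ← ENNReal.ofReal_add ht (abs_nonneg _), abs_of_nonneg (by linarith),
        add_sub_cancel, ← h, I, ← lintegral_add_left (by fun_prop), ← vol_ball c,
        ← setLIntegral_const]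
      refine lintegral_mono fun y => ?_
      dsimp only
      rw [← ENNReal.ofReal_add (hF0 y) (abs_nonneg _)]
      exact ENNReal.ofReal_le_ofReal (by linarith [neg_le_abs (F y - b)])
    · refine ENNReal.le_of_add_le_add_left
        (ENNReal.mul_ne_top (ENNReal.ofReal_ne_top (r := b)) (V_ne_top (E := E) r)) ?_
      rw [← add_mul, ← ENNReal.ofReal_add hb (abs_nonneg _), abs_of_nonpos (by linarith),
        neg_sub, add_sub_cancel, ← h, I, ← vol_ball c, ← setLIntegral_const,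
        ← lintegral_add_left (by fun_prop)]
      refine lintegral_mono fun y => ?_
      dsimp only
      rw [← ENNReal.ofReal_add hb (abs_nonneg _)]
      exact ENNReal.ofReal_le_ofReal (by linarith [le_abs_self (F y - b)])
  have hS : MeasurableSet {p : E × E | p.1 + p.2 ∈ ball c r} :=
    measurableSet_ball.preimage (by fun_prop : Measurable fun p : E × E => p.1 + p.2)
  have e : ∀ w : E, ∫⁻ y in ball c r ∩ {y | y + w ∈ ball c r}, ENNReal.ofReal |F (y + w) - F y| =
      ∫⁻ y in ball c r, {p : E × E | p.1 + p.2 ∈ ball c r}.indicator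
        (fun p => ENNReal.ofReal |F (p.1 + p.2) - F p.1|) (y, w) := by
    intro w
    have hw : MeasurableSet {y : E | y + w ∈ ball c r} :=
      measurableSet_ball.preimage (by fun_prop : Measurable fun y : E => y + w)
    rw [inter_comm, ← Measure.restrict_restrict hw, ← lintegral_indicator hw]
    rfl
  simp only [e]
  rw [← lintegral_lintegral_swap (f := fun y w => {p : E × E | p.1 + p.2 ∈ ball c r}.indicator
    (fun p => ENNReal.ofReal |F (p.1 + p.2) - F p.1|) (y, w))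
    (Measurable.aemeasurable (Measurable.indicator (by fun_prop) hS)), da,
    ← lintegral_mul_const' _ _ (V_ne_top r)]
  refine setLIntegral_mono' measurableSet_ball fun y hy => (pw _ (hF0 y)).trans ?_
  refine le_trans (le_of_eq (setLIntegral_congr_fun measurableSet_ball fun y' hy' => ?_))
    (setLIntegral_add_le _ measurableSet_ball measurableSet_ball (-y) fun y' hy' => ?_)
  · rw [indicator_of_mem (by simpa using hy')]
    simp
  · rw [mem_ball, dist_eq_norm] at hy hy'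
    rw [mem_ball_zero_iff, show y' + -y = (y' - c) - (y - c) by abel]
    linarith [norm_sub_le (y' - c) (y - c)]

lemma tl_num {K r h l : ℝ} (hK8 : 8 ≤ K) (hr : 0 < r) (hhK : h ≤ K * r) (hrl : r / 2 ≤ l)
    (hlh : l ≤ h) : ∃ (M n : ℕ) (t0 τ : ℝ), (1 : ℝ) ≤ M ∧ M * t0 = l ∧ 0 < t0 ∧ t0 ≤ r ∧
      h ≤ n * t0 ∧ n * t0 ≤ h + r ∧ (n : ℝ) ≤ 2 * K + 1 ∧ M ≤ n ∧ 0 < τ ∧ 4 * (K + 1) * τ = r ∧
      τ ≤ r ∧ n * τ ≤ r ∧ M * τ ≤ r / 4 := by
  have hl : 0 < l := by linarith
  obtain ⟨M, t0, hM1, hM2, hMt, ht1, ht2⟩ : ∃ (M : ℕ) (t0 : ℝ), (1 : ℝ) ≤ M ∧ M ≤ K + 1 ∧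
      M * t0 = l ∧ r / 2 ≤ t0 ∧ t0 ≤ r := by
    have k0 : 0 < l / r := by positivity
    have k1 : 1 ≤ ⌈l / r⌉₊ := Nat.ceil_pos.2 k0
    have k1' : (1 : ℝ) ≤ ⌈l / r⌉₊ := by exact_mod_cast k1
    have k2 := Nat.le_ceil (l / r)
    have k3 := Nat.ceil_lt_add_one k0.le
    have k4 : l / r ≤ K := by rw [div_le_iff₀ hr]; linarith
    refine ⟨⌈l / r⌉₊, l / ⌈l / r⌉₊, k1', by linarith, by field_simp, ?_, ?_⟩
    · rw [le_div_iff₀ (by linarith)]
      rcases le_total 1 (l / r) with k | k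
      · have : (⌈l / r⌉₊ : ℝ) ≤ 2 * (l / r) := by linarith
        calc r / 2 * ⌈l / r⌉₊ ≤ r / 2 * (2 * (l / r)) := by gcongr
          _ = l := by field_simp
      · have : ⌈l / r⌉₊ = 1 := le_antisymm (Nat.ceil_le.2 (by simpa using k)) k1
        rw [this]; simpa using hrl
    · rw [div_le_iff₀ (by linarith)]
      rw [div_le_iff₀ hr] at k2
      linarith
  have ht0 : 0 < t0 := by linarith
  obtain ⟨n, hn1, hn2, hn3⟩ : ∃ n : ℕ, h ≤ n * t0 ∧ n * t0 ≤ h + r ∧ (n : ℝ) ≤ 2 * K + 1 := by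
    have k0 : 0 ≤ h / t0 := div_nonneg (by linarith) ht0.le
    have k2 := Nat.le_ceil (h / t0)
    have k3 := Nat.ceil_lt_add_one k0
    refine ⟨⌈h / t0⌉₊, (div_le_iff₀ ht0).1 k2, ?_, ?_⟩
    · calc (⌈h / t0⌉₊ : ℝ) * t0 ≤ (h / t0 + 1) * t0 := by gcongr
        _ = h + t0 := by field_simp
        _ ≤ _ := by linarith
    · have : h / t0 ≤ 2 * K := by rw [div_le_iff₀ ht0]; nlinarith
      linarith
  have hMn : M ≤ n := by
    have : (M : ℝ) * t0 ≤ n * t0 := by linarith
    exact_mod_cast le_of_mul_le_mul_right this ht0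
  obtain ⟨τ, hτ0, hτ⟩ : ∃ τ : ℝ, 0 < τ ∧ 4 * (K + 1) * τ = r :=
    ⟨r / (4 * (K + 1)), by positivity, by field_simp⟩
  have hτr : τ ≤ r := by nlinarith
  have hnτ : n * τ ≤ r := by nlinarith
  have hMτ : M * τ ≤ r / 4 := by nlinarith
  exact ⟨M, n, t0, τ, hM1, hMt, ht0, ht2, hn1, hn2, hn3, hMn, hτ0, hτ, hτr, hnτ, hMτ⟩

lemma tl_one {F : E → ℝ} (hF : Measurable F) (hF0 : ∀ y, 0 ≤ F y) {t : ℝ} {x c e qp qm : E}
    {r h a l t0 τ : ℝ} {m M n : ℕ} (hr : 0 < r) (hxc : dist x c ≤ r) (he : ‖e‖ ≤ 2)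
    (hra : 8 * r ≤ a) (hah : a ≤ h) (hqp : dist (x + h • e) qp ≤ a / 4)
    (hqm : dist (x - h • e) qm ≤ a / 4) (sp : Sp {y | t < F y}ᶜ qp a) (sm : Sp {y | t < F y} qm a)
    (hI : I F c r = ENNReal.ofReal t * V E r)
    (hv : ∀ v, dist v (l • e) ≤ r / 4 → I F (c + v) r ≤ ENNReal.ofReal t * V E r)
    (hMt : M * t0 = l) (ht0 : 0 < t0) (ht2 : t0 ≤ r) (hn1 : h ≤ n * t0) (hn2 : n * t0 ≤ h + r)
    (hnm : n + n ≤ 2 ^ m) (hMn : M ≤ n) (hτr : τ ≤ r) (hnτ : n * τ ≤ r) (hMτ : M * τ ≤ r / 4) :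
    ∫⁻ s in ball (t0 • e) τ, ∫⁻ y in ball c r, ENNReal.ofReal |F (y + (M : ℝ) • s) - F y| ≤
      2 * ((2 * 2 ^ m + 4) * PP F x ((2 ^ m + 4) * h)) := by
  have hp1 : (1 : ℝ) ≤ 2 ^ m := one_le_pow₀ (by norm_num)
  have geo : ∀ y ∈ ball c r, ∀ s ∈ ball (t0 • e) τ,
      ‖y - x‖ + ‖(n : ℝ) • s - h • e‖ < 5 * r := by
    intro y hy s hs
    rw [mem_ball, dist_eq_norm] at hy hs
    rw [dist_eq_norm] at hxc
    have k1 : ‖y - x‖ < 2 * r := by
      rw [show y - x = (y - c) - (x - c) by abel]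
      linarith [norm_sub_le (y - c) (x - c)]
    have k2 : ‖(n * t0 - h) • e‖ ≤ r * 2 := by
      rw [norm_smul, Real.norm_of_nonneg (by linarith)]
      exact mul_le_mul (by linarith) he (norm_nonneg _) hr.le
    have k3 : ‖(n : ℝ) • (s - t0 • e)‖ ≤ r := by
      rw [norm_smul, Real.norm_of_nonneg (Nat.cast_nonneg _)]
      exact (mul_le_mul_of_nonneg_left hs.le (Nat.cast_nonneg _)).trans hnτ
    rw [show (n : ℝ) • s - h • e = (n * t0 - h) • e + (n : ℝ) • (s - t0 • e) by module]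
    linarith [norm_add_le ((n * t0 - h) • e) ((n : ℝ) • (s - t0 • e))]
  have hhe : ‖h • e‖ ≤ h * 2 := by
    rw [norm_smul, Real.norm_of_nonneg (by linarith)]
    exact mul_le_mul_of_nonneg_left he (by linarith)
  have hA : 4 * h ≤ (2 ^ m + 4) * h := by nlinarith
  have s1 := NI hF t m (M := M) (j := n) (n := n) hMn hnm
    (U := ball c r) (W := ball (t0 • e) τ) (Pm := ball qm a) (Pp := ball qp a)
    measurableSet_ball measurableSet_ball measurableSet_ball measurableSet_ball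
    (fun y hy s hs => by
      have := geo y hy s hs
      rw [dist_eq_norm] at hqm
      rw [mem_ball, dist_eq_norm, show y - (n : ℝ) • s - qm =
        (y - x) - ((n : ℝ) • s - h • e) + (x - h • e - qm) by abel]
      linarith [norm_add_le ((y - x) - ((n : ℝ) • s - h • e)) (x - h • e - qm),
        norm_sub_le (y - x) ((n : ℝ) • s - h • e)])
    (fun y hy s hs => by
      have := geo y hy s hs
      rw [dist_eq_norm] at hqp
      rw [mem_ball, dist_eq_norm, show y + (n : ℝ) • s - qp =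
        (y - x) + ((n : ℝ) • s - h • e) + (x + h • e - qp) by abel]
      linarith [norm_add_le ((y - x) + ((n : ℝ) • s - h • e)) (x + h • e - qp),
        norm_add_le (y - x) ((n : ℝ) • s - h • e)])
    (z := x) (ρ := 2 * r) (τ := 3 * r) (R := (2 ^ m + 4) * h) (by linarith) (by linarith)
    (ball_subset_ball' (by rw [dist_comm]; linarith))
    (ball_subset_ball' (by
      rw [dist_zero_right, norm_smul, Real.norm_of_nonneg ht0.le]
      nlinarith [norm_nonneg e]))
    (by nlinarith)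
  have ha0 : 0 < a := by linarith
  have s2 := S1hi hF t (w := qm) (u := 0) (z := x) (ρ := a) (a := a) (R := (2 ^ m + 4) * h) ha0
    (by rw [add_zero, ← two_mul]; exact sm) (by rw [sub_zero, ← two_mul]; exact sm)
    (by
      have := dist_triangle qm (x - h • e) x
      rw [dist_comm qm (x - h • e), dist_eq_norm (x - h • e) x, sub_sub_cancel_left,
        norm_neg] at this
      linarith) (by rw [norm_zero]; linarith)
  have s3 := S1lo hF t (w := qp) (u := 0) (z := x) (ρ := a) (a := a) (R := (2 ^ m + 4) * h) ha0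
    (by rw [add_zero, ← two_mul]; exact sp) (by rw [sub_zero, ← two_mul]; exact sp)
    (by
      have := dist_triangle qp (x + h • e) x
      rw [dist_comm qp (x + h • e), dist_eq_norm (x + h • e) x, add_sub_cancel_left] at this
      linarith) (by rw [norm_zero]; linarith)
  generalize PP F x ((2 ^ m + 4) * h) = X at *
  refine le_trans (setLIntegral_mono' measurableSet_ball fun s hs => tl_two hF hF0
    (by rw [hI]; exact ENNReal.mul_ne_top ENNReal.ofReal_ne_top (V_ne_top r))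
    (by
      rw [hI]
      refine hv _ ?_
      rw [mem_ball, dist_eq_norm] at hs
      rw [dist_eq_norm, ← hMt, mul_smul, ← smul_sub, norm_smul,
        Real.norm_of_nonneg (Nat.cast_nonneg _)]
      exact (mul_le_mul_of_nonneg_left hs.le (Nat.cast_nonneg _)).trans hMτ)) ?_
  rw [lintegral_const_mul' _ _ ENNReal.ofNat_ne_top]
  refine mul_le_mul_right (s1.trans ?_) _
  have : V E τ ≤ V E a := V_mono (by linarith)
  rw [vol_ball]
  calc _ ≤ 2 * 2 ^ m * X + V E a * (du F t (ball qm a) + dv F t (ball qp a)) := by gcongr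
    _ = 2 * 2 ^ m * X + (du F t (ball qm a) * V E a + dv F t (ball qp a) * V E a) := by ring
    _ ≤ 2 * 2 ^ m * X + (2 * X + 2 * X) := by gcongr
    _ = _ := by ring

/-- the translation lemma -/
theorem TLg (L : ℝ) : ∃ (A : ℝ) (C : ℝ≥0∞), 0 < A ∧ C ≠ ⊤ ∧ ∀ (F : E → ℝ), Measurable F →
    (∀ y, 0 ≤ F y) → ∀ (t : ℝ) (x c e qp qm : E) (r h a l : ℝ), 0 ≤ t → 0 < r → dist x c ≤ r →
    ‖e‖ ≤ 2 → h ≤ L * r → 8 * r ≤ a → a ≤ h → r / 2 ≤ l → l ≤ h →
    dist (x + h • e) qp ≤ a / 4 → dist (x - h • e) qm ≤ a / 4 →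
    Sp {y | t < F y}ᶜ qp a → Sp {y | t < F y} qm a →
    I F c r = ENNReal.ofReal t * V E r →
    (∀ v, dist v (l • e) ≤ r / 4 → I F (c + v) r ≤ ENNReal.ofReal t * V E r) →
    da F t (ball c r) * V E h ≤ C * PP F x (A * h) := by
  obtain ⟨K, hK, hK8⟩ : ∃ K : ℝ, L ≤ K ∧ 8 ≤ K := ⟨max L 8, le_max_left _ _, le_max_right _ _⟩
  obtain ⟨m, hm⟩ : ∃ m : ℕ, 4 * K + 2 < 2 ^ m := pow_unbounded_of_one_lt _ one_lt_two
  obtain ⟨N, hN⟩ : ∃ N : ℕ, 16 * (K + 1) ≤ N := exists_nat_ge _
  obtain ⟨C1, c1, -, hC1⟩ := exists_V_le (E := E) (K * (8 * (K + 1)))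
  obtain ⟨C2, c2, -, hC2⟩ := exists_V_le (E := E) 2
  refine ⟨2 ^ m + 4, C1 * C2 * (N * (2 * (2 * (2 * 2 ^ m + 4)))), by positivity, by finiteness,
    fun F hF hF0 t x c e qp qm r h a l ht hr hxc he hhL hra hah hrl hlh hqp hqm sp sm hI hv => ?_⟩
  have hhK : h ≤ K * r := hhL.trans (by gcongr)
  obtain ⟨M, n, t0, τ, hM1, hMt, ht0, ht2, hn1, hn2, hn3, hMn, hτ0, hτ, hτr, hnτ, hMτ⟩ :=
    tl_num hK8 hr hhK hrl hlh
  have s4 := tl_one hF hF0 hr hxc he hra hah hqp hqm sp sm hI hv hMt ht0 ht2 hn1 hn2 (m := m)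
    (by exact_mod_cast (by push_cast; linarith : ((n + n : ℕ) : ℝ) ≤ ((2 ^ m : ℕ) : ℝ)))
    hMn hτr hnτ hMτ
  generalize PP F x ((2 ^ m + 4) * h) = X at *
  have hN0 : (0 : ℝ) < N := by linarith
  have s5 : ∀ w ∈ ball (0 : E) (2 * r), V E (τ / 2) *
      ∫⁻ y in ball c r ∩ {y | y + w ∈ ball c r}, ENNReal.ofReal |F (y + w) - F y| ≤
      N * (2 * (2 * ((2 * 2 ^ m + 4) * X))) := by
    intro w hw
    have k1 := tl_four hF c r ((M : ℝ) • ((N * M : ℝ)⁻¹ • w)) N
    have k2 := tl_three hF (measurableSet_ball (x := c) (ε := r)) (t0 • e) ((N * M : ℝ)⁻¹ • w) M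
      (τ := τ) (by
        rw [mem_ball_zero_iff] at hw
        rw [norm_smul, Real.norm_of_nonneg (by positivity), inv_mul_le_iff₀ (by positivity)]
        have : 16 * (K + 1) * 1 * (τ / 2) ≤ N * M * (τ / 2) := by gcongr
        linarith)
    have k3 : (N : ℝ) • (M : ℝ) • (N * M : ℝ)⁻¹ • w = w := by
      rw [smul_smul, smul_smul, mul_inv_cancel₀ (by positivity), one_smul]
    rw [k3] at k1
    calc _ ≤ V E (τ / 2) * (N * _) := mul_le_mul_right k1 _
      _ = N * (V E (τ / 2) * _) := mul_left_comm _ _ _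
      _ ≤ _ := mul_le_mul_right (k2.trans (mul_le_mul_right s4 _)) _
  have s6 : V E (τ / 2) * (da F t (ball c r) * V E r) ≤
      N * (2 * (2 * ((2 * 2 ^ m + 4) * X))) * V E (2 * r) := by
    refine (mul_le_mul_right (tl_five hF hF0 ht hI) _).trans ?_
    rw [← lintegral_const_mul' _ _ (V_ne_top _), ← vol_ball (0 : E) (2 * r), ← setLIntegral_const]
    exact setLIntegral_mono' measurableSet_ball s5
  have v1 := hC1 (τ / 2) h (by linarith) (by nlinarith)
  have v2 := hC2 r (2 * r) hr.le le_rfl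
  refine (ENNReal.mul_le_mul_iff_left (V_ne_zero (E := E) hr) (V_ne_top r)).1 ?_
  calc _ ≤ da F t (ball c r) * (C1 * V E (τ / 2)) * V E r := by gcongr
    _ = C1 * (V E (τ / 2) * (da F t (ball c r) * V E r)) := by ring
    _ ≤ C1 * (N * (2 * (2 * ((2 * 2 ^ m + 4) * X))) * (C2 * V E r)) :=
        mul_le_mul_right (s6.trans (mul_le_mul_right v2 _)) _
    _ = _ := by ring

end Vale.Agent.P137
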