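import Vale.Agent.P137.Good
import Vale.Agent.P137.TL

namespace Vale.Agent.P137

open MeasureTheory Metric Set Filter Topology
open scoped ENNReal RealInnerProductSpace

variable {E : Type*} [NormedAddCommGroup E] [InnerProductSpace ℝ E] [FiniteDimensional ℝ E]
  [MeasurableSpace E] [BorelSpace E]

lemma cl_window {x c ω : E} {r ρ : ℝ} (hr : 0 < r) (hx : dist x c = r)
    (hω : dist (x + r • ω) c ≤ r / 2) (h0 : 0 ≤ ρ) (h1 : ρ ≤ r) : dist (x + ρ • ω) c ≤ r := by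
  have h := (convex_closedBall c r).add_smul_mem (x := x) (y := r • ω) (mem_closedBall.2 hx.le)
    (mem_closedBall.2 (by linarith)) (t := ρ / r) ⟨by positivity, (div_le_one hr).2 h1⟩
  rw [smul_smul, div_mul_cancel₀ _ hr.ne'] at h
  exact mem_closedBall.1 h

lemma cl_g_le {F g : E → ℝ} {η : ℝ} (hg0 : ∀ y, 0 ≤ g y) (hH : H1 F g η) {x c z : E} {r : ℝ}
    (hr : 0 < r) (hηr : η ≤ r) (hI : I F c r = ENNReal.ofReal (g x) * V E r) (hz : dist z c ≤ r) :
    g x ≤ g z := by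
  have h := hH z c r hηr hz
  rw [hI, ENNReal.mul_le_mul_iff_left (V_ne_zero hr) (V_ne_top r)] at h
  exact (ENNReal.ofReal_le_ofReal_iff (hg0 z)).1 h

lemma cl_I_le {F g : E → ℝ} {η t : ℝ} (hH : H1 F g η) {c z : E} {r : ℝ} (hηr : η ≤ r)
    (hz : dist z c ≤ r) (ht : g z ≤ t) : I F c r ≤ ENNReal.ofReal t * V E r :=
  (hH z c r hηr hz).trans (by gcongr)

/-- full balls on both sides of a point where the means are at most `t` -/
lemma cl_FL {F g : E → ℝ} (hF : Measurable F) (hF0 : ∀ y, 0 ≤ F y) {η t : ℝ} (ht : 0 ≤ t)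
    (hH : H1 F g η) {z u x : E} {s R : ℝ} (hs : 0 < s) (hηs : η ≤ s) (hz : g z ≤ t)
    (h1 : Sp {y | t < F y}ᶜ (z + u) s) (h2 : Sp {y | t < F y}ᶜ (z - u) s)
    (hw : dist z x + s ≤ R) (hu : ‖u‖ + s ≤ R) :
    da F t (ball z s) * V E s ≤ 4 * PP F x R := by
  have hI : I F z s ≤ ENNReal.ofReal t * V E s := cl_I_le hH hηs (by simpa using hs.le) hz
  have h3 := S1lo hF t (w := z) (u := u) (z := x) (ρ := s) (a := s) (R := R) hs
    (by rw [← two_mul]; exact h1) (by rw [← two_mul]; exact h2) hw hu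
  calc da F t (ball z s) * V E s ≤ 2 * dv F t (ball z s) * V E s := by
        gcongr; exact da_le_dv hF hF0 ht hI
    _ = 2 * (dv F t (ball z s) * V E s) := by ring
    _ ≤ 2 * (2 * PP F x R) := by gcongr
    _ = 4 * PP F x R := by ring

lemma cl_cancel {X P : ℝ≥0∞} {a a0 : ℝ} (ha0 : 0 < a0) (haa : a ≤ a0)
    (h1 : X * V E a0 ≤ 2 * P) (h2 : 8 * P ≤ V E a ^ 2) : 4 * X ≤ V E a := by
  have : 4 * X * V E a0 ≤ V E a * V E a0 := by
    calc 4 * X * V E a0 = 4 * (X * V E a0) := by ring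
      _ ≤ 4 * (2 * P) := by gcongr
      _ = 8 * P := by ring
      _ ≤ V E a ^ 2 := h2
      _ = V E a * V E a := sq _
      _ ≤ V E a * V E a0 := by gcongr; exact V_mono haa
  exact (ENNReal.mul_le_mul_iff_left (V_ne_zero ha0) (V_ne_top a0)).1 this

lemma cl_not_half {S : Set E} {w : E} {a : ℝ} (ha : 0 < a)
    (h1 : 2 * volume (S ∩ ball w a) ≤ V E a) (h2 : Sp Sᶜ w a) : False := by
  have h3 : 4 * volume (Sᶜ ∩ ball w a) ≤ V E a :=
    le_trans (by gcongr; linarith) h2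
  have h4 : V E a ≤ volume (S ∩ ball w a) + volume (Sᶜ ∩ ball w a) := by
    rw [← vol_ball w a]
    refine le_trans (measure_mono ?_) (measure_union_le _ _)
    intro y hy
    by_cases h : y ∈ S
    · exact Or.inl ⟨h, hy⟩
    · exact Or.inr ⟨h, hy⟩
  have h5 : 4 * V E a ≤ 3 * V E a := by
    calc 4 * V E a ≤ 4 * (volume (S ∩ ball w a) + volume (Sᶜ ∩ ball w a)) := by gcongr
      _ = 2 * (2 * volume (S ∩ ball w a)) + 4 * volume (Sᶜ ∩ ball w a) := by ring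
      _ ≤ 2 * V E a + V E a := by gcongr
      _ = 3 * V E a := by ring
  rw [ENNReal.mul_le_mul_iff_left (V_ne_zero ha) (V_ne_top a)] at h5
  norm_num at h5

lemma cl_start {F g : E → ℝ} (hF : Measurable F) {Bad : Set E} {η η' A q h : ℝ} {x u ω : E}
    (hq0 : 0 < q) (hq1 : q ≤ 1 / 2) (hh : 0 < h) (hA : 44 / q ≤ A) (hHG : HG F g Bad η η' A)
    (h1 : η ≤ q * (h / 4)) (h2 : q * (h / 4) ≤ A * η') (hu : ‖u‖ ≤ 2 * h)
    (hωu : ‖h • ω - u‖ ≤ q * h / 8)
    (hp : Sp {y | g x < F y}ᶜ (x + u) (q * (h / 4))) (hm : Sp {y | g x < F y} (x - u) (q * (h / 4)))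
    (hM : 8 * PP (lev F (g x)) x (A * h) ≤ V E (q ^ 2 / 32 / 16 * h) ^ 2) :
    Start F Bad (q ^ 2 / 32) x (g x) ω h := by
  have ha0 : 0 < q * (h / 4) := by positivity
  have hA88 : 88 ≤ A := by
    refine le_trans ?_ hA
    rw [le_div_iff₀ hq0]; linarith
  have hAq : 44 ≤ A * q := by rwa [div_le_iff₀ hq0] at hA
  have hqh : q * h ≤ h / 2 := by nlinarith
  have hqq : q ^ 2 * h ≤ q * h / 2 := by nlinarith [mul_pos hq0 hh]
  have hqh0 : 0 < q * h := mul_pos hq0 hh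
  have hAh : 88 * h ≤ A * h := by nlinarith
  have haa : q ^ 2 / 32 / 16 * h ≤ q * (h / 4) := by nlinarith
  refine ⟨?_, ?_, ?_⟩
  · have h3 := UPhi hF (g x) (w := x - u) (z := x) (ρ := q * (h / 4)) (a := q * (h / 4))
      (R := A * h) ha0 (by rw [← two_mul]; exact hm)
      (by rw [dist_eq_norm, sub_sub_cancel_left, norm_neg]; linarith) (by linarith)
    refine le_trans ?_ (cl_cancel ha0 haa h3 hM)
    gcongr
    refine ball_subset_ball' ?_
    rw [dist_eq_norm, show x - h • ω - (x - u) = -(h • ω - u) by abel, norm_neg]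
    nlinarith
  · have h3 := UPlo hF (g x) (w := x + u) (z := x) (ρ := q * (h / 4)) (a := q * (h / 4))
      (R := A * h) ha0 (by rw [← two_mul]; exact hp)
      (by rw [dist_eq_norm, add_sub_cancel_left]; linarith) (by linarith)
    refine le_trans ?_ (cl_cancel ha0 haa h3 hM)
    gcongr
    refine ball_subset_ball' ?_
    rw [dist_eq_norm, show x + h • ω - (x + u) = h • ω - u by abel]
    nlinarith
  · intro y0 hy0
    by_contra hB
    rw [mem_ball, dist_comm] at hy0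
    have hAa : 11 * h ≤ A * (q * (h / 4)) := by nlinarith
    refine cl_not_half ha0 (hHG y0 hB x (x + u) _ h1 h2 (by linarith) ?_) hp
    have : dist (x + u) y0 ≤ dist (x + u) x + dist x y0 := dist_triangle _ _ _
    rw [dist_eq_norm (x + u) x, add_sub_cancel_left] at this
    linarith

lemma cl_shift {x c ω v : E} {r ρ : ℝ} (hr : 0 < r) (hx : dist x c = r)
    (hω : dist (x + r • ω) c ≤ r / 2) (hv : dist v ((ρ - r / 2) • ω) ≤ r / 4) :
    dist (x + ρ • ω) (c + v) ≤ r := by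
  have e : x + ρ • ω - (c + v) =
      (1 / 2 : ℝ) • (x - c) + (1 / 2 : ℝ) • (x + r • ω - c) - (v - (ρ - r / 2) • ω) := by
    module
  rw [dist_eq_norm] at *
  rw [e]
  refine (norm_sub_le _ _).trans ?_
  have := norm_add_le ((1 / 2 : ℝ) • (x - c)) ((1 / 2 : ℝ) • (x + r • ω - c))
  rw [norm_smul, norm_smul, Real.norm_of_nonneg (by norm_num)] at this
  linarith

set_option maxHeartbeats 3000000 in
/-- pointwise classification of boundary points of optimal balls -/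
theorem classify [Nontrivial E] : ∃ (A b K : ℝ) (C : ℝ≥0∞) (Net : Finset E), 3 ≤ A ∧ 0 < b ∧
    b ≤ 1 ∧ C ≠ ⊤ ∧ (∀ ω ∈ Net, ω ≠ 0 ∧ ‖ω‖ ≤ 2) ∧
    ∀ (F g : E → ℝ) (Bad : Set E) (η η' : ℝ) (J : ℕ) (x c : E) (r : ℝ), Measurable F →
    (∀ y, 0 ≤ F y) → (∀ y, 0 ≤ g y) → 0 < η → K * η' ≤ 2 ^ J * η → H1 F g η →
    HG F g Bad η η' A → η ≤ r → r ≤ η' → dist x c = r →
    I F c r = ENNReal.ofReal (g x) * V E r →
    ∃ ω ∈ Net, dist (x + r • ω) c ≤ r / 2 ∧ ∃ k ≤ J,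
      (∀ ρ ∈ Icc (0 : ℝ) (b / 16 * (2 ^ k * η)), g x ≤ g (x + ρ • ω)) ∧
      (V E (b / 16 * (2 ^ k * η)) ^ 2 ≤ 8 * PP (lev F (g x)) x (A * (2 ^ k * η)) ∨
       (∃ (q : E) (ρ : ℝ), b / 16 * (2 ^ k * η) ≤ ρ ∧ dist q x + ρ ≤ A * (2 ^ k * η) ∧
          da F (g x) (ball q ρ) * V E (2 ^ k * η) ≤ C * PP F x (A * (2 ^ k * η))) ∨
       (∃ ω' ∈ Net, ∃ i, i + 1 ≤ k ∧ Start F Bad b x (g x) ω' (2 ^ i * η) ∧
          (k = J ∨ Stop F b x (g x) ω' (2 ^ i * η) (2 ^ k * η)))) := by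
  classical
  obtain ⟨q, hq0, hq1, hG⟩ := GPt (E := E)
  obtain ⟨AT, CT, hAT, hCT, hTL⟩ := TLg (E := E) (128 / q)
  obtain ⟨Cv, hCv, -, hV⟩ := exists_V_le (E := E) (64 / q)
  obtain ⟨N0, hN0sub, hN0fin, hN0cov⟩ := finite_cover_balls_of_compact
    (isCompact_closedBall (0 : E) 2) (show 0 < q ^ 2 / 512 by positivity)
  have hqq : q ^ 2 ≤ q / 2 := by first | linarith | nlinarith
  have hA44 : 44 / q ≤ max AT (44 / q) := le_max_right _ _
  have hA88 : 88 ≤ max AT (44 / q) := by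
    refine le_trans ?_ hA44
    rw [le_div_iff₀ hq0]; linarith
  have hATA : AT ≤ max AT (44 / q) := le_max_left _ _
  generalize max AT (44 / q) = A at hA44 hA88 hATA
  have hnet : ∀ v : E, ‖v‖ ≤ 2 → 1 / 4 ≤ ‖v‖ →
      ∃ ω ∈ hN0fin.toFinset.filter (· ≠ 0), ‖ω - v‖ ≤ q ^ 2 / 512 := by
    intro v h1 h2
    obtain ⟨ω, hω, hv⟩ := mem_iUnion₂.1 (hN0cov (mem_closedBall_zero_iff.2 h1))
    rw [mem_ball, dist_eq_norm] at hv
    refine ⟨ω, ?_, by rw [norm_sub_rev]; exact hv.le⟩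
    simp only [Finset.mem_filter, Finite.mem_toFinset]
    refine ⟨hω, ?_⟩
    rintro rfl
    rw [sub_zero] at hv
    linarith
  refine ⟨A, q ^ 2 / 32, 256 / q, 4 * Cv + CT, hN0fin.toFinset.filter (· ≠ 0), by linarith,
    by positivity, by linarith, by finiteness, ?_, ?_⟩
  · intro ω hω
    simp only [Finset.mem_filter, Finite.mem_toFinset] at hω
    exact ⟨hω.2, mem_closedBall_zero_iff.1 (hN0sub hω.1)⟩
  intro F g Bad η η' J x c r hF hF0 hg0 hη hJ hH hHG hηr hrη hxc hI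
  have hr : 0 < r := hη.trans_le hηr
  -- the initial scale
  obtain ⟨i, hi1, hi2⟩ := exists_nat_pow_near (x := 128 / q * r / η) (y := 2)
    (by
      rw [le_div_iff₀ hη, one_mul]
      have : 1 ≤ 128 / q := by rw [le_div_iff₀ hq0]; linarith
      first | linarith | nlinarith) one_lt_two
  rw [le_div_iff₀ hη] at hi1
  rw [div_lt_iff₀ hη, pow_succ] at hi2
  have hiJ : i + 1 ≤ J := by
    have h1 : 128 / q * r ≤ 128 / q * η' := by gcongr
    have h2 : 0 < 128 / q * η' := by have := hr.trans_le hrη; positivity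
    have h3 : 256 / q * η' = 2 * (128 / q * η') := by ring
    have h4 : (2 : ℝ) ^ i * η < 2 ^ J * η := by linarith
    have h5 := lt_of_mul_lt_mul_right h4 hη.le
    exact (pow_lt_pow_iff_right₀ one_lt_two).1 h5
  have hpow : ∀ k, i + 1 ≤ k → 2 * (2 ^ i * η) ≤ (2 : ℝ) ^ k * η := by
    intro k hk
    have : (2 : ℝ) ^ (i + 1) ≤ 2 ^ k := pow_le_pow_right₀ one_le_two hk
    rw [pow_succ] at this
    first | linarith | nlinarith
  have hhL : 2 ^ i * η ≤ 128 / q * r := hi1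
  have hqh1 : q * (2 ^ i * η) ≤ 128 * r := by
    have := mul_le_mul_of_nonneg_left hi1 hq0.le
    rwa [← mul_assoc q (128 / q), mul_div_cancel₀ _ hq0.ne'] at this
  have hqh2 : 64 * r ≤ q * (2 ^ i * η) := by
    have := mul_le_mul_of_nonneg_left hi2.le hq0.le
    rw [← mul_assoc q (128 / q), mul_div_cancel₀ _ hq0.ne'] at this
    linarith
  have hh : (0 : ℝ) < 2 ^ i * η := by positivity
  obtain ⟨h, hhdef⟩ : ∃ h : ℝ, h = 2 ^ i * η := ⟨_, rfl⟩
  rw [← hhdef] at hh hqh1 hqh2 hhL hpow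
  have hqh0 : 0 < q * h := mul_pos hq0 hh
  have hqh3 : q * h ≤ h / 2 := by first | linarith | nlinarith
  have hqh4 : q ^ 2 * h ≤ q * h / 2 := by first | linarith | nlinarith
  have hAh : 88 * h ≤ A * h := by first | linarith | nlinarith
  have hrh : r ≤ h := by linarith
  -- the inner normal
  obtain ⟨ν, hν1, hcν⟩ : ∃ ν : E, ‖ν‖ = 1 ∧ c = x + r • ν := by
    refine ⟨r⁻¹ • (c - x), ?_, ?_⟩
    · rw [norm_smul, ← dist_eq_norm, dist_comm, hxc, norm_inv, Real.norm_of_nonneg hr.le,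
        inv_mul_cancel₀ hr.ne']
    · rw [smul_smul, mul_inv_cancel₀ hr.ne', one_smul]; abel
  have hdist : ∀ ω : E, ‖ω - ν‖ ≤ 1 / 2 → dist (x + r • ω) c ≤ r / 2 := by
    intro ω hω
    rw [hcν, dist_eq_norm, show x + r • ω - (x + r • ν) = r • (ω - ν) by module, norm_smul,
      Real.norm_of_nonneg hr.le]
    first | linarith | nlinarith
  have hwin : ∀ ω : E, ‖ω - ν‖ ≤ 1 / 2 → ∀ ρ ∈ Icc (0 : ℝ) r, g x ≤ g (x + ρ • ω) :=
    fun ω hω ρ hρ => cl_g_le hg0 hH hr hηr hI (cl_window hr hxc (hdist ω hω) hρ.1 hρ.2)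
  have har : q ^ 2 / 32 / 16 * h ≤ r := by first | linarith | nlinarith
  have hwin0 : ∀ ω : E, ‖ω - ν‖ ≤ 1 / 2 →
      ∀ ρ ∈ Icc (0 : ℝ) (q ^ 2 / 32 / 16 * (2 ^ i * η)), g x ≤ g (x + ρ • ω) := by
    intro ω hω ρ hρ
    rw [← hhdef] at hρ
    exact hwin ω hω ρ ⟨hρ.1, hρ.2.trans har⟩
  by_cases hM : V E (q ^ 2 / 32 / 16 * h) ^ 2 ≤ 8 * PP (lev F (g x)) x (A * h)
  · obtain ⟨ω, hωN, hω⟩ := hnet ν (by linarith) (by linarith)
    have hω' : ‖ω - ν‖ ≤ 1 / 2 := by linarith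
    exact ⟨ω, hωN, hdist ω hω', i, by omega, hwin0 ω hω', Or.inl (hhdef ▸ hM)⟩
  replace hM := (not_le.1 hM).le
  have hmono : ∀ {P : ℝ≥0∞} {s s' : ℝ}, 8 * P ≤ V E s ^ 2 → s ≤ s' → P ≤ V E s' ^ 2 := by
    intro P s s' h1 h2
    calc P = 1 * P := (one_mul _).symm
      _ ≤ 8 * P := by gcongr; norm_num
      _ ≤ V E s ^ 2 := h1
      _ ≤ V E s' ^ 2 := by gcongr; exact V_mono h2
  have hnν : ‖h • ν‖ = h := by rw [norm_smul, hν1, mul_one, Real.norm_of_nonneg hh.le]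
  obtain ⟨u, hu, hup, hum⟩ := (hG F hF (g x) x (A * h)).1 x (h • ν) (h / 4) (by positivity)
    (by rw [dist_eq_norm, add_sub_cancel_left, hnν]; linarith)
    (by rw [dist_eq_norm, sub_sub_cancel_left, norm_neg, hnν]; linarith)
    (hmono hM (by first | linarith | nlinarith))
  rw [mem_ball, dist_eq_norm] at hu
  have hun : ‖u‖ ≤ 5 / 4 * h := by
    have := norm_add_le (u - h • ν) (h • ν)
    rw [sub_add_cancel, hnν] at this
    linarith
  have hu' : ‖h⁻¹ • u - ν‖ ≤ 1 / 4 := by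
    rw [show h⁻¹ • u - ν = h⁻¹ • (u - h • ν) by
      rw [smul_sub, smul_smul, inv_mul_cancel₀ hh.ne', one_smul], norm_smul, norm_inv,
      Real.norm_of_nonneg hh.le, inv_mul_le_iff₀ hh]
    linarith
  obtain ⟨ω, hωN, hω⟩ := hnet (h⁻¹ • u)
    (by have := norm_add_le (h⁻¹ • u - ν) ν; rw [sub_add_cancel] at this; linarith)
    (by have := norm_sub_norm_le ν (h⁻¹ • u); rw [norm_sub_rev] at this; linarith)
  have hων : ‖ω - ν‖ ≤ 1 / 2 := by
    have := norm_add_le (ω - h⁻¹ • u) (h⁻¹ • u - ν)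
    rw [sub_add_sub_cancel] at this
    linarith
  have hωn : ‖ω‖ ≤ 3 / 2 := by
    have := norm_add_le (ω - ν) ν; rw [sub_add_cancel] at this; linarith
  have hωn' : 1 / 2 ≤ ‖ω‖ := by
    have := norm_sub_norm_le ν ω; rw [norm_sub_rev] at this; linarith
  have hωu : ‖h • ω - u‖ ≤ q ^ 2 / 512 * h := by
    rw [show h • ω - u = h • (ω - h⁻¹ • u) by
      rw [smul_sub, smul_smul, mul_inv_cancel₀ hh.ne', one_smul], norm_smul,
      Real.norm_of_nonneg hh.le, mul_comm]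
    gcongr
  have ha0 : 0 < q * (h / 4) := by positivity
  have hηa0 : η ≤ q * (h / 4) := by linarith
  have hVh : ∀ {s k : ℝ}, 0 < s → q * k ≤ 64 * s → V E k ≤ Cv * V E s := by
    intro s k hs hk
    refine hV s k hs.le ?_
    rw [div_mul_eq_mul_div, le_div_iff₀ hq0]; linarith
  have hfin : ∀ {D P : ℝ≥0∞} {s k : ℝ}, 0 < s → q * k ≤ 64 * s → D * V E s ≤ 4 * P →
      D * V E k ≤ (4 * Cv + CT) * P := by
    intro D P s k hs hk h1
    calc D * V E k ≤ D * (Cv * V E s) := by gcongr; exact hVh hs hk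
      _ = Cv * (D * V E s) := by ring
      _ ≤ Cv * (4 * P) := by gcongr
      _ = 4 * Cv * P := by ring
      _ ≤ (4 * Cv + CT) * P := by gcongr; exact le_self_add
  have hq64 : q * h ≤ 64 * (q * (h / 4)) := by first | linarith | nlinarith
  have hcx : dist c x + r ≤ A * h := by rw [dist_comm, hxc]; linarith
  -- the translation lemma in both directions
  have hTL' : ∀ (e qp qm : E) (l : ℝ), ‖e‖ ≤ 2 → r / 2 ≤ l → l ≤ h →
      dist (x + h • e) qp ≤ q * (h / 4) / 4 → dist (x - h • e) qm ≤ q * (h / 4) / 4 →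
      Sp {y | g x < F y}ᶜ qp (q * (h / 4)) → Sp {y | g x < F y} qm (q * (h / 4)) →
      (∀ v, dist v (l • e) ≤ r / 4 → I F (c + v) r ≤ ENNReal.ofReal (g x) * V E r) →
      da F (g x) (ball c r) * V E h ≤ (4 * Cv + CT) * PP F x (A * h) := by
    intro e qp qm l h1 h2 h3 h4 h5 h6 h7 h8
    refine (hTL F hF hF0 (g x) x c e qp qm r h (q * (h / 4)) l (hg0 x) hr hxc.le h1 hhL
      (by linarith) (by linarith) h2 h3 h4 h5 h6 h7 hI h8).trans ?_
    gcongr
    · exact le_add_self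
    · exact PP_mono F (by rw [dist_self, zero_add]; gcongr)
  have hd1 : dist (x + h • ω) (x + u) ≤ q * (h / 4) / 4 := by
    rw [dist_eq_norm, show x + h • ω - (x + u) = h • ω - u by abel]; first | linarith | nlinarith
  have hd2 : dist (x - h • ω) (x - u) ≤ q * (h / 4) / 4 := by
    rw [dist_eq_norm, show x - h • ω - (x - u) = -(h • ω - u) by abel, norm_neg]; first | linarith | nlinarith
  refine ⟨ω, hωN, hdist ω hων, ?_⟩
  rcases hup with hup | hup <;> rcases hum with hum | hum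
  · -- empty on both sides
    refine ⟨i, by omega, hwin0 ω hων, Or.inr (Or.inl ⟨c, r, hhdef ▸ har, hhdef ▸ hcx, ?_⟩)⟩
    rw [← hhdef]
    refine hfin ha0 hq64 ?_
    have h3 := S1hi hF (g x) (w := x) (u := u) (z := x) (ρ := q * (h / 4)) (a := q * (h / 4))
      (R := A * h) ha0 (by rw [← two_mul]; exact hup) (by rw [← two_mul]; exact hum)
      (by rw [dist_self]; linarith) (by linarith)
    have h4 : du F (g x) (ball c r) ≤ du F (g x) (ball x (q * (h / 4))) :=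
      lintegral_mono_set (ball_subset_ball' (by rw [dist_comm, hxc]; linarith))
    calc da F (g x) (ball c r) * V E (q * (h / 4))
        ≤ 2 * du F (g x) (ball x (q * (h / 4))) * V E (q * (h / 4)) := by
          gcongr; exact (da_le_du hF hF0 (hg0 x) hI).trans (by gcongr)
      _ = 2 * (du F (g x) (ball x (q * (h / 4))) * V E (q * (h / 4))) := by ring
      _ ≤ 2 * (2 * PP F x (A * h)) := by gcongr
      _ = 4 * PP F x (A * h) := by ring
  · -- empty ahead, full behind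
    refine ⟨i, by omega, hwin0 ω hων, Or.inr (Or.inl ⟨c, r, hhdef ▸ har, hhdef ▸ hcx, ?_⟩)⟩
    rw [← hhdef]
    refine hTL' (-ω) (x - u) (x + u) (r / 2) (by rw [norm_neg]; linarith) le_rfl (by linarith)
      (by rw [smul_neg, ← sub_eq_add_neg]; exact hd2) (by rw [smul_neg, sub_neg_eq_add]; exact hd1)
      hum hup fun v hv => cl_I_le hH hηr (z := x) ?_ le_rfl
    have := cl_shift (ρ := 0) (v := v) hr hxc (hdist ω hων)
      (by rw [zero_sub, neg_smul, ← smul_neg]; exact hv)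
    rwa [zero_smul, add_zero] at this
  swap
  · -- full on both sides
    refine ⟨i, by omega, hwin0 ω hων, Or.inr (Or.inl ⟨x, q * (h / 4), ?_, ?_, ?_⟩)⟩ <;>
      rw [← hhdef]
    · first | linarith | nlinarith
    · rw [dist_self]; linarith
    · exact hfin ha0 hq64 (cl_FL hF hF0 (hg0 x) hH ha0 hηa0 le_rfl hup hum
        (by rw [dist_self]; linarith) (by linarith))
  -- full ahead, empty behind
  by_cases hex : ∃ ρ ∈ Icc (0 : ℝ) h, g (x + ρ • ω) < g x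
  · obtain ⟨ρ, hρ, hρg⟩ := hex
    have hρr : r < ρ := by
      by_contra hc
      exact absurd (hwin ω hων ρ ⟨hρ.1, not_lt.1 hc⟩) (not_le.2 hρg)
    refine ⟨i, by omega, hwin0 ω hων, Or.inr (Or.inl ⟨c, r, hhdef ▸ har, hhdef ▸ hcx, ?_⟩)⟩
    rw [← hhdef]
    exact hTL' ω (x + u) (x - u) (ρ - r / 2) (by linarith) (by linarith) (by linarith [hρ.2])
      hd1 hd2 hup hum fun v hv =>
        cl_I_le hH hηr (cl_shift hr hxc (hdist ω hων) hv) hρg.le
  have hex' : ∀ ρ ∈ Icc (0 : ℝ) h, g x ≤ g (x + ρ • ω) := fun ρ hρ =>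
    not_lt.1 fun hc => hex ⟨ρ, hρ, hc⟩
  have hstart : ∀ ω' : E, ‖h • ω' - u‖ ≤ q * h / 8 →
      Start F Bad (q ^ 2 / 32) x (g x) ω' (2 ^ i * η) := by
    intro ω' h1
    rw [← hhdef]
    refine cl_start hF hq0 hq1 hh hA44 hHG hηa0 ?_ (by linarith) h1 hup hum hM
    have : 88 * η' ≤ A * η' := by have := hr.trans_le hrη; first | linarith | nlinarith
    linarith
  -- the first scale at which the chain fails
  let Gd : ℕ → Prop := fun k =>
    (∀ ρ ∈ Icc (2 ^ k * η - h) (2 * (2 ^ k * η) - h),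
      Sp {y | g x < F y}ᶜ (x + ρ • ω) (q / 64 * (2 ^ k * η))) ∧
    ∀ ρ ∈ Icc (0 : ℝ) (2 * (2 ^ k * η) - h), g x ≤ g (x + ρ • ω)
  have hexk : ∃ k, i + 1 ≤ k ∧ (k = J ∨ ¬ Gd k) := ⟨J, hiJ, Or.inl rfl⟩
  have hk := Nat.find_spec hexk
  have hkJ : Nat.find hexk ≤ J := Nat.find_min' hexk ⟨hiJ, Or.inl rfl⟩
  have hkmin : ∀ j, i + 1 ≤ j → j < Nat.find hexk → Gd j := by
    intro j h1 h2
    by_contra hc
    exact Nat.find_min hexk h2 ⟨h1, Or.inr hc⟩
  generalize Nat.find hexk = k at hk hkJ hkmin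
  obtain ⟨hik, hk⟩ := hk
  have hwk : ∀ ρ ∈ Icc (0 : ℝ) (2 ^ k * η - h), g x ≤ g (x + ρ • ω) := by
    intro ρ hρ
    rcases hik.eq_or_lt with h1 | h1
    · refine hex' ρ ⟨hρ.1, ?_⟩
      have h2 := hρ.2
      rw [← h1, pow_succ] at h2
      linarith
    · obtain ⟨j, rfl⟩ : ∃ j, k = j + 1 := ⟨k - 1, by omega⟩
      refine (hkmin j (by omega) (by omega)).2 ρ ⟨hρ.1, ?_⟩
      have h2 := hρ.2
      rw [pow_succ] at h2
      linarith
  have hH2 := hpow k hik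
  obtain ⟨H, hHdef⟩ : ∃ H : ℝ, H = 2 ^ k * η := ⟨_, rfl⟩
  have hGd : Gd k ↔ (∀ ρ ∈ Icc (H - h) (2 * H - h),
      Sp {y | g x < F y}ᶜ (x + ρ • ω) (q / 64 * H)) ∧
      ∀ ρ ∈ Icc (0 : ℝ) (2 * H - h), g x ≤ g (x + ρ • ω) := by rw [hHdef]
  rw [hGd] at hk
  rw [← hHdef] at hwk hH2
  have hH0 : 0 < H := by linarith
  have hqH0 : 0 < q * H := mul_pos hq0 hH0
  have hqH3 : q * H ≤ H / 2 := by first | linarith | nlinarith
  have hqH4 : q ^ 2 * H ≤ q * H / 2 := by first | linarith | nlinarith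
  have hqH5 : 2 * (q * h) ≤ q * H := by first | linarith | nlinarith
  have hAH : 88 * H ≤ A * H := by first | linarith | nlinarith
  refine ⟨k, hkJ, ?_, ?_⟩
  · rw [← hHdef]
    exact fun ρ hρ => hwk ρ ⟨hρ.1, hρ.2.trans (by first | linarith | nlinarith)⟩
  rw [← hHdef]
  rcases hk with hk | hk
  · exact Or.inr (Or.inr ⟨ω, hωN, i, hik, hstart ω (by first | linarith | nlinarith), Or.inl hk⟩)
  by_cases hM' : V E (q ^ 2 / 32 / 16 * H) ^ 2 ≤ 8 * PP (lev F (g x)) x (A * H)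
  · exact Or.inl hM'
  replace hM' := (not_le.1 hM').le
  have hdρ : ∀ ρ : ℝ, 0 ≤ ρ → ρ ≤ 2 * H → dist (x + ρ • ω) x ≤ 3 * H := by
    intro ρ h1 h2
    rw [dist_eq_norm, add_sub_cancel_left, norm_smul, Real.norm_of_nonneg h1]
    first | linarith | nlinarith
  by_cases hS : ∀ ρ ∈ Icc (H - h) (2 * H - h), Sp {y | g x < F y}ᶜ (x + ρ • ω) (q / 64 * H)
  · -- exit point inside the full region
    have : ∃ ρ ∈ Icc (0 : ℝ) (2 * H - h), g (x + ρ • ω) < g x := by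
      by_contra hc
      exact hk ⟨hS, fun ρ hρ => not_lt.1 fun hc' => hc ⟨ρ, hρ, hc'⟩⟩
    obtain ⟨ρ, hρ, hρg⟩ := this
    have hρ1 : H - h < ρ := by
      by_contra hc
      exact absurd (hwk ρ ⟨hρ.1, not_lt.1 hc⟩) (not_le.2 hρg)
    have h1 := hS ρ ⟨hρ1.le, hρ.2⟩
    have h2 := hdρ ρ hρ.1 (by linarith [hρ.2])
    have hs : 0 < q / 64 * H := by positivity
    refine Or.inr (Or.inl ⟨x + ρ • ω, q / 64 * H, by first | linarith | nlinarith, by first | linarith | nlinarith, ?_⟩)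
    exact hfin hs (by first | linarith | nlinarith) (cl_FL hF hF0 (hg0 x) hH (u := 0) hs (by first | linarith | nlinarith) hρg.le
      (by rwa [add_zero]) (by rwa [sub_zero]) (by first | linarith | nlinarith) (by rw [norm_zero]; first | linarith | nlinarith))
  -- an empty ball ahead
  simp only [not_forall] at hS
  obtain ⟨ρ, hρ, hS⟩ := hS
  have hρ0 : H / 2 ≤ ρ := by linarith [hρ.1]
  have hρp : 0 < ρ := by linarith
  have hρ2 : ρ ≤ 2 * H := by linarith [hρ.2]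
  have h2 := hdρ ρ hρp.le hρ2
  obtain ⟨w, hw, hwS⟩ := (hG F hF (g x) x (A * H)).2 (x + ρ • ω) (q / 64 * H) (by positivity)
    (by first | linarith | nlinarith) (hmono hM' (by first | linarith | nlinarith)) hS
  rw [mem_ball, dist_eq_norm] at hw
  have hω2 : ‖ρ⁻¹ • (w - x) - ω‖ ≤ q / 16 := by
    rw [show ρ⁻¹ • (w - x) - ω = ρ⁻¹ • (w - (x + ρ • ω)) by
      rw [← sub_sub, smul_sub ρ⁻¹ (w - x), smul_smul, inv_mul_cancel₀ hρp.ne', one_smul],
      norm_smul, norm_inv, Real.norm_of_nonneg hρp.le, inv_mul_le_iff₀ hρp]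
    first | linarith | nlinarith
  obtain ⟨ω', hω'N, hω'⟩ := hnet (ρ⁻¹ • (w - x))
    (by have := norm_add_le (ρ⁻¹ • (w - x) - ω) ω; rw [sub_add_cancel] at this; linarith)
    (by have := norm_sub_norm_le ω (ρ⁻¹ • (w - x)); rw [norm_sub_rev] at this; linarith)
  refine Or.inr (Or.inr ⟨ω', hω'N, i, hik, hstart ω' ?_, Or.inr ⟨w, ρ, ?_, hρ2, ?_, ?_⟩⟩)
  · have h3 : ‖ω' - ω‖ ≤ q ^ 2 / 512 + q / 16 := by
      have := norm_add_le (ω' - ρ⁻¹ • (w - x)) (ρ⁻¹ • (w - x) - ω)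
      rw [sub_add_sub_cancel] at this
      linarith
    have h4 := norm_add_le (h • (ω' - ω)) (h • ω - u)
    rw [show h • (ω' - ω) + (h • ω - u) = h • ω' - u by module, norm_smul,
      Real.norm_of_nonneg hh.le] at h4
    have h5 : h * ‖ω' - ω‖ ≤ h * (q ^ 2 / 512 + q / 16) := by gcongr
    first | linarith | nlinarith
  · rw [← hhdef]; exact hρ.1
  · rw [dist_eq_norm, show w - (x + ρ • ω') = -(ρ • (ω' - ρ⁻¹ • (w - x))) by
      rw [smul_sub, smul_smul, mul_inv_cancel₀ hρp.ne', one_smul]; abel, norm_neg, norm_smul,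
      Real.norm_of_nonneg hρp.le]
    have h5 : ρ * ‖ω' - ρ⁻¹ • (w - x)‖ ≤ 2 * H * (q ^ 2 / 512) := by gcongr
    linarith
  · rwa [show q * (2 * (q / 64 * H)) = q ^ 2 / 32 * H by ring] at hwS

end Vale.Agent.P137
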