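import Vale.Agent.P137.CIP
import Vale.Agent.P137.Class

namespace Vale.Agent.P137

open MeasureTheory Metric Set Filter Topology
open scoped ENNReal RealInnerProductSpace

variable {E : Type*} [NormedAddCommGroup E] [InnerProductSpace ℝ E] [FiniteDimensional ℝ E]
  [MeasurableSpace E] [BorelSpace E]

lemma cc_Sp_mono {S T : Set E} (h : S ⊆ T) {w : E} {a : ℝ} (hT : Sp T w a) : Sp S w a :=
  le_trans (by gcongr) hT

lemma cc_disj {S : Set E} {w : E} {a : ℝ} (ha : 0 < a) (h1 : Sp S w a) (h2 : Sp Sᶜ w a) :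
    False := by
  refine cl_not_half ha (le_trans ?_ h1) h2
  gcongr
  · norm_num
  · linarith

/-- good steps for two levels -/
lemma GPtC [Nontrivial E] : ∃ q : ℝ, 0 < q ∧ q ≤ 1 / 16 ∧ ∀ (F : E → ℝ), Measurable F →
    ∀ (z : E) (R : ℝ),
    (∀ (t1 t2 : ℝ) (x w : E) (ρ : ℝ), 0 < ρ → dist (x + w) z + 3 * ρ ≤ R →
      dist (x - w) z + 3 * ρ ≤ R → PP (lev F t1) z R ≤ V E (q * ρ) ^ 2 →
      PP (lev F t2) z R ≤ V E (q * ρ) ^ 2 → ∃ u ∈ ball w ρ, ∀ t, (t = t1 ∨ t = t2) →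
        (Sp {y | t < F y} (x + u) (q * ρ) ∨ Sp {y | t < F y}ᶜ (x + u) (q * ρ)) ∧
        (Sp {y | t < F y} (x - u) (q * ρ) ∨ Sp {y | t < F y}ᶜ (x - u) (q * ρ))) ∧
    (∀ (t : ℝ) (p : E) (ρ : ℝ), 0 < ρ → dist p z + 6 * ρ ≤ R →
      PP (lev F t) z R ≤ V E (q * (2 * ρ)) ^ 2 → ¬ Sp {y | t < F y}ᶜ p ρ →
      ∃ w ∈ ball p (2 * ρ), Sp {y | t < F y} w (q * (2 * ρ))) := by
  refine ⟨1 / (2 * 2 ^ (3 * Module.finrank ℝ E + 8)), by positivity, ?_, fun F hF z R =>
    ⟨fun t1 t2 x w ρ hρ h1 h2 h3 h4 => ?_, fun t p ρ hρ h1 h2 h3 => ?_⟩⟩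
  · refine one_div_le_one_div_of_le (by norm_num) ?_
    have : (2 : ℝ) ^ 3 ≤ 2 ^ (3 * Module.finrank ℝ E + 8) :=
      pow_le_pow_right₀ (by norm_num) (by omega)
    linarith
  · obtain ⟨B1, a1, b1⟩ := good_key hF hρ h1 h3
    obtain ⟨B2, a2, b2⟩ := good_key hF hρ h2 h3
    obtain ⟨B3, a3, b3⟩ := good_key hF hρ h1 h4
    obtain ⟨B4, a4, b4⟩ := good_key hF hρ h2 h4
    by_contra k
    have c1 : ball w ρ ⊆ (fun v => x + v) ⁻¹' (B1 ∪ B3) ∪
        (fun v => -v) ⁻¹' ((fun v => x + v) ⁻¹' (B2 ∪ B4)) := by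
      intro u hu
      by_contra k'
      simp only [mem_union, mem_preimage, not_or, ← sub_eq_add_neg] at k'
      have e1 : x + u ∈ ball (x + w) ρ := by simpa using hu
      have e2 : x - u ∈ ball (x - w) ρ := by simpa [dist_eq_norm, norm_sub_rev] using hu
      have d1 := b1 (x + u) e1 k'.1.1
      have d2 := b2 (x - u) e2 k'.2.1
      have d3 := b3 (x + u) e1 k'.1.2
      have d4 := b4 (x - u) e2 k'.2.2
      refine k ⟨u, hu, ?_⟩
      rintro t (rfl | rfl)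
      · exact ⟨(em (t < F (x + u))).elim (fun k1 => Or.inr (d1.1 k1)) fun k1 => Or.inl (d1.2 k1),
          (em (t < F (x - u))).elim (fun k1 => Or.inr (d2.1 k1)) fun k1 => Or.inl (d2.2 k1)⟩
      · exact ⟨(em (t < F (x + u))).elim (fun k1 => Or.inr (d3.1 k1)) fun k1 => Or.inl (d3.2 k1),
          (em (t < F (x - u))).elim (fun k1 => Or.inr (d4.1 k1)) fun k1 => Or.inl (d4.2 k1)⟩
    have c2 := (measure_mono (μ := volume) c1).trans (measure_union_le _ _)
    rw [Measure.measure_preimage_neg, measure_preimage_add, measure_preimage_add, vol_ball] at c2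
    have c3 : 2 * V E (ρ / 2) ≤ V E ρ := by
      conv_rhs => rw [show ρ = 2 * (ρ / 2) by ring, V_mul two_pos,
        ENNReal.ofReal_pow (by norm_num), ENNReal.ofReal_ofNat]
      exact mul_le_mul_left (le_self_pow₀ (by norm_num) Module.finrank_pos.ne') _
    have c4 : 8 * V E (ρ / 2) ≤ 4 * V E (ρ / 2) := by
      calc 8 * V E (ρ / 2) = 4 * (2 * V E (ρ / 2)) := by ring
        _ ≤ 4 * ((volume B1 + volume B3) + (volume B2 + volume B4)) := by
          gcongr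
          exact c3.trans (c2.trans (add_le_add (measure_union_le _ _) (measure_union_le _ _)))
        _ = 4 * volume B1 + 4 * volume B2 + 4 * volume B3 + 4 * volume B4 := by ring
        _ ≤ V E (ρ / 2) + V E (ρ / 2) + V E (ρ / 2) + V E (ρ / 2) := by gcongr
        _ = 4 * V E (ρ / 2) := by ring
    have := (ENNReal.mul_le_mul_iff_left (V_ne_zero (E := E) (half_pos hρ)) (V_ne_top _)).1 c4
    norm_num at this
  · obtain ⟨B, a1, b1⟩ := good_key hF (by linarith : 0 < 2 * ρ) (by linarith) h2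
    rw [mul_div_cancel_left₀ _ two_ne_zero] at a1
    by_contra k
    refine h3 (le_trans (mul_le_mul_right (measure_mono fun y hy => ?_) _) a1)
    by_contra k'
    exact k ⟨y, hy.2, (b1 y hy.2 k').2 hy.1⟩

/-- a level with few patterns just above a given level -/
lemma cc_level {F : E → ℝ} (hF : Measurable F) (z : E) (R t0 : ℝ) {W ε : ℝ≥0∞}
    (hP : PP F z R ≠ ⊤) (hW0 : W ≠ 0) (hW : W ≠ ⊤) (hε : ε ≠ 0) :
    ∃ t, t0 < t ∧ 8 * PP (lev F t) z R ≤ W ∧
      ENNReal.ofReal (t - t0) * W ≤ 8 * PP F z R + ε := by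
  have h1 : min ε 1 ≠ 0 := (lt_min (pos_iff_ne_zero.2 hε) one_pos).ne'
  have h2 : min ε 1 ≠ ⊤ := ne_top_of_le_ne_top ENNReal.one_ne_top (min_le_right _ _)
  have h3 : min ε 1 ≤ ε := min_le_left _ _
  generalize min ε 1 = e at h1 h2 h3
  have h4 : (8 * PP F z R + e) / W ≠ ⊤ := ENNReal.div_ne_top (by finiteness) hW0
  have h5 : ENNReal.ofReal ((8 * PP F z R + e) / W).toReal * W = 8 * PP F z R + e := by
    rw [ENNReal.ofReal_toReal h4, ENNReal.div_mul_cancel hW0 hW]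
  generalize ((8 * PP F z R + e) / W).toReal = l at h5
  by_contra k
  have h6 : ∀ t ∈ Ioc t0 (t0 + l), W ≤ 8 * PP (lev F t) z R := by
    intro t ht
    by_contra k'
    refine k ⟨t, ht.1, (not_le.1 k').le, le_trans ?_ (h5.le.trans (by gcongr))⟩
    gcongr
    linarith [ht.2]
  have h7 : 8 * PP F z R + e ≤ 8 * PP F z R := by
    calc 8 * PP F z R + e = ∫⁻ _ in Ioc t0 (t0 + l), W := by
          rw [setLIntegral_const, Real.volume_Ioc, add_sub_cancel_left, mul_comm W, h5]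
      _ ≤ ∫⁻ t in Ioc t0 (t0 + l), 8 * PP (lev F t) z R := setLIntegral_mono' measurableSet_Ioc h6
      _ ≤ ∫⁻ t, 8 * PP (lev F t) z R := setLIntegral_le_lintegral _ _
      _ = 8 * ∫⁻ t, PP (lev F t) z R := lintegral_const_mul' _ _ ENNReal.ofNat_ne_top
      _ ≤ 8 * PP F z R := by gcongr; exact layer_PP hF z R
  exact absurd h7 (not_le.2 (ENNReal.lt_add_right (by finiteness) h1))

lemma cc_du_lim {F : E → ℝ} (hF : Measurable F) {t : ℝ} {U : Set E} {W Y : ℝ≥0∞}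
    (hU : volume U ≠ ⊤) (hW : W ≠ ⊤) (h : ∀ t', t < t' → du F t' U * W ≤ Y) :
    du F t U * W ≤ Y := by
  refine ENNReal.le_of_forall_pos_le_add fun ε hε _ => ?_
  obtain ⟨δ, hδ, hδ'⟩ := ENNReal.exists_nnreal_pos_mul_lt (ENNReal.mul_ne_top hU hW)
    (show (ε : ℝ≥0∞) ≠ 0 by exact_mod_cast hε.ne')
  have h1 : du F t U ≤ du F (t + δ) U + δ * volume U := by
    unfold du
    rw [← setLIntegral_const, ← lintegral_add_right _ measurable_const]
    refine lintegral_mono fun y => ?_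
    rw [← ENNReal.ofReal_coe_nnreal]
    exact le_trans (le_of_eq (by congr 1; ring)) ENNReal.ofReal_add_le
  calc du F t U * W ≤ (du F (t + δ) U + δ * volume U) * W := by gcongr
    _ = du F (t + δ) U * W + δ * (volume U * W) := by ring
    _ ≤ Y + ε := add_le_add (h _ (by simpa using hδ)) hδ'.le

lemma cc_dv_lim {F : E → ℝ} (hF : Measurable F) {t : ℝ} {U : Set E} {W Y : ℝ≥0∞}
    (hU : volume U ≠ ⊤) (hW : W ≠ ⊤) (h : ∀ t', t' < t → dv F t' U * W ≤ Y) :
    dv F t U * W ≤ Y := by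
  have := cc_du_lim (F := fun y => - F y) hF.neg (t := -t) hU hW (Y := Y) fun t' ht' => by
    have := h (-t') (by linarith)
    simpa only [dv, du, sub_eq_add_neg, add_comm] using this
  simpa only [dv, du, neg_sub_neg] using this

/-- the lower and upper typical levels around `x` -/
lemma cc_tl_th {F : E → ℝ} (hF : Measurable F) (hF0 : ∀ y, 0 ≤ F y) (x : E) {a R : ℝ}
    (ha : 0 < a) (hR : a ≤ R) : ∃ tl th : ℝ, tl ≤ th ∧
      du F th (ball x a) * V E a ≤ 2 * PP F x R ∧ dv F tl (ball x a) * V E a ≤ 2 * PP F x R ∧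
      ∀ t, tl < t → ¬ Sp {y | t < F y}ᶜ x a := by
  have hE : ∃ t : ℝ, Sp {y | t < F y} x a := by
    have h1 := tendsto_measure_iInter_atTop (μ := (volume : Measure E))
      (s := fun n : ℕ => {y | (n : ℝ) < F y} ∩ ball x (2 * a))
      (fun n => ((measurableSet_lt measurable_const hF).inter measurableSet_ball).nullMeasurableSet)
      (fun m n hmn y hy => ⟨(lt_of_le_of_lt (Nat.cast_le.2 hmn) hy.1 : (m : ℝ) < F y), hy.2⟩)
      ⟨0, ne_top_of_le_ne_top measure_ball_lt_top.ne (measure_mono inter_subset_right)⟩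
    have h2 : ⋂ n : ℕ, {y | (n : ℝ) < F y} ∩ ball x (2 * a) = ∅ := by
      refine eq_empty_of_forall_notMem fun y hy => ?_
      obtain ⟨n, hn⟩ := exists_nat_ge (F y)
      exact absurd (mem_iInter.1 hy n).1 (not_lt.2 hn)
    rw [h2, measure_empty] at h1
    have h3 : 0 < V E a / 4 := ENNReal.div_pos (V_ne_zero ha) ENNReal.ofNat_ne_top
    obtain ⟨n, hn⟩ := (h1.eventually (ge_mem_nhds h3)).exists
    refine ⟨n, ?_⟩
    have h4 := mul_le_mul_right hn 4
    rwa [ENNReal.mul_div_cancel (by norm_num) ENNReal.ofNat_ne_top] at h4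
  have hFu : Sp {y | (-1 : ℝ) < F y}ᶜ x a := by
    have : {y | (-1 : ℝ) < F y}ᶜ = ∅ := by
      refine eq_empty_of_forall_notMem fun y hy => hy ?_
      have := hF0 y
      show (-1 : ℝ) < F y
      linarith
    simp [Sp, this]
  have hle : ∀ s t : ℝ, Sp {y | s < F y}ᶜ x a → Sp {y | t < F y} x a → s ≤ t := by
    intro s t h1 h2
    by_contra k
    exact cc_disj ha (cc_Sp_mono (fun y hy => lt_trans (not_le.1 k) hy) h2) h1
  obtain ⟨te, hte⟩ := hE
  have hb1 : BddAbove {s : ℝ | Sp {y | s < F y}ᶜ x a} := ⟨te, fun s hs => hle s te hs hte⟩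
  have hb2 : BddBelow {t : ℝ | Sp {y | t < F y} x a} := ⟨-1, fun t ht => hle _ t hFu ht⟩
  refine ⟨sSup {s : ℝ | Sp {y | s < F y}ᶜ x a}, sInf {t : ℝ | Sp {y | t < F y} x a},
    csSup_le ⟨-1, hFu⟩ fun s hs => le_csInf ⟨te, hte⟩ fun t ht => hle s t hs ht,
    cc_du_lim hF measure_ball_lt_top.ne (V_ne_top a) fun t' ht' => ?_,
    cc_dv_lim hF measure_ball_lt_top.ne (V_ne_top a) fun t' ht' => ?_,
    fun t ht k => absurd (le_csSup hb1 k) (not_le.2 ht)⟩
  · obtain ⟨t, ht, htt⟩ := exists_lt_of_csInf_lt ⟨te, hte⟩ ht'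
    have h1 : Sp {y | t' < F y} x a := cc_Sp_mono (fun y hy => lt_trans htt hy) ht
    exact S1hi hF t' (u := 0) ha (by rw [← two_mul, add_zero]; exact h1)
      (by rw [← two_mul, sub_zero]; exact h1) (by rwa [dist_self, zero_add])
      (by rwa [norm_zero, zero_add])
  · obtain ⟨t, ht, htt⟩ := exists_lt_of_lt_csSup ⟨-1, hFu⟩ ht'
    have h1 : Sp {y | t' < F y}ᶜ x a :=
      cc_Sp_mono (compl_subset_compl.2 fun y hy => lt_trans htt hy) ht
    exact S1lo hF t' (u := 0) ha (by rw [← two_mul, add_zero]; exact h1)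
      (by rw [← two_mul, sub_zero]; exact h1) (by rwa [dist_self, zero_add])
      (by rwa [norm_zero, zero_add])

lemma cc_eps (N : Finset E) (φ : E → ℝ≥0∞) (X : ℝ≥0∞) : ∃ ε : ℝ≥0∞, ε ≠ 0 ∧
    ∀ ω ∈ N, (φ ω ≤ X + ε → φ ω ≤ X) ∧ (φ (-ω) ≤ X + ε → φ (-ω) ≤ X) := by
  have h1 : ∀ a : ℝ≥0∞, ∀ᶠ ε in 𝓝 (0 : ℝ≥0∞), a ≤ X + ε → a ≤ X := by
    intro a
    by_cases k : a ≤ X
    · exact Eventually.of_forall fun _ _ => k
    · have h2 : Tendsto (fun ε : ℝ≥0∞ => X + ε) (𝓝 0) (𝓝 X) := by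
        simpa using (tendsto_const_nhds (x := X)).add (tendsto_id (x := 𝓝 (0 : ℝ≥0∞)))
      filter_upwards [h2.eventually (gt_mem_nhds (not_le.1 k))] with ε hε h
      exact absurd h (not_le.2 hε)
  have h2 : ∀ᶠ ε in 𝓝 (0 : ℝ≥0∞), ∀ ω ∈ N, (φ ω ≤ X + ε → φ ω ≤ X) ∧
      (φ (-ω) ≤ X + ε → φ (-ω) ≤ X) :=
    (Finset.eventually_all N).2 fun ω _ => (h1 _).and (h1 _)
  obtain ⟨ε, h3, h4⟩ := ((h2.filter_mono (nhdsWithin_le_nhds (s := Ioi 0))).and
    self_mem_nhdsWithin).exists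
  exact ⟨ε, (mem_Ioi.1 h4).ne', h3⟩

/-- full on both sides implies full in the middle -/
lemma cc_mid {F : E → ℝ} (hF : Measurable F) (t : ℝ) {x u : E} {a R : ℝ} (ha : 0 < a)
    (h1 : Sp {y | t < F y}ᶜ (x + u) a) (h2 : Sp {y | t < F y}ᶜ (x - u) a) (hu : ‖u‖ + a ≤ R) :
    volume ({y | t < F y}ᶜ ∩ ball x a) * V E a ≤ 2 * PP (lev F t) x R := by
  have hS : MeasurableSet {y | t < F y}ᶜ := (measurableSet_lt measurable_const hF).compl
  have := S1 (F := lev F t) (measurable_lev hF t) 1 hS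
    (fun y hy => by simp only [lev]; rw [if_pos (show t < F y from not_not.1 hy)])
    (w := x) (u := u) (z := x) (ρ := a) (R := R) ha (by rw [← two_mul]; exact h1)
    (by rw [← two_mul]; exact h2) (by rw [dist_self]; linarith [norm_nonneg u]) hu
  refine le_trans (le_of_eq ?_) this
  congr 1
  rw [dv, ← Measure.restrict_apply hS, ← lintegral_indicator_one hS]
  refine lintegral_congr fun y => ?_
  by_cases k : t < F y
  · rw [indicator_of_notMem (by exact not_not.2 k)]; simp [lev, k]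
  · rw [indicator_of_mem (by exact k)]; simp [lev, k]

lemma cc_FL {F g : E → ℝ} (hF : Measurable F) (hF0 : ∀ y, 0 ≤ F y) {η t : ℝ} (ht : 0 ≤ t)
    (hH : H1c F g η) {z u x : E} {s R : ℝ} (hs : 0 < s) (hηs : η ≤ s) (hz : g z ≤ t)
    (h1 : Sp {y | t < F y}ᶜ (z + u) s) (h2 : Sp {y | t < F y}ᶜ (z - u) s)
    (hw : dist z x + s ≤ R) (hu : ‖u‖ + s ≤ R) :
    da F t (ball z s) * V E s ≤ 4 * PP F x R := by
  have hI : I F z s ≤ ENNReal.ofReal t * V E s := (hH z s hηs).trans (by gcongr)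
  have h3 := S1lo hF t (w := z) (u := u) (z := x) (ρ := s) (a := s) (R := R) hs
    (by rw [← two_mul]; exact h1) (by rw [← two_mul]; exact h2) hw hu
  calc da F t (ball z s) * V E s ≤ 2 * dv F t (ball z s) * V E s := by
        gcongr; exact da_le_dv hF hF0 ht hI
    _ = 2 * (dv F t (ball z s) * V E s) := by ring
    _ ≤ 2 * (2 * PP F x R) := by gcongr
    _ = 4 * PP F x R := by ring

lemma cc_start {F : E → ℝ} (hF : Measurable F) {Bad : Set E} {t A q h : ℝ} {x u ω : E}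
    (hq0 : 0 < q) (hq1 : q ≤ 1 / 2) (hh : 0 < h) (hA88 : 88 ≤ A) (hB : ball x (9 * h) ⊆ Bad)
    (hu : ‖u‖ ≤ 2 * h) (hωu : ‖h • ω - u‖ ≤ q * h / 8)
    (hp : Sp {y | t < F y}ᶜ (x + u) (q * (h / 4))) (hm : Sp {y | t < F y} (x - u) (q * (h / 4)))
    (hM : 8 * PP (lev F t) x (A * h) ≤ V E (q ^ 2 / 32 / 16 * h) ^ 2) :
    Start F Bad (q ^ 2 / 32) x t ω h := by
  have ha0 : 0 < q * (h / 4) := by positivity
  have hqh : q * h ≤ h / 2 := by nlinarith
  have hqq : q ^ 2 * h ≤ q * h / 2 := by nlinarith [mul_pos hq0 hh]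
  have hqh0 : 0 < q * h := mul_pos hq0 hh
  have hAh : 88 * h ≤ A * h := by nlinarith
  have haa : q ^ 2 / 32 / 16 * h ≤ q * (h / 4) := by nlinarith
  refine ⟨?_, ?_, hB⟩
  · have h3 := UPhi hF t (w := x - u) (z := x) (ρ := q * (h / 4)) (a := q * (h / 4))
      (R := A * h) ha0 (by rw [← two_mul]; exact hm)
      (by rw [dist_eq_norm, sub_sub_cancel_left, norm_neg]; linarith) (by linarith)
    refine le_trans ?_ (cl_cancel ha0 haa h3 hM)
    gcongr
    refine ball_subset_ball' ?_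
    rw [dist_eq_norm, show x - h • ω - (x - u) = -(h • ω - u) by abel, norm_neg]
    nlinarith
  · have h3 := UPlo hF t (w := x + u) (z := x) (ρ := q * (h / 4)) (a := q * (h / 4))
      (R := A * h) ha0 (by rw [← two_mul]; exact hp)
      (by rw [dist_eq_norm, add_sub_cancel_left]; linarith) (by linarith)
    refine le_trans ?_ (cl_cancel ha0 haa h3 hM)
    gcongr
    refine ball_subset_ball' ?_
    rw [dist_eq_norm, show x + h • ω - (x + u) = h • ω - u by abel]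
    nlinarith

lemma Chg.mono {F g : E → ℝ} {Bad : Set E} {A A' b : ℝ} {C C' : ℝ≥0∞} {Net : Finset E} {η : ℝ}
    {J : ℕ} {x ω : E} (h : Chg F g Bad A b C Net η J x ω) (hη : 0 < η) (hA : A ≤ A')
    (hC : C ≤ C') : Chg F g Bad A' b C' Net η J x ω := by
  obtain ⟨k, hk, hw, h⟩ := h
  have h1 : A * (2 ^ k * η) ≤ A' * (2 ^ k * η) := by gcongr
  have h2 : ∀ G : E → ℝ, PP G x (A * (2 ^ k * η)) ≤ PP G x (A' * (2 ^ k * η)) := fun G =>
    PP_mono G (by rwa [dist_self, zero_add])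
  refine ⟨k, hk, hw, ?_⟩
  rcases h with h | ⟨q, ρ, h3, h4, h5⟩ | h
  · exact Or.inl (h.trans (by gcongr; exact h2 _))
  · exact Or.inr (Or.inl ⟨q, ρ, h3, h4.trans h1, h5.trans (by gcongr; exact h2 _)⟩)
  · exact Or.inr (Or.inr h)

end Vale.Agent.P137
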