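import Vale.Agent.P137.CCl1

namespace Vale.Agent.P137

open MeasureTheory Metric Set Filter Topology
open scoped ENNReal RealInnerProductSpace

variable {E : Type*} [NormedAddCommGroup E] [InnerProductSpace ℝ E] [FiniteDimensional ℝ E]
  [MeasurableSpace E] [BorelSpace E]

set_option maxHeartbeats 1000000 in
/-- following the full region ahead through the scales -/
lemma cc_chain {F g : E → ℝ} (hF : Measurable F) (hF0 : ∀ y, 0 ≤ F y) {η q A h : ℝ} {x u ω : E}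
    {Bad : Set E} {C : ℝ≥0∞} {Net : Finset E} {i J : ℕ} (hg0 : 0 ≤ g x) (hη : 0 < η)
    (hH : H1c F g η) (hq0 : 0 < q) (hq1 : q ≤ 1 / 2) (hA88 : 88 ≤ A)
    (hG : ∀ (R : ℝ) (p : E) (ρ : ℝ), 0 < ρ → dist p x + 6 * ρ ≤ R →
      PP (lev F (g x)) x R ≤ V E (q * (2 * ρ)) ^ 2 → ¬ Sp {y | g x < F y}ᶜ p ρ →
      ∃ w ∈ ball p (2 * ρ), Sp {y | g x < F y} w (q * (2 * ρ)))
    (hnet : ∀ v : E, ‖v‖ ≤ 2 → 1 / 4 ≤ ‖v‖ → ∃ ω ∈ Net, ‖ω - v‖ ≤ q ^ 2 / 512)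
    (hfin : ∀ {D P : ℝ≥0∞} {s k : ℝ}, 0 < s → q * k ≤ 64 * s → D * V E s ≤ 4 * P →
      D * V E k ≤ C * P)
    (hiJ : i + 1 ≤ J) (hhdef : h = 2 ^ i * η) (hηq : 32 * η ≤ q * h) (hωN : ω ∈ Net)
    (hωn : ‖ω‖ ≤ 3 / 2) (hωn' : 1 / 2 ≤ ‖ω‖) (hωu : ‖h • ω - u‖ ≤ q ^ 2 / 512 * h)
    (hstart : ∀ ω' : E, ‖h • ω' - u‖ ≤ q * h / 8 → Start F Bad (q ^ 2 / 32) x (g x) ω' h)
    (hex' : ∀ ρ ∈ Icc (0 : ℝ) h, g x ≤ g (x + ρ • ω)) :
    Chg F g Bad A (q ^ 2 / 32) C Net η J x ω := by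
  classical
  have hh : 0 < h := by rw [hhdef]; positivity
  have hqh0 : 0 < q * h := mul_pos hq0 hh
  have hqh3 : q * h ≤ h / 2 := by nlinarith
  have hqh4 : q ^ 2 * h ≤ q * h / 2 := by nlinarith
  have hpow : ∀ k, i + 1 ≤ k → 2 * h ≤ (2 : ℝ) ^ k * η := by
    intro k hk
    have : (2 : ℝ) ^ (i + 1) ≤ 2 ^ k := pow_le_pow_right₀ one_le_two hk
    rw [pow_succ] at this
    rw [hhdef]
    nlinarith
  have hmono : ∀ {P : ℝ≥0∞} {s s' : ℝ}, 8 * P ≤ V E s ^ 2 → s ≤ s' → P ≤ V E s' ^ 2 := by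
    intro P s s' h1 h2
    calc P = 1 * P := (one_mul _).symm
      _ ≤ 8 * P := by gcongr; norm_num
      _ ≤ V E s ^ 2 := h1
      _ ≤ V E s' ^ 2 := by gcongr; exact V_mono h2
  let Gd : ℕ → Prop := fun k =>
    (∀ ρ ∈ Icc (2 ^ k * η - h) (2 * (2 ^ k * η) - h),
      Sp {y | g x < F y}ᶜ (x + ρ • ω) (q / 64 * (2 ^ k * η))) ∧
    ∀ ρ ∈ Icc (0 : ℝ) (2 * (2 ^ k * η) - h), g x ≤ g (x + ρ • ω)
  have hexk : ∃ k, i + 1 ≤ k ∧ (k = J ∨ ¬ Gd k) := ⟨J, hiJ, Or.inl rfl⟩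
  have hk := Nat.find_spec hexk
  have hkJ : Nat.find hexk ≤ J := Nat.find_min' hexk ⟨hiJ, Or.inl rfl⟩
  have hkmin : ∀ j, i + 1 ≤ j → j < Nat.find hexk → Gd j := by
    intro j h1 h2
    by_contra hc
    exact Nat.find_min hexk h2 ⟨h1, Or.inr hc⟩
  generalize Nat.find hexk = k at hk hkJ hkmin
  obtain ⟨hik, hk⟩ := hk
  have hwk : ∀ ρ ∈ Icc (0 : ℝ) (2 ^ k * η - h), g x ≤ g (x + ρ • ω) := by
    intro ρ hρ
    rcases hik.eq_or_lt with h1 | h1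
    · refine hex' ρ ⟨hρ.1, ?_⟩
      have h2 := hρ.2
      rw [← h1, pow_succ] at h2
      linarith
    · obtain ⟨j, rfl⟩ : ∃ j, k = j + 1 := ⟨k - 1, by omega⟩
      refine (hkmin j (by omega) (by omega)).2 ρ ⟨hρ.1, ?_⟩
      have h2 := hρ.2
      rw [pow_succ] at h2
      linarith
  have hH2 := hpow k hik
  obtain ⟨H, hHdef⟩ : ∃ H : ℝ, H = 2 ^ k * η := ⟨_, rfl⟩
  have hGd : Gd k ↔ (∀ ρ ∈ Icc (H - h) (2 * H - h),
      Sp {y | g x < F y}ᶜ (x + ρ • ω) (q / 64 * H)) ∧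
      ∀ ρ ∈ Icc (0 : ℝ) (2 * H - h), g x ≤ g (x + ρ • ω) := by rw [hHdef]
  rw [hGd] at hk
  rw [← hHdef] at hwk hH2
  have hH0 : 0 < H := by linarith
  have hqH0 : 0 < q * H := mul_pos hq0 hH0
  have hqH3 : q * H ≤ H / 2 := by nlinarith
  have hqH4 : q ^ 2 * H ≤ q * H / 2 := by nlinarith
  have hqH5 : 2 * (q * h) ≤ q * H := by nlinarith
  have hAH : 88 * H ≤ A * H := by nlinarith
  refine ⟨k, hkJ, ?_, ?_⟩
  · rw [← hHdef]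
    exact fun ρ hρ => hwk ρ ⟨hρ.1, hρ.2.trans (by linarith)⟩
  rw [← hHdef]
  rcases hk with hk | hk
  · exact Or.inr (Or.inr ⟨ω, hωN, i, hik, hhdef ▸ hstart ω (by linarith), Or.inl hk⟩)
  by_cases hM' : V E (q ^ 2 / 32 / 16 * H) ^ 2 ≤ 8 * PP (lev F (g x)) x (A * H)
  · exact Or.inl hM'
  replace hM' := (not_le.1 hM').le
  have hdρ : ∀ ρ : ℝ, 0 ≤ ρ → ρ ≤ 2 * H → dist (x + ρ • ω) x ≤ 3 * H := by
    intro ρ h1 h2
    rw [dist_eq_norm, add_sub_cancel_left, norm_smul, Real.norm_of_nonneg h1]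
    nlinarith
  by_cases hS : ∀ ρ ∈ Icc (H - h) (2 * H - h), Sp {y | g x < F y}ᶜ (x + ρ • ω) (q / 64 * H)
  · have : ∃ ρ ∈ Icc (0 : ℝ) (2 * H - h), g (x + ρ • ω) < g x := by
      by_contra hc
      exact hk ⟨hS, fun ρ hρ => not_lt.1 fun hc' => hc ⟨ρ, hρ, hc'⟩⟩
    obtain ⟨ρ, hρ, hρg⟩ := this
    have hρ1 : H - h < ρ := by
      by_contra hc
      exact absurd (hwk ρ ⟨hρ.1, not_lt.1 hc⟩) (not_le.2 hρg)
    have h1 := hS ρ ⟨hρ1.le, hρ.2⟩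
    have h2 := hdρ ρ hρ.1 (by linarith [hρ.2])
    have hs : 0 < q / 64 * H := by positivity
    refine Or.inr (Or.inl ⟨x + ρ • ω, q / 64 * H, by linarith, by linarith, ?_⟩)
    exact hfin hs (by linarith) (cc_FL hF hF0 hg0 hH (u := 0) hs (by linarith) hρg.le
      (by rwa [add_zero]) (by rwa [sub_zero]) (by linarith) (by rw [norm_zero]; linarith))
  simp only [not_forall] at hS
  obtain ⟨ρ, hρ, hS⟩ := hS
  have hρ0 : H / 2 ≤ ρ := by linarith [hρ.1]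
  have hρp : 0 < ρ := by linarith
  have hρ2 : ρ ≤ 2 * H := by linarith [hρ.2]
  have h2 := hdρ ρ hρp.le hρ2
  obtain ⟨w, hw, hwS⟩ := hG (A * H) (x + ρ • ω) (q / 64 * H) (by positivity)
    (by linarith) (hmono hM' (by nlinarith [mul_pos hq0 hqH0])) hS
  rw [mem_ball, dist_eq_norm] at hw
  have hω2 : ‖ρ⁻¹ • (w - x) - ω‖ ≤ q / 16 := by
    rw [show ρ⁻¹ • (w - x) - ω = ρ⁻¹ • (w - (x + ρ • ω)) by
      rw [← sub_sub, smul_sub ρ⁻¹ (w - x), smul_smul, inv_mul_cancel₀ hρp.ne', one_smul],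
      norm_smul, norm_inv, Real.norm_of_nonneg hρp.le, inv_mul_le_iff₀ hρp]
    nlinarith
  obtain ⟨ω', hω'N, hω'⟩ := hnet (ρ⁻¹ • (w - x))
    (by have := norm_add_le (ρ⁻¹ • (w - x) - ω) ω; rw [sub_add_cancel] at this; linarith)
    (by have := norm_sub_norm_le ω (ρ⁻¹ • (w - x)); rw [norm_sub_rev] at this; linarith)
  refine Or.inr (Or.inr ⟨ω', hω'N, i, hik, hhdef ▸ hstart ω' ?_,
    Or.inr ⟨w, ρ, ?_, hρ2, ?_, ?_⟩⟩)
  · have h3 : ‖ω' - ω‖ ≤ q ^ 2 / 512 + q / 16 := by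
      have := norm_add_le (ω' - ρ⁻¹ • (w - x)) (ρ⁻¹ • (w - x) - ω)
      rw [sub_add_sub_cancel] at this
      linarith
    have h4 := norm_add_le (h • (ω' - ω)) (h • ω - u)
    rw [show h • (ω' - ω) + (h • ω - u) = h • ω' - u by module, norm_smul,
      Real.norm_of_nonneg hh.le] at h4
    have h5 : h * ‖ω' - ω‖ ≤ h * (q ^ 2 / 512 + q / 16) := by gcongr
    linarith
  · rw [← hhdef]; exact hρ.1
  · rw [dist_eq_norm, show w - (x + ρ • ω') = -(ρ • (ω' - ρ⁻¹ • (w - x))) by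
      rw [smul_sub, smul_smul, mul_inv_cancel₀ hρp.ne', one_smul]; abel, norm_neg, norm_smul,
      Real.norm_of_nonneg hρp.le]
    have h5 : ρ * ‖ω' - ρ⁻¹ • (w - x)‖ ≤ 2 * H * (q ^ 2 / 512) := by gcongr
    linarith
  · rwa [show q * (2 * (q / 64 * H)) = q ^ 2 / 32 * H by ring] at hwS

end Vale.Agent.P137
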