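import Vale.Agent.P137.CCl2

namespace Vale.Agent.P137

open MeasureTheory Metric Set Filter Topology
open scoped ENNReal RealInnerProductSpace

variable {E : Type*} [NormedAddCommGroup E] [InnerProductSpace ℝ E] [FiniteDimensional ℝ E]
  [MeasurableSpace E] [BorelSpace E]

lemma cc_far {F : E → ℝ} (hF : Measurable F) {x p w : E} {a h R t tl th : ℝ} (ha : 0 < a)
    (hha : h ≤ a) (htl : tl ≤ t) (hS : Sp {y | t < F y} w a) (hw : dist w x + a ≤ R)
    (hp : dist p w + 20 * h ≤ a) :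
    (∫⁻ y in ball p (20 * h), ENNReal.ofReal (min (F y) th - tl)) * V E h ≤
      2 * PP F x R + ENNReal.ofReal (t - tl) * (V E (20 * h) * V E h) := by
  have h1 := S1hi hF t (w := w) (u := 0) (z := x) (ρ := a) (R := R) ha
    (by rw [← two_mul, add_zero]; exact hS) (by rw [← two_mul, sub_zero]; exact hS) hw
    (by rw [norm_zero]; linarith [dist_nonneg (x := w) (y := x)])
  have h2 : ∫⁻ y in ball p (20 * h), ENNReal.ofReal (min (F y) th - tl) ≤
      du F t (ball w a) + ENNReal.ofReal (t - tl) * V E (20 * h) := by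
    calc _ ≤ ∫⁻ y in ball p (20 * h), (ENNReal.ofReal (F y - t) + ENNReal.ofReal (t - tl)) := by
          refine lintegral_mono fun y => le_trans (ENNReal.ofReal_le_ofReal ?_)
            ENNReal.ofReal_add_le
          linarith [min_le_left (F y) th]
      _ = _ := by rw [lintegral_add_right _ measurable_const, setLIntegral_const, vol_ball]
      _ ≤ _ := add_le_add (lintegral_mono_set (ball_subset_ball' (by linarith))) le_rfl
  calc _ ≤ (du F t (ball w a) + ENNReal.ofReal (t - tl) * V E (20 * h)) * V E h := by gcongr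
    _ = du F t (ball w a) * V E h + ENNReal.ofReal (t - tl) * (V E (20 * h) * V E h) := by ring
    _ ≤ _ := add_le_add (le_trans (by gcongr; exact V_mono hha) h1) le_rfl

set_option maxHeartbeats 3000000 in
/-- pointwise classification for the centred maximal function -/
theorem classifyC [Nontrivial E] : ∃ (A b : ℝ) (c : ℕ) (C : ℝ≥0∞) (Net : Finset E), 3 ≤ A ∧
    0 < b ∧ b ≤ 1 ∧ C ≠ ⊤ ∧ (∀ ω ∈ Net, ω ≠ 0 ∧ ‖ω‖ ≤ 2) ∧
    ∀ (F g : E → ℝ) (Bad : Set E) (η : ℝ) (J j : ℕ) (x ν : E) (r : ℝ), Measurable F →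
    (∀ y, 0 ≤ F y) → Integrable F → (∀ y, 0 ≤ g y) → 0 < η → H1c F g η → j + c + 1 ≤ J →
    2 ^ j * η ≤ r → r ≤ 2 * (2 ^ j * η) → I F x r = ENNReal.ofReal (g x) * V E r →
    ball x (A * r) ⊆ Bad → ‖ν‖ = 1 →
    ∃ ω ∈ Net, ‖ω - ν‖ ≤ 1 / 2 ∧
      (ORp F x (2 ^ j * η) ω (2 ^ c) (C * PP F x (A * (2 ^ j * η))) ∨
        ORp F x (2 ^ j * η) (-ω) (2 ^ c) (C * PP F x (A * (2 ^ j * η)))) ∧
      ((∀ ρ ∈ Icc (0 : ℝ) (2 ^ j * η / 8), g x ≤ g (x + ρ • ω)) →
        ORp F x (2 ^ j * η) (-ω) (2 ^ c) (C * PP F x (A * (2 ^ j * η))) ∨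
          Chg F g Bad A b C Net η J x ω) := by
  classical
  obtain ⟨q, hq0, hq1, hG⟩ := GPtC (E := E)
  obtain ⟨c, hc2, hc1⟩ := exists_nat_pow_near (x := 320 / q) (y := 2)
    (by rw [le_div_iff₀ hq0]; linarith) one_lt_two
  rw [le_div_iff₀ hq0] at hc2
  rw [div_lt_iff₀ hq0, pow_succ] at hc1
  obtain ⟨D, hD⟩ : ∃ D : ℝ, D = 2 ^ c := ⟨_, rfl⟩
  rw [← hD] at hc1 hc2
  have hD1 : 1 ≤ D := by rw [hD]; exact one_le_pow₀ one_le_two
  obtain ⟨AT, CT, hAT, hCT, hTL⟩ := TLc (E := E) D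
  obtain ⟨Cv, hCv, -, hV⟩ := exists_V_le (E := E) (64 / q)
  obtain ⟨N0, hN0sub, hN0fin, hN0cov⟩ := finite_cover_balls_of_compact
    (isCompact_closedBall (0 : E) 2) (show 0 < q ^ 2 / 512 by positivity)
  have hqq : q ^ 2 ≤ q / 16 := by nlinarith
  have hA88 : 88 ≤ max AT 88 := le_max_right _ _
  have hATA : AT ≤ max AT 88 := le_max_left _ _
  generalize max AT 88 = A at hA88 hATA
  have hnet : ∀ v : E, ‖v‖ ≤ 2 → 1 / 4 ≤ ‖v‖ →
      ∃ ω ∈ hN0fin.toFinset.filter (· ≠ 0), ‖ω - v‖ ≤ q ^ 2 / 512 := by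
    intro v h1 h2
    obtain ⟨ω, hω, hv⟩ := mem_iUnion₂.1 (hN0cov (mem_closedBall_zero_iff.2 h1))
    rw [mem_ball, dist_eq_norm] at hv
    refine ⟨ω, ?_, by rw [norm_sub_rev]; exact hv.le⟩
    simp only [Finset.mem_filter, Finite.mem_toFinset]
    refine ⟨hω, ?_⟩
    rintro rfl
    rw [sub_zero] at hv
    linarith
  have hNet : ∀ ω ∈ hN0fin.toFinset.filter (· ≠ 0), ω ≠ 0 ∧ ‖ω‖ ≤ 2 := by
    intro ω hω
    simp only [Finset.mem_filter, Finite.mem_toFinset] at hω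
    exact ⟨hω.2, mem_closedBall_zero_iff.1 (hN0sub hω.1)⟩
  generalize hN0fin.toFinset.filter (· ≠ 0) = Net at hnet hNet
  have hAD : A ≤ A * D := by nlinarith
  obtain ⟨C, hCtop, hC1, hC2, hC3⟩ : ∃ C : ℝ≥0∞, C ≠ ⊤ ∧ 2 + 8 * Cv ^ 2 ≤ C ∧ 4 * Cv ≤ C ∧
      CT ≤ C := ⟨2 + 8 * Cv ^ 2 + (4 * Cv + CT), by finiteness, le_self_add,
    le_self_add.trans le_add_self, le_add_self.trans le_add_self⟩
  have hC4 : 2 ≤ C := le_self_add.trans hC1
  refine ⟨A * D, q ^ 2 / 32, c, C, Net, by linarith, by positivity, by linarith, hCtop, hNet, ?_⟩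
  intro F g Bad η J j x ν r hF hF0 _ hg0 hη hH hJ hr1 hr2 hI hBad hν1
  rw [← hD]
  obtain ⟨h0, hh0def⟩ : ∃ h : ℝ, h = 2 ^ j * η := ⟨_, rfl⟩
  rw [← hh0def] at hr1 hr2 ⊢
  have hηh : η ≤ h0 := by
    have : (1 : ℝ) ≤ 2 ^ j := one_le_pow₀ one_le_two
    rw [hh0def]; nlinarith
  have hh0 : 0 < h0 := hη.trans_le hηh
  have hr : 0 < r := hh0.trans_le hr1
  obtain ⟨h, hh'⟩ : ∃ h : ℝ, h = D * h0 := ⟨_, rfl⟩
  have hhdef : h = 2 ^ (j + c) * η := by rw [hh', hD, hh0def]; ring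
  rw [mul_assoc A, ← hh']
  have hh : 0 < h := by rw [hh']; positivity
  have hqh1 : q * h ≤ 320 * h0 := by rw [hh']; nlinarith
  have hqh2 : 160 * h0 ≤ q * h := by rw [hh']; nlinarith
  have hqh0 : 0 < q * h := mul_pos hq0 hh
  have hqh3 : q * h ≤ h / 16 := by nlinarith
  have hqh4 : q ^ 2 * h ≤ q * h / 16 := by nlinarith
  have hAh : 88 * h ≤ A * h := by nlinarith
  have hh0h : h0 ≤ h := by linarith
  by_cases hP : PP F x (A * h) = ⊤
  · obtain ⟨ω, hωN, hω⟩ := hnet ν (by linarith) (by linarith)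
    have hX : C * PP F x (A * h) = ⊤ := by
      rw [hP, ENNReal.mul_top (lt_of_lt_of_le two_pos hC4).ne']
    rw [hX]
    exact ⟨ω, hωN, by linarith, Or.inl ⟨0, 0, le_rfl, le_top, le_top, le_top⟩,
      fun _ => Or.inl ⟨0, 0, le_rfl, le_top, le_top, le_top⟩⟩
  obtain ⟨tl, th, htlh, hth, htl, hnF⟩ := cc_tl_th hF hF0 x (a := 8 * h0) (R := A * h)
    (by linarith) (by linarith)
  obtain ⟨ε, hε, hεN⟩ := cc_eps Net (fun ω => (∫⁻ y in ball (x - h • ω) (20 * h0),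
    ENNReal.ofReal (min (F y) th - tl)) * V E h0) (C * PP F x (A * h))
  have ha : 0 < q ^ 2 / 32 / 16 * h := by positivity
  obtain ⟨t, htt, hMt, htW⟩ := cc_level hF x (A * h) tl (W := V E (q ^ 2 / 32 / 16 * h) ^ 2)
    (ε := ε / Cv ^ 2) hP (pow_ne_zero _ (V_ne_zero ha)) (ENNReal.pow_ne_top (V_ne_top _))
    (ENNReal.div_ne_zero.2 ⟨hε, ENNReal.pow_ne_top hCv⟩)
  have hmono : ∀ {P : ℝ≥0∞} {s s' : ℝ}, 8 * P ≤ V E s ^ 2 → s ≤ s' → P ≤ V E s' ^ 2 := by
    intro P s s' h1 h2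
    calc P = 1 * P := (one_mul _).symm
      _ ≤ 8 * P := by gcongr; norm_num
      _ ≤ V E s ^ 2 := h1
      _ ≤ V E s' ^ 2 := by gcongr; exact V_mono h2
  obtain ⟨t2, hMt2, ht2⟩ : ∃ t2, 8 * PP (lev F t2) x (A * h) ≤ V E (q ^ 2 / 32 / 16 * h) ^ 2 ∧
      (8 * PP (lev F (g x)) x (A * h) ≤ V E (q ^ 2 / 32 / 16 * h) ^ 2 → t2 = g x) := by
    by_cases k : 8 * PP (lev F (g x)) x (A * h) ≤ V E (q ^ 2 / 32 / 16 * h) ^ 2
    · exact ⟨g x, k, fun _ => rfl⟩
    · exact ⟨t, hMt, fun k' => absurd k' k⟩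
  have hnν : ‖h • ν‖ = h := by rw [norm_smul, hν1, mul_one, Real.norm_of_nonneg hh.le]
  have haa : q ^ 2 / 32 / 16 * h ≤ q * (h / 4) := by linarith
  obtain ⟨u, hu, hgood⟩ := (hG F hF x (A * h)).1 t t2 x (h • ν) (h / 4) (by positivity)
    (by rw [dist_eq_norm, add_sub_cancel_left, hnν]; linarith)
    (by rw [dist_eq_norm, sub_sub_cancel_left, norm_neg, hnν]; linarith)
    (hmono hMt haa) (hmono hMt2 haa)
  rw [mem_ball, dist_eq_norm] at hu
  have hun : ‖u‖ ≤ 5 / 4 * h := by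
    have := norm_add_le (u - h • ν) (h • ν)
    rw [sub_add_cancel, hnν] at this
    linarith
  have hu' : ‖h⁻¹ • u - ν‖ ≤ 1 / 4 := by
    rw [show h⁻¹ • u - ν = h⁻¹ • (u - h • ν) by
      rw [smul_sub, smul_smul, inv_mul_cancel₀ hh.ne', one_smul], norm_smul, norm_inv,
      Real.norm_of_nonneg hh.le, inv_mul_le_iff₀ hh]
    linarith
  obtain ⟨ω, hωN, hω⟩ := hnet (h⁻¹ • u)
    (by have := norm_add_le (h⁻¹ • u - ν) ν; rw [sub_add_cancel] at this; linarith)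
    (by have := norm_sub_norm_le ν (h⁻¹ • u); rw [norm_sub_rev] at this; linarith)
  have hων : ‖ω - ν‖ ≤ 1 / 2 := by
    have := norm_add_le (ω - h⁻¹ • u) (h⁻¹ • u - ν)
    rw [sub_add_sub_cancel] at this
    linarith
  have hωn : ‖ω‖ ≤ 3 / 2 := by
    have := norm_add_le (ω - ν) ν; rw [sub_add_cancel] at this; linarith
  have hωn' : 1 / 2 ≤ ‖ω‖ := by
    have := norm_sub_norm_le ν ω; rw [norm_sub_rev] at this; linarith
  have hωu : ‖h • ω - u‖ ≤ q ^ 2 / 512 * h := by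
    rw [show h • ω - u = h • (ω - h⁻¹ • u) by
      rw [smul_sub, smul_smul, mul_inv_cancel₀ hh.ne', one_smul], norm_smul,
      Real.norm_of_nonneg hh.le, mul_comm]
    gcongr
  have ha0 : 0 < q * (h / 4) := by positivity
  have hVh : ∀ {s k : ℝ}, 0 < s → q * k ≤ 64 * s → V E k ≤ Cv * V E s := by
    intro s k hs hk
    refine hV s k hs.le ?_
    rw [div_mul_eq_mul_div, le_div_iff₀ hq0]; linarith
  have hfin : ∀ {D P : ℝ≥0∞} {s k : ℝ}, 0 < s → q * k ≤ 64 * s → D * V E s ≤ 4 * P →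
      D * V E k ≤ C * P := by
    intro D P s k hs hk h1
    calc D * V E k ≤ D * (Cv * V E s) := by gcongr; exact hVh hs hk
      _ = Cv * (D * V E s) := by ring
      _ ≤ Cv * (4 * P) := by gcongr
      _ = 4 * Cv * P := by ring
      _ ≤ C * P := by gcongr
  have hd1 : dist (x + h • ω) (x + u) ≤ q * (h / 4) / 4 := by
    rw [dist_eq_norm, show x + h • ω - (x + u) = h • ω - u by abel]; linarith
  have hd2 : dist (x - h • ω) (x - u) ≤ q * (h / 4) / 4 := by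
    rw [dist_eq_norm, show x - h • ω - (x - u) = -(h • ω - u) by abel, norm_neg]; linarith
  have hdp : dist (x + u) x + q * (h / 4) ≤ A * h := by
    rw [dist_eq_norm, add_sub_cancel_left]; linarith
  have hdm : dist (x - u) x + q * (h / 4) ≤ A * h := by
    rw [dist_eq_norm, sub_sub_cancel_left, norm_neg]; linarith
  -- the orientation
  have hfar : ∀ p w : E, Sp {y | t < F y} w (q * (h / 4)) → dist w x + q * (h / 4) ≤ A * h →
      dist p w ≤ q * (h / 4) / 4 →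
      (∫⁻ y in ball p (20 * h0), ENNReal.ofReal (min (F y) th - tl)) * V E h0 ≤
        C * PP F x (A * h) + ε := by
    intro p w h1 h2 h3
    refine (cc_far hF ha0 (by linarith) htt.le h1 h2 (by linarith)).trans ?_
    have h4 : V E (20 * h0) ≤ Cv * V E (q ^ 2 / 32 / 16 * h) := hVh ha (by nlinarith)
    have h5 : V E h0 ≤ Cv * V E (q ^ 2 / 32 / 16 * h) := (V_mono (by linarith)).trans h4
    calc 2 * PP F x (A * h) + ENNReal.ofReal (t - tl) * (V E (20 * h0) * V E h0)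
        ≤ 2 * PP F x (A * h) + ENNReal.ofReal (t - tl) * ((Cv * V E (q ^ 2 / 32 / 16 * h)) *
          (Cv * V E (q ^ 2 / 32 / 16 * h))) := by gcongr
      _ = 2 * PP F x (A * h) +
          Cv ^ 2 * (ENNReal.ofReal (t - tl) * V E (q ^ 2 / 32 / 16 * h) ^ 2) := by ring
      _ ≤ 2 * PP F x (A * h) + Cv ^ 2 * (8 * PP F x (A * h) + ε / Cv ^ 2) := by gcongr
      _ = (2 + 8 * Cv ^ 2) * PP F x (A * h) + Cv ^ 2 * (ε / Cv ^ 2) := by ring
      _ ≤ C * PP F x (A * h) + ε := add_le_add (by gcongr) ENNReal.mul_div_le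
  have hOR : ∀ e : E, (∫⁻ y in ball (x - h • e) (20 * h0), ENNReal.ofReal (min (F y) th - tl)) *
      V E h0 ≤ C * PP F x (A * h) → ORp F x h0 e D (C * PP F x (A * h)) := by
    intro e he
    have h1 : V E h0 ≤ V E (8 * h0) := V_mono (by linarith)
    refine ⟨tl, th, htlh, le_trans (by gcongr) (hth.trans (by gcongr)),
      le_trans (by gcongr) (htl.trans (by gcongr)), ?_⟩
    rwa [← hh']
  have hORp : Sp {y | t < F y} (x - u) (q * (h / 4)) → ORp F x h0 ω D (C * PP F x (A * h)) :=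
    fun k => hOR ω ((hεN ω hωN).1 (hfar _ _ k hdm hd2))
  have hORm : Sp {y | t < F y} (x + u) (q * (h / 4)) → ORp F x h0 (-ω) D (C * PP F x (A * h)) :=
    fun k => hOR (-ω) ((hεN ω hωN).2 (hfar _ _ k hdp (by rwa [smul_neg, sub_neg_eq_add])))
  have hnFF : Sp {y | t < F y}ᶜ (x + u) (q * (h / 4)) → Sp {y | t < F y}ᶜ (x - u) (q * (h / 4)) →
      False := by
    intro k1 k2
    have h1 := cl_cancel ha0 haa (cc_mid hF t ha0 k1 k2 (R := A * h) (by linarith)) hMt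
    refine hnF t htt (le_trans (mul_le_mul_right (measure_mono (inter_subset_inter_right _
      (ball_subset_ball (by linarith)))) _) (h1.trans (V_mono (by linarith))))
  obtain ⟨htp, htm⟩ := hgood t (Or.inl rfl)
  refine ⟨ω, hωN, hων, ?_, fun hwin => ?_⟩
  · rcases htp with k1 | k1
    · exact Or.inr (hORm k1)
    · exact Or.inl (hORp (htm.resolve_right (hnFF k1)))
  have hwin0 : ∀ ρ ∈ Icc (0 : ℝ) (q ^ 2 / 32 / 16 * (2 ^ (j + c) * η)), g x ≤ g (x + ρ • ω) := by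
    intro ρ hρ
    rw [← hhdef] at hρ
    exact hwin ρ ⟨hρ.1, hρ.2.trans (by linarith)⟩
  suffices hs : ORp F x h0 (-ω) D (C * PP F x (A * h)) ∨
      Chg F g Bad A (q ^ 2 / 32) C Net η J x ω from hs.imp_right fun k => k.mono hη hAD le_rfl
  by_cases hM : V E (q ^ 2 / 32 / 16 * h) ^ 2 ≤ 8 * PP (lev F (g x)) x (A * h)
  · exact Or.inr ⟨j + c, by omega, hwin0, Or.inl (hhdef ▸ hM)⟩
  replace hM := (not_le.1 hM).le
  obtain ⟨hup, hum⟩ := hgood (g x) (Or.inr (ht2 hM).symm)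
  have hq64 : q * h ≤ 64 * (q * (h / 4)) := by linarith
  have har : q ^ 2 / 32 / 16 * h ≤ r := by linarith
  have hcx : dist x x + r ≤ A * h := by rw [dist_self]; linarith
  rcases hup with hup | hup <;> rcases hum with hum | hum
  · refine Or.inr ⟨j + c, by omega, hwin0, Or.inr (Or.inl ⟨x, r, hhdef ▸ har, hhdef ▸ hcx, ?_⟩)⟩
    rw [← hhdef]
    refine hfin ha0 hq64 ?_
    have h3 := S1hi hF (g x) (w := x) (u := u) (z := x) (ρ := q * (h / 4)) (a := q * (h / 4))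
      (R := A * h) ha0 (by rw [← two_mul]; exact hup) (by rw [← two_mul]; exact hum)
      (by rw [dist_self]; linarith) (by linarith)
    have h4 : du F (g x) (ball x r) ≤ du F (g x) (ball x (q * (h / 4))) :=
      lintegral_mono_set (ball_subset_ball (by linarith))
    calc da F (g x) (ball x r) * V E (q * (h / 4))
        ≤ 2 * du F (g x) (ball x (q * (h / 4))) * V E (q * (h / 4)) := by
          gcongr; exact (da_le_du hF hF0 (hg0 x) hI).trans (by gcongr)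
      _ = 2 * (du F (g x) (ball x (q * (h / 4))) * V E (q * (h / 4))) := by ring
      _ ≤ 2 * (2 * PP F x (A * h)) := by gcongr
      _ = 4 * PP F x (A * h) := by ring
  · refine Or.inl (hORm ?_)
    rcases le_total (g x) t with k | k
    · exact cc_Sp_mono (fun y hy => lt_of_le_of_lt k hy) hup
    · exact htp.resolve_right fun k1 => hnFF k1
        (cc_Sp_mono (compl_subset_compl.2 fun y hy => lt_of_le_of_lt k hy) hum)
  swap
  · refine Or.inr ⟨j + c, by omega, hwin0, Or.inr (Or.inl ⟨x, q * (h / 4), ?_, ?_, ?_⟩)⟩ <;>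
      rw [← hhdef]
    · linarith
    · rw [dist_self]; linarith
    · exact hfin ha0 hq64 (cc_FL hF hF0 (hg0 x) hH ha0 (by linarith) le_rfl hup hum
        (by rw [dist_self]; linarith) (by linarith))
  refine Or.inr ?_
  by_cases hex : ∃ ρ ∈ Icc (0 : ℝ) h, g (x + ρ • ω) < g x
  · obtain ⟨ρ, hρ, hρg⟩ := hex
    have hρr : h0 / 8 < ρ := by
      by_contra hc
      exact absurd (hwin ρ ⟨hρ.1, not_lt.1 hc⟩) (not_le.2 hρg)
    refine ⟨j + c, by omega, hwin0, Or.inr (Or.inl ⟨x, r, hhdef ▸ har, hhdef ▸ hcx, ?_⟩)⟩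
    rw [← hhdef]
    refine (hTL F hF hF0 (g x) x ω (x + u) (x - u) r h (q * (h / 4)) ρ (hg0 x) hr (by linarith)
      (by rw [hh']; gcongr) (by linarith) (by linarith) (by linarith) hρ.2 hd1 hd2 hup hum hI
      ((hH _ r (hηh.trans hr1)).trans (by gcongr))).trans ?_
    gcongr
    exact PP_mono F (by rw [dist_self, zero_add]; gcongr)
  refine cc_chain hF hF0 (hg0 x) hη hH hq0 (by linarith) hA88
    (fun R => (hG F hF x R).2 (g x)) hnet hfin hJ hhdef (by linarith) hωN hωn hωn' hωu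
    (fun ω' h1 => cc_start hF hq0 (by linarith) hh hA88 (subset_trans (ball_subset_ball ?_) hBad)
      (by linarith) h1 hup hum hM) fun ρ hρ => not_lt.1 fun hc => hex ⟨ρ, hρ, hc⟩
  have h1 : h ≤ D * r := by rw [hh']; gcongr
  have h2 : 0 ≤ D * r := by positivity
  nlinarith

end Vale.Agent.P137
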