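import Vale.Agent.P137.CDEa

namespace Vale.Agent.P137

open MeasureTheory Metric Set Filter Topology
open scoped ENNReal RealInnerProductSpace

variable {E : Type*} [NormedAddCommGroup E] [InnerProductSpace ℝ E] [FiniteDimensional ℝ E]
  [MeasurableSpace E] [BorelSpace E]

/-- derivative of the average along a line in the space of centres and radii -/
theorem DA {g : E → ℝ} (hg : ContDiff ℝ 1 g) (c e : E) (s a t : ℝ) (hs : 0 < s + a * t) :
    HasDerivAt (fun t : ℝ => av g (c + t • e) (s + a * t))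
      (av (fun w => fderiv ℝ g w (e + (a / (s + a * t)) • (w - (c + t • e)))) (c + t • e)
        (s + a * t)) t :=
  cde_DA hg c e s a t hs

/-- first order estimate -/
theorem FO : ∃ C : ℝ, 0 < C ∧ ∀ (f : E → ℝ) (Ω : E → ℝ≥0∞), Measurable f →
    LocallyIntegrable f volume → Measurable Ω → ∀ (m c1 c2 : E) (h ρ0 s1 s2 δ R : ℝ), 0 < h →
    0 < ρ0 → h / 2 ≤ s1 → h / 2 ≤ s2 → dist c1 c2 + |s1 - s2| ≤ δ → dist c1 m + s1 + ρ0 ≤ R →
    dist c2 m + s2 + ρ0 ≤ R → (∀ w ∈ ball m R, om f ρ0 w ≤ Ω w) →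
    ENNReal.ofReal |av f c1 s1 - av f c2 s2| * V E h ≤
      ENNReal.ofReal (C * (1 + δ / ρ0)) * ∫⁻ w in ball m R, Ω w :=
  cde_FO

/-- the vector field against which the gradient is integrated -/
noncomputable def cdeZ (m ω : E) (h s a t : ℝ) : E → E :=
  (ball (m + t • ω) (s + a * t)).indicator fun y => (h / (s + a * t)) ^ Module.finrank ℝ E •
    (ω + (a / (s + a * t)) • (y - (m + t • ω)))

omit [FiniteDimensional ℝ E] [MeasurableSpace E] [BorelSpace E] in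
lemma cde_Zeq (g : E → ℝ) (m ω : E) (h s a t : ℝ) : (fun y => fderiv ℝ g y (cdeZ m ω h s a t y)) =
    (ball (m + t • ω) (s + a * t)).indicator fun y => (h / (s + a * t)) ^ Module.finrank ℝ E *
      fderiv ℝ g y (ω + (a / (s + a * t)) • (y - (m + t • ω))) := by
  funext y
  unfold cdeZ
  by_cases hy : y ∈ ball (m + t • ω) (s + a * t)
  · rw [indicator_of_mem hy, indicator_of_mem hy, map_smul, smul_eq_mul]
  · rw [indicator_of_notMem hy, indicator_of_notMem hy, map_zero]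

lemma cde_Zint {g : E → ℝ} (hg : ContDiff ℝ 1 g) (m ω : E) (h s a t : ℝ) :
    Integrable fun y => fderiv ℝ g y (cdeZ m ω h s a t y) := by
  have hc : Continuous (fderiv ℝ g) := hg.continuous_fderiv one_ne_zero
  rw [cde_Zeq, integrable_indicator_iff measurableSet_ball]
  exact intOn_ball (Continuous.locallyIntegrable (by fun_prop)) _ _

lemma cde_Dint (g : E → ℝ) (m ω : E) {h s a t : ℝ} (hh : 0 < h) (hs : 0 < s + a * t) :
    cdeD g m ω s a t * (V E h).toReal = ∫ y, fderiv ℝ g y (cdeZ m ω h s a t y) := by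
  have h1 : V E h = ENNReal.ofReal ((h / (s + a * t)) ^ Module.finrank ℝ E) * V E (s + a * t) := by
    rw [← V_mul (div_pos hh hs), div_mul_cancel₀ _ hs.ne']
  have h2 := V_toReal_pos (E := E) hs
  rw [cde_Zeq, integral_indicator measurableSet_ball, integral_const_mul, h1, ENNReal.toReal_mul,
    ENNReal.toReal_ofReal (by positivity), cdeD, av]
  field_simp

omit [FiniteDimensional ℝ E] [MeasurableSpace E] [BorelSpace E] in
lemma cde_sd {m ω y : E} {h σ s a θ t1 t2 : ℝ} (hσ : 0 < σ) (h1 : 64 * σ ≤ h) (h2 : h ≤ s)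
    (hω : ‖ω‖ ≤ 2) (ha : |a| ≤ 4) (ht1 : |t1| ≤ 2 * σ) (ht2 : |t2| ≤ 2 * σ) (hθ : 16 * σ ≤ θ * h)
    (hy1 : y ∈ ball (m + t1 • ω) (s + a * t1)) (hy2 : y ∉ ball (m + t2 • ω) (s + a * t2)) :
    y ∈ {y | dist y m < s + 12 * σ ∧ |‖y - m‖ ^ 2 - s ^ 2| ≤ 8 * σ * θ * s} ∨
      y ∈ {y | |dist y m - s| ≤ 12 * σ ∧ θ < |a + ⟪ω, y - m⟫ / s|} := by
  rw [mem_ball, dist_eq_norm, ← sub_sub] at hy1 hy2
  rw [not_lt] at hy2
  simp only [mem_ofPred_eq, dist_eq_norm]
  set x := y - m with hx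
  have hs : 0 < s := by linarith
  have hθ0 : 0 < θ := by
    by_contra hh
    nlinarith
  have k1 : ∀ t : ℝ, |t| ≤ 2 * σ → |a * t| ≤ 8 * σ := fun t ht => by
    rw [abs_mul]; nlinarith [abs_nonneg a, abs_nonneg t]
  have k2 : ∀ t : ℝ, |t| ≤ 2 * σ → ‖t • ω‖ ≤ 4 * σ := fun t ht => by
    rw [norm_smul, Real.norm_eq_abs]; nlinarith [norm_nonneg ω, abs_nonneg t]
  have k3 : ∀ t : ℝ, ‖x - t • ω‖ ^ 2 = ‖x‖ ^ 2 - 2 * t * ⟪ω, x⟫ + t ^ 2 * ‖ω‖ ^ 2 := fun t => by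
    rw [norm_sub_sq_real, real_inner_smul_right, real_inner_comm, norm_smul, mul_pow,
      Real.norm_eq_abs, sq_abs]
    ring
  have a1 := abs_le.1 (k1 t1 ht1)
  have a2 := abs_le.1 (k1 t2 ht2)
  have b1 : ‖x‖ < s + 12 * σ := by
    have := norm_add_le (x - t1 • ω) (t1 • ω)
    rw [sub_add_cancel] at this
    linarith [k2 t1 ht1]
  have b2 : s - 12 * σ ≤ ‖x‖ := by
    have := norm_sub_le x (t2 • ω)
    linarith [k2 t2 ht2]
  by_cases hβ : θ < |a + ⟪ω, x⟫ / s|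
  · exact Or.inr ⟨abs_le.2 ⟨by linarith, by linarith⟩, hβ⟩
  refine Or.inl ⟨b1, ?_⟩
  have c1 : |a * s + ⟪ω, x⟫| ≤ θ * s := by
    have e1 : a * s + ⟪ω, x⟫ = (a + ⟪ω, x⟫ / s) * s := by field_simp
    rw [e1, abs_mul, abs_of_pos hs]
    exact mul_le_mul_of_nonneg_right (not_lt.1 hβ) hs.le
  have k4 : ∀ t : ℝ, |t| ≤ 2 * σ → |t * (a * s + ⟪ω, x⟫)| ≤ 2 * σ * (θ * s) := fun t ht => by
    rw [abs_mul]; exact mul_le_mul ht c1 (abs_nonneg _) (by positivity)
  have k5 : ∀ t : ℝ, |t| ≤ 2 * σ → (a * t) ^ 2 ≤ 64 * σ ^ 2 ∧ t ^ 2 * ‖ω‖ ^ 2 ≤ 16 * σ ^ 2 := by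
    intro t ht
    have e1 := pow_le_pow_left₀ (abs_nonneg _) (k1 t ht) 2
    have e2 := pow_le_pow_left₀ (norm_nonneg _) (k2 t ht) 2
    rw [sq_abs] at e1
    rw [norm_smul, mul_pow, Real.norm_eq_abs, sq_abs] at e2
    constructor <;> linarith
  have d1 := pow_lt_pow_left₀ hy1 (norm_nonneg _) two_ne_zero
  have d2 := pow_le_pow_left₀ (by linarith) hy2 2
  rw [k3] at d1 d2
  have d3 := abs_le.1 (k4 t1 ht1)
  have d4 := abs_le.1 (k4 t2 ht2)
  have d5 : 16 * σ ^ 2 ≤ σ * θ * s := by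
    have e1 : θ * h ≤ θ * s := mul_le_mul_of_nonneg_left h2 hθ0.le
    nlinarith
  have d6 := k5 t1 ht1
  have d7 := k5 t2 ht2
  have d8 : 0 ≤ t1 ^ 2 * ‖ω‖ ^ 2 := by positivity
  have d9 : 0 ≤ (a * t2) ^ 2 := by positivity
  exact abs_le.2 ⟨by nlinarith, by nlinarith⟩

omit [FiniteDimensional ℝ E] [MeasurableSpace E] [BorelSpace E] in
lemma cde_Y {ω y c : E} {s a : ℝ} (hs : 0 < s) (hω : ‖ω‖ ≤ 2) (ha : |a| ≤ 4)
    (hy : y ∈ ball c s) : ‖ω + (a / s) • (y - c)‖ ≤ 6 := by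
  refine (norm_add_le _ _).trans ?_
  have h1 := (mem_ball.1 hy).le
  rw [norm_smul, Real.norm_eq_abs, abs_div, abs_of_pos hs, ← dist_eq_norm, div_mul_eq_mul_div]
  have h2 : |a| * dist y c / s ≤ 4 := (div_le_iff₀ hs).2 (by gcongr)
  linarith

omit [FiniteDimensional ℝ E] [MeasurableSpace E] [BorelSpace E] in
lemma cde_both (d : ℕ) {m ω y : E} {h σ s a t1 t2 : ℝ} (hσ : 0 < σ) (h1 : 64 * σ ≤ h) (h2 : h ≤ s)
    (hω : ‖ω‖ ≤ 2) (ha : |a| ≤ 4) (ht1 : |t1| ≤ 2 * σ) (ht2 : |t2| ≤ 2 * σ)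
    (hy1 : y ∈ ball (m + t1 • ω) (s + a * t1)) :
    ‖(h / (s + a * t1)) ^ d • (ω + (a / (s + a * t1)) • (y - (m + t1 • ω))) -
      (h / (s + a * t2)) ^ d • (ω + (a / (s + a * t2)) • (y - (m + t2 • ω)))‖ ≤
      (384 * d + 192) * 2 ^ d * (σ / h) := by
  have hh : 0 < h := by linarith
  have k1 : ∀ t : ℝ, |t| ≤ 2 * σ → |a * t| ≤ 8 * σ := fun t ht => by
    rw [abs_mul]; nlinarith [abs_nonneg a, abs_nonneg t]
  have a1 := abs_le.1 (k1 t1 ht1)
  have a2 := abs_le.1 (k1 t2 ht2)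
  have b1 := abs_le.1 ht1
  have b2 := abs_le.1 ht2
  have ht : |t2 - t1| ≤ 4 * σ := abs_le.2 ⟨by linarith, by linarith⟩
  have e0 : m + t2 • ω - (m + t1 • ω) = (t2 - t1) • ω := by module
  generalize m + t1 • ω = c1 at hy1 e0 ⊢
  generalize m + t2 • ω = c2 at e0 ⊢
  have hs1 : h / 2 ≤ s + a * t1 := by linarith
  have hs2 : h / 2 ≤ s + a * t2 := by linarith
  have hs12 : |s + a * t2 - (s + a * t1)| ≤ 16 * σ := abs_le.2 ⟨by linarith, by linarith⟩
  generalize s + a * t1 = s1 at hy1 hs1 hs12 ⊢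
  generalize s + a * t2 = s2 at hs2 hs12 ⊢
  have p1 : 0 < s1 := by linarith
  have p2 : 0 < s2 := by linarith
  have q1 : h / s1 ≤ 2 := (div_le_iff₀ p1).2 (by linarith)
  have q2 : h / s2 ≤ 2 := (div_le_iff₀ p2).2 (by linarith)
  have r1 : |h / s1 - h / s2| ≤ 64 * (σ / h) := by
    have e1 : h / s1 - h / s2 = h / s1 * (h / s2) * ((s2 - s1) / h) := by field_simp
    rw [e1, abs_mul, abs_of_pos (by positivity), abs_div, abs_of_pos hh]
    calc h / s1 * (h / s2) * (|s2 - s1| / h) ≤ 2 * 2 * (16 * σ / h) := by gcongr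
      _ = _ := by ring
  have r2 : |(h / s1) ^ d - (h / s2) ^ d| ≤ 64 * (σ / h) * d * 2 ^ d := by
    refine (abs_pow_sub_pow_le _ _ _).trans ?_
    have e1 : max |h / s1| |h / s2| ^ (d - 1) ≤ 2 ^ d := by
      refine (pow_le_pow_left₀ (by positivity) (max_le ?_ ?_) _).trans
        (pow_le_pow_right₀ one_le_two (Nat.sub_le d 1))
      · rwa [abs_of_pos (by positivity)]
      · rwa [abs_of_pos (by positivity)]
    gcongr
  have r3 : ‖(a / s1 - a / s2) • (y - c1) + (a / s2) • (c2 - c1)‖ ≤ 192 * (σ / h) := by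
    refine (norm_add_le _ _).trans ?_
    have e1 : a / s1 - a / s2 = a * (h / s2) * ((s2 - s1) / h) / s1 := by field_simp
    have e2 : a / s2 = a * (h / s2) / h := by field_simp
    have e3 := (mem_ball.1 hy1).le
    have f1 : ‖(a / s1 - a / s2) • (y - c1)‖ ≤ 128 * (σ / h) := by
      rw [norm_smul, Real.norm_eq_abs, e1, ← dist_eq_norm, abs_div, abs_of_pos p1, abs_mul,
        abs_mul, abs_of_pos (div_pos hh p2), abs_div, abs_of_pos hh]
      calc |a| * (h / s2) * (|s2 - s1| / h) / s1 * dist y c1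
          ≤ 4 * 2 * (16 * σ / h) / s1 * s1 := by gcongr
        _ = _ := by field_simp; ring
    have f2 : ‖(a / s2) • (c2 - c1)‖ ≤ 64 * (σ / h) := by
      rw [e0, norm_smul, norm_smul, Real.norm_eq_abs, Real.norm_eq_abs, e2, abs_div, abs_of_pos hh,
        abs_mul, abs_of_pos (div_pos hh p2)]
      calc |a| * (h / s2) / h * (|t2 - t1| * ‖ω‖) ≤ 4 * 2 / h * (4 * σ * 2) := by gcongr
        _ = _ := by ring
    linarith
  have e4 : (h / s1) ^ d • (ω + (a / s1) • (y - c1)) - (h / s2) ^ d • (ω + (a / s2) • (y - c2)) =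
      ((h / s1) ^ d - (h / s2) ^ d) • (ω + (a / s1) • (y - c1)) +
        (h / s2) ^ d • ((a / s1 - a / s2) • (y - c1) + (a / s2) • (c2 - c1)) := by module
  rw [e4]
  refine (norm_add_le _ _).trans ?_
  rw [norm_smul, norm_smul, Real.norm_eq_abs, Real.norm_eq_abs, abs_of_pos (pow_pos (div_pos hh p2) d)]
  have r4 := cde_Y p1 hω ha hy1
  calc _ ≤ 64 * (σ / h) * d * 2 ^ d * 6 + 2 ^ d * (192 * (σ / h)) := by gcongr
    _ = _ := by ring

omit [FiniteDimensional ℝ E] [MeasurableSpace E] [BorelSpace E] in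
lemma cde_geo {m ω : E} {h σ s a θ t1 t2 : ℝ} (hσ : 0 < σ) (h1 : 64 * σ ≤ h) (h2 : h ≤ s)
    (hω : ‖ω‖ ≤ 2) (ha : |a| ≤ 4) (ht1 : |t1| ≤ 2 * σ) (ht2 : |t2| ≤ 2 * σ) (hθ : 16 * σ ≤ θ * h)
    (y : E) : ‖cdeZ m ω h s a t1 y - cdeZ m ω h s a t2 y‖ ≤
      (ball m (s + 12 * σ)).indicator
        (fun _ => (384 * Module.finrank ℝ E + 192) * 2 ^ Module.finrank ℝ E * (σ / h)) y +
      {y | dist y m < s + 12 * σ ∧ |‖y - m‖ ^ 2 - s ^ 2| ≤ 8 * σ * θ * s}.indicator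
        (fun _ => (6 * 2 ^ Module.finrank ℝ E : ℝ)) y +
      {y | |dist y m - s| ≤ 12 * σ ∧ θ < |a + ⟪ω, y - m⟫ / s|}.indicator
        (fun _ => (6 * 2 ^ Module.finrank ℝ E : ℝ)) y := by
  have hh : 0 < h := by linarith
  have k1 : ∀ t : ℝ, |t| ≤ 2 * σ → |a * t| ≤ 8 * σ := fun t ht => by
    rw [abs_mul]; nlinarith [abs_nonneg a, abs_nonneg t]
  have n0 := indicator_nonneg (s := ball m (s + 12 * σ)) (f := fun _ =>
    (384 * Module.finrank ℝ E + 192) * 2 ^ Module.finrank ℝ E * (σ / h)) (fun _ _ => by positivity) y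
  have n1 : ∀ S : Set E, 0 ≤ S.indicator (fun _ => (6 * 2 ^ Module.finrank ℝ E : ℝ)) y :=
    fun S => indicator_nonneg (fun _ _ => by positivity) y
  have one : ∀ t t' : ℝ, |t| ≤ 2 * σ → |t'| ≤ 2 * σ → y ∈ ball (m + t • ω) (s + a * t) →
      y ∉ ball (m + t' • ω) (s + a * t') → ‖cdeZ m ω h s a t y‖ ≤
      {y | dist y m < s + 12 * σ ∧ |‖y - m‖ ^ 2 - s ^ 2| ≤ 8 * σ * θ * s}.indicator
        (fun _ => (6 * 2 ^ Module.finrank ℝ E : ℝ)) y +
      {y | |dist y m - s| ≤ 12 * σ ∧ θ < |a + ⟪ω, y - m⟫ / s|}.indicator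
        (fun _ => (6 * 2 ^ Module.finrank ℝ E : ℝ)) y := by
    intro t t' ht ht' hy hy'
    have a1 := abs_le.1 (k1 t ht)
    have p1 : 0 < s + a * t := by linarith
    have q1 : h / (s + a * t) ≤ 2 := (div_le_iff₀ p1).2 (by linarith)
    have e1 : ‖cdeZ m ω h s a t y‖ ≤ 6 * 2 ^ Module.finrank ℝ E := by
      rw [cdeZ, indicator_of_mem hy, norm_smul, Real.norm_eq_abs,
        abs_of_pos (pow_pos (div_pos hh p1) _), mul_comm]
      have := cde_Y p1 hω ha hy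
      gcongr
    rcases cde_sd hσ h1 h2 hω ha ht ht' hθ hy hy' with h | h
    · rw [indicator_of_mem h]
      exact e1.trans (le_add_of_nonneg_right (n1 _))
    · rw [indicator_of_mem h]
      exact e1.trans (le_add_of_nonneg_left (n1 _))
  rw [add_assoc]
  by_cases hy1 : y ∈ ball (m + t1 • ω) (s + a * t1) <;>
    by_cases hy2 : y ∈ ball (m + t2 • ω) (s + a * t2)
  · have hy0 : y ∈ ball m (s + 12 * σ) := by
      refine ball_subset_ball' ?_ hy1
      have a1 := abs_le.1 (k1 t1 ht1)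
      rw [dist_self_add_left, norm_smul, Real.norm_eq_abs]
      nlinarith [norm_nonneg ω, abs_nonneg t1]
    rw [cdeZ, cdeZ, indicator_of_mem hy1, indicator_of_mem hy2, indicator_of_mem hy0]
    exact (cde_both _ hσ h1 h2 hω ha ht1 ht2 hy1).trans
      (le_add_of_nonneg_right (add_nonneg (n1 _) (n1 _)))
  · have e1 : cdeZ m ω h s a t2 y = 0 := by rw [cdeZ, indicator_of_notMem hy2]
    rw [e1, sub_zero]
    exact (one t1 t2 ht1 ht2 hy1 hy2).trans (le_add_of_nonneg_left n0)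
  · have e1 : cdeZ m ω h s a t1 y = 0 := by rw [cdeZ, indicator_of_notMem hy1]
    rw [e1, zero_sub, norm_neg]
    exact (one t2 t1 ht2 ht1 hy2 hy1).trans (le_add_of_nonneg_left n0)
  · rw [cdeZ, cdeZ, indicator_of_notMem hy1, indicator_of_notMem hy2, sub_zero, norm_zero]
    exact add_nonneg n0 (add_nonneg (n1 _) (n1 _))

lemma cde_three {g : E → ℝ} {Z1 Z2 : E → E} (h1 : Integrable fun y => fderiv ℝ g y (Z1 y))
    (h2 : Integrable fun y => fderiv ℝ g y (Z2 y)) {A0 A1 A2 : Set E} (m0 : MeasurableSet A0)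
    (m1 : MeasurableSet A1) (m2 : MeasurableSet A2) {k0 k1 : ℝ} (p0 : 0 ≤ k0) (p1 : 0 ≤ k1)
    (h : ∀ y, ‖Z1 y - Z2 y‖ ≤ A0.indicator (fun _ => k0) y + A1.indicator (fun _ => k1) y +
      A2.indicator (fun _ => k1) y) :
    ENNReal.ofReal |(∫ y, fderiv ℝ g y (Z1 y)) - ∫ y, fderiv ℝ g y (Z2 y)| ≤
      ENNReal.ofReal k0 * (∫⁻ y in A0, ‖fderiv ℝ g y‖ₑ) +
      ENNReal.ofReal k1 * (∫⁻ y in A1, ‖fderiv ℝ g y‖ₑ) +
      ENNReal.ofReal k1 * ∫⁻ y in A2, ‖fderiv ℝ g y‖ₑ := by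
  have hm : Measurable fun y => ‖fderiv ℝ g y‖ₑ := (measurable_fderiv ℝ g).enorm
  have e1 : ∀ (A : Set E) (k : ℝ), MeasurableSet A → ENNReal.ofReal k * ∫⁻ y in A, ‖fderiv ℝ g y‖ₑ
      = ∫⁻ y, A.indicator (fun y => ENNReal.ofReal k * ‖fderiv ℝ g y‖ₑ) y := fun A k hA => by
    rw [lintegral_indicator hA, lintegral_const_mul _ hm]
  have e2 : ∀ (A : Set E) (k : ℝ) (y : E), A.indicator (fun y => ENNReal.ofReal k *
      ‖fderiv ℝ g y‖ₑ) y = ENNReal.ofReal (A.indicator (fun _ => k) y) * ‖fderiv ℝ g y‖ₑ := by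
    intro A k y
    by_cases hy : y ∈ A
    · rw [indicator_of_mem hy, indicator_of_mem hy]
    · rw [indicator_of_notMem hy, indicator_of_notMem hy, ENNReal.ofReal_zero, zero_mul]
  have n1 : ∀ (S : Set E) (k : ℝ) (y : E), 0 ≤ k → 0 ≤ S.indicator (fun _ => k) y :=
    fun S k y hk => indicator_nonneg (fun _ _ => hk) y
  rw [e1 _ _ m0, e1 _ _ m1, e1 _ _ m2, ← lintegral_add_left ((hm.const_mul _).indicator m0),
    ← lintegral_add_right _ ((hm.const_mul _).indicator m2), ← integral_sub h1 h2,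
    ← Real.norm_eq_abs, ofReal_norm]
  refine (enorm_integral_le_lintegral_enorm _).trans (lintegral_mono fun y => ?_)
  simp only [e2]
  rw [← add_mul, ← add_mul, ← ENNReal.ofReal_add (n1 _ _ _ p0) (n1 _ _ _ p1),
    ← ENNReal.ofReal_add (add_nonneg (n1 _ _ _ p0) (n1 _ _ _ p1)) (n1 _ _ _ p1), ← map_sub,
    mul_comm]
  refine (ContinuousLinearMap.le_opENorm _ _).trans (mul_le_mul_right ?_ _)
  rw [← ofReal_norm]
  exact ENNReal.ofReal_le_ofReal (h y)

/-- second order estimate -/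
theorem DE : ∃ C : ℝ, 0 < C ∧ ∀ (f : E → ℝ) (Ω : E → ℝ≥0∞), Measurable f →
    LocallyIntegrable f volume → Measurable Ω → ∀ (m ω : E) (h σ ρ0 s a θ τ ρ : ℝ), 0 < ρ0 →
    ρ0 ≤ σ → 64 * σ ≤ h → h ≤ s → s ≤ 2 * h → ‖ω‖ ≤ 2 → |a| ≤ 4 → 0 < τ → τ ≤ 2 * σ → 0 < ρ →
    ρ ≤ 2 * σ → 16 * σ ≤ θ * h → (∀ w ∈ ball m (s + 20 * σ), om f ρ0 w ≤ Ω w) →
    ENNReal.ofReal |Dq f m ω s a τ ρ| * V E h ≤
      ENNReal.ofReal (C * (1 + θ * (σ / ρ0) ^ 2)) * (∫⁻ w in ball m (s + 20 * σ), Ω w) +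
      ENNReal.ofReal (C * (σ / ρ0)) *
        ∫⁻ w in {w | |dist w m - s| < 20 * σ ∧ θ / 2 < |a + ⟪ω, w - m⟫ / s|}, Ω w := by
  obtain ⟨C, hC, hm⟩ := moll (E := E)
  obtain ⟨C2, hC2, hP⟩ := PK2 (E := E)
  set d := Module.finrank ℝ E with hd
  set K1 : ℝ := (384 * d + 192) * 2 ^ d with hK1
  set K2 : ℝ := 6 * 2 ^ d with hK2
  have pK1 : 0 < K1 := by positivity
  have pK2 : 0 < K2 := by positivity
  refine ⟨3 * (2 ^ d * C) + 2 * K1 * C + 16 * K2 * C * C2 + 2 * K2 * C, by positivity, ?_⟩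
  intro f Ω hf hfi hΩ m ω h σ ρ0 s a θ τ ρ hρ0 hρσ h1 h2 h3 hω ha hτ hτ2 hρ hρ2 hθ hom
  obtain ⟨g, hg, hg1, hg2⟩ := hm f hf hfi ρ0 hρ0
  have hσ : 0 < σ := by linarith
  have hh : 0 < h := by linarith
  have hθ0 : 0 < θ := by
    by_contra hh
    nlinarith
  set X := ∫⁻ w in ball m (s + 20 * σ), Ω w with hX
  set W := {w | |dist w m - s| < 20 * σ ∧ θ / 2 < |a + ⟪ω, w - m⟫ / s|} with hW
  have k1 : ∀ t : ℝ, |t| ≤ 2 * σ → h / 2 ≤ s + a * t ∧
      ball (m + t • ω) (s + a * t) ⊆ ball m (s + 20 * σ) := fun t ht => by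
    have e1 : |a * t| ≤ 8 * σ := by rw [abs_mul]; nlinarith [abs_nonneg a, abs_nonneg t]
    have e2 := abs_le.1 e1
    refine ⟨by linarith, ball_subset_ball' ?_⟩
    rw [dist_self_add_left, norm_smul, Real.norm_eq_abs]
    nlinarith [norm_nonneg ω, abs_nonneg t]
  have k2 : ∀ t ∈ Icc (-τ) ρ, |t| ≤ 2 * σ := fun t ht =>
    abs_le.2 ⟨by linarith [ht.1], by linarith [ht.2]⟩
  have k3 : ∀ t ∈ Icc (-τ) ρ, ENNReal.ofReal |av f (m + t • ω) (s + a * t) -
      av g (m + t • ω) (s + a * t)| * V E h ≤ ENNReal.ofReal (2 ^ d * C) * X := fun t ht =>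
    cde_fg hΩ hfi hg.continuous hh (k1 t (k2 t ht)).1 hg1 (k1 t (k2 t ht)).2 hom
  have a0 := k3 0 ⟨by linarith, hρ.le⟩
  have a1 := k3 (-τ) ⟨le_rfl, by linarith⟩
  have a2 := k3 ρ ⟨by linarith, le_rfl⟩
  obtain ⟨t1, ht1, e1⟩ := cde_mvt hg m ω s a (neg_lt_zero.2 hτ) fun t ht => by
    linarith [(k1 t (k2 t ⟨ht.1, by linarith [ht.2]⟩)).1]
  obtain ⟨t2, ht2, e2⟩ := cde_mvt hg m ω s a hρ fun t ht => by
    linarith [(k1 t (k2 t ⟨by linarith [ht.1], ht.2⟩)).1]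
  simp only [zero_smul, add_zero, mul_zero, neg_smul, mul_neg, ← sub_eq_add_neg, sub_zero,
    zero_sub, neg_neg] at a0 a1 e1 e2
  have b1 := k2 t1 ⟨ht1.1.le, by linarith [ht1.2]⟩
  have b2 := k2 t2 ⟨by linarith [ht2.1], ht2.2.le⟩
  have mA1 : MeasurableSet {y : E | dist y m < s + 12 * σ ∧
      |‖y - m‖ ^ 2 - s ^ 2| ≤ 8 * σ * θ * s} :=
    (measurableSet_lt (f := fun y : E => dist y m) (by fun_prop) measurable_const).inter
      (measurableSet_le (f := fun y : E => |‖y - m‖ ^ 2 - s ^ 2|) (by fun_prop) measurable_const)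
  have mi : Measurable fun y : E => |a + ⟪ω, y - m⟫ / s| :=
    Continuous.measurable (by fun_prop)
  have mj : Measurable fun y : E => |dist y m - s| := by fun_prop
  have mA2 : MeasurableSet {y : E | |dist y m - s| ≤ 12 * σ ∧ θ < |a + ⟪ω, y - m⟫ / s|} :=
    (measurableSet_le mj measurable_const).inter (measurableSet_lt measurable_const mi)
  have mW : MeasurableSet W :=
    (measurableSet_lt mj measurable_const).inter (measurableSet_lt measurable_const mi)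
  have hb : ∀ y : E, dist y m ≤ s + 12 * σ → ball y ρ0 ⊆ ball m (s + 20 * σ) := fun y hy =>
    ball_subset_ball' (by linarith)
  have hv : ∀ (A : Set E) (w : E), volume (A ∩ ball w ρ0) ≤ ENNReal.ofReal 1 * V E ρ0 := by
    intro A w
    rw [ENNReal.ofReal_one, one_mul, ← vol_ball w]
    exact measure_mono inter_subset_right
  have g0 := cde_grad (f := f) hΩ hC.le hρ0 hg2 (A := ball m (s + 12 * σ)) measurableSet_ball
    measurableSet_ball (fun y hy => hb y (mem_ball.1 hy).le) (fun w _ => hv _ w)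
    fun y hy w hw => hom w (hb y (mem_ball.1 hy).le hw)
  have g1 := cde_grad (f := f) (k := C2 * (8 * σ * θ / ρ0)) hΩ hC.le hρ0 hg2 mA1
    measurableSet_ball (fun y hy => hb y hy.1.le) (fun w _ => le_trans (measure_mono
      fun y hy => mem_sep hy.2 hy.1.2) (hP m w s ρ0 (8 * σ * θ) hρ0 (by linarith) (by positivity)))
    fun y hy w hw => hom w (hb y hy.1.le hw)
  have g2 := cde_grad (f := f) hΩ hC.le hρ0 hg2 mA2 mW (fun y hy w hw => by
      have c1 := abs_le.1 hy.1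
      have c2 := mem_ball.1 hw
      have c3 := dist_triangle w y m
      have c4 := dist_triangle_left y m w
      have hs : 0 < s := by linarith
      refine ⟨abs_lt.2 ⟨by linarith, by linarith⟩, ?_⟩
      have c5 : a + ⟪ω, y - m⟫ / s = a + ⟪ω, w - m⟫ / s - ⟪ω, w - y⟫ / s := by
        simp only [inner_sub_right]; ring
      have c6 : |⟪ω, w - y⟫ / s| ≤ θ / 8 := by
        rw [abs_div, abs_of_pos hs, div_le_iff₀ hs]
        refine (abs_real_inner_le_norm _ _).trans ?_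
        rw [← dist_eq_norm]
        have c7 : θ * h ≤ θ * s := mul_le_mul_of_nonneg_left h2 hθ0.le
        nlinarith [dist_nonneg (x := w) (y := y), norm_nonneg ω]
      have c8 := hy.2
      rw [c5] at c8
      linarith [abs_sub (a + ⟪ω, w - m⟫ / s) (⟪ω, w - y⟫ / s)])
    (fun w _ => hv _ w) fun y hy w hw => hom w (hb y (by linarith [(abs_le.1 hy.1).2]) hw)
  have g3 := cde_three (cde_Zint hg m ω h s a t1) (cde_Zint hg m ω h s a t2) measurableSet_ball
    mA1 mA2 (by positivity) pK2.le (cde_geo hσ h1 h2 hω ha b1 b2 hθ)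
  rw [← cde_Dint g m ω hh (by linarith [(k1 t1 b1).1]),
    ← cde_Dint g m ω hh (by linarith [(k1 t2 b2).1]), ← sub_mul, abs_mul,
    abs_of_pos (V_toReal_pos hh), ENNReal.ofReal_mul (abs_nonneg _),
    ENNReal.ofReal_toReal (V_ne_top h)] at g3
  have g4 := g3.trans (add_le_add (add_le_add (mul_le_mul_right g0 _) (mul_le_mul_right g1 _))
    (mul_le_mul_right g2 _))
  set D := cdeD g m ω s a t1 - cdeD g m ω s a t2 with hD
  have c1 : |Dq f m ω s a τ ρ| ≤ |av f m s - av g m s| +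
      |av f (m - τ • ω) (s - a * τ) - av g (m - τ • ω) (s - a * τ)| +
      |av f (m + ρ • ω) (s + a * ρ) - av g (m + ρ • ω) (s + a * ρ)| + 2 * σ * |D| := by
    have hτρ : 0 < τ + ρ := by linarith
    have e3 : Dq f m ω s a τ ρ = (av f m s - av g m s) - ρ / (τ + ρ) *
        (av f (m - τ • ω) (s - a * τ) - av g (m - τ • ω) (s - a * τ)) - τ / (τ + ρ) *
        (av f (m + ρ • ω) (s + a * ρ) - av g (m + ρ • ω) (s + a * ρ)) +
        τ * (ρ / (τ + ρ)) * D := by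
      have e4 : av g (m - τ • ω) (s - a * τ) = av g m s - τ * cdeD g m ω s a t1 := by linarith
      have e5 : av g (m + ρ • ω) (s + a * ρ) = av g m s + ρ * cdeD g m ω s a t2 := by linarith
      rw [Dq, hD, e4, e5]
      field_simp
      ring
    have u1 : ρ / (τ + ρ) ≤ 1 := (div_le_one hτρ).2 (by linarith)
    have u2 : τ / (τ + ρ) ≤ 1 := (div_le_one hτρ).2 (by linarith)
    rw [e3]
    refine (abs_add_le _ _).trans (add_le_add ((abs_sub _ _).trans
      (add_le_add ((abs_sub _ _).trans (add_le_add le_rfl ?_)) ?_)) ?_)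
    · rw [abs_mul, abs_of_pos (div_pos hρ hτρ)]
      exact mul_le_of_le_one_left (abs_nonneg _) u1
    · rw [abs_mul, abs_of_pos (div_pos hτ hτρ)]
      exact mul_le_of_le_one_left (abs_nonneg _) u2
    · rw [abs_mul, abs_of_pos (by positivity)]
      exact mul_le_mul_of_nonneg_right ((mul_le_of_le_one_right hτ.le u1).trans hτ2) (abs_nonneg _)
  refine (mul_le_mul_left (ENNReal.ofReal_le_ofReal c1) _).trans ?_
  rw [ENNReal.ofReal_add (by positivity) (by positivity), add_mul,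
    ENNReal.ofReal_mul (by positivity), mul_assoc (ENNReal.ofReal (2 * σ)),
    ← abs_of_nonneg (a := |av f m s - av g m s| + _ + _) (by positivity)]
  refine (add_le_add ((cde_add3 (le_of_eq (abs_of_nonneg (by positivity))) _).trans
    (add_le_add (add_le_add a0 a1) a2)) (mul_le_mul_right g4 _)).trans ?_
  rw [mul_add, mul_add, ← add_assoc, ← add_assoc]
  simp only [← mul_assoc]
  refine add_le_add ?_ (mul_le_mul_left ?_ _)
  · rw [← ENNReal.ofReal_mul (by positivity), ← ENNReal.ofReal_mul (by positivity),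
      ← ENNReal.ofReal_mul (by positivity), ← ENNReal.ofReal_mul (by positivity), ← add_mul,
      ← add_mul, ← add_mul, ← add_mul, ← ENNReal.ofReal_add (by positivity) (by positivity),
      ← ENNReal.ofReal_add (by positivity) (by positivity),
      ← ENNReal.ofReal_add (by positivity) (by positivity),
      ← ENNReal.ofReal_add (by positivity) (by positivity)]
    refine mul_le_mul_left (ENNReal.ofReal_le_ofReal ?_) _
    have u1 : 1 ≤ σ / ρ0 := (one_le_div hρ0).2 hρσ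
    have u2 : σ / h ≤ θ := (div_le_iff₀ hh).2 (by linarith)
    have u3 : σ / h * (σ / ρ0) ≤ θ * (σ / ρ0) ^ 2 := by
      rw [sq]
      exact mul_le_mul u2 (le_mul_of_one_le_left (by positivity) u1) (by positivity) hθ0.le
    have u4 : 0 ≤ θ * (σ / ρ0) ^ 2 := by positivity
    calc _ = 3 * (2 ^ d * C) + 2 * K1 * C * (σ / h * (σ / ρ0)) +
          16 * K2 * C * C2 * (θ * (σ / ρ0) ^ 2) := by ring
      _ ≤ 3 * (2 ^ d * C) * (1 + θ * (σ / ρ0) ^ 2) + 2 * K1 * C * (1 + θ * (σ / ρ0) ^ 2) +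
          16 * K2 * C * C2 * (1 + θ * (σ / ρ0) ^ 2) + 2 * K2 * C * (1 + θ * (σ / ρ0) ^ 2) := by
        refine le_trans (add_le_add (add_le_add (le_mul_of_one_le_right (by positivity)
          (by linarith)) ?_) ?_) (le_add_of_nonneg_right (by positivity))
        · exact mul_le_mul_of_nonneg_left (by linarith) (by positivity)
        · exact mul_le_mul_of_nonneg_left (by linarith) (by positivity)
      _ = _ := by ring
  · rw [← ENNReal.ofReal_mul (by positivity), ← ENNReal.ofReal_mul (by positivity)]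
    refine ENNReal.ofReal_le_ofReal ?_
    calc _ = 2 * K2 * C * (σ / ρ0) := by ring
      _ ≤ _ := mul_le_mul_of_nonneg_right (le_add_of_nonneg_left (by positivity)) (by positivity)

end Vale.Agent.P137
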