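import Vale.Agent.P137.CDefs

namespace Vale.Agent.P137

open MeasureTheory Metric Set Filter Topology
open scoped ENNReal RealInnerProductSpace

variable {E : Type*} [NormedAddCommGroup E] [InnerProductSpace ℝ E] [FiniteDimensional ℝ E]
  [MeasurableSpace E] [BorelSpace E]

theorem cpack_main (T B : Set E) {r : ℝ} (hr : 0 < r) (S : ℕ → Set E) (κ : ℝ≥0∞)
    (hm : ∀ i : ℕ, MeasurableSet (S i))
    (hd : ∀ i j : ℕ, i < j → (j : ℝ) ≤ r → Disjoint (S i) (S j))
    (hB : ∀ i : ℕ, (i : ℝ) ≤ r → S i ⊆ B)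
    (hv : ∀ i : ℕ, (i : ℝ) ≤ r → volume T ≤ κ * volume (S i)) :
    volume T ≤ ENNReal.ofReal r⁻¹ * (κ * volume B) := by
  have hi : ∀ i ∈ Finset.range (⌊r⌋₊ + 1), (i : ℝ) ≤ r := fun i hi =>
    (Nat.le_floor_iff hr.le).1 (Nat.lt_succ_iff.1 (Finset.mem_range.1 hi))
  have h1 : ENNReal.ofReal r * volume T ≤ κ * volume B := by
    calc ENNReal.ofReal r * volume T ≤ ((⌊r⌋₊ + 1 : ℕ) : ℝ≥0∞) * volume T := by
          gcongr
          rw [← ENNReal.ofReal_natCast]
          exact ENNReal.ofReal_le_ofReal (by push_cast; exact (Nat.lt_floor_add_one r).le)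
      _ = ∑ _i ∈ Finset.range (⌊r⌋₊ + 1), volume T := by
          rw [Finset.sum_const, Finset.card_range, nsmul_eq_mul]
      _ ≤ ∑ i ∈ Finset.range (⌊r⌋₊ + 1), κ * volume (S i) :=
          Finset.sum_le_sum fun i h => hv i (hi i h)
      _ = κ * volume (⋃ i ∈ Finset.range (⌊r⌋₊ + 1), S i) := by
          rw [← Finset.mul_sum, measure_biUnion_finset _ fun i _ => hm i]
          intro i h1 j h2 hij
          rcases lt_or_gt_of_ne hij with h | h
          · exact hd i j h (hi j h2)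
          · exact (hd j i h (hi i h1)).symm
      _ ≤ κ * volume B := by
          gcongr
          exact iUnion₂_subset fun i h => hB i (hi i h)
  rw [ENNReal.ofReal_inv_of_pos hr]
  calc volume T = (ENNReal.ofReal r)⁻¹ * (ENNReal.ofReal r * volume T) :=
        (ENNReal.inv_mul_cancel_left (ENNReal.ofReal_pos.2 hr).ne' ENNReal.ofReal_ne_top).symm
    _ ≤ _ := by gcongr

theorem cpack_hom (T : Set E) (m : E) {c : ℝ} (hc : 0 < c) :
    volume T = ENNReal.ofReal (c ^ Module.finrank ℝ E) * volume {y | m + c • (y - m) ∈ T} := by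
  rw [← abs_of_pos (pow_pos hc _), ← Measure.addHaar_image_homothety volume m c]
  congr 1
  ext y
  simp only [mem_image, mem_ofPred_eq, AffineMap.homothety_apply, vsub_eq_sub, vadd_eq_add]
  constructor
  · intro hy
    refine ⟨m + c⁻¹ • (y - m), ?_, ?_⟩ <;> simp [smul_smul, hc.ne', hy]
  · rintro ⟨x, hx, rfl⟩
    rwa [add_comm]

theorem cpack_PK4 : ∃ C : ℝ, 0 < C ∧ ∀ (T : Set E) (z ω : E) (h τ0 τ1 : ℝ), MeasurableSet T →
    0 < τ0 → 0 < τ1 → τ1 ≤ h → ‖ω‖ ≤ 2 → T ⊆ ball z h →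
    (∀ y ∈ T, ∀ τ ∈ Icc τ0 τ1, y + τ • ω ∉ T) →
    volume T ≤ ENNReal.ofReal (C * (τ0 / τ1)) * V E h := by
  refine ⟨3 ^ Module.finrank ℝ E, by positivity, fun T z ω h τ0 τ1 hT h0 h1 h2 hω hb H => ?_⟩
  have hi : ∀ i : ℕ, (i : ℝ) ≤ τ1 / τ0 → i * τ0 ≤ τ1 := fun i hi => (le_div_iff₀ h0).1 hi
  refine (cpack_main T (ball z (3 * h)) (div_pos h1 h0)
    (fun i => (fun y => y + -((i * τ0) • ω)) ⁻¹' T) 1 (fun i => hT.preimage (by fun_prop))
    (fun i j hij hj => disjoint_left.2 fun y c1 c2 => ?_) (fun i c1 y hy => ?_)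
    (fun i _ => by rw [measure_preimage_add_right, one_mul])).trans (le_of_eq ?_)
  · have c3 : (i : ℝ) + 1 ≤ j := by exact_mod_cast hij
    have c4 : (0 : ℝ) ≤ i := Nat.cast_nonneg i
    refine H _ c2 ((j - i) * τ0) ⟨by nlinarith, by nlinarith [hi j hj]⟩ ?_
    have : y + -((j * τ0) • ω) + ((j - i) * τ0) • ω = y + -((i * τ0) • ω) := by module
    rw [this]
    exact c1
  · have c2 := hb hy
    rw [mem_ball, dist_eq_norm] at c2 ⊢
    have c3 : ‖(i * τ0) • ω‖ ≤ 2 * h := by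
      rw [norm_smul, Real.norm_of_nonneg (by positivity)]
      nlinarith [hi i c1, norm_nonneg ω, (by positivity : (0 : ℝ) ≤ i * τ0)]
    rw [show y - z = (y + -((i * τ0) • ω) - z) + (i * τ0) • ω by abel]
    linarith [norm_add_le (y + -((i * τ0) • ω) - z) ((i * τ0) • ω)]
  · rw [one_mul, vol_ball, V_mul (by norm_num), ← mul_assoc, ← ENNReal.ofReal_mul (by positivity),
      inv_div, mul_comm (τ0 / τ1)]

/-- points almost equidistant from two separated points lie in a thin slab -/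
theorem PK1 : ∃ C : ℝ, 0 < C ∧ ∀ (w w' z : E) (h δ θ : ℝ), 0 < h → 0 < δ → 0 < θ →
    θ * h ≤ dist w w' →
    volume {y ∈ ball z h | |dist y w - dist y w'| ≤ δ ∧ dist y w ≤ 4 * h ∧ dist y w' ≤ 4 * h} ≤
      ENNReal.ofReal (C * (δ / (θ * h))) * V E h := by
  obtain ⟨C, hC, H⟩ := cpack_PK4 (E := E)
  refine ⟨C * 9, by positivity, fun w w' z h δ θ hh hδ hθ hD => ?_⟩
  have hD0 : 0 < dist w w' := (mul_pos hθ hh).trans_le hD
  have hn : ‖(dist w w')⁻¹ • (w' - w)‖ = 1 := by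
    rw [norm_smul, Real.norm_of_nonneg (by positivity), ← dist_eq_norm, dist_comm w',
      inv_mul_cancel₀ hD0.ne']
  have hf : ∀ y : E, dist y w ^ 2 - dist y w' ^ 2 = 2 * ⟪y, w' - w⟫ + (‖w‖ ^ 2 - ‖w'‖ ^ 2) := by
    intro y
    rw [dist_eq_norm, dist_eq_norm, norm_sub_sq_real, norm_sub_sq_real, inner_sub_right]
    ring
  have hb : ∀ y : E, |dist y w - dist y w'| ≤ δ → dist y w ≤ 4 * h → dist y w' ≤ 4 * h →
      |dist y w ^ 2 - dist y w' ^ 2| ≤ δ * (8 * h) := by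
    intro y c1 c2 c3
    rw [sq_sub_sq, abs_mul, mul_comm]
    refine mul_le_mul c1 ?_ (abs_nonneg _) hδ.le
    rw [abs_of_nonneg (by positivity)]
    linarith
  refine (H _ z ((dist w w')⁻¹ • (w' - w)) h (9 * δ / θ) h ?_ (by positivity) hh le_rfl
    (by rw [hn]; norm_num) (fun y hy => hy.1) ?_).trans (le_of_eq ?_)
  · exact measurableSet_ball.inter ((measurableSet_le (f := fun y => |dist y w - dist y w'|)
      (by fun_prop) measurable_const).inter
      ((measurableSet_le (f := fun y => dist y w) (by fun_prop) measurable_const).inter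
        (measurableSet_le (f := fun y => dist y w') (by fun_prop) measurable_const)))
  · rintro y ⟨-, a1, a2, a3⟩ τ ⟨t1, -⟩ ⟨-, b1, b2, b3⟩
    have c1 := hb _ a1 a2 a3
    have c2 := hb _ b1 b2 b3
    rw [hf] at c1 c2
    rw [inner_add_left, real_inner_smul_left, real_inner_smul_left, real_inner_self_eq_norm_sq,
      ← dist_eq_norm, dist_comm w'] at c2
    have c3 : τ * ((dist w w')⁻¹ * dist w w' ^ 2) = τ * dist w w' := by field_simp
    rw [c3] at c2
    rw [div_le_iff₀ hθ] at t1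
    have c4 : 0 < τ := by
      by_contra c5
      nlinarith [mul_nonneg (neg_nonneg.2 (not_lt.1 c5)) hθ.le]
    have c5 : τ * (θ * h) ≤ τ * dist w w' := mul_le_mul_of_nonneg_left hD c4.le
    have c6 : 9 * δ * h ≤ τ * θ * h := mul_le_mul_of_nonneg_right t1 hh.le
    have c7 := (abs_le.1 c1).1
    have c8 := (abs_le.1 c2).2
    nlinarith [mul_pos hδ hh]
  · congr 2
    field_simp

/-- a thin spherical shell meets a small ball in a small set -/
theorem PK2 : ∃ C : ℝ, 0 < C ∧ ∀ (m w' : E) (s ρ δ : ℝ), 0 < ρ → 4 * ρ ≤ s → 0 < δ →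
    volume {w ∈ ball w' ρ | |‖w - m‖ ^ 2 - s ^ 2| ≤ δ * s} ≤
      ENNReal.ofReal (C * (δ / ρ)) * V E ρ := by
  refine ⟨6 ^ Module.finrank ℝ E, by positivity, fun m w' s ρ δ hρ hs hδ => ?_⟩
  have h6 : (1 : ℝ) ≤ 6 ^ Module.finrank ℝ E := one_le_pow₀ (by norm_num)
  rcases le_total ρ δ with hρδ | hρδ
  · refine (measure_mono fun y hy => hy.1).trans ?_
    rw [vol_ball]
    refine le_mul_of_one_le_left zero_le (ENNReal.one_le_ofReal.2 ?_)
    exact one_le_mul_of_one_le_of_one_le h6 ((one_le_div hρ).2 hρδ)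
  have hs0 : 0 < s := by linarith
  set T := {w ∈ ball w' ρ | |‖w - m‖ ^ 2 - s ^ 2| ≤ δ * s} with hT
  have hTm : MeasurableSet T :=
    measurableSet_ball.inter (measurableSet_le (f := fun w : E => |‖w - m‖ ^ 2 - s ^ 2|)
      (by fun_prop) measurable_const)
  obtain ⟨x, hx⟩ : ∃ x, x = δ / s := ⟨_, rfl⟩
  have hx0 : 0 < x := by rw [hx]; positivity
  have hδx : δ = x * s := by rw [hx]; field_simp
  have hx4 : x ≤ 1 / 4 := by rw [hx, div_le_iff₀ hs0]; linarith
  have hl : ∀ i : ℕ, 0 < 1 + i * (4 * x) := fun i => by positivity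
  have hi : ∀ i : ℕ, (i : ℝ) ≤ ρ / δ → i * x * s ≤ ρ := fun i hi => by
    rw [le_div_iff₀ hδ, hδx] at hi; linarith
  have hn : ∀ (i : ℕ) (y : E), ‖y - m‖ =
      (1 + i * (4 * x)) * ‖m + (1 + i * (4 * x))⁻¹ • (y - m) - m‖ := fun i y => by
    rw [add_sub_cancel_left, norm_smul, Real.norm_of_nonneg (inv_pos.2 (hl i)).le, ← mul_assoc,
      mul_inv_cancel₀ (hl i).ne', one_mul]
  refine (cpack_main T (ball w' (6 * ρ)) (div_pos hρ hδ)
    (fun i => {y | m + (1 + i * (4 * x))⁻¹ • (y - m) ∈ T}) 1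
    (fun i => hTm.preimage (by fun_prop))
    (fun i j hij hj => disjoint_left.2 fun y c1 c2 => ?_) (fun i c1 y hy => ?_)
    (fun i _ => ?_)).trans (le_of_eq ?_)
  · have c3 : (i : ℝ) + 1 ≤ j := by exact_mod_cast hij
    have c4 : (0 : ℝ) ≤ i := Nat.cast_nonneg i
    have a1 := (abs_le.1 c1.2).2
    have a2 := (abs_le.1 c2.2).1
    have a3 := (hn i y).symm.trans (hn j y)
    have a4 := hi j hj
    generalize ‖m + (1 + i * (4 * x))⁻¹ • (y - m) - m‖ = a at a1 a3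
    generalize ‖m + (1 + j * (4 * x))⁻¹ • (y - m) - m‖ = b at a2 a3
    have a5 : (j : ℝ) * (4 * x) ≤ 1 := by
      have : j * (4 * x) * s ≤ 1 * s := by linarith
      exact le_of_mul_le_mul_right this hs0
    have a6 : (1 + i * (4 * x)) * (1 + 2 * x) ≤ 1 + j * (4 * x) := by
      have b0 : (i + 1) * x ≤ j * x := mul_le_mul_of_nonneg_right c3 hx0.le
      have b1 : i * (4 * x) * x ≤ 1 * x := mul_le_mul_of_nonneg_right (by linarith) hx0.le
      linarith
    have a7 : ((1 + i * (4 * x)) * (1 + 2 * x)) ^ 2 ≤ (1 + j * (4 * x)) ^ 2 :=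
      pow_le_pow_left₀ (by positivity) a6 2
    have a8 : (1 + i * (4 * x)) ^ 2 * a ^ 2 = (1 + j * (4 * x)) ^ 2 * b ^ 2 := by
      rw [← mul_pow, a3, mul_pow]
    have a9 : (1 - x) * s ^ 2 ≤ b ^ 2 := by rw [hδx] at a2; linarith
    have b1 : a ^ 2 ≤ (1 + x) * s ^ 2 := by rw [hδx] at a1; linarith
    have b2 : (1 + i * (4 * x)) ^ 2 * ((1 + 2 * x) ^ 2 * ((1 - x) * s ^ 2)) ≤
        (1 + i * (4 * x)) ^ 2 * ((1 + x) * s ^ 2) := by
      calc _ = ((1 + i * (4 * x)) * (1 + 2 * x)) ^ 2 * ((1 - x) * s ^ 2) := by ring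
        _ ≤ (1 + j * (4 * x)) ^ 2 * b ^ 2 :=
          mul_le_mul a7 a9 (mul_nonneg (by linarith) (sq_nonneg s)) (sq_nonneg _)
        _ ≤ _ := by rw [← a8]; gcongr
    have b3 := le_of_mul_le_mul_left b2 (pow_pos (hl i) 2)
    rw [← mul_assoc] at b3
    have b4 := le_of_mul_le_mul_right b3 (pow_pos hs0 2)
    nlinarith [mul_pos hx0 (by nlinarith : 0 < 1 - 2 * x ^ 2)]
  · have a1 := (abs_le.1 hy.2).2
    have a2 := hy.1
    set a := m + (1 + i * (4 * x))⁻¹ • (y - m) with ha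
    have a3 : y - w' = (a - w') + (i * (4 * x)) • (a - m) := by
      have : y - m = (1 + i * (4 * x)) • (a - m) := by
        rw [ha, add_sub_cancel_left, smul_smul, mul_inv_cancel₀ (hl i).ne', one_smul]
      rw [show y - w' = (y - m) + (m - w') by abel, this]
      module
    have a4 : ‖a - m‖ ≤ 5 / 4 * s := by
      refine abs_le_of_sq_le_sq' ?_ (by positivity) |>.2
      rw [hδx] at a1
      nlinarith [pow_pos hs0 2]
    rw [mem_ball, dist_eq_norm] at a2 ⊢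
    rw [a3]
    have a5 : ‖(i * (4 * x)) • (a - m)‖ ≤ 5 * ρ := by
      rw [norm_smul, Real.norm_of_nonneg (by positivity)]
      calc _ ≤ i * (4 * x) * (5 / 4 * s) := by gcongr
        _ ≤ 5 * ρ := by linarith [hi i c1]
    linarith [norm_add_le (a - w') ((i * (4 * x)) • (a - m))]
  · rw [cpack_hom T m (inv_pos.2 (hl i))]
    gcongr
    refine ENNReal.ofReal_le_one.2 (pow_le_one₀ (inv_pos.2 (hl i)).le (inv_le_one_of_one_le₀ ?_))
    have : (0 : ℝ) ≤ i * (4 * x) := by positivity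
    linarith
  · rw [one_mul, vol_ball, V_mul (by norm_num), ← mul_assoc, ← ENNReal.ofReal_mul (by positivity),
      inv_div, mul_comm (δ / ρ)]

/-- sets that are thin along the rays towards `w` -/
theorem PK3 [Nontrivial E] : ∃ C : ℝ, 0 < C ∧ ∀ (T : Set E) (w : E) (h t0 : ℝ), MeasurableSet T →
    0 < t0 → T ⊆ ball w h → (∀ y ∈ T, ∀ t ∈ Icc t0 (1 / 2), w + (1 - t) • (y - w) ∉ T) →
    volume T ≤ ENNReal.ofReal (C * t0) * V E h := by
  refine ⟨4 * 2 ^ Module.finrank ℝ E, by positivity, fun T w h t0 hT h0 hb H => ?_⟩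
  have hi : ∀ i : ℕ, (i : ℝ) ≤ (4 * t0)⁻¹ → i * t0 ≤ 1 / 4 := fun i hi => by
    rw [inv_eq_one_div, le_div_iff₀ (by positivity)] at hi; linarith
  refine (cpack_main T (ball w h) (r := (4 * t0)⁻¹) (by positivity)
    (fun i => {y | w + (1 - i * t0)⁻¹ • (y - w) ∈ T}) (ENNReal.ofReal (2 ^ Module.finrank ℝ E))
    (fun i => hT.preimage (by fun_prop))
    (fun i j hij hj => disjoint_left.2 fun y c1 c2 => ?_) (fun i c1 y hy => ?_)
    (fun i c1 => ?_)).trans (le_of_eq ?_)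
  · have c3 : (i : ℝ) + 1 ≤ j := by exact_mod_cast hij
    have c4 : (0 : ℝ) ≤ i := Nat.cast_nonneg i
    have a1 := hi j hj
    have a2 : i * t0 ≤ 1 / 4 := by nlinarith
    have a3 : 0 < 1 - i * t0 := by linarith
    have a4 : 0 < 1 - j * t0 := by linarith
    refine H _ c2 ((j - i) * t0 / (1 - i * t0)) ⟨?_, ?_⟩ ?_
    · rw [le_div_iff₀ a3]
      nlinarith [mul_nonneg c4 (mul_pos h0 h0).le]
    · rw [div_le_iff₀ a3]
      nlinarith [mul_nonneg c4 h0.le]
    · rw [add_sub_cancel_left, smul_smul]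
      have : (1 - (j - i) * t0 / (1 - i * t0)) * (1 - j * t0)⁻¹ = (1 - i * t0)⁻¹ := by
        field_simp
        ring
      rw [this]
      exact c1
  · have a1 := hi i c1
    have a2 := hb hy
    have a3 : 0 < 1 - i * t0 := by linarith
    rw [mem_ball, dist_eq_norm] at a2 ⊢
    rw [add_sub_cancel_left, norm_smul, Real.norm_of_nonneg (inv_pos.2 a3).le] at a2
    refine lt_of_le_of_lt (le_mul_of_one_le_left (norm_nonneg _) ((one_le_inv₀ a3).2 ?_)) a2
    have : (0 : ℝ) ≤ i * t0 := by positivity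
    linarith
  · have a1 := hi i c1
    have a3 : 0 < 1 - i * t0 := by linarith
    rw [cpack_hom T w (inv_pos.2 a3)]
    gcongr
    rw [inv_le_comm₀ a3 two_pos]
    linarith
  · rw [vol_ball, ← mul_assoc, ← ENNReal.ofReal_mul (by positivity), inv_inv]
    congr 2
    ring

/-- sets that are thin along lines in direction `ω` -/
theorem PK4 : ∃ C : ℝ, 0 < C ∧ ∀ (T : Set E) (z ω : E) (h τ0 τ1 : ℝ), MeasurableSet T →
    0 < τ0 → 0 < τ1 → τ1 ≤ h → ‖ω‖ ≤ 2 → T ⊆ ball z h →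
    (∀ y ∈ T, ∀ τ ∈ Icc τ0 τ1, y + τ • ω ∉ T) →
    volume T ≤ ENNReal.ofReal (C * (τ0 / τ1)) * V E h := by
  exact cpack_PK4

end Vale.Agent.P137
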