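import Vale.Agent.P137.CMoll
import Vale.Agent.P137.CPack

namespace Vale.Agent.P137

open MeasureTheory Metric Set Filter Topology
open scoped ENNReal RealInnerProductSpace Pointwise

variable {E : Type*} [NormedAddCommGroup E] [InnerProductSpace ℝ E] [FiniteDimensional ℝ E]
  [MeasurableSpace E] [BorelSpace E]

lemma cde_scale (f : E → ℝ) (c : E) {s : ℝ} (hs : 0 < s) :
    av f c s = (∫ u in ball (0 : E) 1, f (c + s • u)) / (V E 1).toReal := by
  have h1 := Measure.setIntegral_comp_smul_of_pos (volume : Measure E) (fun y => f (c + y))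
    (ball (0 : E) 1) hs
  have h2 := (measurePreserving_add_left (volume : Measure E) c).setIntegral_preimage_emb
    (measurableEmbedding_addLeft c) f (ball c s)
  have h3 : (c + ·) ⁻¹' ball c s = ball (0 : E) s := by simp [preimage_add_ball]
  have h4 : V E s = ENNReal.ofReal (s ^ Module.finrank ℝ E) * V E 1 := by
    rw [← V_mul hs, mul_one]
  rw [h3] at h2
  rw [smul_unitBall_of_pos hs, h2] at h1
  have h5 : 0 < s ^ Module.finrank ℝ E := pow_pos hs _
  rw [av, h1, h4, ENNReal.toReal_mul, ENNReal.toReal_ofReal h5.le, smul_eq_mul]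
  have h6 := V_toReal_pos (E := E) one_pos
  field_simp

lemma cde_DA {g : E → ℝ} (hg : ContDiff ℝ 1 g) (c e : E) (s a t : ℝ) (hs : 0 < s + a * t) :
    HasDerivAt (fun t : ℝ => av g (c + t • e) (s + a * t))
      (av (fun w => fderiv ℝ g w (e + (a / (s + a * t)) • (w - (c + t • e)))) (c + t • e)
        (s + a * t)) t := by
  have hc : Continuous (fderiv ℝ g) := hg.continuous_fderiv one_ne_zero
  have hd : Differentiable ℝ g := hg.differentiable one_ne_zero
  have hcont : Continuous fun p : ℝ × E =>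
      fderiv ℝ g (c + p.1 • e + (s + a * p.1) • p.2) (e + a • p.2) := by fun_prop
  obtain ⟨K, hK⟩ := ((isCompact_closedBall t 1).prod
    (isCompact_closedBall (0 : E) 1)).exists_bound_of_continuousOn hcont.continuousOn
  have h1 := (hasDerivAt_integral_of_dominated_loc_of_deriv_le
    (μ := (volume : Measure E).restrict (ball 0 1))
    (F := fun (t : ℝ) (u : E) => g (c + t • e + (s + a * t) • u))
    (F' := fun (t : ℝ) (u : E) => fderiv ℝ g (c + t • e + (s + a * t) • u) (e + a • u))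
    (bound := fun _ => K) (x₀ := t) (closedBall_mem_nhds t one_pos)
    (Eventually.of_forall fun t => (by
      have := hg.continuous
      fun_prop : Continuous fun u : E => g (c + t • e + (s + a * t) • u)).aestronglyMeasurable)
    (intOn_ball (by
      have := hg.continuous
      fun_prop : Continuous fun u : E => g (c + t • e + (s + a * t) • u)).locallyIntegrable 0 1)
    ((by fun_prop : Continuous fun u : E =>
      fderiv ℝ g (c + t • e + (s + a * t) • u) (e + a • u)).aestronglyMeasurable)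
    ((ae_restrict_iff' measurableSet_ball).2 (Eventually.of_forall fun u hu x hx =>
      hK (x, u) ⟨hx, ball_subset_closedBall hu⟩))
    (integrableOn_const measure_ball_lt_top.ne)
    (Eventually.of_forall fun u x _ => by
      have e1 : HasDerivAt (fun x : ℝ => c + x • e + (s + a * x) • u) (e + a • u) x := by
        have e2 := (((hasDerivAt_id x).smul_const e).const_add c).fun_add
          ((((hasDerivAt_id x).const_mul a).const_add s).smul_const u)
        simpa using e2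
      exact (hd _).hasFDerivAt.comp_hasDerivAt x e1)).2.div_const (V E 1).toReal
  have h2 : av (fun w => fderiv ℝ g w (e + (a / (s + a * t)) • (w - (c + t • e)))) (c + t • e)
      (s + a * t) = (∫ u in ball (0 : E) 1,
        fderiv ℝ g (c + t • e + (s + a * t) • u) (e + a • u)) / (V E 1).toReal := by
    rw [cde_scale _ _ hs]
    congr 1
    refine integral_congr_ae (Eventually.of_forall fun u => ?_)
    simp only [add_sub_cancel_left, smul_smul, div_mul_cancel₀ _ hs.ne']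
  rw [h2]
  refine h1.congr_of_eventuallyEq ?_
  have h3 : ∀ᶠ x : ℝ in 𝓝 t, 0 < s + a * x :=
    (by fun_prop : Continuous fun x : ℝ => s + a * x).continuousAt.eventually (lt_mem_nhds hs)
  filter_upwards [h3] with x hx
  exact cde_scale g _ hx

/-- the derivative of the average -/
noncomputable def cdeD (g : E → ℝ) (c e : E) (s a t : ℝ) : ℝ :=
  av (fun w => fderiv ℝ g w (e + (a / (s + a * t)) • (w - (c + t • e)))) (c + t • e) (s + a * t)

lemma cde_mvt {g : E → ℝ} (hg : ContDiff ℝ 1 g) (c e : E) (s a : ℝ) {t0 t1 : ℝ} (h : t0 < t1)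
    (hs : ∀ t ∈ Icc t0 t1, 0 < s + a * t) : ∃ ξ ∈ Ioo t0 t1,
      av g (c + t1 • e) (s + a * t1) - av g (c + t0 • e) (s + a * t0) =
        (t1 - t0) * cdeD g c e s a ξ := by
  obtain ⟨ξ, h1, h2⟩ := exists_hasDerivAt_eq_slope (fun t : ℝ => av g (c + t • e) (s + a * t))
    (cdeD g c e s a) h
    (fun t ht => (cde_DA hg c e s a t (hs t ht)).continuousAt.continuousWithinAt)
    fun t ht => cde_DA hg c e s a t (hs t (Ioo_subset_Icc_self ht))
  refine ⟨ξ, h1, ?_⟩
  rw [h2, mul_div_cancel₀ _ (sub_pos.2 h).ne']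

lemma cde_tonelli {Ω : E → ℝ≥0∞} (hΩ : Measurable Ω) {A W : Set E} (hW : MeasurableSet W)
    {ρ : ℝ} {K : ℝ≥0∞} (hA : MeasurableSet A) (h1 : ∀ y ∈ A, ball y ρ ⊆ W)
    (h2 : ∀ w ∈ W, volume (A ∩ ball w ρ) ≤ K) :
    ∫⁻ y in A, ∫⁻ w in ball y ρ, Ω w ≤ K * ∫⁻ w in W, Ω w := by
  have hS : MeasurableSet {p : E × E | dist p.2 p.1 < ρ} :=
    measurableSet_lt (measurable_snd.dist measurable_fst) measurable_const
  have hm : Measurable ({p : E × E | dist p.2 p.1 < ρ}.indicator fun p => Ω p.2) :=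
    (hΩ.comp measurable_snd).indicator hS
  have e1 : ∫⁻ y in A, ∫⁻ w in ball y ρ, Ω w =
      ∫⁻ y in A, ∫⁻ w in W, {p : E × E | dist p.2 p.1 < ρ}.indicator (fun p => Ω p.2) (y, w) := by
    refine setLIntegral_congr_fun hA fun y hy => ?_
    have e2 : ∀ w, {p : E × E | dist p.2 p.1 < ρ}.indicator (fun p => Ω p.2) (y, w) =
        (ball y ρ).indicator Ω w := fun w => rfl
    simp only [e2]
    rw [lintegral_indicator measurableSet_ball, Measure.restrict_restrict measurableSet_ball,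
      inter_eq_left.2 (h1 y hy)]
  rw [e1, lintegral_lintegral_swap (f := fun y w =>
    {p : E × E | dist p.2 p.1 < ρ}.indicator (fun p => Ω p.2) (y, w)) hm.aemeasurable,
    ← lintegral_const_mul _ hΩ]
  refine setLIntegral_mono' hW fun w hw => ?_
  have e3 : ∀ y, {p : E × E | dist p.2 p.1 < ρ}.indicator (fun p => Ω p.2) (y, w) =
      (ball w ρ).indicator (fun _ => Ω w) y := fun y => by
    by_cases hy : y ∈ ball w ρ
    · rw [indicator_of_mem hy, indicator_of_mem (by simpa [dist_comm] using hy)]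
    · rw [indicator_of_notMem hy, indicator_of_notMem (by simpa [dist_comm] using hy)]
  simp only [e3]
  rw [lintegral_indicator measurableSet_ball, Measure.restrict_restrict measurableSet_ball,
    setLIntegral_const, inter_comm, mul_comm]
  exact mul_le_mul_left (h2 w hw) _

lemma cde_grad {f g : E → ℝ} {Ω : E → ℝ≥0∞} (hΩ : Measurable Ω) {C ρ k : ℝ} (hC : 0 ≤ C)
    (hρ : 0 < ρ) (hg : ∀ w w', dist w w' < ρ →
      ‖fderiv ℝ g w‖ₑ * ENNReal.ofReal ρ ≤ ENNReal.ofReal C * om f ρ w')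
    {A W : Set E} (hA : MeasurableSet A) (hW : MeasurableSet W) (h1 : ∀ y ∈ A, ball y ρ ⊆ W)
    (h2 : ∀ w ∈ W, volume (A ∩ ball w ρ) ≤ ENNReal.ofReal k * V E ρ)
    (h3 : ∀ y ∈ A, ∀ w ∈ ball y ρ, om f ρ w ≤ Ω w) :
    ∫⁻ y in A, ‖fderiv ℝ g y‖ₑ ≤ ENNReal.ofReal (C / ρ * k) * ∫⁻ w in W, Ω w := by
  have hm : Measurable fun y => ‖fderiv ℝ g y‖ₑ := (measurable_fderiv ℝ g).enorm
  have e1 : (∫⁻ y in A, ‖fderiv ℝ g y‖ₑ) * (ENNReal.ofReal ρ * V E ρ) ≤
      ENNReal.ofReal C * ∫⁻ y in A, ∫⁻ w in ball y ρ, Ω w := by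
    rw [← lintegral_mul_const _ hm, ← lintegral_const_mul' _ _ ENNReal.ofReal_ne_top]
    refine setLIntegral_mono' hA fun y hy => ?_
    rw [← mul_assoc, ← vol_ball y ρ, ← setLIntegral_const, ← lintegral_const_mul _ hΩ]
    refine setLIntegral_mono' measurableSet_ball fun w hw => ?_
    exact (hg y w (mem_ball'.1 hw)).trans (mul_le_mul_right (h3 y hy w hw) _)
  have e2 := e1.trans (mul_le_mul_right (cde_tonelli hΩ hW hA h1 h2) _)
  have e3 : ENNReal.ofReal C * (ENNReal.ofReal k * V E ρ * ∫⁻ w in W, Ω w) =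
      (ENNReal.ofReal (C / ρ * k) * ∫⁻ w in W, Ω w) * (ENNReal.ofReal ρ * V E ρ) := by
    have e4 : ENNReal.ofReal C = ENNReal.ofReal (C / ρ) * ENNReal.ofReal ρ := by
      rw [← ENNReal.ofReal_mul (by positivity), div_mul_cancel₀ _ hρ.ne']
    rw [ENNReal.ofReal_mul (by positivity), e4]
    ring
  rw [e3] at e2
  exact (ENNReal.mul_le_mul_iff_left (mul_ne_zero (by simpa using hρ) (V_ne_zero hρ))
    (ENNReal.mul_ne_top ENNReal.ofReal_ne_top (V_ne_top ρ))).1 e2

lemma cde_V {h s : ℝ} (hs : h / 2 ≤ s) :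
    V E h ≤ ENNReal.ofReal (2 ^ Module.finrank ℝ E) * V E s :=
  V_le_of_le_mul two_pos (by linarith)

lemma cde_fg {f g : E → ℝ} {Ω : E → ℝ≥0∞} (hΩ : Measurable Ω) (hf : LocallyIntegrable f volume)
    (hg : Continuous g) {C ρ h s : ℝ} (hh : 0 < h) (hs : h / 2 ≤ s)
    (h1 : ∀ w, ENNReal.ofReal |f w - g w| ≤ ENNReal.ofReal C * om f ρ w) {c : E} {W : Set E}
    (hW : ball c s ⊆ W) (h3 : ∀ w ∈ W, om f ρ w ≤ Ω w) :
    ENNReal.ofReal |av f c s - av g c s| * V E h ≤
      ENNReal.ofReal (2 ^ Module.finrank ℝ E * C) * ∫⁻ w in W, Ω w := by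
  rw [← av_sub hf hg.locallyIntegrable, ENNReal.ofReal_mul (by positivity), mul_assoc]
  refine (mul_le_mul_right (cde_V hs) _).trans ?_
  rw [mul_left_comm]
  refine mul_le_mul_right ((ofReal_av_le _ c (by linarith)).trans ?_) _
  rw [← lintegral_const_mul _ hΩ]
  refine le_trans ?_ (lintegral_mono_set hW)
  refine setLIntegral_mono' measurableSet_ball fun w hw => ?_
  exact (h1 w).trans (mul_le_mul_right (h3 w (hW hw)) _)

lemma cde_add3 {x y z w : ℝ} (h : |w| ≤ |x| + |y| + |z|) (v : ℝ≥0∞) : ENNReal.ofReal |w| * v ≤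
    ENNReal.ofReal |x| * v + ENNReal.ofReal |y| * v + ENNReal.ofReal |z| * v := by
  rw [← add_mul, ← add_mul, ← ENNReal.ofReal_add (abs_nonneg _) (abs_nonneg _),
    ← ENNReal.ofReal_add (by positivity) (abs_nonneg _)]
  exact mul_le_mul_left (ENNReal.ofReal_le_ofReal h) _

lemma cde_FO : ∃ C : ℝ, 0 < C ∧ ∀ (f : E → ℝ) (Ω : E → ℝ≥0∞), Measurable f →
    LocallyIntegrable f volume → Measurable Ω → ∀ (m c1 c2 : E) (h ρ0 s1 s2 δ R : ℝ), 0 < h →
    0 < ρ0 → h / 2 ≤ s1 → h / 2 ≤ s2 → dist c1 c2 + |s1 - s2| ≤ δ → dist c1 m + s1 + ρ0 ≤ R →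
    dist c2 m + s2 + ρ0 ≤ R → (∀ w ∈ ball m R, om f ρ0 w ≤ Ω w) →
    ENNReal.ofReal |av f c1 s1 - av f c2 s2| * V E h ≤
      ENNReal.ofReal (C * (1 + δ / ρ0)) * ∫⁻ w in ball m R, Ω w := by
  obtain ⟨C, hC, hm⟩ := moll (E := E)
  refine ⟨2 * (2 ^ Module.finrank ℝ E * C), by positivity, ?_⟩
  intro f Ω hf hfi hΩ m c1 c2 h ρ0 s1 s2 δ R hh hρ hs1 hs2 hδ hR1 hR2 hom
  obtain ⟨g, hg, hg1, hg2⟩ := hm f hf hfi ρ0 hρ
  have hδ0 : 0 ≤ δ := le_trans (by positivity) hδ
  have a1 := cde_fg hΩ hfi hg.continuous hh hs1 hg1 (c := c1)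
    (ball_subset_ball' (by linarith : s1 + dist c1 m ≤ R)) hom
  have a2 := cde_fg hΩ hfi hg.continuous hh hs2 hg1 (c := c2)
    (ball_subset_ball' (by linarith : s2 + dist c2 m ≤ R)) hom
  have hst : ∀ t ∈ Icc (0 : ℝ) 1, h / 2 ≤ s1 + (s2 - s1) * t := fun t ht => by
    nlinarith [ht.1, ht.2]
  obtain ⟨ξ, hξ, e1⟩ := cde_mvt hg c1 (c2 - c1) s1 (s2 - s1) zero_lt_one
    fun t ht => by linarith [hst t ht]
  simp only [one_smul, add_sub_cancel, mul_one, zero_smul, add_zero, mul_zero, sub_zero,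
    one_mul] at e1
  have hsξ := hst ξ (Ioo_subset_Icc_self hξ)
  have hsξ0 : 0 < s1 + (s2 - s1) * ξ := by linarith
  have hcm : dist (c1 + ξ • (c2 - c1)) m + (s1 + (s2 - s1) * ξ) + ρ0 ≤ R := by
    have e2 : c1 + ξ • (c2 - c1) - m = (1 - ξ) • (c1 - m) + ξ • (c2 - m) := by module
    have e3 := norm_add_le ((1 - ξ) • (c1 - m)) (ξ • (c2 - m))
    rw [norm_smul, norm_smul, Real.norm_eq_abs, Real.norm_eq_abs, abs_of_pos hξ.1,
      abs_of_pos (sub_pos.2 hξ.2), ← dist_eq_norm, ← dist_eq_norm, ← e2, ← dist_eq_norm] at e3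
    nlinarith [hξ.1, hξ.2]
  have a3 : ENNReal.ofReal |cdeD g c1 (c2 - c1) s1 (s2 - s1) ξ| * V E h ≤
      ENNReal.ofReal (2 ^ Module.finrank ℝ E * (δ * (C / ρ0 * 1))) * ∫⁻ w in ball m R, Ω w := by
    rw [ENNReal.ofReal_mul (by positivity), ENNReal.ofReal_mul hδ0, mul_assoc, mul_assoc]
    refine (mul_le_mul_right (cde_V hsξ) _).trans ?_
    rw [mul_left_comm]
    refine mul_le_mul_right ((ofReal_av_le _ _ hsξ0).trans ?_) _
    refine le_trans ?_ (mul_le_mul_right (cde_grad (f := f) (k := 1) hΩ hC.le hρ hg2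
      (A := ball (c1 + ξ • (c2 - c1)) (s1 + (s2 - s1) * ξ)) measurableSet_ball measurableSet_ball
      (fun y hy => ?_) (fun w _ => ?_) (fun y hy w hw => hom w ?_)) _)
    · rw [← lintegral_const_mul' _ _ ENNReal.ofReal_ne_top]
      refine setLIntegral_mono' measurableSet_ball fun w hw => ?_
      rw [← ofReal_norm, ← ENNReal.ofReal_mul hδ0, ← Real.norm_eq_abs, mul_comm δ]
      refine ENNReal.ofReal_le_ofReal ((ContinuousLinearMap.le_opNorm _ _).trans ?_)
      refine mul_le_mul_of_nonneg_left ((norm_add_le _ _).trans (le_trans ?_ hδ)) (norm_nonneg _)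
      rw [← dist_eq_norm, dist_comm c2, norm_smul, Real.norm_eq_abs, abs_div, abs_of_pos hsξ0,
        abs_sub_comm s2, ← dist_eq_norm, div_mul_eq_mul_div]
      have e4 := (mem_ball.1 hw).le
      exact add_le_add le_rfl ((div_le_iff₀ hsξ0).2 (by gcongr))
    · have e4 := mem_ball.1 hy
      have e5 := dist_triangle y (c1 + ξ • (c2 - c1)) m
      exact ball_subset_ball' (by linarith)
    · rw [ENNReal.ofReal_one, one_mul, ← vol_ball w]
      exact measure_mono inter_subset_right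
    · have e4 := mem_ball.1 hy
      have e5 := dist_triangle4 w y (c1 + ξ • (c2 - c1)) m
      have e6 := mem_ball.1 hw
      exact mem_ball.2 (by linarith)
  have b1 : |av f c1 s1 - av f c2 s2| ≤ |av f c1 s1 - av g c1 s1| + |av f c2 s2 - av g c2 s2| +
      |cdeD g c1 (c2 - c1) s1 (s2 - s1) ξ| := by
    have e2 : av f c1 s1 - av f c2 s2 = (av f c1 s1 - av g c1 s1) - (av f c2 s2 - av g c2 s2) -
        cdeD g c1 (c2 - c1) s1 (s2 - s1) ξ := by rw [← e1]; ring
    rw [e2]
    exact (abs_sub _ _).trans (add_le_add (abs_sub _ _) le_rfl)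
  refine (cde_add3 b1 _).trans ((add_le_add (add_le_add a1 a2) a3).trans ?_)
  rw [← add_mul, ← add_mul, ← ENNReal.ofReal_add (by positivity) (by positivity),
    ← ENNReal.ofReal_add (by positivity) (by positivity)]
  refine mul_le_mul_left (ENNReal.ofReal_le_ofReal ?_) _
  have e5 : 0 ≤ 2 ^ Module.finrank ℝ E * C * (δ / ρ0) := by positivity
  have e6 : 2 ^ Module.finrank ℝ E * (δ * (C / ρ0 * 1)) =
      2 ^ Module.finrank ℝ E * C * (δ / ρ0) := by ring
  rw [e6]
  linarith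

end Vale.Agent.P137
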