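import Vale.Agent.P137.Defs

namespace Vale.Agent.P137

open MeasureTheory Metric Set Filter Topology
open scoped ENNReal RealInnerProductSpace

variable {E : Type*} [NormedAddCommGroup E] [InnerProductSpace ℝ E] [FiniteDimensional ℝ E]
  [MeasurableSpace E] [BorelSpace E]

lemma p1_add (W U : Set E) {f : E → E → ℝ≥0∞} (hf : Measurable fun p : E × E => f p.1 p.2)
    (g : E → E → ℝ≥0∞) :
    ∫⁻ s in W, ∫⁻ u in U, (f s u + g s u) =
      (∫⁻ s in W, ∫⁻ u in U, f s u) + ∫⁻ s in W, ∫⁻ u in U, g s u := by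
  rw [← lintegral_add_left (Measurable.lintegral_prod_right' hf)]
  refine lintegral_congr fun s => ?_
  exact lintegral_add_left (hf.comp measurable_prodMk_left) _

lemma p1_sum (W U : Set E) {ι : Type*} (T : Finset ι) {f : ι → E → E → ℝ≥0∞}
    (hf : ∀ i, Measurable fun p : E × E => f i p.1 p.2) :
    ∫⁻ s in W, ∫⁻ u in U, ∑ i ∈ T, f i s u = ∑ i ∈ T, ∫⁻ s in W, ∫⁻ u in U, f i s u := by
  rw [← lintegral_finsetSum _ fun i _ => Measurable.lintegral_prod_right' (hf i)]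
  refine lintegral_congr fun s => ?_
  exact lintegral_finsetSum _ fun i _ => (hf i).comp measurable_prodMk_left

/-- excess variation along a progression -/
noncomputable def p1_apr (a : ℕ → ℝ) (m : ℕ) : ℝ :=
  (∑ k ∈ Finset.range (2 ^ m), |a (k + 1) - a k| - |a (2 ^ m) - a 0|) / 2

lemma p1_tri (a : ℕ → ℝ) {p q : ℕ} (h : p ≤ q) :
    |a q - a p| ≤ ∑ k ∈ Finset.Ico p q, |a (k + 1) - a k| := by
  induction q, h using Nat.le_induction with
  | base => simp
  | succ q h ih =>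
    rw [Finset.sum_Ico_succ_top h]
    have := abs_sub_le (a (q + 1)) (a q) (a p)
    linarith

lemma p1_apr_nonneg (a : ℕ → ℝ) (m : ℕ) : 0 ≤ p1_apr a m := by
  have := p1_tri a (Nat.zero_le (2 ^ m))
  rw [← Finset.range_eq_Ico] at this
  unfold p1_apr
  linarith

lemma p1_pair (f : ℕ → ℝ) (n : ℕ) :
    ∑ k ∈ Finset.range (2 * n), f k = ∑ k ∈ Finset.range n, (f (2 * k) + f (2 * k + 1)) := by
  induction n with
  | zero => simp
  | succ n ih =>
    rw [mul_add, mul_one, Finset.sum_range_succ, Finset.sum_range_succ, ih, Finset.sum_range_succ,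
      add_assoc]

lemma p1_apr_succ (a : ℕ → ℝ) (m : ℕ) :
    ENNReal.ofReal (p1_apr a (m + 1)) = ENNReal.ofReal (p1_apr (fun k => a (2 * k)) m) +
      ∑ k ∈ Finset.range (2 ^ m), pt (a (2 * k)) (a (2 * k + 1)) (a (2 * k + 2)) := by
  have h0 : ∀ k, 0 ≤ (|a (2 * k + 1) - a (2 * k)| + |a (2 * k + 2) - a (2 * k + 1)| -
      |a (2 * k + 2) - a (2 * k)|) / 2 := fun k => by
    have := abs_sub_le (a (2 * k + 2)) (a (2 * k + 1)) (a (2 * k))
    linarith
  unfold pt
  rw [← ENNReal.ofReal_sum_of_nonneg fun k _ => h0 k, ← ENNReal.ofReal_add (p1_apr_nonneg _ _)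
    (Finset.sum_nonneg fun k _ => h0 k)]
  congr 1
  unfold p1_apr
  rw [pow_succ', p1_pair, ← Finset.sum_div, Finset.sum_sub_distrib]
  simp only [mul_add, mul_one, mul_zero]
  ring

lemma p1_meas {F : E → ℝ} (hF : Measurable F) (m : ℕ) :
    Measurable fun p : E × E => ENNReal.ofReal (p1_apr (fun k => F (p.2 + (k : ℝ) • p.1)) m) := by
  unfold p1_apr
  refine Measurable.ennreal_ofReal (Measurable.div_const (Measurable.sub
    (Finset.measurable_sum _ fun k _ => ?_) ?_) _) <;> fun_prop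

omit [FiniteDimensional ℝ E] [MeasurableSpace E] [BorelSpace E] in
lemma p1_mem {z u s : E} {ρ τ R c : ℝ} (hu : u ∈ ball z ρ) (hs : s ∈ ball (0 : E) τ)
    (hR : ρ + |c| * τ ≤ R) : u + c • s ∈ ball z R := by
  rw [mem_ball_zero_iff] at hs
  rw [mem_ball, dist_eq_norm] at hu ⊢
  have h1 : u + c • s - z = (u - z) + c • s := by abel
  have h2 : ‖c • s‖ ≤ |c| * τ := by
    rw [norm_smul, Real.norm_eq_abs]
    exact mul_le_mul_of_nonneg_left hs.le (abs_nonneg _)
  rw [h1]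
  linarith [norm_add_le (u - z) (c • s)]

lemma p1_core {F : E → ℝ} (hF : Measurable F) {z : E} {ρ R : ℝ} (hρ : 0 ≤ ρ) (m : ℕ) :
    ∀ τ : ℝ, 0 ≤ τ → ρ + 2 ^ m * τ ≤ R →
      ∫⁻ s in ball (0 : E) τ, ∫⁻ u in ball z ρ,
        ENNReal.ofReal (p1_apr (fun k => F (u + (k : ℝ) • s)) m) ≤ 2 ^ m * PP F z R := by
  induction m with
  | zero => intro τ _ _; simp [p1_apr]
  | succ m ih =>
    intro τ hτ hR
    have hp : (1 : ℝ) ≤ 2 ^ m := one_le_pow₀ (by norm_num)
    simp only [p1_apr_succ]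
    rw [p1_add _ _ (f := fun s u => ENNReal.ofReal
        (p1_apr (fun k => F (u + ((2 * k : ℕ) : ℝ) • s)) m)) (by
      have := (p1_meas hF m).comp (f := fun p : E × E => ((2 : ℝ) • p.1, p.2)) (by fun_prop)
      simpa only [Function.comp_def, smul_smul, Nat.cast_mul, Nat.cast_ofNat, mul_comm] using this),
      p1_sum _ _ _ (f := fun k s u => pt (F (u + ((2 * k : ℕ) : ℝ) • s))
        (F (u + ((2 * k + 1 : ℕ) : ℝ) • s)) (F (u + ((2 * k + 2 : ℕ) : ℝ) • s)))
        fun k => by fun_prop, pow_succ, mul_assoc, two_mul, mul_add]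
    refine add_le_add ?_ ?_
    · refine le_trans ?_ (ih (2 * τ) (by linarith) (by rw [pow_succ] at hR; linarith))
      rw [← lintegral_indicator measurableSet_ball, ← lintegral_indicator measurableSet_ball,
        lintegral_smul_eq (t := 2) ((ball (0 : E) (2 * τ)).indicator _) two_pos]
      refine le_trans (le_of_eq (lintegral_congr fun s => ?_)) (le_mul_of_one_le_left zero_le
        (ENNReal.one_le_ofReal.2 (one_le_pow₀ (by norm_num))))
      by_cases hs : s ∈ ball (0 : E) τ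
      · rw [indicator_of_mem hs, indicator_of_mem]
        · simp only [smul_smul, Nat.cast_mul, Nat.cast_ofNat, mul_comm]
        · rw [mem_ball_zero_iff] at hs ⊢
          rw [norm_smul, Real.norm_two]; linarith
      · rw [indicator_of_notMem hs, indicator_of_notMem]
        rw [mem_ball_zero_iff] at hs ⊢
        rw [norm_smul, Real.norm_two]; linarith
    · refine (Finset.sum_le_card_nsmul _ _ (PP F z R) fun k hk => ?_).trans (by simp)
      have hk' : (k : ℝ) + 1 ≤ 2 ^ m := by exact_mod_cast Finset.mem_range.1 hk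
      rw [pow_succ] at hR
      refine le_trans (setLIntegral_mono' measurableSet_ball fun s hs => ?_)
        (lintegral_mono_set (ball_subset_ball (by nlinarith : τ ≤ R)))
      refine le_trans (le_of_eq (lintegral_congr fun u => ?_)) (setLIntegral_add_le
        (fun y => pt (F (y - s)) (F y) (F (y + s))) measurableSet_ball measurableSet_ball
        (((2 * k + 1 : ℕ) : ℝ) • s) fun u hu => p1_mem hu hs ?_)
      · congr 2
        · push_cast; module
        · push_cast; module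
      · rw [abs_of_nonneg (Nat.cast_nonneg _)]
        push_cast
        nlinarith

lemma p1_pt_le (a : ℕ → ℝ) (m : ℕ) {i j n : ℕ} (hij : i ≤ j) (hjn : j ≤ n) (hn : n ≤ 2 ^ m) :
    pt (a i) (a j) (a n) ≤ ENNReal.ofReal (p1_apr a m) := by
  refine ENNReal.ofReal_le_ofReal ?_
  unfold p1_apr
  rw [Finset.range_eq_Ico, ← Finset.sum_Ico_consecutive _ (Nat.zero_le n) hn,
    ← Finset.sum_Ico_consecutive _ (Nat.zero_le j) hjn,
    ← Finset.sum_Ico_consecutive _ (Nat.zero_le i) hij]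
  have h1 := p1_tri a (Nat.zero_le i)
  have h2 := p1_tri a hij
  have h3 := p1_tri a hjn
  have h4 := p1_tri a hn
  have h5 := abs_sub_le (a (2 ^ m)) (a n) (a 0)
  have h6 := abs_sub_le (a n) (a i) (a 0)
  linarith

/-- general three point patterns along a progression of length `2^m` -/
theorem GP {F : E → ℝ} (hF : Measurable F) (m : ℕ) {i j n : ℕ} (hij : i ≤ j) (hjn : j ≤ n)
    (hn : n ≤ 2 ^ m) {z : E} {ρ τ R : ℝ} (hρ : 0 ≤ ρ) (hτ : 0 ≤ τ) (hR : ρ + 2 ^ m * τ ≤ R) :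
    ∫⁻ s in ball (0 : E) τ, ∫⁻ u in ball z ρ,
      pt (F (u + (i : ℝ) • s)) (F (u + (j : ℝ) • s)) (F (u + (n : ℝ) • s)) ≤ 2 ^ m * PP F z R := by
  refine le_trans ?_ (p1_core hF hρ m τ hτ hR)
  exact lintegral_mono fun s => lintegral_mono fun u =>
    p1_pt_le (fun k => F (u + (k : ℝ) • s)) m hij hjn hn

/-- total variation along a progression of length `2^m` -/
theorem APsum {F : E → ℝ} (hF : Measurable F) (m : ℕ) {z : E} {ρ τ R : ℝ} (hρ : 0 ≤ ρ)
    (hτ : 0 ≤ τ) (hR : ρ + 2 ^ m * τ ≤ R) :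
    ∫⁻ s in ball (0 : E) τ, ∫⁻ u in ball z ρ, ∑ k ∈ Finset.range (2 ^ m),
      ENNReal.ofReal |F (u + ((k : ℝ) + 1) • s) - F (u + (k : ℝ) • s)| ≤
    2 * 2 ^ m * PP F z R +
      ∫⁻ s in ball (0 : E) τ, ∫⁻ u in ball z ρ, ENNReal.ofReal |F (u + (2 : ℝ) ^ m • s) - F u| := by
  have e : ∀ s u : E, ∑ k ∈ Finset.range (2 ^ m),
      ENNReal.ofReal |F (u + ((k : ℝ) + 1) • s) - F (u + (k : ℝ) • s)| =
      (ENNReal.ofReal (p1_apr (fun k => F (u + (k : ℝ) • s)) m) +
        ENNReal.ofReal (p1_apr (fun k => F (u + (k : ℝ) • s)) m)) +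
        ENNReal.ofReal |F (u + (2 : ℝ) ^ m • s) - F u| := by
    intro s u
    have h0 := p1_apr_nonneg (fun k => F (u + (k : ℝ) • s)) m
    rw [← ENNReal.ofReal_sum_of_nonneg fun _ _ => abs_nonneg _, ← ENNReal.ofReal_add h0 h0,
      ← ENNReal.ofReal_add (add_nonneg h0 h0) (abs_nonneg _)]
    congr 1
    unfold p1_apr
    push_cast
    simp only [zero_smul, add_zero]
    ring
  simp only [e]
  rw [p1_add _ _ ((p1_meas hF m).add (p1_meas hF m)), p1_add _ _ (p1_meas hF m), mul_assoc,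
    two_mul]
  have := p1_core hF (z := z) hρ m τ hτ hR
  exact add_le_add (add_le_add this this) le_rfl

/-- negative increments are controlled by patterns and the deviations behind and ahead -/
theorem NI {F : E → ℝ} (hF : Measurable F) (t : ℝ) (m : ℕ) {M j n : ℕ} (hMn : M ≤ n)
    (hjn : j + n ≤ 2 ^ m) {U W Pm Pp : Set E} (hU : MeasurableSet U) (hW : MeasurableSet W)
    (hPm : MeasurableSet Pm) (hPp : MeasurableSet Pp)
    (hm : ∀ y ∈ U, ∀ s ∈ W, y - (j : ℝ) • s ∈ Pm) (hp : ∀ y ∈ U, ∀ s ∈ W, y + (n : ℝ) • s ∈ Pp)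
    {z : E} {ρ τ R : ℝ} (hρ : 0 ≤ ρ) (hτ : 0 ≤ τ) (hUz : U ⊆ ball z ρ) (hWτ : W ⊆ ball 0 τ)
    (hR : ρ + 2 * 2 ^ m * τ ≤ R) :
    ∫⁻ s in W, ∫⁻ y in U, ENNReal.ofReal (F y - F (y + (M : ℝ) • s)) ≤
      2 * 2 ^ m * PP F z R + volume W * (du F t Pm + dv F t Pp) := by
  have hp1 : (1 : ℝ) ≤ 2 ^ m := one_le_pow₀ (by norm_num)
  have hj : (j : ℝ) ≤ 2 ^ m := by exact_mod_cast (by omega : j ≤ 2 ^ m)
  have pw : ∀ a b b' c : ℝ, ENNReal.ofReal (b - b') ≤
      pt a b b' + pt b b' c + (ENNReal.ofReal (a - t) + ENNReal.ofReal (t - c)) := by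
    intro a b b' c
    have h1 := abs_sub_le b' b a
    have h2 := abs_sub_le c b' b
    have mz : ∀ x : ℝ, ENNReal.ofReal x = ENNReal.ofReal (max x 0) := fun x => by
      rw [ENNReal.ofReal_max, ENNReal.ofReal_zero, max_eq_left zero_le]
    unfold pt
    rw [← ENNReal.ofReal_add (by linarith) (by linarith), mz (a - t), mz (t - c),
      ← ENNReal.ofReal_add (le_max_right _ _) (le_max_right _ _),
      ← ENNReal.ofReal_add (by linarith) (by positivity)]
    refine ENNReal.ofReal_le_ofReal ?_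
    have h3 := le_max_left (a - t) 0
    have h4 := le_max_right (a - t) 0
    have h5 := le_max_left (t - c) 0
    have h6 := le_max_right (t - c) 0
    rcases abs_cases (b - a) with ⟨k1, _⟩ | ⟨k1, _⟩ <;>
    rcases abs_cases (b' - b) with ⟨k2, _⟩ | ⟨k2, _⟩ <;>
    rcases abs_cases (b' - a) with ⟨k3, _⟩ | ⟨k3, _⟩ <;>
    rcases abs_cases (c - b') with ⟨k4, _⟩ | ⟨k4, _⟩ <;>
    rcases abs_cases (c - b) with ⟨k5, _⟩ | ⟨k5, _⟩ <;> linarith
  have sh : ∀ (i1 i2 i3 : ℕ), i1 ≤ i2 → i2 ≤ i3 → i3 ≤ 2 ^ m →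
      ∫⁻ s in W, ∫⁻ y in U, pt (F (y + ((i1 : ℝ) - j) • s)) (F (y + ((i2 : ℝ) - j) • s))
        (F (y + ((i3 : ℝ) - j) • s)) ≤ 2 ^ m * PP F z R := by
    intro i1 i2 i3 k1 k2 k3
    refine le_trans ?_ (GP hF m k1 k2 k3 (z := z) (ρ := ρ + 2 ^ m * τ) (by positivity) hτ
      (by linarith))
    refine le_trans (setLIntegral_mono' hW fun s hs => ?_) (lintegral_mono_set hWτ)
    refine le_trans (le_of_eq (lintegral_congr fun u => ?_)) (setLIntegral_add_le
      (fun u => pt (F (u + (i1 : ℝ) • s)) (F (u + (i2 : ℝ) • s)) (F (u + (i3 : ℝ) • s))) hU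
      measurableSet_ball ((-j : ℝ) • s) fun u hu => p1_mem (hUz hu) (hWτ hs) ?_)
    · congr 2 <;> module
    · rw [abs_neg, abs_of_nonneg (Nat.cast_nonneg _)]
      nlinarith
  have s1 := sh 0 j (j + M) (Nat.zero_le _) (by omega) (by omega)
  have s2 := sh j (j + M) (j + n) (by omega) (by omega) hjn
  simp only [Nat.cast_zero, zero_sub, sub_self, zero_smul, add_zero, Nat.cast_add,
    add_sub_cancel_left] at s1 s2
  refine le_trans (lintegral_mono fun s => lintegral_mono fun y =>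
    pw (F (y + (-j : ℝ) • s)) _ _ (F (y + (n : ℝ) • s))) ?_
  rw [p1_add _ _ (by fun_prop), p1_add _ _ (by fun_prop), mul_assoc, two_mul]
  refine add_le_add (add_le_add s1 s2) ?_
  rw [mul_comm, ← setLIntegral_const]
  refine setLIntegral_mono' hW fun s hs => ?_
  rw [lintegral_add_left (by fun_prop)]
  refine add_le_add (setLIntegral_add_le (fun y => ENNReal.ofReal (F y - t)) hU hPm _
    fun y hy => ?_) (setLIntegral_add_le (fun y => ENNReal.ofReal (t - F y)) hU hPp _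
    fun y hy => hp y hy s hs)
  rw [neg_smul, ← sub_eq_add_neg]
  exact hm y hy s hs

end Vale.Agent.P137
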