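import Vale.Agent.P137.StmtC
import Vale.Agent.P137.Pat1
import Vale.Agent.P137.Pat2

namespace Vale.Agent.P137

open MeasureTheory Metric Set Filter Topology
open scoped ENNReal RealInnerProductSpace

variable {E : Type*} [NormedAddCommGroup E] [InnerProductSpace ℝ E] [FiniteDimensional ℝ E]
  [MeasurableSpace E] [BorelSpace E]

/-- patterns with steps shorter than `τ` centred in `ball z R` -/
noncomputable def PL (F : E → ℝ) (z : E) (R τ : ℝ) : ℝ≥0∞ :=
  ∫⁻ v in ball (0 : E) τ, ∫⁻ y in ball z R, pt (F (y - v)) (F y) (F (y + v))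

/-- weighted sum of local pattern masses over all scales below `R` -/
noncomputable def NN (F : E → ℝ) (z : E) (R ρm : ℝ) : ℝ≥0∞ :=
  ∑' i : ℕ, ENNReal.ofReal (min 1 (R / 2 ^ i / ρm)) *
    ((ENNReal.ofReal (R / 2 ^ i))⁻¹ * (V E (R / 2 ^ i))⁻¹ * PL F z R (R / 2 ^ i))

/-- bound for the excess variation along progressions of all monotone truncations of `F` -/
def APH (F : E → ℝ) (z : E) (h R ρm H : ℝ) : Prop :=
  ∀ φ : ℝ → ℝ, Monotone φ → LipschitzWith 1 φ → ∀ (τ : ℝ) (m : ℕ), 0 < τ → 2 ^ m * τ ≤ R →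
    ∫⁻ s in ball (0 : E) τ, ∫⁻ u in ball z R,
      ENNReal.ofReal (p1_apr (fun k => φ (F (u + (k : ℝ) • s))) m) ≤
      2 ^ m * ENNReal.ofReal (max τ ρm / h * H) * V E τ * V E h

/-- negative increments in directions close to `ω` are small near `m` -/
def NegP (F : E → ℝ) (m : E) (h : ℝ) (ω : E) (κ ρm H : ℝ) : Prop :=
  ∀ (v : E) (l : ℝ), 0 < l → l ≤ h → ‖v - l • ω‖ ≤ κ * l →
    ∫⁻ w in ball m (4 * h) ∩ {w | w + v ∈ ball m (4 * h)}, ENNReal.ofReal (F w - F (w + v)) ≤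
      ENNReal.ofReal (max l ρm / h * H) * V E h

/-- `F` is oriented upwards in direction `ω` around `x` -/
def ORp (F : E → ℝ) (x : E) (h : ℝ) (ω : E) (D : ℝ) (X : ℝ≥0∞) : Prop :=
  ∃ tl th : ℝ, tl ≤ th ∧ du F th (ball x (8 * h)) * V E h ≤ X ∧
    dv F tl (ball x (8 * h)) * V E h ≤ X ∧
    (∫⁻ y in ball (x - (D * h) • ω) (20 * h), ENNReal.ofReal (min (F y) th - tl)) * V E h ≤ X

/-- real valued average over a ball -/
noncomputable def av (f : E → ℝ) (c : E) (s : ℝ) : ℝ := (∫ y in ball c s, f y) / (V E s).toReal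

/-- local oscillation at scale `ρ` -/
noncomputable def om (f : E → ℝ) (ρ : ℝ) (w : E) : ℝ≥0∞ :=
  (V E ρ)⁻¹ * ∫⁻ v in ball (0 : E) (2 * ρ), ENNReal.ofReal |f (w + v) - f w|

/-- second difference of averages along a line in the space of centres and radii -/
noncomputable def Dq (f : E → ℝ) (m ω : E) (s a τ ρ : ℝ) : ℝ :=
  av f m s - (ρ * av f (m - τ • ω) (s - a * τ) + τ * av f (m + ρ • ω) (s + a * ρ)) / (τ + ρ)

/-- a narrow peak at `m` -/
def Pk (F : E → ℝ) (m ω : E) (h σ s τ ρ lam : ℝ) : Prop :=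
  h ≤ s ∧ s ≤ 2 * h ∧ 0 < τ ∧ τ ≤ σ / 2 ∧ σ / 2 ≤ ρ ∧ ρ ≤ 2 * σ ∧
    ∀ s' ∈ Icc (h / 2) (3 * h), av F (m - τ • ω) s' ≤ lam ∧ av F (m + ρ • ω) s' ≤ lam

/-- `g` dominates the centred averages over balls of radius at least `η` -/
def H1c (F g : E → ℝ) (η : ℝ) : Prop :=
  ∀ z r, η ≤ r → I F z r ≤ ENNReal.ofReal (g z) * V E r

/-- local translation estimate with density `γ` -/
def LTl (F : E → ℝ) (γ : E → ℝ≥0∞) : Prop :=
  ∀ (v : E) (U U' : Set E), MeasurableSet U → MeasurableSet U' →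
    (∀ y ∈ U, ∀ t ∈ Icc (0 : ℝ) 1, y + t • v ∈ U') →
    ∫⁻ y in U, ENNReal.ofReal |F (y + v) - F y| ≤ ENNReal.ofReal ‖v‖ * ∫⁻ y in U', γ y

/-- the point `x` can be charged along a long window in direction `ω` -/
def Chg (F g : E → ℝ) (Bad : Set E) (A b : ℝ) (C : ℝ≥0∞) (Net : Finset E) (η : ℝ) (J : ℕ)
    (x ω : E) : Prop :=
  ∃ k ≤ J, (∀ ρ ∈ Icc (0 : ℝ) (b / 16 * (2 ^ k * η)), g x ≤ g (x + ρ • ω)) ∧
    (V E (b / 16 * (2 ^ k * η)) ^ 2 ≤ 8 * PP (lev F (g x)) x (A * (2 ^ k * η)) ∨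
     (∃ (q : E) (ρ : ℝ), b / 16 * (2 ^ k * η) ≤ ρ ∧ dist q x + ρ ≤ A * (2 ^ k * η) ∧
        da F (g x) (ball q ρ) * V E (2 ^ k * η) ≤ C * PP F x (A * (2 ^ k * η))) ∨
     (∃ ω' ∈ Net, ∃ i, i + 1 ≤ k ∧ Start F Bad b x (g x) ω' (2 ^ i * η) ∧
        (k = J ∨ Stop F b x (g x) ω' (2 ^ i * η) (2 ^ k * η))))

/-- measure with density the norm of the derivative -/
noncomputable def nuG (g : E → ℝ) : Measure E := volume.withDensity fun x => ‖fderiv ℝ g x‖ₑ

/-- measure with density the positive part of a directional derivative -/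
noncomputable def nuW (g : E → ℝ) (ω : E) : Measure E :=
  volume.withDensity fun x => ENNReal.ofReal (fderiv ℝ g x ω)

/-- centred maximal function over radii at least `η`, extended valued -/
noncomputable def cE (F : E → ℝ) (η : ℝ) (x : E) : ℝ≥0∞ :=
  ⨆ (r : ℝ) (_ : η ≤ r), I F x r / V E r

/-- centred maximal function over radii at least `η` -/
noncomputable def cR (F : E → ℝ) (η : ℝ) (x : E) : ℝ := (cE F η x).toReal

/-! ### basic facts -/

lemma V_toReal_pos {r : ℝ} (hr : 0 < r) : 0 < (V E r).toReal :=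
  ENNReal.toReal_pos (V_ne_zero hr) (V_ne_top r)

lemma intOn_ball {f : E → ℝ} (hf : LocallyIntegrable f volume) (c : E) (s : ℝ) :
    IntegrableOn f (ball c s) volume :=
  (hf.integrableOn_isCompact (isCompact_closedBall c s)).mono_set ball_subset_closedBall

lemma av_neg (f : E → ℝ) (c : E) (s : ℝ) : av (fun y => - f y) c s = - av f c s := by
  unfold av; rw [integral_neg, neg_div]

lemma av_add {f g : E → ℝ} (hf : LocallyIntegrable f volume) (hg : LocallyIntegrable g volume)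
    (c : E) (s : ℝ) : av (fun y => f y + g y) c s = av f c s + av g c s := by
  unfold av; rw [integral_add (intOn_ball hf c s) (intOn_ball hg c s), add_div]

lemma av_sub {f g : E → ℝ} (hf : LocallyIntegrable f volume) (hg : LocallyIntegrable g volume)
    (c : E) (s : ℝ) : av (fun y => f y - g y) c s = av f c s - av g c s := by
  unfold av; rw [integral_sub (intOn_ball hf c s) (intOn_ball hg c s), sub_div]

lemma av_nonneg {f : E → ℝ} (hf : ∀ y, 0 ≤ f y) (c : E) (s : ℝ) : 0 ≤ av f c s :=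
  div_nonneg (integral_nonneg hf) ENNReal.toReal_nonneg

lemma av_const (t : ℝ) (c : E) {s : ℝ} (hs : 0 < s) : av (fun _ => t) c s = t := by
  unfold av
  rw [setIntegral_const, Measure.real, vol_ball, smul_eq_mul, mul_comm, mul_div_assoc,
    div_self (V_toReal_pos hs).ne', mul_one]

lemma Dq_neg (f : E → ℝ) (m ω : E) (s a τ ρ : ℝ) :
    Dq (fun y => - f y) m ω s a τ ρ = - Dq f m ω s a τ ρ := by
  unfold Dq; simp only [av_neg]; ring

lemma ofReal_av_le (f : E → ℝ) (c : E) {s : ℝ} (hs : 0 < s) :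
    ENNReal.ofReal |av f c s| * V E s ≤ ∫⁻ y in ball c s, ENNReal.ofReal |f y| := by
  have h1 : ENNReal.ofReal |av f c s| * V E s = ENNReal.ofReal |∫ y in ball c s, f y| := by
    rw [← ENNReal.ofReal_toReal (V_ne_top (E := E) s), ← ENNReal.ofReal_mul (abs_nonneg _), av,
      abs_div, abs_of_pos (V_toReal_pos hs), div_mul_cancel₀ _ (V_toReal_pos hs).ne']
  rw [h1, ← Real.norm_eq_abs, ofReal_norm]
  refine (enorm_integral_le_lintegral_enorm _).trans (le_of_eq (lintegral_congr fun y => ?_))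
  rw [← ofReal_norm, Real.norm_eq_abs]

lemma I_eq_av {F : E → ℝ} (hF0 : ∀ y, 0 ≤ F y) (hF : LocallyIntegrable F volume) (c : E) {s : ℝ}
    (hs : 0 < s) : I F c s = ENNReal.ofReal (av F c s) * V E s := by
  rw [I, ← ofReal_integral_eq_lintegral_ofReal (intOn_ball hF c s) (Eventually.of_forall hF0),
    ← ENNReal.ofReal_toReal (V_ne_top (E := E) s), ← ENNReal.ofReal_mul (av_nonneg hF0 c s), av,
    div_mul_cancel₀ _ (V_toReal_pos hs).ne']

lemma om_neg (f : E → ℝ) (ρ : ℝ) (w : E) : om (fun y => - f y) ρ w = om f ρ w := by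
  unfold om
  congr 1
  refine lintegral_congr fun v => ?_
  rw [← abs_neg]; congr 2; ring

lemma om_add_const (f : E → ℝ) (t ρ : ℝ) (w : E) : om (fun y => f y + t) ρ w = om f ρ w := by
  unfold om
  congr 1
  refine lintegral_congr fun v => ?_
  congr 2; ring

lemma om_add_le {f : E → ℝ} (hf : Measurable f) (g : E → ℝ) (ρ : ℝ) (w : E) :
    om (fun y => f y + g y) ρ w ≤ om f ρ w + om g ρ w := by
  unfold om
  rw [← mul_add, ← lintegral_add_left (by fun_prop)]
  gcongr with v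
  rw [← ENNReal.ofReal_add (abs_nonneg _) (abs_nonneg _)]
  refine ENNReal.ofReal_le_ofReal (le_trans (le_of_eq ?_) (abs_add_le _ _))
  congr 1; ring

lemma om_sub_le {f : E → ℝ} (hf : Measurable f) (g : E → ℝ) (ρ : ℝ) (w : E) :
    om (fun y => f y - g y) ρ w ≤ om f ρ w + om g ρ w := by
  rw [← om_neg g]
  simpa only [sub_eq_add_neg] using om_add_le hf (fun y => - g y) ρ w

lemma measurable_om {f : E → ℝ} (hf : Measurable f) (ρ : ℝ) : Measurable (om f ρ) :=
  (Measurable.lintegral_prod_right' (f := fun p : E × E =>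
    ENNReal.ofReal |f (p.1 + p.2) - f p.1|) (by fun_prop)).const_mul _

lemma APH.mono {F : E → ℝ} {z : E} {h R R' ρm H H' : ℝ} (hA : APH F z h R ρm H) (hh : 0 < h)
    (hR : R' ≤ R) (hH : H ≤ H') : APH F z h R' ρm H' := by
  intro φ h1 h2 τ m hτ hm
  refine le_trans (lintegral_mono fun s => lintegral_mono_set (ball_subset_ball hR))
    ((hA φ h1 h2 τ m hτ (hm.trans hR)).trans ?_)
  have : 0 ≤ max τ ρm / h := div_nonneg (le_max_of_le_left hτ.le) hh.le
  gcongr

lemma APH.neg {F : E → ℝ} {z : E} {h R ρm H : ℝ} (hA : APH F z h R ρm H) :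
    APH (fun y => - F y) z h R ρm H := by
  intro φ h1 h2 τ m hτ hm
  have h3 : LipschitzWith 1 fun t => - φ (- t) := LipschitzWith.of_dist_le_mul fun a b => by
    rw [dist_neg_neg]
    simpa using h2.dist_le_mul (-a) (-b)
  refine le_trans (le_of_eq (lintegral_congr fun s => lintegral_congr fun u => ?_))
    (hA (fun t => - φ (- t)) (fun a b hab => neg_le_neg (h1 (neg_le_neg hab))) h3 τ m hτ hm)
  unfold p1_apr
  simp only [neg_sub_neg, abs_sub_comm]

lemma NegP.mono {F : E → ℝ} {m ω : E} {h κ ρm H H' : ℝ} (hN : NegP F m h ω κ ρm H)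
    (hH : H ≤ H') : NegP F m h ω κ ρm H' := by
  intro v l h1 h2 h3
  refine (hN v l h1 h2 h3).trans ?_
  have : 0 ≤ max l ρm / h := div_nonneg (le_max_of_le_left h1.le) (h1.le.trans h2)
  gcongr

lemma NegP.neg {F : E → ℝ} {m ω : E} {h κ ρm H : ℝ} (hN : NegP F m h ω κ ρm H) :
    NegP (fun y => - F y) m h (-ω) κ ρm H := by
  intro v l h1 h2 h3
  have hm : ∀ v : E, MeasurableSet (ball m (4 * h) ∩ {w | w + v ∈ ball m (4 * h)}) := fun v =>
    measurableSet_ball.inter (measurableSet_ball.preimage (by fun_prop : Measurable fun w => w + v))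
  refine le_trans ?_ (hN (-v) l h1 h2 (by
    rw [← norm_neg]; simpa [sub_eq_add_neg, add_comm] using h3))
  refine le_trans (le_of_eq (lintegral_congr fun w => ?_)) (setLIntegral_add_le
    (fun w => ENNReal.ofReal (F w - F (w + -v))) (hm v) (hm (-v)) v fun w hw => ⟨hw.2, ?_⟩)
  · congr 1
    rw [add_neg_cancel_right]; ring
  · simpa using hw.1

end Vale.Agent.P137
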