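import Vale.Agent.P137.Defs

namespace Vale.Agent.P137

open MeasureTheory Metric Set Filter Topology
open scoped ENNReal RealInnerProductSpace

variable {E : Type*} [NormedAddCommGroup E] [InnerProductSpace ℝ E] [FiniteDimensional ℝ E]
  [MeasurableSpace E] [BorelSpace E]

lemma gfun_le (F : E → ℝ) {η r : ℝ} {x c : E} (hr : η ≤ r) (hd : dist x c ≤ r) :
    I F c r / V E r ≤ gE F η x :=
  le_iSup₂_of_le c r (le_iSup₂_of_le hr hd le_rfl)

lemma gfun_le' (F : E → ℝ) {η r : ℝ} {x c : E} (hη : 0 < η) (hr : η ≤ r) (hd : dist x c ≤ r) :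
    I F c r ≤ gE F η x * V E r :=
  (ENNReal.div_le_iff (V_ne_zero (hη.trans_le hr)) (V_ne_top r)).1 (gfun_le F hr hd)

lemma gfun_ind {F : E → ℝ} {η : ℝ} {x : E} {b : ℝ≥0∞}
    (h : ∀ c r, η ≤ r → dist x c ≤ r → I F c r / V E r ≤ b) : gE F η x ≤ b :=
  iSup₂_le fun c r => iSup₂_le (h c r)

theorem gE_le (F : E → ℝ) {η : ℝ} (x : E) :
    gE F η x ≤ (∫⁻ y, ENNReal.ofReal (F y)) / V E η :=
  gfun_ind fun _ _ hr _ => ENNReal.div_le_div (setLIntegral_le_lintegral _ _) (V_mono hr)

theorem gE_ne_top {F : E → ℝ} (hFi : Integrable F) {η : ℝ} (hη : 0 < η) (x : E) :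
    gE F η x ≠ ⊤ :=
  ((gE_le F x).trans_lt (ENNReal.div_lt_top hFi.lintegral_lt_top.ne (V_ne_zero hη))).ne

theorem gE_anti (F : E → ℝ) {η η' : ℝ} (h : η ≤ η') (x : E) : gE F η' x ≤ gE F η x :=
  gfun_ind fun _ _ hr hd => gfun_le F (h.trans hr) hd

theorem H1_gR {F : E → ℝ} (hFi : Integrable F) {η : ℝ} (hη : 0 < η) : H1 F (gR F η) η := by
  intro z c r hr hd
  rw [gR, ENNReal.ofReal_toReal (gE_ne_top hFi hη z)]
  exact gfun_le' F hη hr hd

lemma gfun_cmp (F : E → ℝ) {η : ℝ} (hη : 0 < η) (x y : E) :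
    gE F η x ≤ gE F η y * ENNReal.ofReal ((1 + dist x y / η) ^ Module.finrank ℝ E) := by
  refine gfun_ind fun c r hr hd => ?_
  have hD := dist_nonneg (x := x) (y := y)
  rw [ENNReal.div_le_iff (V_ne_zero (hη.trans_le hr)) (V_ne_top r), mul_assoc]
  calc I F c r ≤ I F c (r + dist x y) := lintegral_mono_set (ball_subset_ball (by linarith))
    _ ≤ gE F η y * V E (r + dist x y) := gfun_le' F hη (by linarith) (by
        linarith [dist_triangle_left y c x])
    _ ≤ _ := by
        refine mul_le_mul_right (V_le_of_le_mul (by positivity) ?_) _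
        rw [add_mul, one_mul, div_mul_eq_mul_div, add_le_add_iff_left, le_div_iff₀ hη]
        exact mul_le_mul_of_nonneg_left hr hD

lemma gfun_real {a b B s : ℝ} {d : ℕ} (ha : 0 ≤ a) (hB : a ≤ B) (hs : 0 ≤ s)
    (h : a ≤ b * (1 + s) ^ d) : a ≤ b + B * d * s := by
  have h1 := one_add_mul_le_pow (a := -(s / (1 + s))) (by
    have : s / (1 + s) ≤ 1 := by rw [div_le_one (by positivity)]; linarith
    linarith) d
  have e : 1 + -(s / (1 + s)) = (1 + s)⁻¹ := by field_simp; ring
  rw [e, inv_pow] at h1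
  have h2 : a * ((1 + s) ^ d)⁻¹ ≤ b := by rwa [← div_eq_mul_inv, div_le_iff₀ (by positivity)]
  have h3 : s / (1 + s) ≤ s := div_le_self hs (by linarith)
  have h4 := mul_le_mul_of_nonneg_left h1 ha
  have h5 : a * (d * (s / (1 + s))) ≤ B * (d * s) := by gcongr; exact ha.trans hB
  linarith

theorem lipschitz_gR {F : E → ℝ} (hFi : Integrable F) {η : ℝ} (hη : 0 < η) :
    ∃ K, LipschitzWith K (gR F η) := by
  have hB := (ENNReal.div_lt_top hFi.lintegral_lt_top.ne (V_ne_zero (E := E) hη)).ne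
  refine ⟨_, LipschitzWith.of_le_add_mul' (((∫⁻ y, ENNReal.ofReal (F y)) / V E η).toReal *
    Module.finrank ℝ E / η) fun x y => ?_⟩
  have h := ENNReal.toReal_mono (ENNReal.mul_ne_top (gE_ne_top hFi hη y) ENNReal.ofReal_ne_top)
    (gfun_cmp F hη x y)
  rw [ENNReal.toReal_mul, ENNReal.toReal_ofReal (by positivity)] at h
  refine (gfun_real ENNReal.toReal_nonneg (ENNReal.toReal_mono hB (gE_le F x)) (by positivity)
    h).trans (le_of_eq ?_)
  rw [gR]
  ring

theorem measurable_gE {F : E → ℝ} (hFi : Integrable F) {η : ℝ} (hη : 0 < η) :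
    Measurable (gE F η) := by
  obtain ⟨K, hK⟩ := lipschitz_gR hFi hη
  have e : gE F η = fun x => ENNReal.ofReal (gR F η x) :=
    funext fun x => (ENNReal.ofReal_toReal (gE_ne_top hFi hη x)).symm
  rw [e]
  exact hK.continuous.measurable.ennreal_ofReal

lemma gfun_cont [Nontrivial E] {F : E → ℝ} (hFi : Integrable F) :
    Continuous fun p : E × ℝ => I F p.1 p.2 := by
  rw [continuous_iff_continuousAt]
  intro p
  have m := hFi.1.aemeasurable.ennreal_ofReal
  simp only [ContinuousAt, I, ← lintegral_indicator measurableSet_ball]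
  refine tendsto_lintegral_filter_of_dominated_convergence' (fun y => ENNReal.ofReal (F y))
    (Eventually.of_forall fun q => m.indicator measurableSet_ball)
    (Eventually.of_forall fun q => Eventually.of_forall fun y => indicator_le_self _ _ y)
    hFi.lintegral_lt_top.ne ?_
  have hs : ∀ᵐ y : E, y ∉ sphere p.1 p.2 :=
    measure_eq_zero_iff_ae_notMem.1 (Measure.addHaar_sphere _ _ _)
  filter_upwards [hs] with y hy
  have c : Continuous fun q : E × ℝ => dist y q.1 := by fun_prop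
  refine tendsto_const_nhds.congr' ?_
  rcases lt_or_gt_of_ne (show dist y p.1 ≠ p.2 from hy) with h | h
  · filter_upwards [c.continuousAt.eventually_lt continuous_snd.continuousAt h] with q hq
    rw [indicator_of_mem (mem_ball.2 h), indicator_of_mem (mem_ball.2 hq)]
  · filter_upwards [continuous_snd.continuousAt.eventually_lt c.continuousAt h] with q hq
    rw [indicator_of_notMem (fun h' => h.not_gt (mem_ball.1 h')),
      indicator_of_notMem (fun h' => hq.not_gt (mem_ball.1 h'))]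

theorem opt_of_lt [Nontrivial E] {F : E → ℝ} (hFi : Integrable F) {η η' : ℝ} (hη : 0 < η)
    (hη' : η ≤ η') {x : E} (h : gR F η' x < gR F η x) : Opt F (gR F η) η η' x := by
  set S : Set (E × ℝ) := closedBall x η' ×ˢ Icc η η' ∩ {p | dist x p.1 ≤ p.2} with hS
  have hc : IsCompact S := ((isCompact_closedBall x η').prod isCompact_Icc).inter_right
    (isClosed_le (by fun_prop) continuous_snd)
  have hne : S.Nonempty := ⟨(x, η), ⟨mem_closedBall_self (by linarith), le_rfl, hη'⟩, by
    simpa using hη.le⟩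
  have cV : ContinuousOn (fun p : E × ℝ => V E p.2) S := by
    refine ContinuousOn.congr (f := fun p =>
      ENNReal.ofReal (p.2 ^ Module.finrank ℝ E) * V E 1) (Continuous.continuousOn ?_) fun p hp =>
      Measure.addHaar_ball_of_pos _ _ (hη.trans_le hp.1.2.1)
    exact (ENNReal.continuous_mul_const (V_ne_top 1)).comp
      (ENNReal.continuous_ofReal.comp (by fun_prop))
  have cΦ : ContinuousOn (fun p : E × ℝ => I F p.1 p.2 / V E p.2) S := fun p hp =>
    ENNReal.Tendsto.div (gfun_cont hFi).continuousWithinAt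
      (Or.inr (V_ne_zero (hη.trans_le hp.1.2.1))) (cV p hp) (Or.inl (V_ne_top _))
  obtain ⟨p, hp, hmax⟩ := hc.exists_isMaxOn hne cΦ
  have h1 : gE F η' x < gE F η x :=
    (ENNReal.toReal_lt_toReal (gE_ne_top hFi (hη.trans_le hη') x) (gE_ne_top hFi hη x)).1 h
  have h2 : gE F η x ≤ max (I F p.1 p.2 / V E p.2) (gE F η' x) := gfun_ind fun c r hr hd => by
    rcases le_total r η' with h3 | h3
    · exact le_max_of_le_left (hmax (a := (c, r))
        ⟨⟨mem_closedBall'.2 (hd.trans h3), hr, h3⟩, hd⟩)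
    · exact le_max_of_le_right (gfun_le F h3 hd)
  have h3 : I F p.1 p.2 / V E p.2 = gE F η x :=
    le_antisymm (gfun_le F hp.1.2.1 hp.2) ((le_max_iff.1 h2).resolve_right h1.not_ge)
  refine ⟨p.1, p.2, hp.1.2.1, hp.1.2.2, hp.2, ?_⟩
  rw [gR, ENNReal.ofReal_toReal (gE_ne_top hFi hη x), ← h3,
    ENNReal.div_mul_cancel (V_ne_zero (hη.trans_le hp.1.2.1)) (V_ne_top _)]

theorem Mt_eq_iSup {f : E → ℝ} (x : E) :
    Mt f x = ⨆ n : ℕ, gE (fun y => |f y|) ((1 / 2) ^ n) x := by
  have e : Mt f x = ⨆ (c : E) (r : ℝ) (_ : x ∈ ball c r), I (fun y => |f y|) c r / V E r := by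
    simp only [Mt, I, Real.enorm_eq_ofReal_abs, vol_ball]
  refine le_antisymm ?_ (iSup_le fun n => gfun_ind fun c r hr hd => ?_)
  · rw [e]
    refine iSup₂_le fun c r => iSup_le fun hx => ?_
    obtain ⟨n, hn⟩ := exists_pow_lt_of_lt_one (pos_of_mem_ball hx) (by norm_num : (1 / 2 : ℝ) < 1)
    exact le_iSup_of_le n (gfun_le _ hn.le (mem_ball.1 hx).le)
  · have h0 : 0 < r := lt_of_lt_of_le (by positivity) hr
    have t1 : Tendsto (fun t : ℝ => ENNReal.ofReal (t ^ Module.finrank ℝ E)) (𝓝[>] 1) (𝓝 1) := by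
      have c : Continuous fun t : ℝ => ENNReal.ofReal (t ^ Module.finrank ℝ E) :=
        ENNReal.continuous_ofReal.comp (by fun_prop)
      simpa using (c.tendsto 1).mono_left nhdsWithin_le_nhds
    have t2 := ENNReal.Tendsto.const_mul (a := Mt f x) t1 (Or.inl one_ne_zero)
    rw [mul_one] at t2
    refine ge_of_tendsto t2 ?_
    filter_upwards [self_mem_nhdsWithin] with t ht
    have h1 : r < t * r := lt_mul_of_one_lt_left h0 ht
    have h2 : I (fun y => |f y|) c (t * r) / V E (t * r) ≤ Mt f x := by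
      rw [e]
      exact le_iSup₂_of_le c (t * r) (le_iSup_of_le (mem_ball.2 (hd.trans_lt h1)) le_rfl)
    rw [ENNReal.div_le_iff (V_ne_zero (h0.trans h1)) (V_ne_top _),
      V_mul (lt_trans one_pos ht)] at h2
    rw [ENNReal.div_le_iff (V_ne_zero h0) (V_ne_top r), mul_assoc]
    exact le_trans (lintegral_mono_set (ball_subset_ball h1.le)) h2

lemma gfun_half {F : E → ℝ} (hF : Measurable F) {η : ℝ} (hη : 0 < η) (x : E) :
    gE F (η / 2) x ≤ gE F η x + (V E (η / 2))⁻¹ * (V E η)⁻¹ * ∫⁻ y in ball x (2 * η),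
      ∫⁻ v in ball (0 : E) (4 * η), ENNReal.ofReal |F (y + v) - F y| := by
  refine gfun_ind fun c r hr hd => ?_
  rcases le_total η r with h | h
  · exact le_add_right (gfun_le F h hd)
  have h0 : 0 < r := by linarith
  set Q : E → ℝ≥0∞ := fun y => ∫⁻ v in ball (0 : E) (4 * η), ENNReal.ofReal |F (y + v) - F y|
    with hQ
  have h1 : ∀ y ∈ ball c r, ENNReal.ofReal (F y) ≤ gE F η x + (V E η)⁻¹ * Q y := by
    intro y hy
    have a1 : ENNReal.ofReal (F y) * V E η ≤ gE F η x * V E η + Q y := by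
      calc _ = ∫⁻ _ in ball c η, ENNReal.ofReal (F y) := by rw [setLIntegral_const, vol_ball]
        _ ≤ ∫⁻ y' in ball c η, (ENNReal.ofReal (F y') + ENNReal.ofReal |F y' - F y|) :=
          lintegral_mono fun y' => (ENNReal.ofReal_le_ofReal
            (by linarith [neg_abs_le (F y' - F y)])).trans ENNReal.ofReal_add_le
        _ = I F c η + ∫⁻ y' in ball c η, ENNReal.ofReal |F y' - F y| :=
          lintegral_add_left hF.ennreal_ofReal _
        _ ≤ _ := by
          refine add_le_add (gfun_le' F hη le_rfl (hd.trans h)) ?_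
          have a2 := setLIntegral_ball_add (fun y' => ENNReal.ofReal |F y' - F y|) 0 y (4 * η)
          simp only [hQ, add_comm y]
          rw [a2, zero_add]
          refine lintegral_mono_set (ball_subset_ball' ?_)
          linarith [mem_ball'.1 hy]
    rw [← ENNReal.le_div_iff_mul_le (Or.inl (V_ne_zero hη)) (Or.inl (V_ne_top _)),
      ENNReal.add_div, ENNReal.mul_div_cancel_right (V_ne_zero hη) (V_ne_top _),
      ENNReal.div_eq_inv_mul] at a1
    exact a1
  have h2 : I F c r ≤ gE F η x * V E r + (V E η)⁻¹ * ∫⁻ y in ball x (2 * η), Q y := by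
    refine (setLIntegral_mono' measurableSet_ball h1).trans ?_
    rw [lintegral_add_left measurable_const, setLIntegral_const, vol_ball,
      lintegral_const_mul' _ _ (ENNReal.inv_ne_top.2 (V_ne_zero hη))]
    gcongr
    exact ball_subset_ball' (by rw [dist_comm]; linarith)
  refine (ENNReal.div_le_div_right h2 _).trans ?_
  rw [ENNReal.add_div, ENNReal.mul_div_cancel_right (V_ne_zero h0) (V_ne_top _),
    ENNReal.div_eq_inv_mul, mul_assoc]
  gcongr
  exact V_mono hr

lemma gfun_avg {Q : E → ℝ≥0∞} (hQ : Measurable Q) (ρ : ℝ) :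
    ∫⁻ x, ∫⁻ y in ball x ρ, Q y = V E ρ * ∫⁻ y, Q y := by
  have e : ∀ x, ∫⁻ y in ball x ρ, Q y = ∫⁻ w in ball (0 : E) ρ, Q (w + x) := fun x => by
    rw [setLIntegral_ball_add, zero_add]
  simp only [e]
  have m : Measurable fun p : E × E => Q (p.2 + p.1) := by fun_prop
  rw [lintegral_lintegral_swap m.aemeasurable]
  simp only [lintegral_add_left_eq_self]
  rw [setLIntegral_const, mul_comm, V]

theorem gE_half : ∃ C : ℝ≥0∞, C ≠ ⊤ ∧ ∀ (F : E → ℝ), Measurable F → ∀ M : ℝ≥0∞,
    (∀ v : E, ∫⁻ y, ENNReal.ofReal |F (y + v) - F y| ≤ ENNReal.ofReal ‖v‖ * M) →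
    ∀ η : ℝ, 0 < η → ∫⁻ x, (gE F (η / 2) x - gE F η x) ≤ C * ENNReal.ofReal η * M := by
  obtain ⟨C, hC, -, hV⟩ := exists_V_le (E := E) 4
  refine ⟨C * C * 4, by finiteness, fun F hF M hM η hη => ?_⟩
  have m : Measurable fun p : E × E => ENNReal.ofReal |F (p.1 + p.2) - F p.1| := by fun_prop
  have n1 := V_ne_zero (E := E) (half_pos hη)
  have n2 := V_ne_zero (E := E) hη
  have h1 : ∫⁻ y, ∫⁻ v in ball (0 : E) (4 * η), ENNReal.ofReal |F (y + v) - F y|
      ≤ 4 * ENNReal.ofReal η * M * V E (4 * η) := by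
    rw [lintegral_lintegral_swap m.aemeasurable, V, ← setLIntegral_const]
    refine setLIntegral_mono' measurableSet_ball fun v hv => (hM v).trans (mul_le_mul_left ?_ _)
    rw [← ENNReal.ofReal_ofNat 4, ← ENNReal.ofReal_mul (by norm_num)]
    exact ENNReal.ofReal_le_ofReal (mem_ball_zero_iff.1 hv).le
  refine (lintegral_mono fun x => tsub_le_iff_left.2 (gfun_half hF hη x)).trans ?_
  rw [lintegral_const_mul' _ _ (by finiteness), gfun_avg m.lintegral_prod_right']
  calc _ ≤ (V E (η / 2))⁻¹ * (V E η)⁻¹ * (C * V E (η / 2) *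
        (4 * ENNReal.ofReal η * M * (C * V E η))) := by
        gcongr
        · exact hV _ _ (by positivity) (by linarith)
        · exact h1.trans (mul_le_mul_right (hV _ _ hη.le le_rfl) _)
    _ = ((V E (η / 2))⁻¹ * V E (η / 2)) * ((V E η)⁻¹ * V E η) *
        (C * C * 4 * ENNReal.ofReal η * M) := by ring
    _ = _ := by
        rw [ENNReal.inv_mul_cancel n1 (V_ne_top _), ENNReal.inv_mul_cancel n2 (V_ne_top _), one_mul,
          one_mul]

end Vale.Agent.P137
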