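import Vale.Agent.P137.CEstL
import Vale.Agent.P137.CClass
import Vale.Agent.P137.CCell
import Vale.Agent.P137.Gfun

namespace Vale.Agent.P137

open MeasureTheory Metric Set Filter Topology
open scoped ENNReal RealInnerProductSpace

variable {E : Type*} [NormedAddCommGroup E] [InnerProductSpace ℝ E] [FiniteDimensional ℝ E]
  [MeasurableSpace E] [BorelSpace E]

lemma cest_w (n : ℕ) : ∑' i : ℕ, ENNReal.ofReal (min 1 ((2 : ℝ) ^ n / 2 ^ i)) ≤ n + 2 := by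
  induction n with
  | zero =>
    calc _ ≤ ∑' i : ℕ, (2⁻¹ : ℝ≥0∞) ^ i := ENNReal.tsum_le_tsum fun i => by
          refine (ENNReal.ofReal_le_ofReal (min_le_right _ _)).trans (le_of_eq ?_)
          rw [pow_zero, one_div, ← inv_pow, ENNReal.ofReal_pow (by norm_num),
            ENNReal.ofReal_inv_of_pos two_pos, ENNReal.ofReal_ofNat]
      _ = _ := by rw [ENNReal.tsum_geometric_two]; simp
  | succ n ih =>
    rw [tsum_eq_zero_add' ENNReal.summable]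
    have e : ∀ i : ℕ, (2 : ℝ) ^ (n + 1) / 2 ^ (i + 1) = 2 ^ n / 2 ^ i := fun i => by
      rw [pow_succ, pow_succ, mul_div_mul_right _ _ two_ne_zero]
    simp only [e]
    calc _ ≤ 1 + ((n : ℝ≥0∞) + 2) := add_le_add
          ((ENNReal.ofReal_le_ofReal (min_le_left _ _)).trans ENNReal.ofReal_one.le) ih
      _ = _ := by push_cast; ring

lemma cest_shift (β : ℝ → ℝ≥0∞) (a : ℝ) (e : ℕ) :
    ∑' i : ℕ, β (a / 2 ^ i) ≤ ∑' i : ℕ, β (2 ^ e * a / 2 ^ i) := by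
  refine le_trans (le_of_eq (tsum_congr fun i => ?_)) (ENNReal.tsum_comp_le_tsum_of_injective
    (add_left_injective e) fun i => β (2 ^ e * a / 2 ^ i))
  congr 1
  rw [pow_add]
  field_simp

lemma cest_sum (β : ℝ → ℝ≥0∞) (w : ℕ → ℝ≥0∞) (η : ℝ) (c e J : ℕ) :
    ∑ j ∈ Finset.range (J + 1), ∑' i : ℕ, w i * β (2 ^ c * (2 ^ j * η) / 2 ^ i) ≤
      (∑' i, w i) * ∑' i : ℕ, β (2 ^ (c + e) * (2 ^ J * η) / 2 ^ i) := by
  rw [← Summable.tsum_finsetSum fun _ _ => ENNReal.summable, ← ENNReal.tsum_mul_right]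
  refine ENNReal.tsum_le_tsum fun i => ?_
  rw [← Finset.mul_sum]
  refine mul_le_mul_right ?_ _
  have h1 : ∀ j ∈ Finset.range (J + 1), β (2 ^ c * (2 ^ j * η) / 2 ^ i) =
      β (2 ^ (c + e) * (2 ^ J * η) / 2 ^ (i + e + (J - j))) := fun j hj => by
    obtain ⟨l, rfl⟩ := Nat.exists_eq_add_of_le (Nat.lt_succ_iff.1 (Finset.mem_range.1 hj))
    congr 1
    rw [Nat.add_sub_cancel_left]
    simp only [pow_add]
    field_simp
  rw [Finset.sum_congr rfl h1, ← Finset.sum_image (s := Finset.range (J + 1))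
    (g := fun j => i + e + (J - j)) (f := fun l => β (2 ^ (c + e) * (2 ^ J * η) / 2 ^ l))]
  · exact ENNReal.sum_le_tsum _
  · intro j hj j' hj' h
    have h2 := Finset.mem_range.1 hj
    have h3 := Finset.mem_range.1 hj'
    dsimp only at h
    omega

lemma cest_kappa {M : ℕ} (hM : 0 < M) (c : ℕ) : ∃ κ : ℕ → ℝ, (∀ k, 0 < κ k ∧ κ k ≤ 1 ∧
    κ k ^ M = 1 / 2 ^ (k + 4)) ∧
    ∑' k, ENNReal.ofReal (κ k) * (((c + 2 * k + 8 : ℕ) : ℝ≥0∞) + 2) ≠ ⊤ := by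
  set ρ : ℝ := (1 / 2) ^ ((M : ℝ)⁻¹) with hρ
  have h0 : 0 < ρ := by positivity
  have h1 : ρ < 1 := Real.rpow_lt_one (by norm_num) (by norm_num) (by positivity)
  have h2 : ρ ^ M = 1 / 2 := Real.rpow_inv_natCast_pow (by norm_num) hM.ne'
  refine ⟨fun k => ρ ^ (k + 4), fun k => ⟨by positivity, pow_le_one₀ h0.le h1.le, ?_⟩, ?_⟩
  · rw [← pow_mul, mul_comm, pow_mul, h2, one_div_pow]
  have hn : ‖ρ‖ < 1 := by rwa [Real.norm_of_nonneg h0.le]
  have h3 := (((summable_pow_mul_geometric_of_norm_lt_one 1 hn).mul_left 2).add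
    ((summable_geometric_of_norm_lt_one hn).mul_left ((c : ℝ) + 10))).mul_left (ρ ^ 4)
  refine ne_top_of_le_ne_top h3.tsum_ofReal_ne_top (ENNReal.tsum_le_tsum fun k => le_of_eq ?_)
  rw [← ENNReal.ofReal_natCast, ← ENNReal.ofReal_ofNat 2,
    ← ENNReal.ofReal_add (by positivity) (by positivity), ← ENNReal.ofReal_mul (by positivity)]
  congr 1
  push_cast
  ring

lemma cest_nu (g : E → ℝ) (ω : E) (Y : Set E) :
    nuG g (Y ∩ {x | ‖fderiv ℝ g x‖ ≤ 2 * fderiv ℝ g x ω}) ≤ 2 * nuW g ω Y := by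
  have hZ : MeasurableSet {x | ‖fderiv ℝ g x‖ ≤ 2 * fderiv ℝ g x ω} :=
    measurableSet_le (measurable_fderiv ℝ g).norm
      ((measurable_fderiv_apply_const ℝ g ω).const_mul 2)
  rw [← Measure.restrict_apply' hZ, nuG, restrict_withDensity hZ, ← withDensity_indicator hZ, nuW,
    ← smul_eq_mul, ← Measure.smul_apply, ← withDensity_smul' _ _ ENNReal.ofNat_ne_top]
  refine withDensity_mono (Eventually.of_forall fun x => ?_) Y
  refine indicator_apply_le' (fun hx => ?_) fun _ => zero_le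
  rw [Pi.smul_apply, smul_eq_mul, ← ofReal_norm, ← ENNReal.ofReal_ofNat,
    ← ENNReal.ofReal_mul zero_le_two]
  exact ENNReal.ofReal_le_ofReal hx

omit [MeasurableSpace E] [BorelSpace E] in
lemma cest_dir (L : E →L[ℝ] ℝ) (hL : L ≠ 0) :
    ∃ ν : E, ‖ν‖ = 1 ∧ ∀ ω : E, ‖ω - ν‖ ≤ 1 / 2 → ‖L‖ ≤ 2 * L ω := by
  have := FiniteDimensional.complete ℝ E
  set v := (InnerProductSpace.toDual ℝ E).symm L with hv
  have h1 : ‖v‖ = ‖L‖ := LinearIsometryEquiv.norm_map _ _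
  have h2 : 0 < ‖L‖ := norm_pos_iff.2 hL
  have h3 : L v = ‖L‖ ^ 2 := by
    rw [← InnerProductSpace.toDual_symm_apply, ← hv, real_inner_self_eq_norm_sq, h1]
  refine ⟨‖L‖⁻¹ • v, by rw [norm_smul, norm_inv, norm_norm, h1, inv_mul_cancel₀ h2.ne'],
    fun ω hω => ?_⟩
  have h4 : L (‖L‖⁻¹ • v) = ‖L‖ := by
    rw [map_smul, h3, smul_eq_mul]
    field_simp
  have h5 := L.le_opNorm (ω - ‖L‖⁻¹ • v)
  rw [map_sub, h4, Real.norm_eq_abs] at h5
  have h6 := mul_le_mul_of_nonneg_left hω h2.le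
  linarith [neg_abs_le (L ω - ‖L‖)]

omit [FiniteDimensional ℝ E] [MeasurableSpace E] [BorelSpace E] in
lemma cest_inj {g : E → ℝ} {x ω : E} (hd : DifferentiableAt ℝ g x) (h0 : 0 < fderiv ℝ g x ω)
    {h : ℝ} (hh : 0 < h) (hn : x ∉ Inj g ω (h / 8)) :
    ∃ k : ℕ, x ∈ Inj g ω (h / 2 ^ (k + 4)) ∧ x ∉ Inj g ω (2 * (h / 2 ^ (k + 4))) := by
  classical
  have h1 : HasDerivAt (fun s : ℝ => g (x + s • ω)) (fderiv ℝ g x ω) 0 := by
    have h2 : HasDerivAt (fun s : ℝ => x + s • ω) ω 0 := by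
      simpa using ((hasDerivAt_id (0 : ℝ)).smul_const ω).const_add x
    exact HasFDerivAt.comp_hasDerivAt (f := fun s : ℝ => x + s • ω) 0
      (by simpa using hd.hasFDerivAt) h2
  have h2 : ∀ᶠ s in 𝓝[≠] (0 : ℝ), 0 < slope (fun s : ℝ => g (x + s • ω)) 0 s :=
    (hasDerivAt_iff_tendsto_slope.1 h1).eventually (lt_mem_nhds h0)
  obtain ⟨δ, hδ, h3⟩ := Metric.eventually_nhds_iff.1 (eventually_nhdsWithin_iff.1 h2)
  have hex : ∃ k : ℕ, x ∈ Inj g ω (h / 2 ^ (k + 4)) := by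
    obtain ⟨k, hk⟩ := pow_unbounded_of_one_lt (h / δ) (one_lt_two (α := ℝ))
    refine ⟨k, hd, h0, fun ρ hρ => ?_⟩
    rcases hρ.1.eq_or_lt with rfl | hρ0
    · simp
    have h4 : h / 2 ^ (k + 4) < δ := by
      rw [div_lt_iff₀ hδ] at hk
      rw [div_lt_iff₀ (by positivity), pow_add]
      nlinarith [pow_pos (two_pos (α := ℝ)) k]
    have h5 := h3 (y := ρ) (by rw [dist_zero_right, Real.norm_of_nonneg hρ.1]; linarith [hρ.2])
      hρ0.ne'
    rw [slope_def_field, sub_zero, div_pos_iff_of_pos_right hρ0, zero_smul, add_zero] at h5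
    linarith
  refine ⟨Nat.find hex, Nat.find_spec hex, ?_⟩
  rcases h6 : Nat.find hex with _ | k
  · rwa [show 2 * (h / 2 ^ (0 + 4)) = h / 8 by ring]
  · rw [show 2 * (h / 2 ^ (k + 1 + 4)) = h / 2 ^ (k + 4) by ring]
    exact Nat.find_min hex (by omega)

lemma cest_bottom {g : E → ℝ} {γ : E → ℝ≥0∞} (hγ : Measurable γ) {Bad : Set E}
    (hB : MeasurableSet Bad) {η : ℝ} (hη : 0 < η) {C : ℝ≥0∞} (hC : V E (4 * η) ≤ C * V E η) :
    nuG g {x | ‖fderiv ℝ g x‖ₑ ≤ (V E η)⁻¹ * ∫⁻ y in ball x (4 * η), Bad.indicator γ y} ≤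
      C * ∫⁻ y in Bad, γ y := by
  have hm : Measurable fun x : E => (V E η)⁻¹ * ∫⁻ y in ball x (4 * η), Bad.indicator γ y :=
    (measurable_ball_lintegral (f := fun _ y => Bad.indicator γ y)
      ((hγ.indicator hB).comp measurable_snd) measurable_id _).const_mul _
  have hS := measurableSet_le (measurable_fderiv ℝ g).enorm hm
  rw [nuG, withDensity_apply _ hS]
  refine (setLIntegral_mono' hS fun x hx => hx).trans ((setLIntegral_le_lintegral _ _).trans ?_)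
  rw [lintegral_const_mul' _ _ (ENNReal.inv_ne_top.2 (V_ne_zero hη)), gfun_avg (hγ.indicator hB),
    lintegral_indicator hB, ← mul_assoc]
  refine mul_le_mul_left ((mul_le_mul_right hC _).trans (le_of_eq ?_)) _
  rw [mul_left_comm, ENNReal.inv_mul_cancel (V_ne_zero hη) (V_ne_top η), mul_one]

/-- the main estimate for the centred maximal function -/
theorem ESTC [Nontrivial E] : ∃ (A : ℝ) (c : ℕ) (C : ℝ≥0∞), 0 < A ∧ C ≠ ⊤ ∧
    ∀ (F g : E → ℝ) (γ : E → ℝ≥0∞) (Bad : Set E) (η : ℝ) (J : ℕ) (X : Set E), Measurable F →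
    (∀ y, 0 ≤ F y) → Integrable F → Continuous g → (∀ y, 0 ≤ g y) → 0 < η → H1c F g η →
    Measurable γ → MeasurableSet Bad → LTl F γ →
    (∀ x ∈ X, ∃ r, η ≤ r ∧ r ≤ 2 ^ J * η ∧ I F x r = ENNReal.ofReal (g x) * V E r ∧
      ball x (A * r) ⊆ Bad) →
    nuG g X ≤ C * (∑' i : ℕ, bb F 1 (2 ^ c * (2 ^ J * η) / 2 ^ i) + ∫⁻ y in Bad, γ y) := by
  obtain ⟨A, b, c0, C0, Net, hA, hb, hb1, hC0, hN, hcl⟩ := classifyC (E := E)
  obtain ⟨c1, M, C1, hM, hC1, hcell⟩ := CELL (E := E) (2 ^ c0) A (one_le_pow₀ one_le_two)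
    (by linarith) C0 hC0
  obtain ⟨c2, C2, hC2, hL⟩ := ESTL (E := E) A b hA hb hb1 C0 hC0 Net hN
  obtain ⟨C4, hC4, -, hV⟩ := exists_V_le (E := E) 4
  obtain ⟨κ, hκ, hK⟩ := cest_kappa hM c1
  set K := ∑' k, ENNReal.ofReal (κ k) * (((c1 + 2 * k + 8 : ℕ) : ℝ≥0∞) + 2) with hKd
  refine ⟨A, c1 + (c2 + c0 + 1), C2 + C4 + ∑ _ω ∈ Net, 2 * C1 * (c1 + 2 + K), by linarith, ?_,
    fun F g γ Bad η J X hF hF0 hFi hg hg0 hη hH hγ hB hLT hX => ?_⟩
  · have : ∑ _ω ∈ Net, 2 * C1 * (c1 + 2 + K) ≠ ⊤ :=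
      ENNReal.sum_ne_top.2 fun _ _ => by finiteness
    finiteness
  set T := ∑' i : ℕ, bb F 1 (2 ^ (c1 + (c2 + c0 + 1)) * (2 ^ J * η) / 2 ^ i) with hT
  set Γ := ∫⁻ y in Bad, γ y with hΓ
  let XL : Set E := {x | fderiv ℝ g x ≠ 0 → ∃ ω ∈ Net, ‖fderiv ℝ g x‖ ≤ 2 * fderiv ℝ g x ω ∧
    Chg F g Bad A b C0 Net η (J + c0 + 1) x ω}
  let XB : Set E :=
    {x | ‖fderiv ℝ g x‖ₑ ≤ (V E η)⁻¹ * ∫⁻ y in ball x (4 * η), Bad.indicator γ y}
  let Z : E → Set E := fun ω => {x | ‖fderiv ℝ g x‖ ≤ 2 * fderiv ℝ g x ω}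
  let Dn : E → ℝ → Set E := fun ω h => {m | m ∈ Inj g ω (h / 8) ∧
    (∃ s ∈ Icc h (2 * h), I F m s = ENNReal.ofReal (g m) * V E s) ∧
    ORp F m h (-ω) (2 ^ c0) (C0 * PP F m (A * h))}
  let Sh : E → ℝ → ℝ → Set E := fun ω h σ => {m | m ∈ Inj g ω σ ∧ m ∉ Inj g ω (2 * σ) ∧
    (∃ s ∈ Icc h (2 * h), I F m s = ENNReal.ofReal (g m) * V E s) ∧
    (ORp F m h ω (2 ^ c0) (C0 * PP F m (A * h)) ∨ ORp F m h (-ω) (2 ^ c0) (C0 * PP F m (A * h)))}
  let Y : E → ℕ → Set E := fun ω j => {_x | 1 ≤ j} ∩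
    (Dn ω (2 ^ j * η) ∪ ⋃ k : ℕ, Sh ω (2 ^ j * η) (2 ^ j * η / 2 ^ (k + 4)))
  have hcov : X ⊆ XL ∪ XB ∪ ⋃ ω ∈ Net, (⋃ j ∈ Finset.range (J + 1), Y ω j) ∩ Z ω := by
    intro x hx
    obtain ⟨r, r1, r2, r3, r4⟩ := hX x hx
    have hr : 0 < r := hη.trans_le r1
    by_cases h0 : fderiv ℝ g x = 0
    · exact Or.inl (Or.inl fun h => absurd h0 h)
    by_cases h1 : r < 2 * η
    · refine Or.inl (Or.inr ?_)
      have h2 := GB hF hF0 hg0 hη hH hLT r1 r3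
      have h3 : ∫⁻ y in ball x (2 * r), γ y ≤ ∫⁻ y in ball x (4 * η), Bad.indicator γ y := by
        refine le_trans (setLIntegral_mono' measurableSet_ball fun y hy => ?_)
          (lintegral_mono_set (ball_subset_ball (by linarith)))
        rw [indicator_of_mem (r4 (ball_subset_ball (by nlinarith) hy))]
      change ‖fderiv ℝ g x‖ₑ ≤ _
      rw [← ENNReal.div_eq_inv_mul, ENNReal.le_div_iff_mul_le (Or.inl (V_ne_zero hη))
        (Or.inl (V_ne_top η))]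
      exact (mul_le_mul_right (V_mono r1) _).trans (h2.trans h3)
    obtain ⟨j, j1, j2⟩ := exists_nat_pow_near ((one_le_div hη).2 r1) (one_lt_two (α := ℝ))
    rw [le_div_iff₀ hη] at j1
    rw [div_lt_iff₀ hη, pow_succ] at j2
    have j3 : 1 ≤ j := by
      rcases j with _ | j
      · exact absurd (by simpa using j2) h1
      · omega
    have j4 : j ≤ J := (pow_le_pow_iff_right₀ (one_lt_two (α := ℝ))).1
      (le_of_mul_le_mul_right (j1.trans r2) hη)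
    have hd : DifferentiableAt ℝ g x := by
      by_contra hn
      exact h0 (fderiv_zero_of_not_differentiableAt hn)
    obtain ⟨ν, hν, hν'⟩ := cest_dir _ h0
    obtain ⟨ω, hω, k1, k2, k3⟩ := hcl F g Bad η (J + c0 + 1) j x ν r hF hF0 hFi hg0 hη hH
      (by omega) j1 (by linarith) r3 r4 hν
    have k4 := hν' ω k1
    have k5 : 0 < fderiv ℝ g x ω := by linarith [norm_pos_iff.2 h0]
    have hs : ∃ s ∈ Icc (2 ^ j * η) (2 * (2 ^ j * η)), I F x s = ENNReal.ofReal (g x) * V E s :=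
      ⟨r, ⟨j1, by linarith⟩, r3⟩
    have fin : x ∈ Y ω j → x ∈ XL ∪ XB ∪ ⋃ ω ∈ Net, (⋃ j ∈ Finset.range (J + 1), Y ω j) ∩ Z ω :=
      fun h => Or.inr (mem_iUnion₂.2 ⟨ω, hω, mem_iUnion₂.2
        ⟨j, Finset.mem_range.2 (Nat.lt_succ_of_le j4), h⟩, k4⟩)
    by_cases hw : x ∈ Inj g ω (2 ^ j * η / 8)
    · rcases k3 hw.2.2 with k6 | k6
      · exact fin ⟨j3, Or.inl ⟨hw, hs, k6⟩⟩
      · exact Or.inl (Or.inl fun _ => ⟨ω, hω, k4, k6⟩)
    · obtain ⟨k, k6, k7⟩ := cest_inj hd k5 (by positivity) hw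
      exact fin ⟨j3, Or.inr (mem_iUnion.2 ⟨k, k6, k7, hs, k2⟩)⟩
  have e1 : nuG g XL ≤ C2 * (T + Γ) := by
    refine (hL F g Bad Γ η (J + c0 + 1) XL hF hg hη (hLT.toLTr hB) fun x hx => hx).trans ?_
    gcongr
    refine (cest_shift (bb F 1) _ c1).trans (le_of_eq (tsum_congr fun i => ?_))
    congr 2
    ring
  have e2 : nuG g XB ≤ C4 * (T + Γ) :=
    (cest_bottom hγ hB hη (hV η _ hη.le le_rfl)).trans (by gcongr; exact le_add_self)
  have e3 : ∀ ω ∈ Net, ∀ j : ℕ, nuW g ω (Y ω j) ≤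
      C1 * (∑' i : ℕ, ENNReal.ofReal (min 1 ((2 : ℝ) ^ c1 / 2 ^ i)) *
        bb F 1 (2 ^ c1 * (2 ^ j * η) / 2 ^ i) + ∑' k : ℕ, ENNReal.ofReal (κ k) *
        ∑' i : ℕ, ENNReal.ofReal (min 1 ((2 : ℝ) ^ (c1 + 2 * k + 8) / 2 ^ i)) *
          bb F 1 (2 ^ c1 * (2 ^ j * η) / 2 ^ i)) := by
    intro ω hω j
    rcases Nat.eq_zero_or_pos j with rfl | hj
    · simp [Y]
    have hh : 0 < 2 ^ j * η := by positivity
    have h2 : 2 * η ≤ 2 ^ j * η := by
      gcongr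
      exact le_self_pow₀ one_le_two hj.ne'
    obtain ⟨k1, k2⟩ := hcell F g ω η (2 ^ j * η) hF hF0 hFi hg hg0 hη h2 hH (hN ω hω).2
    refine (measure_mono inter_subset_right).trans ((measure_union_le _ _).trans ?_)
    rw [mul_add, ← ENNReal.tsum_mul_left (a := C1) (f := fun k : ℕ => ENNReal.ofReal (κ k) * _)]
    refine add_le_add (k2.trans (le_of_eq ?_)) ((measure_iUnion_le _).trans
      (ENNReal.tsum_le_tsum fun k => ?_))
    · congr 1
      refine tsum_congr fun i => ?_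
      congr 3
      field_simp
    · obtain ⟨l1, l2, l3⟩ := hκ k
      refine (k1 (2 ^ j * η / 2 ^ (k + 4)) (κ k) (by positivity) ?_ l1 l2 ?_).trans (le_of_eq ?_)
      · rw [pow_add, ← mul_div_assoc, div_le_iff₀ (by positivity)]
        nlinarith [one_le_pow₀ (one_le_two (α := ℝ)) (n := k)]
      · rw [l3]
        exact le_of_eq (by ring)
      · rw [mul_assoc]
        congr 2
        refine tsum_congr fun i => ?_
        congr 3
        field_simp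
        ring
  have e4 : ∀ ω ∈ Net, nuG g ((⋃ j ∈ Finset.range (J + 1), Y ω j) ∩ Z ω) ≤
      2 * C1 * (c1 + 2 + K) * (T + Γ) := by
    intro ω hω
    refine (cest_nu g ω _).trans ?_
    rw [mul_assoc, mul_assoc]
    refine mul_le_mul_right ((measure_biUnion_finset_le _ _).trans
      ((Finset.sum_le_sum fun j _ => e3 ω hω j).trans ?_)) _
    rw [← Finset.mul_sum, Finset.sum_add_distrib]
    refine mul_le_mul_right (le_trans ?_ (mul_le_mul_right le_self_add _)) _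
    rw [add_mul]
    refine add_le_add ((cest_sum (bb F 1) _ η c1 _ J).trans (mul_le_mul_left (cest_w c1) _)) ?_
    rw [← Summable.tsum_finsetSum fun _ _ => ENNReal.summable, hKd, ← ENNReal.tsum_mul_right]
    refine ENNReal.tsum_le_tsum fun k => ?_
    rw [← Finset.mul_sum, mul_assoc]
    exact mul_le_mul_right
      ((cest_sum (bb F 1) _ η c1 _ J).trans (mul_le_mul_left (cest_w _) _)) _
  refine (measure_mono hcov).trans ((measure_union_le _ _).trans ?_)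
  rw [add_mul, add_mul, Finset.sum_mul]
  exact add_le_add ((measure_union_le _ _).trans (add_le_add e1 e2))
    ((measure_biUnion_finset_le _ _).trans (Finset.sum_le_sum e4))

end Vale.Agent.P137
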