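import Mathlib

namespace Vale.Agent.P137

open MeasureTheory Set
open scoped ENNReal

section
variable {G : Type*} [AddCommGroup G] [MeasurableSpace G]

open Classical in
/-- probability of reaching a positive state before a negative one, by remaining steps -/
noncomputable def tree_chiN (ν : ℕ → Measure G) (Pos Neg : ℕ → Set G) (J : ℕ) :
    ℕ → G → ℝ≥0∞
  | 0 => fun _ => 0
  | n + 1 => fun p => if p ∈ Neg (J - (n + 1)) then 0 else if p ∈ Pos (J - (n + 1)) then 1 else
      ∫⁻ ξ, tree_chiN ν Pos Neg J n (p - ξ) ∂ν (J - (n + 1))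

noncomputable def tree_chi (ν : ℕ → Measure G) (Pos Neg : ℕ → Set G) (J k : ℕ) : G → ℝ≥0∞ :=
  tree_chiN ν Pos Neg J (J - k)

noncomputable def tree_rho (ν : ℕ → Measure G) (Pos Neg : ℕ → Set G) (J k : ℕ) (p : G) : ℝ≥0∞ :=
  ∫⁻ ξ, tree_chi ν Pos Neg J (k + 1) (p - ξ) ∂ν k

open Classical in
noncomputable def tree_W (ν : ℕ → Measure G) (Pos Neg : ℕ → Set G) (J k : ℕ) (p : G) : ℝ≥0∞ :=
  if p ∈ Pos k then (if p ∈ Neg k ∨ k = J then 1 else 1 - tree_rho ν Pos Neg J k p) else 0

variable {ν : ℕ → Measure G} {Pos Neg : ℕ → Set G} {J : ℕ}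

lemma tree_chi_top (p : G) : tree_chi ν Pos Neg J J p = 0 := by
  simp [tree_chi, tree_chiN]

open Classical in
lemma tree_chi_lt {k : ℕ} (hk : k < J) (p : G) : tree_chi ν Pos Neg J k p =
    if p ∈ Neg k then 0 else if p ∈ Pos k then 1 else tree_rho ν Pos Neg J k p := by
  have h1 : J - k = (J - (k + 1)) + 1 := by omega
  have h2 : J - (J - (k + 1) + 1) = k := by omega
  unfold tree_rho tree_chi
  rw [h1, tree_chiN, h2]

lemma tree_chiN_le [∀ k, IsProbabilityMeasure (ν k)] (n : ℕ) (p : G) :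
    tree_chiN ν Pos Neg J n p ≤ 1 := by
  induction n generalizing p with
  | zero => simp [tree_chiN]
  | succ n ih =>
    rw [tree_chiN]
    dsimp only
    split_ifs
    · exact zero_le
    · exact le_rfl
    · calc _ ≤ ∫⁻ _, 1 ∂ν (J - (n + 1)) := lintegral_mono fun ξ => ih _
        _ = 1 := by simp

lemma tree_chi_le [∀ k, IsProbabilityMeasure (ν k)] (k : ℕ) (p : G) :
    tree_chi ν Pos Neg J k p ≤ 1 := tree_chiN_le _ _

lemma tree_rho_le [∀ k, IsProbabilityMeasure (ν k)] (k : ℕ) (p : G) :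
    tree_rho ν Pos Neg J k p ≤ 1 := by
  calc _ ≤ ∫⁻ _, 1 ∂ν k := lintegral_mono fun ξ => tree_chi_le _ _
    _ = 1 := by simp

lemma tree_W_le (k : ℕ) (p : G) : tree_W ν Pos Neg J k p ≤ 1 := by
  unfold tree_W
  split_ifs
  · exact le_rfl
  · exact tsub_le_self
  · exact zero_le

variable [MeasurableAdd₂ G] [MeasurableNeg G]

lemma tree_meas_conv {f : G → ℝ≥0∞} (hf : Measurable f) (m : Measure G) [SFinite m] :
    Measurable fun p => ∫⁻ ξ, f (p - ξ) ∂m :=
  Measurable.lintegral_prod_right' (f := fun q : G × G => f (q.1 - q.2))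
    (hf.comp (measurable_fst.sub measurable_snd))

lemma tree_meas_chiN [∀ k, IsProbabilityMeasure (ν k)] (hPos : ∀ k, MeasurableSet (Pos k))
    (hNeg : ∀ k, MeasurableSet (Neg k)) (n : ℕ) : Measurable (tree_chiN ν Pos Neg J n) := by
  induction n with
  | zero => exact measurable_const
  | succ n ih =>
    rw [tree_chiN]
    exact Measurable.ite (hNeg _) measurable_const
      (Measurable.ite (hPos _) measurable_const (tree_meas_conv ih _))

lemma tree_meas_chi [∀ k, IsProbabilityMeasure (ν k)] (hPos : ∀ k, MeasurableSet (Pos k))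
    (hNeg : ∀ k, MeasurableSet (Neg k)) (k : ℕ) : Measurable (tree_chi ν Pos Neg J k) :=
  tree_meas_chiN hPos hNeg _

lemma tree_meas_rho [∀ k, IsProbabilityMeasure (ν k)] (hPos : ∀ k, MeasurableSet (Pos k))
    (hNeg : ∀ k, MeasurableSet (Neg k)) (k : ℕ) : Measurable (tree_rho ν Pos Neg J k) :=
  tree_meas_conv (tree_meas_chi hPos hNeg _) _

lemma tree_meas_W [∀ k, IsProbabilityMeasure (ν k)] (hPos : ∀ k, MeasurableSet (Pos k))
    (hNeg : ∀ k, MeasurableSet (Neg k)) (k : ℕ) : Measurable (tree_W ν Pos Neg J k) := by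
  unfold tree_W
  refine Measurable.ite (hPos _) (Measurable.ite ?_ measurable_const
    (measurable_const.sub (tree_meas_rho hPos hNeg k))) measurable_const
  by_cases h : k = J
  · simp [h]
  · simpa [h] using hNeg k

/-- duality between forward and backward averaging -/
lemma tree_dual (μ : Measure G) [SFinite μ] [μ.IsAddLeftInvariant] (m : Measure G) [SFinite m]
    {f g : G → ℝ≥0∞} (hf : Measurable f) (hg : Measurable g) :
    ∫⁻ p, (∫⁻ ξ, f (p + ξ) ∂m) * g p ∂μ = ∫⁻ p, f p * ∫⁻ ξ, g (p - ξ) ∂m ∂μ := by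
  have h1 : ∀ p, (∫⁻ ξ, f (p + ξ) ∂m) * g p = ∫⁻ ξ, f (p + ξ) * g p ∂m := fun p =>
    (lintegral_mul_const _ (hf.comp (measurable_const.add measurable_id))).symm
  have h2 : ∀ p, f p * ∫⁻ ξ, g (p - ξ) ∂m = ∫⁻ ξ, f p * g (p - ξ) ∂m := fun p =>
    (lintegral_const_mul _ (hg.comp (measurable_const.sub measurable_id))).symm
  simp_rw [h1, h2]
  rw [lintegral_lintegral_swap, lintegral_lintegral_swap (f := fun p ξ => f p * g (p - ξ))]
  · refine lintegral_congr fun ξ => ?_
    rw [← lintegral_add_left_eq_self (fun p => f p * g (p - ξ)) ξ]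
    refine lintegral_congr fun p => ?_
    rw [add_comm ξ p, add_sub_cancel_right]
  · exact ((hf.comp measurable_fst).mul (hg.comp (measurable_fst.sub measurable_snd))).aemeasurable
  · exact ((hf.comp (measurable_fst.add measurable_snd)).mul (hg.comp measurable_fst)).aemeasurable

end

/-- abstract stopping time argument for a sub-averaged flux -/
theorem tree {G : Type*} [AddCommGroup G] [MeasurableSpace G] [MeasurableAdd₂ G] [MeasurableNeg G]
    (μ : Measure G) [SFinite μ] [μ.IsAddLeftInvariant] (ν : ℕ → Measure G)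
    [∀ k, IsProbabilityMeasure (ν k)] (φ : ℕ → G → ℝ≥0∞) (hφ : ∀ k, Measurable (φ k))
    (hstep : ∀ k p, φ (k + 1) p ≤ ∫⁻ ξ, φ k (p + ξ) ∂ν k) (Pos Neg : ℕ → Set G)
    (hPos : ∀ k, MeasurableSet (Pos k)) (hNeg : ∀ k, MeasurableSet (Neg k)) (J : ℕ) :
    ∃ W : ℕ → G → ℝ≥0∞, (∀ k, Measurable (W k)) ∧ (∀ k p, p ∉ Pos k → W k p = 0) ∧
      (∑ k ∈ Finset.range (J + 1), ∫⁻ p, φ k p * W k p ∂μ ≤
        2 * ∫⁻ p, φ 0 p ∂μ + 2 * ∑ k ∈ Finset.range J, ∫⁻ p in Neg k, φ k p ∂μ) ∧
      ∀ (Z : ℕ → Set G) (w : ℕ → ℝ≥0∞) (i k : ℕ), i ≤ k → k ≤ J →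
        (∀ j, i ≤ j → j < k → ∀ p ∈ Z j, (∀ᵐ ξ ∂ν j, p - ξ ∈ Z (j + 1)) ∧
          ∫⁻ ξ, W (j + 1) (p - ξ) ∂ν j ≤ w (j + 1)) →
        (k = J ∨ Z k ⊆ Neg k) → ∀ p ∈ Z i, p ∈ Pos i → 1 ≤ W i p + ∑ j ∈ Finset.Ioc i k, w j := by
  classical
  have hstep' : ∀ k (g : G → ℝ≥0∞), Measurable g →
      ∫⁻ p, φ (k + 1) p * g p ∂μ ≤ ∫⁻ p, φ k p * ∫⁻ ξ, g (p - ξ) ∂ν k ∂μ := by
    intro k g hg
    rw [← tree_dual μ (ν k) (hφ k) hg]
    exact lintegral_mono fun p => mul_le_mul_left (hstep k p) _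
  refine ⟨tree_W ν Pos Neg J, tree_meas_W hPos hNeg, fun k p hp => by simp [tree_W, hp], ?_, ?_⟩
  · have h0 : ∀ k, ∫⁻ p, φ k p ∂μ ≤ ∫⁻ p, φ 0 p ∂μ := by
      intro k
      induction k with
      | zero => exact le_rfl
      | succ k ih =>
        have := hstep' k (fun _ => 1) measurable_const
        simp only [mul_one, lintegral_const, measure_univ] at this
        exact this.trans ih
    have key : ∀ n k, k + n = J →
        ∑ i ∈ Finset.Ico k J, ∫⁻ p, φ i p * tree_W ν Pos Neg J i p ∂μ ≤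
          ∫⁻ p, φ k p * tree_chi ν Pos Neg J k p ∂μ +
            2 * ∑ i ∈ Finset.Ico k J, ∫⁻ p in Neg i, φ i p ∂μ := by
      intro n
      induction n with
      | zero =>
        intro k hk
        simp only [add_zero] at hk
        simp [hk]
      | succ n ih =>
        intro k hk
        have hkJ : k < J := by omega
        rw [Finset.sum_eq_sum_Ico_succ_bot hkJ, Finset.sum_eq_sum_Ico_succ_bot hkJ]
        have h1 := ih (k + 1) (by omega)
        have h2 := hstep' k _ (tree_meas_chi (ν := ν) (J := J) hPos hNeg (k + 1))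
        have h3 : ∫⁻ p, φ k p * tree_W ν Pos Neg J k p ∂μ +
            ∫⁻ p, φ k p * tree_rho ν Pos Neg J k p ∂μ ≤
            ∫⁻ p, φ k p * tree_chi ν Pos Neg J k p ∂μ + 2 * ∫⁻ p in Neg k, φ k p ∂μ := by
          rw [← lintegral_add_left ((hφ k).fun_mul (tree_meas_W hPos hNeg k)),
            ← lintegral_indicator (hNeg k), ← lintegral_const_mul _ ((hφ k).indicator (hNeg k)),
            ← lintegral_add_left ((hφ k).fun_mul (tree_meas_chi hPos hNeg k))]
          refine lintegral_mono fun p => ?_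
          dsimp only
          by_cases hn : p ∈ Neg k
          · rw [indicator_of_mem hn, two_mul]
            refine le_add_left (add_le_add ?_ ?_)
            · exact mul_le_of_le_one_right' (tree_W_le _ _)
            · exact mul_le_of_le_one_right' (tree_rho_le _ _)
          · rw [← mul_add, tree_chi_lt hkJ, if_neg hn]
            refine le_add_right (le_of_eq ?_)
            congr 1
            unfold tree_W
            by_cases hp : p ∈ Pos k
            · rw [if_pos hp, if_pos hp, if_neg (by simp [hn, hkJ.ne]),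
                tsub_add_cancel_of_le (tree_rho_le _ _)]
            · rw [if_neg hp, if_neg hp, zero_add]
        calc _ ≤ ∫⁻ p, φ k p * tree_W ν Pos Neg J k p ∂μ +
              (∫⁻ p, φ k p * tree_rho ν Pos Neg J k p ∂μ +
                2 * ∑ i ∈ Finset.Ico (k + 1) J, ∫⁻ p in Neg i, φ i p ∂μ) :=
              add_le_add le_rfl (h1.trans (add_le_add h2 le_rfl))
          _ ≤ _ := by
              rw [← add_assoc, mul_add, ← add_assoc]
              exact add_le_add h3 le_rfl
    have h1 := key J 0 (zero_add J)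
    rw [← Finset.range_eq_Ico] at h1
    rw [Finset.sum_range_succ]
    have h2 : ∫⁻ p, φ J p * tree_W ν Pos Neg J J p ∂μ ≤ ∫⁻ p, φ 0 p ∂μ :=
      (lintegral_mono fun p => mul_le_of_le_one_right' (tree_W_le _ _)).trans (h0 J)
    have h3 : ∫⁻ p, φ 0 p * tree_chi ν Pos Neg J 0 p ∂μ ≤ ∫⁻ p, φ 0 p ∂μ :=
      lintegral_mono fun p => mul_le_of_le_one_right' (tree_chi_le _ _)
    calc _ ≤ (∫⁻ p, φ 0 p ∂μ + 2 * ∑ i ∈ Finset.range J, ∫⁻ p in Neg i, φ i p ∂μ) +
          ∫⁻ p, φ 0 p ∂μ := add_le_add (h1.trans (add_le_add h3 le_rfl)) h2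
      _ = _ := by ring
  · intro Z w i k hik hkJ hZ hend p hp hpos
    have hrho : ∀ j, i ≤ j → j < k →
        (∀ q ∈ Z (j + 1), tree_chi ν Pos Neg J (j + 1) q ≤
          tree_W ν Pos Neg J (j + 1) q + ∑ l ∈ Finset.Ioc (j + 1) k, w l) →
        ∀ q ∈ Z j, tree_rho ν Pos Neg J j q ≤ ∑ l ∈ Finset.Ioc j k, w l := by
      intro j hij hjk h q hq
      obtain ⟨h1, h2⟩ := hZ j hij hjk q hq
      have h3 : ∑ l ∈ Finset.Ioc j k, w l = w (j + 1) + ∑ l ∈ Finset.Ioc (j + 1) k, w l := by
        rw [← Finset.insert_Ioc_add_one_left_eq_Ioc hjk, Finset.sum_insert (by simp)]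
      calc tree_rho ν Pos Neg J j q ≤ ∫⁻ ξ, (tree_W ν Pos Neg J (j + 1) (q - ξ) +
            ∑ l ∈ Finset.Ioc (j + 1) k, w l) ∂ν j :=
            lintegral_mono_ae (h1.mono fun ξ hξ => h _ hξ)
        _ = ∫⁻ ξ, tree_W ν Pos Neg J (j + 1) (q - ξ) ∂ν j + ∑ l ∈ Finset.Ioc (j + 1) k, w l := by
            rw [lintegral_add_right _ measurable_const]
            simp
        _ ≤ _ := by rw [h3]; exact add_le_add h2 le_rfl
    have hchi : ∀ n j, i ≤ j → j + n = k → ∀ q ∈ Z j, tree_chi ν Pos Neg J j q ≤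
        tree_W ν Pos Neg J j q + ∑ l ∈ Finset.Ioc j k, w l := by
      intro n
      induction n with
      | zero =>
        intro j _ hjk q hq
        simp only [add_zero] at hjk
        subst hjk
        rcases eq_or_lt_of_le hkJ with h | h
        · rw [h, tree_chi_top]; exact zero_le
        · rcases hend with h' | h'
          · omega
          · rw [tree_chi_lt h, if_pos (h' hq)]; exact zero_le
      | succ n ih =>
        intro j hij hjk q hq
        have hjk' : j < k := by omega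
        have h1 := hrho j hij hjk' (ih (j + 1) (by omega) (by omega)) q hq
        rw [tree_chi_lt (by omega : j < J)]
        split_ifs with hn hp'
        · exact zero_le
        · unfold tree_W
          have hjJ : j ≠ J := by omega
          rw [if_pos hp', if_neg (by simp [hn, hjJ])]
          calc (1 : ℝ≥0∞) = 1 - tree_rho ν Pos Neg J j q + tree_rho ν Pos Neg J j q :=
                (tsub_add_cancel_of_le (tree_rho_le _ _)).symm
            _ ≤ _ := add_le_add le_rfl h1
        · exact le_add_left h1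
    by_cases hn : p ∈ Neg i ∨ i = J
    · unfold tree_W
      rw [if_pos hpos, if_pos hn]
      exact le_self_add
    · push Not at hn
      have h1 := hchi (k - i) i le_rfl (by omega) p hp
      rwa [tree_chi_lt (by omega : i < J), if_neg hn.1, if_pos hpos] at h1

end Vale.Agent.P137
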