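import Vale.Agent.P137.NegB
import Vale.Agent.P137.Tree

namespace Vale.Agent.P137

open MeasureTheory Metric Set Filter Topology
open scoped ENNReal RealInnerProductSpace

variable {E : Type*} [NormedAddCommGroup E] [InnerProductSpace ℝ E] [FiniteDimensional ℝ E]
  [MeasurableSpace E] [BorelSpace E]

/-- iterated averages -/
noncomputable def treecJ (r : ℝ) (f : E × ℝ → ℝ≥0∞) : ℕ → E × ℝ → ℝ≥0∞
  | 0 => f
  | k + 1 => fun p => (V E (2 ^ k * r))⁻¹ * ∫⁻ z in ball p.1 (2 ^ k * r), treecJ r f k (z, p.2)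

lemma treec_succ (r : ℝ) (f : E × ℝ → ℝ≥0∞) (k : ℕ) (c : E) (t : ℝ) :
    treecJ r f (k + 1) (c, t) =
      (V E (2 ^ k * r))⁻¹ * ∫⁻ z in ball c (2 ^ k * r), treecJ r f k (z, t) := rfl

lemma treec_meas (r : ℝ) {f : E × ℝ → ℝ≥0∞} (hf : Measurable f) (k : ℕ) :
    Measurable (treecJ r f k) := by
  induction k with
  | zero => exact hf
  | succ k ih =>
    exact measurable_const.mul (measurable_ball_lintegral (α := E × ℝ)
      (f := fun p y => treecJ r f k (y, p.2))
      (ih.comp (f := fun q : (E × ℝ) × E => (q.2, q.1.2)) (by fun_prop)) measurable_fst _)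

lemma treec_add {r : ℝ} (hr : 0 < r) {f g : E × ℝ → ℝ≥0∞} (hf : Measurable f)
    (h : ∀ p, f p + g p = 1) (k : ℕ) (p : E × ℝ) : treecJ r f k p + treecJ r g k p = 1 := by
  induction k generalizing p with
  | zero => exact h p
  | succ k ih =>
    obtain ⟨c, t⟩ := p
    have hm : Measurable fun z : E => treecJ r f k (z, t) :=
      (treec_meas r hf k).comp (f := fun z : E => (z, t)) (by fun_prop)
    rw [treec_succ, treec_succ, ← mul_add, ← lintegral_add_left hm]
    simp only [ih, setLIntegral_const, one_mul, vol_ball]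
    exact ENNReal.inv_mul_cancel (V_ne_zero (by positivity)) (V_ne_top _)

lemma treec_ball (g : E → ℝ≥0∞) (y : E) (R : ℝ) :
    ∫⁻ z in ball y R, g z = ∫⁻ z in ball (0 : E) R, g (z + y) := by
  rw [setLIntegral_ball_add, zero_add]

lemma treec_avg {g : E → ℝ≥0∞} (hg : Measurable g) (c : E) (ρ : ℝ) {R : ℝ} (hR : 0 < R) :
    ∫⁻ y in ball c ρ, (V E R)⁻¹ * ∫⁻ z in ball y R, g z ≤ ∫⁻ z in ball c (ρ + R), g z := by
  simp only [treec_ball g _ R]
  rw [lintegral_const_mul' _ _ (ENNReal.inv_ne_top.2 (V_ne_zero hR)),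
    lintegral_lintegral_swap (f := fun y z : E => g (z + y))
      (hg.comp (f := fun q : E × E => q.2 + q.1) (by fun_prop)).aemeasurable]
  have : ∫⁻ z in ball (0 : E) R, ∫⁻ y in ball c ρ, g (z + y) ≤
      ∫⁻ _ in ball (0 : E) R, ∫⁻ z in ball c (ρ + R), g z := by
    refine setLIntegral_mono' measurableSet_ball fun z hz => ?_
    simp only [add_comm z]
    refine setLIntegral_add_le g measurableSet_ball measurableSet_ball z fun y hy => ?_
    rw [mem_ball_zero_iff] at hz
    rw [mem_ball_iff_norm] at hy ⊢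
    have := norm_add_le (y - c) z
    rw [show y + z - c = y - c + z by abel]
    linarith
  refine (mul_le_mul_right this _).trans ?_
  rw [setLIntegral_const, vol_ball, mul_comm _ (V E R), ← mul_assoc,
    ENNReal.inv_mul_cancel (V_ne_zero hR) (V_ne_top _), one_mul]

lemma treec_int {r : ℝ} (hr : 0 < r) {f : E × ℝ → ℝ≥0∞} (hf : Measurable f) (t : ℝ) (k : ℕ)
    (c : E) (ρ : ℝ) :
    ∫⁻ y in ball c ρ, treecJ r f k (y, t) ≤ ∫⁻ y in ball c (ρ + 2 ^ k * r), f (y, t) := by
  induction k generalizing ρ with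
  | zero => exact lintegral_mono_set (ball_subset_ball (by linarith [mul_pos (pow_pos two_pos 0) hr]))
  | succ k ih =>
    simp only [treec_succ]
    refine (treec_avg ((treec_meas r hf k).comp (f := fun z : E => (z, t)) (by fun_prop)) c ρ
      (by positivity)).trans ((ih _).trans (le_of_eq ?_))
    congr 3
    ring

lemma treec_ind {S : Set (E × ℝ)} (hS : MeasurableSet S) (t : ℝ) (B : Set E) :
    ∫⁻ y in B, S.indicator 1 (y, t) = volume ({y | (y, t) ∈ S} ∩ B) := by
  have hm : MeasurableSet {y : E | (y, t) ∈ S} :=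
    (show Measurable fun y : E => (y, t) by fun_prop) hS
  rw [← Measure.restrict_apply hm, ← lintegral_indicator_one hm]
  rfl

lemma treec_vol_meas {S : Set (E × ℝ)} (hS : MeasurableSet S) (v : E) (ρ : ℝ) :
    Measurable fun p : E × ℝ => volume ({y | (y, p.2) ∈ S} ∩ ball (p.1 + v) ρ) := by
  simp only [← treec_ind hS]
  exact measurable_ball_lintegral (α := E × ℝ) (f := fun p y => S.indicator 1 (y, p.2))
    ((measurable_one.indicator hS).comp (f := fun q : (E × ℝ) × E => (q.2, q.1.2)) (by fun_prop))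
    (measurable_fst.add_const v) ρ

lemma treec_le {r : ℝ} (hr : 0 < r) {S : Set (E × ℝ)} (hS : MeasurableSet S) (t : ℝ) (k : ℕ)
    (c : E) : treecJ r (S.indicator 1) (k + 1) (c, t) ≤
      (V E (2 ^ k * r))⁻¹ * volume ({y | (y, t) ∈ S} ∩ ball c (2 ^ (k + 1) * r)) := by
  rw [treec_succ]
  refine mul_le_mul_right ((treec_int hr (measurable_one.indicator hS) t k c _).trans
    (le_of_eq ?_)) _
  rw [treec_ind hS, show (2 : ℝ) ^ k * r + 2 ^ k * r = 2 ^ (k + 1) * r by ring]

/-- the step distribution -/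
noncomputable def treecNu (R : ℝ) (v : E) : Measure (E × ℝ) :=
  (2 * V E R)⁻¹ • (Measure.map (fun z : E => (z, (0 : ℝ))) (volume.restrict (ball 0 R)) +
    Measure.map ((fun z : E => (z, (0 : ℝ))) ∘ fun z => z + v) (volume.restrict (ball 0 R)))

lemma treec_nu_int (R : ℝ) (v : E) (g : E × ℝ → ℝ≥0∞) :
    ∫⁻ ξ, g ξ ∂treecNu R v =
      (2 * V E R)⁻¹ * ((∫⁻ z in ball 0 R, g (z, 0)) + ∫⁻ z in ball 0 R, g (z + v, 0)) := by
  rw [treecNu, lintegral_smul_measure, lintegral_add_measure,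
    (measurableEmbedding_prod_mk_right (0 : ℝ)).lintegral_map,
    ((measurableEmbedding_prod_mk_right (0 : ℝ)).comp
      (measurableEmbedding_addRight v)).lintegral_map]
  rfl

lemma treec_nu_prob {R : ℝ} (hR : 0 < R) (v : E) : IsProbabilityMeasure (treecNu R v) := by
  constructor
  rw [← lintegral_one, treec_nu_int]
  simp only [setLIntegral_const, one_mul, vol_ball]
  rw [← two_mul]
  exact ENNReal.inv_mul_cancel (mul_ne_zero two_ne_zero (V_ne_zero hR))
    (ENNReal.mul_ne_top ENNReal.ofNat_ne_top (V_ne_top _))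

lemma treec_nu_ae (R : ℝ) (v : E) {P : E × ℝ → Prop}
    (h : ∀ z ∈ ball (0 : E) R, P (z, 0) ∧ P (z + v, 0)) : ∀ᵐ ξ ∂treecNu R v, P ξ := by
  refine Measure.ae_smul_measure (ae_add_measure_iff.2 ⟨?_, ?_⟩) _
  · rw [(measurableEmbedding_prod_mk_right (0 : ℝ)).ae_map_iff]
    exact ae_restrict_of_forall_mem measurableSet_ball fun z hz => (h z hz).1
  · rw [((measurableEmbedding_prod_mk_right (0 : ℝ)).comp
      (measurableEmbedding_addRight v)).ae_map_iff]
    exact ae_restrict_of_forall_mem measurableSet_ball fun z hz => (h z hz).2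

/-- the flux -/
noncomputable def treecPhi (Bad : Set E) (g : E × ℝ → ℝ≥0∞) (ω : E) (h : ℝ) (p : E × ℝ) : ℝ≥0∞ :=
  {p : E × ℝ | ball p.1 (3 * h) ⊆ Bad}.indicator
    (fun p => (ENNReal.ofReal h)⁻¹ * (g (p.1 + h • ω, p.2) - g p)) p

lemma treec_om (Bad : Set E) (ρ : ℝ) : MeasurableSet {p : E × ℝ | ball p.1 ρ ⊆ Bad} :=
  measurable_fst (isClosed_ball_subset Bad ρ).measurableSet

lemma treec_diff_meas {g : E × ℝ → ℝ≥0∞} (hg : Measurable g) (v : E) :
    Measurable fun p : E × ℝ => g (p.1 + v, p.2) - g p :=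
  (hg.comp (f := fun p : E × ℝ => (p.1 + v, p.2)) (by fun_prop)).sub hg

lemma treec_phi_meas (Bad : Set E) {g : E × ℝ → ℝ≥0∞} (hg : Measurable g) (ω : E) (h : ℝ) :
    Measurable (treecPhi Bad g ω h) :=
  (measurable_const.mul (treec_diff_meas hg _)).indicator (treec_om Bad _)

lemma treec_step (Bad : Set E) {g g' : E × ℝ → ℝ≥0∞} (hg : Measurable g) {ω : E} (hω : ‖ω‖ ≤ 2)
    {h R : ℝ} (hh : 0 < h) (hR : 0 < R) (hRh : R ≤ h)
    (hg' : ∀ c t, g' (c, t) = (V E R)⁻¹ * ∫⁻ z in ball c R, g (z, t)) (p : E × ℝ) :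
    treecPhi Bad g' ω (2 * h) p ≤ ∫⁻ ξ, treecPhi Bad g ω h (p + ξ) ∂treecNu R (h • ω) := by
  obtain ⟨c, t⟩ := p
  by_cases hp : ball c (3 * (2 * h)) ⊆ Bad
  swap
  · rw [treecPhi, indicator_of_notMem (by exact hp)]; exact zero_le
  have hV : (V E R)⁻¹ ≠ ⊤ := ENNReal.inv_ne_top.2 (V_ne_zero hR)
  have hH : (ENNReal.ofReal h)⁻¹ ≠ ⊤ := ENNReal.inv_ne_top.2 (by simpa using hh)
  have hn : ‖h • ω‖ ≤ 2 * h := by rw [norm_smul, Real.norm_of_nonneg hh.le]; nlinarith
  have hm : ∀ v : E, Measurable fun z : E => g (z + v, t) := fun v =>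
    hg.comp (f := fun z : E => (z + v, t)) (by fun_prop)
  have e1 : ∀ v : E, ‖v‖ ≤ 2 * h → ∫⁻ z in ball 0 R, treecPhi Bad g ω h ((c, t) + (z + v, 0)) =
      (ENNReal.ofReal h)⁻¹ *
        ∫⁻ z in ball 0 R, g (z + (c + v + h • ω), t) - g (z + (c + v), t) := by
    intro v hv
    rw [← lintegral_const_mul' _ _ hH]
    refine setLIntegral_congr_fun measurableSet_ball fun z hz => ?_
    have hs : ball (c + (z + v)) (3 * h) ⊆ Bad := by
      refine (ball_subset_ball' ?_).trans hp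
      rw [mem_ball_zero_iff] at hz
      rw [dist_eq_norm, add_sub_cancel_left]
      linarith [norm_add_le z v]
    simp only [treecPhi, Prod.mk_add_mk, add_zero]
    rw [indicator_of_mem (by exact hs), show c + (z + v) + h • ω = z + (c + v + h • ω) by abel,
      show c + (z + v) = z + (c + v) by abel]
  have e0 := e1 0 (by simpa using hh.le)
  simp only [add_zero] at e0
  rw [treec_nu_int, e0, e1 _ hn, treecPhi, indicator_of_mem (by exact hp)]
  simp only [hg', treec_ball (fun z => g (z, t)) _ R]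
  have hm2 : ∀ u v : E, Measurable fun z : E => g (z + u, t) - g (z + v, t) :=
    fun u v => (hm u).sub (hm v)
  rw [← ENNReal.mul_sub (fun _ _ => hV), ← mul_add, ← lintegral_add_left (hm2 _ _),
    ENNReal.ofReal_mul zero_le_two, ENNReal.ofReal_ofNat,
    ENNReal.mul_inv (Or.inl two_ne_zero) (Or.inl ENNReal.ofNat_ne_top),
    ENNReal.mul_inv (Or.inl two_ne_zero) (Or.inl ENNReal.ofNat_ne_top)]
  have key : (∫⁻ z in ball 0 R, g (z + (c + (2 * h) • ω), t)) - ∫⁻ z in ball 0 R, g (z + c, t) ≤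
      ∫⁻ z in ball 0 R, (g (z + (c + h • ω), t) - g (z + c, t) +
        (g (z + (c + h • ω + h • ω), t) - g (z + (c + h • ω), t))) := by
    refine (lintegral_sub_le _ _ (hm _)).trans (lintegral_mono fun z => ?_)
    rw [add_comm (_ - _), two_mul, add_smul, ← add_assoc c]
    exact tsub_le_tsub_add_tsub
  refine (mul_le_mul_right (mul_le_mul_right key _) _).trans (le_of_eq ?_)
  ring

lemma treec_zero {F : E → ℝ} (hF : Measurable F) {Bad : Set E} {Γ : ℝ≥0∞} {η : ℝ} (hη : 0 < η)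
    {ω : E} (hω : ‖ω‖ ≤ 2) (hL : LTr F Bad Γ) :
    ∫⁻ p, treecPhi Bad ({p : E × ℝ | p.2 < F p.1}.indicator 1) ω η p ≤ 2 * Γ := by
  have hS : MeasurableSet {p : E × ℝ | p.2 < F p.1} :=
    measurableSet_lt measurable_snd (hF.comp measurable_fst)
  have hH : (ENNReal.ofReal η)⁻¹ ≠ ⊤ := ENNReal.inv_ne_top.2 (by simpa using hη)
  have hn : ‖η • ω‖ ≤ 2 * η := by rw [norm_smul, Real.norm_of_nonneg hη.le]; nlinarith
  rw [Measure.volume_eq_prod,
    lintegral_prod _ (treec_phi_meas Bad (measurable_one.indicator hS) ω η).aemeasurable]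
  have h1 : ∀ y : E, ∫⁻ t, treecPhi Bad ({p : E × ℝ | p.2 < F p.1}.indicator 1) ω η (y, t) ≤
      {y | ball y (3 * η) ⊆ Bad}.indicator
        (fun y => (ENNReal.ofReal η)⁻¹ * ENNReal.ofReal |F (y + η • ω) - F y|) y := by
    intro y
    by_cases hy : ball y (3 * η) ⊆ Bad
    · rw [indicator_of_mem (by exact hy)]
      have : ∀ t, treecPhi Bad ({p : E × ℝ | p.2 < F p.1}.indicator 1) ω η (y, t) ≤
          (ENNReal.ofReal η)⁻¹ * (Ico (F y) (F (y + η • ω))).indicator 1 t := by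
        intro t
        rw [treecPhi, indicator_of_mem (by exact hy)]
        refine mul_le_mul_right ?_ _
        by_cases h1 : t < F y
        · by_cases h2 : t < F (y + η • ω) <;> simp [h1, h2]
        · by_cases h2 : t < F (y + η • ω) <;> simp [h1, h2, not_lt.1 h1]
      refine (lintegral_mono this).trans ?_
      rw [lintegral_const_mul' _ _ hH, lintegral_indicator_one measurableSet_Ico, Real.volume_Ico]
      exact mul_le_mul_right (ENNReal.ofReal_le_ofReal (le_abs_self _)) _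
    · have : ∀ t, treecPhi Bad ({p : E × ℝ | p.2 < F p.1}.indicator 1) ω η (y, t) = 0 :=
        fun t => indicator_of_notMem (by exact hy) _
      simp [this]
  refine (lintegral_mono h1).trans ?_
  rw [lintegral_indicator (isClosed_ball_subset Bad _).measurableSet, lintegral_const_mul' _ _ hH]
  refine (mul_le_mul_right ((hL (η • ω) (3 * η) (by linarith)).trans
    (mul_le_mul_left (ENNReal.ofReal_le_ofReal hn) _)) _).trans (le_of_eq ?_)
  rw [ENNReal.ofReal_mul zero_le_two, ENNReal.ofReal_ofNat, mul_comm 2, mul_assoc, ← mul_assoc,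
    ENNReal.inv_mul_cancel (by simpa using hη) ENNReal.ofReal_ne_top, one_mul]

lemma treec_sub_le {x y y' : ℝ≥0∞} (hx : x ≤ 1) (h : y + y' = 1) : x - y ≤ y' * x := by
  rw [tsub_le_iff_right]
  calc x = y' * x + y * x := by rw [← add_mul, add_comm, h, one_mul]
    _ ≤ y' * x + y * 1 := by gcongr
    _ = _ := by rw [mul_one]

lemma treec_half {x x' y : ℝ≥0∞} (h : x + x' = 1) (h1 : 4 * x' ≤ 1) (h2 : 4 * y ≤ 1) :
    1 ≤ 2 * (x - y) := by
  have e : ∀ z : ℝ≥0∞, z ≤ 1 → z ≠ ⊤ := fun z hz => ne_top_of_le_ne_top ENNReal.one_ne_top hz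
  have hx := e x (h ▸ le_self_add)
  have hx' := e x' (h ▸ le_add_self)
  have hy := e y (le_trans (le_mul_of_one_le_left' (by norm_num)) h2)
  lift x to NNReal using hx
  lift x' to NNReal using hx'
  lift y to NNReal using hy
  norm_cast at *
  have a1 : (x : ℝ) + x' = 1 := by exact_mod_cast h
  have a2 : 4 * (x' : ℝ) ≤ 1 := by exact_mod_cast h1
  have a3 : 4 * (y : ℝ) ≤ 1 := by exact_mod_cast h2
  rw [← NNReal.coe_le_coe, NNReal.coe_mul, NNReal.coe_sub_def]
  have := le_max_left ((x : ℝ) - y) 0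
  simp only [NNReal.coe_one, NNReal.coe_ofNat]
  linarith

lemma treec_quarter {v m : ℝ≥0∞} (hv : v ≠ 0) (hv' : v ≠ ⊤) (h : 4 * m ≤ v) :
    4 * (v⁻¹ * m) ≤ 1 := by
  rw [mul_left_comm, ← ENNReal.inv_mul_cancel hv hv']
  exact mul_le_mul_right h _

lemma treec_sub_int (g : E → ℝ≥0∞) {c x : E} {R ρ : ℝ} (h : dist c x + R ≤ ρ) :
    ∫⁻ z in ball 0 R, g (c - z) ≤ ∫⁻ z in ball x ρ, g z := by
  rw [← lintegral_indicator measurableSet_ball, ← lintegral_indicator measurableSet_ball,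
    ← lintegral_sub_left_eq_self ((ball x ρ).indicator g) c]
  refine lintegral_mono fun z => ?_
  by_cases hz : z ∈ ball (0 : E) R
  · rw [indicator_of_mem hz, indicator_of_mem]
    rw [mem_ball_zero_iff] at hz
    rw [mem_ball_iff_norm, show c - z - x = c - x - z by abel]
    rw [dist_eq_norm] at h
    linarith [norm_sub_le (c - x) z]
  · rw [indicator_of_notMem hz]; exact zero_le

/-- the stopping time weights -/
theorem treeC (b : ℝ) (hb : 0 < b) (hb1 : b ≤ 1) : ∃ (A : ℝ) (C : ℝ≥0∞), 0 < A ∧ C ≠ ⊤ ∧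
    ∀ (F : E → ℝ), Measurable F → ∀ (Bad : Set E) (Γ : ℝ≥0∞) (η : ℝ), 0 < η → ∀ (J : ℕ) (ω : E),
    ‖ω‖ ≤ 2 → LTr F Bad Γ → ∃ W : ℕ → E × ℝ → ℝ≥0∞, (∀ k, Measurable (W k)) ∧
      (∑ k ∈ Finset.range (J + 1), (ENNReal.ofReal (2 ^ k * η))⁻¹ * ∫⁻ p, W k p ≤
        C * (∑ k ∈ Finset.range (J + 1), bb F A (2 ^ k * η) + Γ)) ∧
      ∀ (x : E) (t : ℝ) (i k : ℕ), i + 1 ≤ k → k ≤ J → Start F Bad b x t ω (2 ^ i * η) →
        (k = J ∨ Stop F b x t ω (2 ^ i * η) (2 ^ k * η)) →
        1 ≤ ∑ j ∈ Finset.range (k + 1),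
          (V E (2 ^ j * η))⁻¹ * ∫⁻ z in ball x (3 * (2 ^ j * η)), W j (z, t) := by
  obtain ⟨N, A, C, hN, hA, hC, hneg⟩ := negB (E := E) b hb hb1
  obtain ⟨C1, hC1, -, hV⟩ := exists_V_le (E := E) (32 / b)
  have hVi : ∀ h s : ℝ, 0 < h → s = b / 32 * h → (V E s)⁻¹ ≤ C1 * (V E h)⁻¹ := by
    rintro h s hh rfl
    have hs : 0 < b / 32 * h := by positivity
    have h1 := hV (b / 32 * h) h hs.le (le_of_eq (by field_simp))
    calc (V E (b / 32 * h))⁻¹ = (V E (b / 32 * h))⁻¹ * (V E h * (V E h)⁻¹) := by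
          rw [ENNReal.mul_inv_cancel (V_ne_zero hh) (V_ne_top _), mul_one]
      _ ≤ (V E (b / 32 * h))⁻¹ * (C1 * V E (b / 32 * h) * (V E h)⁻¹) := by gcongr
      _ = (V E (b / 32 * h))⁻¹ * V E (b / 32 * h) * (C1 * (V E h)⁻¹) := by ring
      _ = _ := by rw [ENNReal.inv_mul_cancel (V_ne_zero hs) (V_ne_top _), one_mul]
  refine ⟨A, C1 * (8 + 4 * (C1 ^ 2 * C)), hA, by finiteness, ?_⟩
  intro F hF Bad Γ η hη J ω hω hL
  obtain ⟨r, hr⟩ : ∃ r, r = b / 16 * η := ⟨_, rfl⟩
  have hr0 : 0 < r := by rw [hr]; positivity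
  have hh : ∀ k : ℕ, 0 < 2 ^ k * η := fun k => by positivity
  have hR : ∀ k : ℕ, 0 < 2 ^ k * r := fun k => by positivity
  have hRh : ∀ k : ℕ, 2 ^ k * r = b / 16 * (2 ^ k * η) := fun k => by rw [hr]; ring
  have hRl : ∀ k : ℕ, 16 * (2 ^ k * r) ≤ 2 ^ k * η := fun k => by
    rw [hRh]; nlinarith [hh k]
  have hn : ∀ s : ℝ, 0 ≤ s → ‖s • ω‖ ≤ 2 * s := fun s hs => by
    rw [norm_smul, Real.norm_of_nonneg hs]; nlinarith
  have h2 : ∀ (k : ℕ) (s : ℝ), 2 ^ (k + 1) * s = 2 * (2 ^ k * s) := fun k s => by ring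
  set S : Set (E × ℝ) := {p | p.2 < F p.1} with hSdef
  have hS : MeasurableSet S := measurableSet_lt measurable_snd (hF.comp measurable_fst)
  have hJm := treec_meas r (measurable_one.indicator hS : Measurable (S.indicator (1 : E × ℝ → ℝ≥0∞)))
  have hJa := treec_add hr0 (measurable_one.indicator hS) (g := Sᶜ.indicator (1 : E × ℝ → ℝ≥0∞))
    (fun p => by by_cases h : p ∈ S <;> simp [h])
  have hJS := treec_le hr0 hS
  have hJC := treec_le hr0 hS.compl
  have hJ0 : treecJ r (S.indicator 1) 0 = S.indicator (1 : E × ℝ → ℝ≥0∞) := rfl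
  have hJs := treec_succ r (S.indicator (1 : E × ℝ → ℝ≥0∞))
  generalize treecJ r (S.indicator 1) = JS at hJm hJa hJS hJ0 hJs
  generalize treecJ r (Sᶜ.indicator 1) = JC at hJa hJC
  have := fun k : ℕ => treec_nu_prob (hR k) ((2 ^ k * η) • ω)
  have : (volume : Measure (E × ℝ)).IsAddLeftInvariant :=
    inferInstanceAs ((volume : Measure E).prod (volume : Measure ℝ)).IsAddLeftInvariant
  obtain ⟨W, hWm, hW0, hWu, hWl⟩ := tree (volume : Measure (E × ℝ))
    (fun k => treecNu (2 ^ k * r) ((2 ^ k * η) • ω))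
    (fun k => treecPhi Bad (JS k) ω (2 ^ k * η)) (fun k => treec_phi_meas Bad (hJm k) ω _)
    (fun k p => by
      rw [h2]
      exact treec_step Bad (hJm k) hω (hh k) (hR k) (by linarith [hRl k, hR k]) (hJs k) p)
    (fun k => {p | ball p.1 (3 * (2 ^ k * η)) ⊆ Bad} ∩
      {p | 1 ≤ 2 * (JS k (p.1 + (2 ^ k * η) • ω, p.2) - JS k p)})
    (fun k => ⋃ n : ℕ, {_p | k ≠ 0 ∧ N ≤ n ∧ n ≤ 3 * N} ∩
      {p | 4 * volume ({y | (y, p.2) ∈ S} ∩ ball (p.1 + ((n : ℝ) / N * (2 ^ k * η)) • ω)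
        (3 / 2 * (b * (2 ^ k * η)))) ≤ V E (b * (2 ^ k * η))})
    (fun k => (treec_om Bad _).inter
      (measurableSet_le measurable_const (measurable_const.mul (treec_diff_meas (hJm k) _))))
    (fun k => MeasurableSet.iUnion fun n => (MeasurableSet.const _).inter
      (measurableSet_le (measurable_const.mul (treec_vol_meas hS _ _)) measurable_const)) J
  have hH : ∀ k : ℕ, (ENNReal.ofReal (2 ^ k * η))⁻¹ ≠ ⊤ := fun k =>
    ENNReal.inv_ne_top.2 (by simpa using hη)
  have hVt : ∀ s : ℝ, 0 < s → (V E s)⁻¹ ≠ ⊤ := fun s hs => ENNReal.inv_ne_top.2 (V_ne_zero hs)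
  refine ⟨fun k p => C1 * W k p, fun k => measurable_const.mul (hWm k), ?_, ?_⟩
  · have a1 : ∀ k : ℕ, (ENNReal.ofReal (2 ^ k * η))⁻¹ * ∫⁻ p, C1 * W k p ≤
        C1 * 2 * ∫⁻ p, treecPhi Bad (JS k) ω (2 ^ k * η) p * W k p := by
      intro k
      rw [← lintegral_const_mul' _ _ (hH k), ← lintegral_const_mul' _ _ (by finiteness)]
      refine lintegral_mono fun p => ?_
      by_cases hp : W k p = 0
      · simp [hp]
      · have hP := not_not.1 (mt (hW0 k p) hp)
        rw [treecPhi, indicator_of_mem hP.1]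
        calc _ = (ENNReal.ofReal (2 ^ k * η))⁻¹ * (C1 * W k p) * 1 := (mul_one _).symm
          _ ≤ (ENNReal.ofReal (2 ^ k * η))⁻¹ * (C1 * W k p) *
            (2 * (JS k (p.1 + (2 ^ k * η) • ω, p.2) - JS k p)) := mul_le_mul_right hP.2 _
          _ = _ := by ring
    have a2 : ∫⁻ p, treecPhi Bad (JS 0) ω (2 ^ 0 * η) p ≤ 2 * Γ := by
      rw [hJ0, pow_zero, one_mul]; exact treec_zero hF hη hω hL
    have a3 : ∀ k : ℕ, ∫⁻ p in ⋃ n : ℕ, {_p | k ≠ 0 ∧ N ≤ n ∧ n ≤ 3 * N} ∩
        {p : E × ℝ | 4 * volume ({y | (y, p.2) ∈ S} ∩ ball (p.1 + ((n : ℝ) / N * (2 ^ k * η)) • ω)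
        (3 / 2 * (b * (2 ^ k * η)))) ≤ V E (b * (2 ^ k * η))},
        treecPhi Bad (JS k) ω (2 ^ k * η) p ≤ C1 ^ 2 * C * bb F A (2 ^ k * η) := by
      intro k
      have hK : C1 ^ 2 * C * ((ENNReal.ofReal (2 ^ k * η))⁻¹ * (V E (2 ^ k * η) ^ 2)⁻¹) ≠ ⊤ := by
        have := hH k
        have := hVt _ (hh k)
        rw [ENNReal.inv_pow]
        finiteness
      refine (setLIntegral_mono (g := fun p : E × ℝ => C1 ^ 2 * C * ((ENNReal.ofReal (2 ^ k * η))⁻¹ *
        (V E (2 ^ k * η) ^ 2)⁻¹) * PP (lev F p.2) p.1 (A * (2 ^ k * η)))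
        (measurable_const.mul (measurable_PP_lev hF _)) ?_).trans
        ((setLIntegral_le_lintegral _ _).trans ?_)
      · rintro ⟨c, t⟩ hp
        obtain ⟨n, ⟨hk, n1, n2⟩, hp⟩ := mem_iUnion.1 hp
        obtain ⟨k, rfl⟩ := Nat.exists_eq_succ_of_ne_zero hk
        have b1 := hneg F hF t c ω _ n hω (hh (k + 1)) n1 n2 hp
        rw [← hRh] at b1
        have b2 := hVi _ (2 ^ k * r) (hh (k + 1)) (by rw [hr]; ring)
        refine (indicator_le_self _ _ _).trans ?_
        have b3 := treec_sub_le (x := JS (k + 1) (c + (2 ^ (k + 1) * η) • ω, t))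
          (hJa (k + 1) _ ▸ le_self_add) (hJa (k + 1) (c, t))
        have b4 := (hJC t k c).trans (mul_le_mul_left b2 _)
        have b5 := (hJS t k (c + (2 ^ (k + 1) * η) • ω)).trans (mul_le_mul_left b2 _)
        refine (mul_le_mul_right (b3.trans (mul_le_mul' b4 b5)) _).trans ?_
        rw [mul_mul_mul_comm]
        refine (mul_le_mul_right (mul_le_mul_right b1 _) _).trans (le_of_eq ?_)
        rw [ENNReal.inv_pow]
        ring
      · rw [lintegral_const_mul' _ _ hK, bb, mul_assoc (C1 ^ 2 * C), Measure.volume_eq_prod,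
          lintegral_prod _ (measurable_PP_lev hF _).aemeasurable]
        gcongr with z
        exact layer_PP hF z _
    refine (Finset.sum_le_sum fun k _ => a1 k).trans ?_
    rw [← Finset.mul_sum]
    refine (mul_le_mul_right (hWu.trans (add_le_add (mul_le_mul_right a2 _)
      (mul_le_mul_right (Finset.sum_le_sum fun k _ => a3 k) _))) _).trans ?_
    rw [← Finset.mul_sum, Finset.sum_range_succ]
    generalize ∑ k ∈ Finset.range J, bb F A (2 ^ k * η) = B
    generalize C1 ^ 2 * C = D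
    calc _ ≤ C1 * 2 * (2 * (2 * Γ) + 2 * (D * B)) + C1 * (8 * (B + bb F A (2 ^ J * η)) +
        4 * D * (bb F A (2 ^ J * η) + Γ)) := le_self_add
      _ = _ := by ring
  · intro x t i k hik hkJ hSt hStop
    obtain ⟨w, hw⟩ : ∃ w : ℕ → ℝ≥0∞, ∀ j, w j = (V E (b / 32 * (2 ^ j * η)))⁻¹ *
      ∫⁻ z in ball x (3 * (2 ^ j * η)), W j (z, t) := ⟨_, fun _ => rfl⟩
    have hw' : ∀ j, w (j + 1) = (V E (2 ^ j * r))⁻¹ *
        ∫⁻ z in ball x (3 * (2 ^ (j + 1) * η)), W (j + 1) (z, t) := fun j => by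
      rw [hw, show b / 32 * (2 ^ (j + 1) * η) = 2 ^ j * r by rw [hr]; ring]
    have hd : ∀ (c : E) (s ρ : ℝ), 0 ≤ s → dist c (x - s • ω) ≤ ρ → dist c x ≤ ρ + 2 * s := by
      intro c s ρ hs h
      have := dist_triangle c (x - s • ω) x
      rw [dist_eq_norm (x - s • ω), sub_sub_cancel_left, norm_neg] at this
      linarith [hn s hs]
    have key := hWl (fun j => {p | p.2 = t ∧ ∃ s, 2 ^ i * η ≤ s ∧ s ≤ 2 ^ j * η ∧
      dist p.1 (x - s • ω) ≤ 2 ^ j * r}) w (i + 1) k hik hkJ ?_ ?_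
    · have b1 : ∀ c ∈ ball (x - (2 ^ i * η) • ω) (2 ^ i * r),
          1 ≤ W (i + 1) (c, t) + ∑ j ∈ Finset.Ioc (i + 1) k, w j := by
        intro c hc
        rw [mem_ball] at hc
        refine key (c, t) ⟨rfl, _, le_rfl, by linarith [h2 i η, hh i], ?_⟩ ⟨?_, ?_⟩
        · linarith [h2 i r, hR i]
        · refine (ball_subset_ball' ?_).trans hSt.2.2
          linarith [hd c _ _ (hh i).le hc.le, hRl i, h2 i η, hR i]
        · refine treec_half (hJa (i + 1) _) ((mul_le_mul_right (hJC t i _) _).trans ?_)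
            ((mul_le_mul_right (hJS t i _) _).trans ?_)
          · refine treec_quarter (V_ne_zero (hR i)) (V_ne_top _) ?_
            rw [hRh i]
            refine le_trans (mul_le_mul_right (measure_mono (inter_subset_inter_right _
              (ball_subset_ball' ?_))) _) hSt.2.1
            have : dist (c + (2 ^ (i + 1) * η) • ω) (x + (2 ^ i * η) • ω) =
                dist c (x - (2 ^ i * η) • ω) := by
              rw [dist_eq_norm, dist_eq_norm, h2, two_mul, add_smul]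
              congr 1
              abel
            rw [this]
            linarith [h2 i r, hRh i]
          · refine treec_quarter (V_ne_zero (hR i)) (V_ne_top _) ?_
            rw [hRh i]
            refine le_trans (mul_le_mul_right (measure_mono (inter_subset_inter_right _
              (ball_subset_ball' ?_))) _) hSt.1
            linarith [h2 i r, hRh i]
      have b2 := setLIntegral_mono' (μ := volume) measurableSet_ball b1
      rw [lintegral_add_right _ measurable_const, setLIntegral_const, setLIntegral_const,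
        vol_ball] at b2
      have b3 : ∫⁻ c in ball (x - (2 ^ i * η) • ω) (2 ^ i * r), W (i + 1) (c, t) ≤
          ∫⁻ z in ball x (3 * (2 ^ (i + 1) * η)), W (i + 1) (z, t) := by
        refine lintegral_mono_set (ball_subset_ball' ?_)
        linarith [hd _ _ 0 (hh i).le (dist_self _).le, hRl i, h2 i η, hR i]
      have b4 : 1 ≤ w (i + 1) + ∑ j ∈ Finset.Ioc (i + 1) k, w j := by
        have hc := ENNReal.inv_mul_cancel (V_ne_zero (E := E) (hR i)) (V_ne_top _)
        calc (1 : ℝ≥0∞) = (V E (2 ^ i * r))⁻¹ * (1 * V E (2 ^ i * r)) := by rw [one_mul, hc]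
          _ ≤ (V E (2 ^ i * r))⁻¹ * _ := mul_le_mul_right (b2.trans (add_le_add_left b3 _)) _
          _ = _ := by rw [mul_add, hw', mul_comm _ (V E _), ← mul_assoc _ (V E _), hc, one_mul]
      rw [← Finset.sum_insert (f := w) (by simp)] at b4
      refine b4.trans ((Finset.sum_le_sum_of_subset (t := Finset.range (k + 1)) ?_).trans
        (Finset.sum_le_sum fun j _ => ?_))
      · intro j hj
        simp only [Finset.mem_insert, Finset.mem_Ioc, Finset.mem_range] at hj ⊢
        omega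
      · rw [hw, lintegral_const_mul' _ _ hC1, ← mul_assoc _ C1, mul_comm _ C1]
        exact mul_le_mul_left (hVi _ _ (hh j) rfl) _
    · rintro j - - ⟨c, t'⟩ ⟨rfl, s, s1, s2, s3⟩
      dsimp only at s3
      have s0 : 0 ≤ s := (hh i).le.trans s1
      have s4 : dist (c - (2 ^ j * η) • ω) (x - (s + 2 ^ j * η) • ω) = dist c (x - s • ω) := by
        rw [dist_eq_norm, dist_eq_norm, add_smul]
        congr 1
        abel
      have s5 : ∀ y y' z : E, dist (y - z) y' ≤ dist y y' + ‖z‖ := fun y y' z => by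
        rw [dist_eq_norm, dist_eq_norm, sub_right_comm]
        exact norm_sub_le _ _
      constructor
      · refine treec_nu_ae _ _ fun z hz => ?_
        rw [mem_ball_zero_iff] at hz
        refine ⟨⟨sub_zero _, s, s1, by linarith [h2 j η, hh j], ?_⟩,
          ⟨sub_zero _, s + 2 ^ j * η, by linarith [hh j], by linarith [h2 j η], ?_⟩⟩
        · exact (s5 c (x - s • ω) z).trans (by linarith [h2 j r])
        · have := s5 (c - (2 ^ j * η) • ω) (x - (s + 2 ^ j * η) • ω) z
          rw [s4, sub_sub, add_comm _ z] at this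
          exact this.trans (by linarith [h2 j r])
      · rw [treec_nu_int, hw', ENNReal.mul_inv (Or.inl two_ne_zero) (Or.inl ENNReal.ofNat_ne_top)]
        have c1 := treec_sub_int (fun z => W (j + 1) (z, t')) (c := c) (x := x) (R := 2 ^ j * r)
          (ρ := 3 * (2 ^ (j + 1) * η)) (by linarith [hd c s _ s0 s3, hRl j, h2 j η, hR j])
        have c2 := treec_sub_int (fun z => W (j + 1) (z, t')) (c := c - (2 ^ j * η) • ω) (x := x)
          (R := 2 ^ j * r) (ρ := 3 * (2 ^ (j + 1) * η))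
          (by linarith [hd _ _ _ (add_nonneg s0 (hh j).le) (s4.le.trans s3), hRl j, h2 j η, hR j])
        simp only [sub_sub, add_comm ((2 ^ j * η) • ω)] at c2
        simp only [Prod.mk_sub_mk, sub_zero]
        refine (mul_le_mul_right (add_le_add c1 c2) _).trans (le_of_eq ?_)
        rw [← two_mul, mul_mul_mul_comm, ENNReal.inv_mul_cancel two_ne_zero ENNReal.ofNat_ne_top,
          one_mul]
    · refine hStop.imp_right ?_
      rintro ⟨y, ρ, r1, r2, r3, r4⟩ ⟨c, t'⟩ ⟨rfl, s, s1, s2, s3⟩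
      have hN0 : (0 : ℝ) < N := lt_of_lt_of_le (by positivity) hN
      have hbN : 16 ≤ N * b := (div_le_iff₀ hb).1 hN
      have hk := hh k
      obtain ⟨h, hh'⟩ : ∃ h, h = 2 ^ k * η := ⟨_, rfl⟩
      rw [hRh] at s3
      simp only [← hh'] at *
      have q0 : 0 ≤ (s + ρ) * N / h := by
        have : 0 ≤ s + ρ := by linarith
        positivity
      have q1 := Nat.le_ceil ((s + ρ) * N / h)
      have q2 := Nat.ceil_lt_add_one q0
      refine mem_iUnion.2 ⟨⌈(s + ρ) * N / h⌉₊, ⟨by omega, ?_, ?_⟩, ?_⟩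
      · have : (N : ℝ) ≤ (s + ρ) * N / h := by
          rw [le_div_iff₀ hk]; nlinarith
        exact_mod_cast this.trans q1
      · refine Nat.ceil_le.2 ?_
        rw [div_le_iff₀ hk]
        push_cast
        nlinarith
      · refine le_trans (mul_le_mul_right (measure_mono (inter_subset_inter_right _
          (ball_subset_ball' ?_))) _) r4
        generalize (⌈(s + ρ) * N / h⌉₊ : ℝ) = n at q1 q2
        have e1 : 0 ≤ n / N * h - (s + ρ) := by
          rw [div_le_iff₀ hk] at q1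
          rw [sub_nonneg, div_mul_eq_mul_div, le_div_iff₀ hN0]
          exact q1
        have e2 : n / N * h - (s + ρ) ≤ b / 16 * h := by
          rw [← sub_lt_iff_lt_add, lt_div_iff₀ hk] at q2
          rw [sub_le_iff_le_add, div_mul_eq_mul_div, div_le_iff₀ hN0]
          nlinarith
        have e3 : c + (n / N * h) • ω - y =
            (c - (x - s • ω)) + (n / N * h - (s + ρ)) • ω - (y - (x + ρ • ω)) := by
          rw [sub_smul, add_smul]
          abel
        rw [dist_eq_norm] at s3 r3 ⊢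
        have e4 := norm_sub_le ((c - (x - s • ω)) + (n / N * h - (s + ρ)) • ω) (y - (x + ρ • ω))
        have e5 := norm_add_le (c - (x - s • ω)) ((n / N * h - (s + ρ)) • ω)
        rw [← e3] at e4
        linarith [hn _ e1, mul_pos hb hk]

end Vale.Agent.P137
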