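import Vale.Agent.P137.Class
import Vale.Agent.P137.TreeC
import Vale.Agent.P137.Cyl

namespace Vale.Agent.P137

open MeasureTheory Metric Set Filter Topology
open scoped ENNReal RealInnerProductSpace

variable {E : Type*} [NormedAddCommGroup E] [InnerProductSpace ℝ E] [FiniteDimensional ℝ E]
  [MeasurableSpace E] [BorelSpace E]

theorem est_markov {α : Type*} [MeasurableSpace α] (μ : Measure α) (hμ : μ univ ≠ ⊤)
    {f : α → ℝ≥0∞} (hf : Measurable f) :
    μ univ ≤ 2 * μ {z | f z * μ univ ≤ 2 * ∫⁻ y, f y ∂μ} := by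
  set D := ∫⁻ y, f y ∂μ with hD
  set G := {z | f z * μ univ ≤ 2 * D} with hG
  have hGm : MeasurableSet G := measurableSet_le (hf.mul_const _) measurable_const
  have key : 2 * μ Gᶜ ≤ μ univ := by
    by_cases h0 : D = 0
    · have h1 : f =ᵐ[μ] 0 := (lintegral_eq_zero_iff hf).1 h0
      have h2 : μ Gᶜ = 0 := by
        refine mem_ae_iff.1 (h1.mono fun z h => ?_)
        have h : f z = 0 := h
        simp [h]
      simp [h2]
    by_cases ht : D = ⊤
    · have : Gᶜ = ∅ := by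
        ext z
        simp [hG, ht]
      simp [this]
    have h1 : 2 * D * μ Gᶜ ≤ D * μ univ := by
      calc 2 * D * μ Gᶜ = ∫⁻ _ in Gᶜ, 2 * D ∂μ := (setLIntegral_const _ _).symm
        _ ≤ ∫⁻ z in Gᶜ, f z * μ univ ∂μ :=
          setLIntegral_mono' hGm.compl fun z hz => le_of_lt (not_le.1 (show ¬f z * μ univ ≤ 2 * D from hz))
        _ ≤ ∫⁻ z, f z * μ univ ∂μ := setLIntegral_le_lintegral _ _
        _ = D * μ univ := lintegral_mul_const _ hf
    rw [mul_comm 2 D, mul_assoc] at h1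
    exact (ENNReal.mul_le_mul_iff_right h0 ht).1 h1
  have h2 : μ univ + μ univ ≤ 2 * μ G + μ univ := by
    calc μ univ + μ univ = 2 * (μ G + μ Gᶜ) := by rw [measure_add_measure_compl hGm, two_mul]
      _ ≤ 2 * μ G + μ univ := by rw [mul_add]; gcongr
  exact (ENNReal.add_le_add_iff_right hμ).1 h2

theorem est_interval (a : ℝ) (R : ℝ≥0∞) :
    volume {t : ℝ | ENNReal.ofReal |a - t| ≤ R} ≤ 2 * R := by
  by_cases hR : R = ⊤
  · simp [hR]
  calc volume {t : ℝ | ENNReal.ofReal |a - t| ≤ R} ≤ volume (closedBall a R.toReal) :=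
        measure_mono fun t ht => by
          rw [mem_closedBall, dist_comm, Real.dist_eq]
          exact (ENNReal.ofReal_le_iff_le_toReal hR).1 ht
    _ = 2 * R := by
      rw [Real.volume_closedBall, ENNReal.ofReal_mul zero_le_two, ENNReal.ofReal_toReal hR]
      simp

omit [FiniteDimensional ℝ E] [MeasurableSpace E] [BorelSpace E] in
theorem est_norm_le {g : E → ℝ} {x c ω : E} {r : ℝ} (hr : 0 < r) (hd : DifferentiableAt ℝ g x)
    (hx : dist x c ≤ r) (hmin : ∀ y ∈ closedBall c r, g x ≤ g y) (hω : dist (x + r • ω) c ≤ r / 2) :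
    ‖fderiv ℝ g x‖ ≤ 2 * fderiv ℝ g x ω := by
  have key : ∀ u : E, ‖u‖ ≤ 1 → fderiv ℝ g x u ≤ 2 * fderiv ℝ g x ω := by
    intro u hu
    have h1 : x + (r • ω - (r / 2) • u) ∈ closedBall c r := by
      rw [mem_closedBall]
      have h2 : dist (x + (r • ω - (r / 2) • u)) (x + r • ω) ≤ r / 2 := by
        rw [dist_add_left, dist_eq_norm, sub_sub_cancel_left, norm_neg, norm_smul,
          Real.norm_of_nonneg (by positivity)]
        exact mul_le_of_le_one_right (by positivity) hu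
      linarith [dist_triangle (x + (r • ω - (r / 2) • u)) (x + r • ω) c]
    have h3 := (IsMinOn.localize (f := g) (s := closedBall c r) (a := x)
      hmin).hasFDerivWithinAt_nonneg hd.hasFDerivAt.hasFDerivWithinAt
      (mem_posTangentConeAt_of_segment_subset ((convex_closedBall c r).segment_subset hx h1))
    rw [map_sub, map_smul, map_smul, smul_eq_mul, smul_eq_mul] at h3
    have h4 : r * fderiv ℝ g x u ≤ r * (2 * fderiv ℝ g x ω) := by linarith
    exact le_of_mul_le_mul_left h4 hr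
  have h0 : 0 ≤ 2 * fderiv ℝ g x ω := by simpa using key 0 (by simp)
  refine ContinuousLinearMap.opNorm_le_of_unit_norm h0 fun u hu => ?_
  rw [Real.norm_eq_abs, abs_le]
  have := key (-u) (by rw [norm_neg, hu])
  rw [map_neg] at this
  exact ⟨by linarith, key u hu.le⟩

/-- weight for the first case -/
noncomputable def estW1 (F : E → ℝ) (C : ℝ≥0∞) (A h : ℝ) (p : E × ℝ) : ℝ≥0∞ :=
  C * (V E h ^ 2)⁻¹ * PP (lev F p.2) p.1 (A * h)

/-- weight for the second case -/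
noncomputable def estW2 (F : E → ℝ) (C C' : ℝ≥0∞) (A h : ℝ) (p : E × ℝ) : ℝ≥0∞ :=
  {p : E × ℝ | ENNReal.ofReal |F p.1 - p.2| ≤ C' * (V E h ^ 2)⁻¹ * PP F p.1 (A * h)}.indicator
    (fun _ => C) p

theorem est_meas1 {F : E → ℝ} (hF : Measurable F) (C : ℝ≥0∞) (A h : ℝ) :
    Measurable (estW1 F C A h) :=
  (measurable_PP_lev hF _).const_mul _

theorem est_set2 {F : E → ℝ} (hF : Measurable F) (C' : ℝ≥0∞) (R : ℝ) :
    MeasurableSet {p : E × ℝ | ENNReal.ofReal |F p.1 - p.2| ≤ C' * PP F p.1 R} :=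
  measurableSet_le (by fun_prop) (((measurable_PP hF _).comp measurable_fst).const_mul _)

theorem est_meas2 {F : E → ℝ} (hF : Measurable F) (C C' : ℝ≥0∞) (A h : ℝ) :
    Measurable (estW2 F C C' A h) :=
  measurable_const.indicator (est_set2 hF _ _)

theorem est_up1 {F : E → ℝ} (hF : Measurable F) (C : ℝ≥0∞) (A h : ℝ) :
    (ENNReal.ofReal h)⁻¹ * ∫⁻ p, estW1 F C A h p ≤ C * bb F A h := by
  have h1 : ∫⁻ p : E × ℝ, PP (lev F p.2) p.1 (A * h) ≤ ∫⁻ z, PP F z (A * h) := by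
    rw [Measure.volume_eq_prod, lintegral_prod _ (measurable_PP_lev hF _).aemeasurable]
    exact lintegral_mono fun z => layer_PP hF z _
  unfold estW1 bb
  rw [lintegral_const_mul _ (measurable_PP_lev hF _)]
  calc _ ≤ (ENNReal.ofReal h)⁻¹ * (C * (V E h ^ 2)⁻¹ * ∫⁻ z, PP F z (A * h)) := by gcongr
    _ = _ := by ring

theorem est_up2 {F : E → ℝ} (hF : Measurable F) (C C' : ℝ≥0∞) (A h : ℝ) :
    (ENNReal.ofReal h)⁻¹ * ∫⁻ p, estW2 F C C' A h p ≤ C * (2 * C') * bb F A h := by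
  have h1 : volume {p : E × ℝ | ENNReal.ofReal |F p.1 - p.2| ≤
      C' * (V E h ^ 2)⁻¹ * PP F p.1 (A * h)} ≤ 2 * (C' * (V E h ^ 2)⁻¹) * ∫⁻ z, PP F z (A * h) := by
    rw [Measure.volume_eq_prod, Measure.prod_apply (est_set2 hF _ _),
      ← lintegral_const_mul _ (measurable_PP hF _)]
    refine lintegral_mono fun z => ?_
    rw [mul_assoc 2]
    exact est_interval (F z) _
  unfold estW2 bb
  rw [lintegral_indicator_const (est_set2 hF _ _)]
  calc _ ≤ (ENNReal.ofReal h)⁻¹ * (C * (2 * (C' * (V E h ^ 2)⁻¹) * ∫⁻ z, PP F z (A * h))) := by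
        gcongr
    _ = _ := by ring

theorem est_low1 {F : E → ℝ} {A A' h t θ : ℝ} {x : E} {Cθ : ℝ≥0∞} (hh : 0 < h) (hA : 1 ≤ A)
    (hA' : 2 * A ≤ A') (hθ : V E h ≤ Cθ * V E (θ * h))
    (H : V E (θ * h) ^ 2 ≤ 8 * PP (lev F t) x (A * h)) :
    V E h ≤ ∫⁻ z in ball x (A * h), estW1 F (Cθ ^ 2 * 8) A' h (z, t) := by
  have h0 : V E h ^ 2 ≠ 0 := pow_ne_zero _ (V_ne_zero hh)
  have ht : V E h ^ 2 ≠ ⊤ := ENNReal.pow_ne_top (V_ne_top h)
  have hAh : h ≤ A * h := le_mul_of_one_le_left hh.le hA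
  calc V E h = ∫⁻ _ in ball x h, 1 := by rw [setLIntegral_const, one_mul, vol_ball]
    _ ≤ ∫⁻ z in ball x h, estW1 F (Cθ ^ 2 * 8) A' h (z, t) := by
      refine setLIntegral_mono' measurableSet_ball fun z hz => ?_
      have h1 : PP (lev F t) x (A * h) ≤ PP (lev F t) z (A' * h) := PP_mono _ (by
        have := mem_ball'.1 hz
        nlinarith)
      calc (1 : ℝ≥0∞) = (V E h ^ 2)⁻¹ * V E h ^ 2 := (ENNReal.inv_mul_cancel h0 ht).symm
        _ ≤ (V E h ^ 2)⁻¹ * (Cθ * V E (θ * h)) ^ 2 := by gcongr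
        _ = (V E h ^ 2)⁻¹ * (Cθ ^ 2 * V E (θ * h) ^ 2) := by rw [mul_pow]
        _ ≤ (V E h ^ 2)⁻¹ * (Cθ ^ 2 * (8 * PP (lev F t) z (A' * h))) := by
          gcongr
          exact H.trans (by gcongr)
        _ = _ := by unfold estW1; ring
    _ ≤ _ := lintegral_mono_set (ball_subset_ball hAh)

theorem est_low2 {F : E → ℝ} (hF : Measurable F) {A A' h t ρ : ℝ} {x q : E} {Cθ C : ℝ≥0∞}
    (hh : 0 < h) (hA' : 2 * A ≤ A') (hθ : V E h ≤ Cθ * V E ρ) (hq : dist q x + ρ ≤ A * h)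
    (H : da F t (ball q ρ) * V E h ≤ C * PP F x (A * h)) :
    V E h ≤ ∫⁻ z in ball x (A * h), estW2 F (Cθ * 2) (Cθ * 2 * C) A' h (z, t) := by
  have h0 : V E h ^ 2 ≠ 0 := pow_ne_zero _ (V_ne_zero hh)
  have ht : V E h ^ 2 ≠ ⊤ := ENNReal.pow_ne_top (V_ne_top h)
  have hf : Measurable fun z => ENNReal.ofReal |F z - t| := by fun_prop
  have h1 := est_markov (volume.restrict (ball q ρ)) (by simpa [vol_ball] using V_ne_top ρ) hf
  rw [Measure.restrict_apply_univ, vol_ball,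
    Measure.restrict_apply' measurableSet_ball] at h1
  set G := {z | ENNReal.ofReal |F z - t| * V E ρ ≤
    2 * ∫⁻ y in ball q ρ, ENNReal.ofReal |F y - t|} ∩ ball q ρ with hG
  have hGm : MeasurableSet G :=
    (measurableSet_le (hf.mul_const _) measurable_const).inter measurableSet_ball
  have hsub : ball q ρ ⊆ ball x (A * h) := ball_subset_ball' (by linarith)
  calc V E h ≤ Cθ * (2 * volume G) := hθ.trans (by gcongr)
    _ = ∫⁻ _ in G, Cθ * 2 := by rw [setLIntegral_const, mul_assoc]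
    _ ≤ ∫⁻ z in G, estW2 F (Cθ * 2) (Cθ * 2 * C) A' h (z, t) := by
      refine setLIntegral_mono' hGm fun z hz => ?_
      have h2 : PP F x (A * h) ≤ PP F z (A' * h) := PP_mono _ (by
        have := mem_ball'.1 (hsub hz.2)
        nlinarith)
      have h3 : ENNReal.ofReal |F z - t| * V E ρ ≤ 2 * da F t (ball q ρ) := hz.1
      rw [estW2, indicator_of_mem]
      show ENNReal.ofReal |F z - t| ≤ _
      calc ENNReal.ofReal |F z - t| = (V E h ^ 2)⁻¹ * V E h ^ 2 * ENNReal.ofReal |F z - t| := by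
            rw [ENNReal.inv_mul_cancel h0 ht, one_mul]
        _ = (V E h ^ 2)⁻¹ * (V E h * V E h * ENNReal.ofReal |F z - t|) := by ring
        _ ≤ (V E h ^ 2)⁻¹ * (V E h * (Cθ * V E ρ) * ENNReal.ofReal |F z - t|) := by gcongr
        _ = (V E h ^ 2)⁻¹ * (Cθ * (ENNReal.ofReal |F z - t| * V E ρ) * V E h) := by ring
        _ ≤ (V E h ^ 2)⁻¹ * (Cθ * (2 * da F t (ball q ρ)) * V E h) := by gcongr
        _ = (V E h ^ 2)⁻¹ * (Cθ * 2 * (da F t (ball q ρ) * V E h)) := by ring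
        _ ≤ (V E h ^ 2)⁻¹ * (Cθ * 2 * (C * PP F z (A' * h))) :=
          mul_le_mul_right (mul_le_mul_right (H.trans (by gcongr)) _) _
        _ = _ := by ring
    _ ≤ _ := lintegral_mono_set (inter_subset_right.trans hsub)

theorem est_one_le {h : ℝ} (hh : 0 < h) {T : ℝ≥0∞} (H : V E h ≤ T) : 1 ≤ (V E h)⁻¹ * T := by
  rw [← ENNReal.inv_mul_cancel (V_ne_zero (E := E) hh) (V_ne_top h)]
  gcongr

/-- integrating the pointwise bound -/
theorem est_int {A θ : ℝ} (hA : 0 < A) (hθ : 0 < θ) (Net : Finset E) (hN : ∀ ω ∈ Net, ω ≠ 0) :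
    ∃ C : ℝ≥0∞, C ≠ ⊤ ∧ ∀ (g : E → ℝ), Continuous g → ∀ (h : ℕ → ℝ), (∀ j, 0 < h j) →
      ∀ (J : ℕ) (W : ℕ → E × ℝ → ℝ≥0∞), (∀ j, Measurable (W j)) → ∀ X : Set E, MeasurableSet X →
      (∀ x ∈ X, fderiv ℝ g x ≠ 0 → ∃ ω ∈ Net, ‖fderiv ℝ g x‖ ≤ 2 * fderiv ℝ g x ω ∧ ∃ k ≤ J,
        (∀ j ≤ k, x ∈ Inj g ω (θ * h j)) ∧ 1 ≤ ∑ j ∈ Finset.range (k + 1),
          (V E (h j))⁻¹ * ∫⁻ z in ball x (A * h j), W j (z, g x)) →
      ∫⁻ x in X, ‖fderiv ℝ g x‖ₑ ≤
        C * ∑ j ∈ Finset.range (J + 1), (ENNReal.ofReal (h j))⁻¹ * ∫⁻ p, W j p := by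
  have := fun ω : Net => MAS ω.1 (hN ω.1 ω.2) A θ hA hθ
  choose C hC hM using this
  refine ⟨2 * ∑ ω, C ω, ENNReal.mul_ne_top (by simp) (ENNReal.sum_ne_top.2 fun ω _ => hC ω),
    fun g hg h hh J W hW X hX H => ?_⟩
  let u : Net → ℕ → E → ℝ≥0∞ := fun ω j x =>
    ENNReal.ofReal (fderiv ℝ g x ω) * ∫⁻ z in ball x (A * h j), W j (z, g x)
  have hu : ∀ ω j, Measurable (u ω j) := fun ω j =>
    (measurable_fderiv_apply_const ℝ g ω.1).ennreal_ofReal.mul
      (measurable_ball_lintegral (f := fun x z => W j (z, g x))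
        ((hW j).comp (measurable_snd.prodMk (hg.measurable.comp measurable_fst))) measurable_id _)
  have hu' : ∀ ω j, Measurable fun x => (V E (h j))⁻¹ * (Inj g ω.1 (θ * h j)).indicator (u ω j) x :=
    fun ω j => ((hu ω j).indicator (measurableSet_Inj hg _ _)).const_mul _
  calc ∫⁻ x in X, ‖fderiv ℝ g x‖ₑ ≤ ∫⁻ x in X, 2 * ∑ ω : Net, ∑ j ∈ Finset.range (J + 1),
        (V E (h j))⁻¹ * (Inj g ω.1 (θ * h j)).indicator (u ω j) x := by
        refine setLIntegral_mono' hX fun x hx => ?_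
        by_cases h0 : fderiv ℝ g x = 0
        · rw [h0, ← ofReal_norm, norm_zero, ENNReal.ofReal_zero]
          exact zero_le
        obtain ⟨ω, hω, h1, k, hk, h2, h3⟩ := H x hx h0
        calc ‖fderiv ℝ g x‖ₑ ≤ 2 * (ENNReal.ofReal (fderiv ℝ g x ω) * 1) := by
              rw [mul_one, ← ofReal_norm, ← ENNReal.ofReal_ofNat,
                ← ENNReal.ofReal_mul zero_le_two]
              exact ENNReal.ofReal_le_ofReal h1
          _ ≤ 2 * (ENNReal.ofReal (fderiv ℝ g x ω) * ∑ j ∈ Finset.range (k + 1),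
              (V E (h j))⁻¹ * ∫⁻ z in ball x (A * h j), W j (z, g x)) := by gcongr
          _ = 2 * ∑ j ∈ Finset.range (k + 1),
              (V E (h j))⁻¹ * (Inj g ω (θ * h j)).indicator (u ⟨ω, hω⟩ j) x := by
              rw [Finset.mul_sum]
              refine congrArg _ (Finset.sum_congr rfl fun j hj => ?_)
              rw [indicator_of_mem (h2 j (Nat.lt_succ_iff.1 (Finset.mem_range.1 hj))),
                mul_left_comm]
          _ ≤ 2 * ∑ j ∈ Finset.range (J + 1),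
              (V E (h j))⁻¹ * (Inj g ω (θ * h j)).indicator (u ⟨ω, hω⟩ j) x := by
              gcongr
          _ ≤ _ := by
              gcongr
              exact Finset.single_le_sum (f := fun ω : Net => ∑ j ∈ Finset.range (J + 1),
                (V E (h j))⁻¹ * (Inj g ω.1 (θ * h j)).indicator (u ω j) x)
                (fun _ _ => zero_le) (Finset.mem_univ ⟨ω, hω⟩)
    _ ≤ ∫⁻ x, 2 * ∑ ω : Net, ∑ j ∈ Finset.range (J + 1),
        (V E (h j))⁻¹ * (Inj g ω.1 (θ * h j)).indicator (u ω j) x := setLIntegral_le_lintegral _ _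
    _ = 2 * ∑ ω : Net, ∑ j ∈ Finset.range (J + 1),
        (V E (h j))⁻¹ * ∫⁻ x in Inj g ω.1 (θ * h j), u ω j x := by
        rw [lintegral_const_mul _ (Finset.measurable_sum _ fun ω _ =>
          Finset.measurable_sum _ fun j _ => hu' ω j), lintegral_finsetSum _ fun ω _ =>
          Finset.measurable_sum _ fun j _ => hu' ω j]
        refine congrArg _ (Finset.sum_congr rfl fun ω _ => ?_)
        rw [lintegral_finsetSum _ fun j _ => hu' ω j]
        refine Finset.sum_congr rfl fun j _ => ?_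
        rw [lintegral_const_mul _ ((hu ω j).indicator (measurableSet_Inj hg _ _)),
          lintegral_indicator (measurableSet_Inj hg _ _)]
    _ ≤ 2 * ∑ ω : Net, C ω *
        ∑ j ∈ Finset.range (J + 1), (ENNReal.ofReal (h j))⁻¹ * ∫⁻ p, W j p := by
        gcongr with ω
        rw [Finset.mul_sum]
        refine Finset.sum_le_sum fun j _ => ?_
        have h1 := hM ω g hg (h j) (hh j) (W j) (hW j)
        have h2 : ENNReal.ofReal (h j) ≠ 0 := (ENNReal.ofReal_pos.2 (hh j)).ne'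
        calc (V E (h j))⁻¹ * ∫⁻ x in Inj g ω.1 (θ * h j), u ω j x
            = (V E (h j))⁻¹ * ((ENNReal.ofReal (h j))⁻¹ *
              (ENNReal.ofReal (h j) * ∫⁻ x in Inj g ω.1 (θ * h j), u ω j x)) := by
              rw [ENNReal.inv_mul_cancel_left h2 ENNReal.ofReal_ne_top]
          _ ≤ (V E (h j))⁻¹ * ((ENNReal.ofReal (h j))⁻¹ * (C ω * V E (h j) * ∫⁻ p, W j p)) := by
              gcongr
          _ = (V E (h j))⁻¹ * V E (h j) * (C ω * ((ENNReal.ofReal (h j))⁻¹ * ∫⁻ p, W j p)) := by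
              ring
          _ = _ := by rw [ENNReal.inv_mul_cancel (V_ne_zero (hh j)) (V_ne_top _), one_mul]
    _ = _ := by rw [← Finset.sum_mul, mul_assoc]

/-- the main estimate -/
theorem EST [Nontrivial E] : ∃ (A K : ℝ) (C : ℝ≥0∞), 0 < A ∧ C ≠ ⊤ ∧
    ∀ (F g : E → ℝ) (Bad : Set E) (Γ : ℝ≥0∞) (η η' : ℝ) (J : ℕ) (X : Set E), Measurable F →
    (∀ y, 0 ≤ F y) → Continuous g → (∀ y, 0 ≤ g y) → 0 < η → K * η' ≤ 2 ^ J * η → H1 F g η →
    HG F g Bad η η' A → LTr F Bad Γ → MeasurableSet X → (∀ x ∈ X, Opt F g η η' x) →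
    ∫⁻ x in X, ‖fderiv ℝ g x‖ₑ ≤ C * (∑ j ∈ Finset.range (J + 1), bb F A (2 ^ j * η) + Γ) := by
  obtain ⟨A, b, K, C0, Net, hA, hb, hb1, hC0, hN, hcl⟩ := classify (E := E)
  obtain ⟨At, Ct, hAt, hCt, htr⟩ := treeC (E := E) b hb hb1
  obtain ⟨Cθ, hCθ, -, hV⟩ := exists_V_le (E := E) (16 / b)
  obtain ⟨Cm, hCm, hint⟩ := est_int (A := A) (θ := b / 16) (by linarith) (by positivity) Net
    fun ω hω => (hN ω hω).1
  obtain ⟨A', h2A, hAA⟩ : ∃ A', 2 * A ≤ A' ∧ At ≤ A' := ⟨_, le_max_left _ _, le_max_right _ _⟩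
  refine ⟨A', K, Cm * (Cθ ^ 2 * 8 + Cθ * 2 * (2 * (Cθ * 2 * C0)) + ∑ _ω : Net, Ct), by linarith,
    ?_, fun F g Bad Γ η η' J X hF hF0 hg hg0 hη hK h1 hHG hL hX hO => ?_⟩
  · have : ∑ _ω : Net, Ct ≠ ⊤ := ENNReal.sum_ne_top.2 fun ω _ => hCt
    finiteness
  have := fun ω : Net => htr F hF Bad Γ η hη J ω.1 (hN ω.1 ω.2).2 hL
  choose Wt hWm hWu hWl using this
  have hh : ∀ j : ℕ, 0 < 2 ^ j * η := fun j => by positivity
  have hV' : ∀ h ρ : ℝ, 0 < h → b / 16 * h ≤ ρ → V E h ≤ Cθ * V E ρ := fun h ρ h0 hρ =>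
    hV ρ h ((by positivity : 0 ≤ b / 16 * h).trans hρ) (by
      calc h = 16 / b * (b / 16 * h) := by field_simp
        _ ≤ 16 / b * ρ := by gcongr)
  let W : ℕ → E × ℝ → ℝ≥0∞ := fun j p => estW1 F (Cθ ^ 2 * 8) A' (2 ^ j * η) p +
    estW2 F (Cθ * 2) (Cθ * 2 * C0) A' (2 ^ j * η) p + ∑ ω : Net, Wt ω j p
  have hW3 : ∀ j, Measurable fun p => ∑ ω : Net, Wt ω j p := fun j =>
    Finset.measurable_sum _ fun ω _ => hWm ω j
  have hW : ∀ j, Measurable (W j) := fun j =>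
    ((est_meas1 hF _ _ _).add (est_meas2 hF _ _ _ _)).add (hW3 j)
  refine (hint g hg (fun j => 2 ^ j * η) hh J W hW X hX fun x hx h0 => ?_).trans ?_
  · have hd : DifferentiableAt ℝ g x := by
      by_contra hn
      exact h0 (fderiv_zero_of_not_differentiableAt hn)
    obtain ⟨c, r, r1, r2, r3, r4⟩ := hO x hx
    have hr : 0 < r := hη.trans_le r1
    have hmin : ∀ y ∈ closedBall c r, g x ≤ g y := fun y hy => by
      have := h1 y c r r1 hy
      rw [r4, ENNReal.mul_le_mul_iff_left (V_ne_zero hr) (V_ne_top r)] at this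
      exact (ENNReal.ofReal_le_ofReal_iff (hg0 y)).1 this
    have r5 : dist x c = r := by
      refine le_antisymm r3 (not_lt.1 fun hlt => h0 (IsLocalMin.fderiv_eq_zero ?_))
      exact mem_of_superset (closedBall_mem_nhds_of_mem hlt) hmin
    have hHG' : HG F g Bad η η' A := fun y0 hy0 x w a a1 a2 a3 a4 => by
      have ha : 0 ≤ a := hη.le.trans a1
      have hη' : 0 ≤ η' := hr.le.trans r2
      have hAA' : A ≤ A' := by linarith
      exact hHG y0 hy0 x w a a1 (a2.trans (by gcongr)) (a3.trans (by gcongr))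
        (a4.trans (by gcongr))
    obtain ⟨ω, hω, k1, k, hk, k2, k3⟩ := hcl F g Bad η η' J x c r hF hF0 hg0 hη hK h1 hHG' r1 r2 r5 r4
    have k4 := est_norm_le hr hd r3 hmin k1
    refine ⟨ω, hω, k4, k, hk, fun j hj => ⟨hd, ?_, fun ρ hρ => k2 ρ ⟨hρ.1, hρ.2.trans ?_⟩⟩, ?_⟩
    · have := norm_pos_iff.2 h0
      linarith
    · gcongr
      norm_num
    · have single : V E (2 ^ k * η) ≤ ∫⁻ z in ball x (A * (2 ^ k * η)), W k (z, g x) →
          1 ≤ ∑ j ∈ Finset.range (k + 1),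
            (V E (2 ^ j * η))⁻¹ * ∫⁻ z in ball x (A * (2 ^ j * η)), W j (z, g x) := fun h =>
        (est_one_le (hh k) h).trans (Finset.single_le_sum (f := fun j =>
          (V E (2 ^ j * η))⁻¹ * ∫⁻ z in ball x (A * (2 ^ j * η)), W j (z, g x))
          (fun _ _ => zero_le) (Finset.self_mem_range_succ k))
      rcases k3 with k3 | ⟨q, ρ, q1, q2, q3⟩ | ⟨ω', hω', i, i1, i2, i3⟩
      · refine single ((est_low1 (hh k) (by linarith) h2A (hV' _ _ (hh k) le_rfl) k3).trans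
          (lintegral_mono fun z => le_add_right le_self_add))
      · refine single ((est_low2 hF (hh k) h2A (hV' _ _ (hh k) q1) q2 q3).trans
          (lintegral_mono fun z => le_add_right le_add_self))
      · refine (hWl ⟨ω', hω'⟩ x (g x) i k i1 hk i2 i3).trans (Finset.sum_le_sum fun j _ => ?_)
        refine mul_le_mul_right ((lintegral_mono fun z => ?_).trans (lintegral_mono_set
          (ball_subset_ball (mul_le_mul_of_nonneg_right hA (hh j).le)))) _
        exact le_add_left (Finset.single_le_sum (f := fun ω : Net => Wt ω j (z, g x))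
          (fun _ _ => zero_le) (Finset.mem_univ (⟨ω', hω'⟩ : Net)))
  · rw [mul_assoc]
    gcongr
    set S := ∑ j ∈ Finset.range (J + 1), bb F A' (2 ^ j * η) with hS
    have e : ∀ j, (ENNReal.ofReal (2 ^ j * η))⁻¹ * ∫⁻ p, W j p =
        (ENNReal.ofReal (2 ^ j * η))⁻¹ * (∫⁻ p, estW1 F (Cθ ^ 2 * 8) A' (2 ^ j * η) p) +
        (ENNReal.ofReal (2 ^ j * η))⁻¹ * (∫⁻ p, estW2 F (Cθ * 2) (Cθ * 2 * C0) A' (2 ^ j * η) p) +
        ∑ ω : Net, (ENNReal.ofReal (2 ^ j * η))⁻¹ * ∫⁻ p, Wt ω j p := fun j => by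
      rw [lintegral_add_right _ (hW3 j), lintegral_add_right _ (est_meas2 hF _ _ _ _),
        lintegral_finsetSum _ fun ω _ => hWm ω j, mul_add, mul_add, Finset.mul_sum]
    simp only [e, Finset.sum_add_distrib]
    rw [add_mul, add_mul, Finset.sum_comm, Finset.sum_mul]
    gcongr with ω
    · refine (Finset.sum_le_sum fun j _ => est_up1 hF _ _ _).trans ?_
      rw [← Finset.mul_sum]
      gcongr
      exact le_self_add
    · refine (Finset.sum_le_sum fun j _ => est_up2 hF _ _ _ _).trans ?_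
      rw [← Finset.mul_sum]
      gcongr
      exact le_self_add
    · refine (hWu ω).trans ?_
      gcongr
      exact Finset.sum_le_sum fun j _ => bb_mono F hAA (hh j).le

end Vale.Agent.P137
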