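import Vale.Agent.P137.CDefs
import Vale.Agent.P137.Est

namespace Vale.Agent.P137

open MeasureTheory Metric Set Filter Topology
open scoped ENNReal RealInnerProductSpace

variable {E : Type*} [NormedAddCommGroup E] [InnerProductSpace ℝ E] [FiniteDimensional ℝ E]
  [MeasurableSpace E] [BorelSpace E]

theorem cestl_int {A θ : ℝ} (hA : 0 < A) (hθ : 0 < θ) (Net : Finset E) (hN : ∀ ω ∈ Net, ω ≠ 0) :
    ∃ C : ℝ≥0∞, C ≠ ⊤ ∧ ∀ (g : E → ℝ), Continuous g → ∀ (h : ℕ → ℝ), (∀ j, 0 < h j) →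
      ∀ (J : ℕ) (W : ℕ → E × ℝ → ℝ≥0∞), (∀ j, Measurable (W j)) → ∀ X : Set E,
      (∀ x ∈ X, fderiv ℝ g x ≠ 0 → ∃ ω ∈ Net, ‖fderiv ℝ g x‖ ≤ 2 * fderiv ℝ g x ω ∧ ∃ k ≤ J,
        (∀ j ≤ k, x ∈ Inj g ω (θ * h j)) ∧ 1 ≤ ∑ j ∈ Finset.range (k + 1),
          (V E (h j))⁻¹ * ∫⁻ z in ball x (A * h j), W j (z, g x)) →
      nuG g X ≤ C * ∑ j ∈ Finset.range (J + 1), (ENNReal.ofReal (h j))⁻¹ * ∫⁻ p, W j p := by
  obtain ⟨C, hC, hint⟩ := est_int hA hθ Net hN
  refine ⟨C, hC, fun g hg h hh J W hW X H => ?_⟩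
  have hm : Measurable fun x => fderiv ℝ g x ≠ 0 → ∃ ω : Net,
      ‖fderiv ℝ g x‖ ≤ 2 * fderiv ℝ g x ω ∧ ∃ k, k ≤ J ∧
        (∀ j, j ≤ k → x ∈ Inj g ω (θ * h j)) ∧ 1 ≤ ∑ j ∈ Finset.range (k + 1),
          (V E (h j))⁻¹ * ∫⁻ z in ball x (A * h j), W j (z, g x) := by
    refine Measurable.imp ?_ (Measurable.exists fun ω => Measurable.and ?_
      (Measurable.exists fun k => Measurable.and measurable_const (Measurable.and
        (Measurable.forall fun j => Measurable.imp measurable_const ?_) ?_)))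
    · refine measurableSet_setOfPred.1 ?_
      have : {x | fderiv ℝ g x ≠ 0} = {x | 0 < ‖fderiv ℝ g x‖} := by
        ext x; simp
      rw [this]
      exact measurableSet_lt measurable_const (measurable_fderiv ℝ g).norm
    · exact measurableSet_setOfPred.1 (measurableSet_le (measurable_fderiv ℝ g).norm
        ((measurable_fderiv_apply_const ℝ g ω.1).const_mul 2))
    · exact measurableSet_setOfPred.1 (measurableSet_Inj hg _ _)
    · refine measurableSet_setOfPred.1 (measurableSet_le measurable_const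
        (Finset.measurable_sum _ fun j _ => Measurable.const_mul ?_ _))
      exact measurable_ball_lintegral (f := fun x z => W j (z, g x))
        ((hW j).comp (measurable_snd.prodMk (hg.measurable.comp measurable_fst))) measurable_id _
  have hm' := measurableSet_setOfPred.2 hm
  refine le_trans (measure_mono (t := _) fun x hx => ?_) ((withDensity_apply _ hm').le.trans
    (hint g hg h hh J W hW _ hm' fun x hx h0 => ?_))
  · intro h0
    obtain ⟨ω, hω, h1⟩ := H x hx h0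
    exact ⟨⟨ω, hω⟩, h1⟩
  · obtain ⟨ω, h1⟩ := hx h0
    exact ⟨ω.1, ω.2, h1⟩

theorem cestl_bb (F : E → ℝ) {t h : ℝ} (ht : 0 < t) (hh : 0 < h) :
    bb F t h = ENNReal.ofReal t * ENNReal.ofReal (t ^ Module.finrank ℝ E) ^ 2 *
      bb F 1 (t * h) := by
  unfold bb
  have h1 : ENNReal.ofReal t ≠ 0 := (ENNReal.ofReal_pos.2 ht).ne'
  have h2 : ENNReal.ofReal (t ^ Module.finrank ℝ E) ^ 2 ≠ 0 :=
    pow_ne_zero _ (ENNReal.ofReal_pos.2 (by positivity)).ne'
  have h3 : ENNReal.ofReal (t ^ Module.finrank ℝ E) ^ 2 ≠ ⊤ :=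
    ENNReal.pow_ne_top ENNReal.ofReal_ne_top
  rw [one_mul, V_mul ht, mul_pow, ENNReal.ofReal_mul ht.le,
    ENNReal.mul_inv (Or.inl h1) (Or.inl ENNReal.ofReal_ne_top),
    ENNReal.mul_inv (Or.inl h2) (Or.inl h3)]
  calc _ = (ENNReal.ofReal t * (ENNReal.ofReal t)⁻¹) *
        (ENNReal.ofReal (t ^ Module.finrank ℝ E) ^ 2 *
          (ENNReal.ofReal (t ^ Module.finrank ℝ E) ^ 2)⁻¹) *
        ((ENNReal.ofReal h)⁻¹ * (V E h ^ 2)⁻¹ * ∫⁻ z, PP F z (t * h)) := by
        rw [ENNReal.mul_inv_cancel h1 ENNReal.ofReal_ne_top, ENNReal.mul_inv_cancel h2 h3,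
          one_mul, one_mul]
    _ = _ := by ring

theorem cestl_sum (A : ℝ) : ∃ (c : ℕ) (C : ℝ≥0∞), C ≠ ⊤ ∧ 1 ≤ C ∧ ∀ (F : E → ℝ) (η : ℝ) (J : ℕ),
    0 < η → ∑ j ∈ Finset.range (J + 1), bb F A (2 ^ j * η) ≤
      C * ∑' i : ℕ, bb F 1 (2 ^ c * (2 ^ J * η) / 2 ^ i) := by
  obtain ⟨c, hc⟩ := pow_unbounded_of_one_lt A (one_lt_two (α := ℝ))
  refine ⟨c, 1 + ENNReal.ofReal (2 ^ c) * ENNReal.ofReal ((2 ^ c) ^ Module.finrank ℝ E) ^ 2,
    by finiteness, le_self_add, fun F η J hη => ?_⟩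
  calc ∑ j ∈ Finset.range (J + 1), bb F A (2 ^ j * η)
      ≤ ∑ j ∈ Finset.range (J + 1), (1 + ENNReal.ofReal (2 ^ c) *
          ENNReal.ofReal ((2 ^ c) ^ Module.finrank ℝ E) ^ 2) *
          bb F 1 (2 ^ c * (2 ^ J * η) / 2 ^ (J + 1 - 1 - j)) := by
        refine Finset.sum_le_sum fun j hj => ?_
        have hj' : j ≤ J := Nat.lt_succ_iff.1 (Finset.mem_range.1 hj)
        have e : (2 : ℝ) ^ c * (2 ^ J * η) / 2 ^ (J + 1 - 1 - j) = 2 ^ c * (2 ^ j * η) := by
          obtain ⟨i, rfl⟩ := Nat.exists_eq_add_of_le hj'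
          rw [show j + i + 1 - 1 - j = i by omega, pow_add]
          field_simp
        rw [e]
        refine (bb_mono F hc.le (by positivity)).trans ?_
        rw [cestl_bb F (by positivity) (by positivity)]
        gcongr
        exact le_add_self
    _ = _ * ∑ i ∈ Finset.range (J + 1), bb F 1 (2 ^ c * (2 ^ J * η) / 2 ^ i) := by
        rw [← Finset.mul_sum, Finset.sum_range_reflect
          (fun i => bb F 1 (2 ^ c * (2 ^ J * η) / 2 ^ i))]
    _ ≤ _ := by
        gcongr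
        exact ENNReal.sum_le_tsum _

/-- the points that can be charged along a long window -/
theorem ESTL (A b : ℝ) (hA : 3 ≤ A) (hb : 0 < b) (hb1 : b ≤ 1) (C0 : ℝ≥0∞) (hC0 : C0 ≠ ⊤)
    (Net : Finset E) (hN : ∀ ω ∈ Net, ω ≠ 0 ∧ ‖ω‖ ≤ 2) : ∃ (c : ℕ) (C : ℝ≥0∞), C ≠ ⊤ ∧
    ∀ (F g : E → ℝ) (Bad : Set E) (Γ : ℝ≥0∞) (η : ℝ) (J : ℕ) (X : Set E), Measurable F →
    Continuous g → 0 < η → LTr F Bad Γ →
    (∀ x ∈ X, fderiv ℝ g x ≠ 0 → ∃ ω ∈ Net, ‖fderiv ℝ g x‖ ≤ 2 * fderiv ℝ g x ω ∧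
      Chg F g Bad A b C0 Net η J x ω) →
    nuG g X ≤ C * (∑' i : ℕ, bb F 1 (2 ^ c * (2 ^ J * η) / 2 ^ i) + Γ) := by
  obtain ⟨At, Ct, hAt, hCt, htr⟩ := treeC (E := E) b hb hb1
  obtain ⟨Cθ, hCθ, -, hV⟩ := exists_V_le (E := E) (16 / b)
  obtain ⟨Cm, hCm, hint⟩ := cestl_int (A := A) (θ := b / 16) (by linarith) (by positivity) Net
    fun ω hω => (hN ω hω).1
  obtain ⟨A', h2A, hAA⟩ : ∃ A', 2 * A ≤ A' ∧ At ≤ A' := ⟨_, le_max_left _ _, le_max_right _ _⟩
  obtain ⟨c, Cs, hCs, hCs1, hsum⟩ := cestl_sum (E := E) A'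
  refine ⟨c, Cm * (Cθ ^ 2 * 8 + Cθ * 2 * (2 * (Cθ * 2 * C0)) + ∑ _ω : Net, Ct) * Cs,
    ?_, fun F g Bad Γ η J X hF hg hη hL hO => ?_⟩
  · have : ∑ _ω : Net, Ct ≠ ⊤ := ENNReal.sum_ne_top.2 fun ω _ => hCt
    finiteness
  have := fun ω : Net => htr F hF Bad Γ η hη J ω.1 (hN ω.1 ω.2).2 hL
  choose Wt hWm hWu hWl using this
  have hh : ∀ j : ℕ, 0 < 2 ^ j * η := fun j => by positivity
  have hV' : ∀ h ρ : ℝ, 0 < h → b / 16 * h ≤ ρ → V E h ≤ Cθ * V E ρ := fun h ρ h0 hρ =>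
    hV ρ h ((by positivity : 0 ≤ b / 16 * h).trans hρ) (by
      calc h = 16 / b * (b / 16 * h) := by field_simp
        _ ≤ 16 / b * ρ := by gcongr)
  let W : ℕ → E × ℝ → ℝ≥0∞ := fun j p => estW1 F (Cθ ^ 2 * 8) A' (2 ^ j * η) p +
    estW2 F (Cθ * 2) (Cθ * 2 * C0) A' (2 ^ j * η) p + ∑ ω : Net, Wt ω j p
  have hW3 : ∀ j, Measurable fun p => ∑ ω : Net, Wt ω j p := fun j =>
    Finset.measurable_sum _ fun ω _ => hWm ω j
  have hW : ∀ j, Measurable (W j) := fun j =>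
    ((est_meas1 hF _ _ _).add (est_meas2 hF _ _ _ _)).add (hW3 j)
  refine (hint g hg (fun j => 2 ^ j * η) hh J W hW X fun x hx h0 => ?_).trans ?_
  · have hd : DifferentiableAt ℝ g x := by
      by_contra hn
      exact h0 (fderiv_zero_of_not_differentiableAt hn)
    obtain ⟨ω, hω, k4, k, hk, k2, k3⟩ := hO x hx h0
    refine ⟨ω, hω, k4, k, hk, fun j hj => ⟨hd, ?_, fun ρ hρ => k2 ρ ⟨hρ.1, hρ.2.trans ?_⟩⟩, ?_⟩
    · have := norm_pos_iff.2 h0
      linarith
    · gcongr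
      norm_num
    · have single : V E (2 ^ k * η) ≤ ∫⁻ z in ball x (A * (2 ^ k * η)), W k (z, g x) →
          1 ≤ ∑ j ∈ Finset.range (k + 1),
            (V E (2 ^ j * η))⁻¹ * ∫⁻ z in ball x (A * (2 ^ j * η)), W j (z, g x) := fun h =>
        (est_one_le (hh k) h).trans (Finset.single_le_sum (f := fun j =>
          (V E (2 ^ j * η))⁻¹ * ∫⁻ z in ball x (A * (2 ^ j * η)), W j (z, g x))
          (fun _ _ => zero_le) (Finset.self_mem_range_succ k))
      rcases k3 with k3 | ⟨q, ρ, q1, q2, q3⟩ | ⟨ω', hω', i, i1, i2, i3⟩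
      · refine single ((est_low1 (hh k) (by linarith) h2A (hV' _ _ (hh k) le_rfl) k3).trans
          (lintegral_mono fun z => le_add_right le_self_add))
      · refine single ((est_low2 hF (hh k) h2A (hV' _ _ (hh k) q1) q2 q3).trans
          (lintegral_mono fun z => le_add_right le_add_self))
      · refine (hWl ⟨ω', hω'⟩ x (g x) i k i1 hk i2 i3).trans (Finset.sum_le_sum fun j _ => ?_)
        refine mul_le_mul_right ((lintegral_mono fun z => ?_).trans (lintegral_mono_set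
          (ball_subset_ball (mul_le_mul_of_nonneg_right hA (hh j).le)))) _
        exact le_add_left (Finset.single_le_sum (f := fun ω : Net => Wt ω j (z, g x))
          (fun _ _ => zero_le) (Finset.mem_univ (⟨ω', hω'⟩ : Net)))
  · set S := ∑ j ∈ Finset.range (J + 1), bb F A' (2 ^ j * η) with hS
    have hfin : S + Γ ≤ Cs * (∑' i : ℕ, bb F 1 (2 ^ c * (2 ^ J * η) / 2 ^ i) + Γ) := by
      rw [mul_add]
      exact add_le_add (hsum F η J hη) (le_mul_of_one_le_left zero_le hCs1)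
    rw [mul_assoc, mul_assoc]
    refine mul_le_mul_right (le_trans ?_ (mul_le_mul_right hfin _)) _
    have e : ∀ j, (ENNReal.ofReal (2 ^ j * η))⁻¹ * ∫⁻ p, W j p =
        (ENNReal.ofReal (2 ^ j * η))⁻¹ * (∫⁻ p, estW1 F (Cθ ^ 2 * 8) A' (2 ^ j * η) p) +
        (ENNReal.ofReal (2 ^ j * η))⁻¹ * (∫⁻ p, estW2 F (Cθ * 2) (Cθ * 2 * C0) A' (2 ^ j * η) p) +
        ∑ ω : Net, (ENNReal.ofReal (2 ^ j * η))⁻¹ * ∫⁻ p, Wt ω j p := fun j => by
      rw [lintegral_add_right _ (hW3 j), lintegral_add_right _ (est_meas2 hF _ _ _ _),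
        lintegral_finsetSum _ fun ω _ => hWm ω j, mul_add, mul_add, Finset.mul_sum]
    simp only [e, Finset.sum_add_distrib]
    rw [add_mul, add_mul, Finset.sum_comm, Finset.sum_mul]
    gcongr with ω
    · refine (Finset.sum_le_sum fun j _ => est_up1 hF _ _ _).trans ?_
      rw [← Finset.mul_sum]
      gcongr
      exact le_self_add
    · refine (Finset.sum_le_sum fun j _ => est_up2 hF _ _ _ _).trans ?_
      rw [← Finset.mul_sum]
      gcongr
      exact le_self_add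
    · refine (hWu ω).trans ?_
      gcongr
      exact Finset.sum_le_sum fun j _ => bb_mono F hAA (hh j).le

/-- pointwise gradient bound at a point with an optimal centred ball -/
theorem GB {F g : E → ℝ} {γ : E → ℝ≥0∞} (hF : Measurable F) (hF0 : ∀ y, 0 ≤ F y)
    (hg0 : ∀ y, 0 ≤ g y) {η r : ℝ} (hη : 0 < η) (hH : H1c F g η) (hL : LTl F γ) {x : E}
    (hr : η ≤ r) (hI : I F x r = ENNReal.ofReal (g x) * V E r) :
    ‖fderiv ℝ g x‖ₑ * V E r ≤ ∫⁻ y in ball x (2 * r), γ y := by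
  have hr0 : 0 < r := hη.trans_le hr
  set K := ∫⁻ y in ball x (2 * r), γ y with hK
  by_cases hKt : K = ⊤
  · rw [hKt]; exact le_top
  by_cases hd : DifferentiableAt ℝ g x
  swap
  · rw [fderiv_zero_of_not_differentiableAt hd, ← ofReal_norm, norm_zero, ENNReal.ofReal_zero,
      zero_mul]
    exact zero_le
  have hV := V_toReal_pos (E := E) hr0
  have step : ∀ u : E, ‖u‖ = 1 → ∀ t ∈ Ioo (0 : ℝ) r,
      g x * (V E r).toReal ≤ g (x + t • u) * (V E r).toReal + t * K.toReal := by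
    intro u hu t ht
    have hn : ‖t • u‖ = t := by rw [norm_smul, hu, mul_one, Real.norm_of_nonneg ht.1.le]
    have h1 := hL (t • u) (ball x r) (ball x (2 * r)) measurableSet_ball measurableSet_ball
      (fun y hy s hs => by
        rw [mem_ball, dist_eq_norm] at hy ⊢
        have : ‖s • t • u‖ ≤ t := by
          rw [norm_smul, hn, Real.norm_of_nonneg hs.1]
          exact mul_le_of_le_one_left ht.1.le hs.2
        rw [show y + s • t • u - x = (y - x) + s • t • u by abel]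
        linarith [norm_add_le (y - x) (s • t • u), ht.2])
    have h2 : I F x r ≤ I F (x + t • u) r +
        ∫⁻ y in ball x r, ENNReal.ofReal |F (y + t • u) - F y| := by
      unfold I
      rw [← setLIntegral_ball_add (fun y => ENNReal.ofReal (F y)) x (t • u),
        ← lintegral_add_left (by fun_prop)]
      refine lintegral_mono fun y => ?_
      dsimp only
      rw [← ENNReal.ofReal_add (hF0 _) (abs_nonneg _)]
      exact ENNReal.ofReal_le_ofReal (by linarith [neg_le_abs (F (y + t • u) - F y)])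
    have h3 : ENNReal.ofReal (g x) * V E r ≤
        ENNReal.ofReal (g (x + t • u)) * V E r + ENNReal.ofReal t * K := by
      rw [← hI]
      refine h2.trans (add_le_add (hH _ _ hr) ?_)
      rwa [hn] at h1
    have h4 := ENNReal.toReal_mono (by
      have := V_ne_top (E := E) r
      finiteness) h3
    rwa [ENNReal.toReal_add (ENNReal.mul_ne_top ENNReal.ofReal_ne_top (V_ne_top r))
      (ENNReal.mul_ne_top ENNReal.ofReal_ne_top hKt), ENNReal.toReal_mul, ENNReal.toReal_mul,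
      ENNReal.toReal_mul, ENNReal.toReal_ofReal (hg0 _), ENNReal.toReal_ofReal (hg0 _),
      ENNReal.toReal_ofReal ht.1.le] at h4
  have key : ∀ u : E, ‖u‖ = 1 → - (K.toReal / (V E r).toReal) ≤ fderiv ℝ g x u := by
    intro u hu
    have hl : HasDerivAt (fun t : ℝ => x + t • u) u 0 := by
      simpa using ((hasDerivAt_id (0 : ℝ)).smul_const u).const_add x
    have h1 : HasDerivAt (fun t : ℝ => g (x + t • u)) (fderiv ℝ g x u) 0 :=
      HasFDerivAt.comp_hasDerivAt_of_eq (l := g) 0 hd.hasFDerivAt hl (by simp)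
    refine ge_of_tendsto h1.tendsto_slope_zero_right ?_
    filter_upwards [Ioo_mem_nhdsGT hr0] with t ht
    have h2 := step u hu t ht
    simp only [zero_add, zero_smul, add_zero, smul_eq_mul]
    rw [inv_mul_eq_div, le_div_iff₀ ht.1, ← neg_div, div_mul_eq_mul_div, div_le_iff₀ hV]
    linarith
  have h5 : ‖fderiv ℝ g x‖ ≤ K.toReal / (V E r).toReal := by
    refine ContinuousLinearMap.opNorm_le_of_unit_norm (by positivity) fun u hu => ?_
    rw [Real.norm_eq_abs, abs_le]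
    have := key (-u) (by rw [norm_neg, hu])
    rw [map_neg] at this
    exact ⟨key u hu, by linarith⟩
  rw [le_div_iff₀ hV] at h5
  rw [← ofReal_norm, ← ENNReal.ofReal_toReal (V_ne_top (E := E) r),
    ← ENNReal.ofReal_mul (norm_nonneg _), ← ENNReal.ofReal_toReal hKt]
  exact ENNReal.ofReal_le_ofReal h5

theorem LTl.toLTr {F : E → ℝ} {γ : E → ℝ≥0∞} (hL : LTl F γ) {Bad : Set E}
    (hB : MeasurableSet Bad) : LTr F Bad (∫⁻ y in Bad, γ y) := by
  intro v ρ hv
  refine hL v _ Bad (isClosed_ball_subset Bad ρ).measurableSet hB fun y hy t ht => hy ?_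
  rw [mem_ball, dist_eq_norm, add_sub_cancel_left, norm_smul, Real.norm_of_nonneg ht.1]
  exact (mul_le_of_le_one_left (norm_nonneg v) ht.2).trans_lt hv

end Vale.Agent.P137
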