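import Vale.Agent.P137.CDefs
import Vale.Agent.P137.Gfun
import Vale.Agent.P137.Lim

namespace Vale.Agent.P137

open MeasureTheory Metric Set Filter Topology
open scoped ENNReal RealInnerProductSpace

variable {E : Type*} [NormedAddCommGroup E] [InnerProductSpace ℝ E] [FiniteDimensional ℝ E]
  [MeasurableSpace E] [BorelSpace E]

lemma cgfun_le (F : E → ℝ) {η r : ℝ} (x : E) (hr : η ≤ r) : I F x r / V E r ≤ cE F η x :=
  le_iSup₂_of_le r hr le_rfl

lemma cgfun_le' (F : E → ℝ) {η r : ℝ} (x : E) (hη : 0 < η) (hr : η ≤ r) :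
    I F x r ≤ cE F η x * V E r :=
  (ENNReal.div_le_iff (V_ne_zero (hη.trans_le hr)) (V_ne_top r)).1 (cgfun_le F x hr)

lemma cgfun_ind {F : E → ℝ} {η : ℝ} {x : E} {b : ℝ≥0∞}
    (h : ∀ r, η ≤ r → I F x r / V E r ≤ b) : cE F η x ≤ b :=
  iSup₂_le h

theorem cE_le (F : E → ℝ) {η : ℝ} (x : E) :
    cE F η x ≤ (∫⁻ y, ENNReal.ofReal (F y)) / V E η := by
  exact cgfun_ind fun _ hr => ENNReal.div_le_div (setLIntegral_le_lintegral _ _) (V_mono hr)

theorem cE_ne_top {F : E → ℝ} (hFi : Integrable F) {η : ℝ} (hη : 0 < η) (x : E) :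
    cE F η x ≠ ⊤ := by
  exact ((cE_le F x).trans_lt (ENNReal.div_lt_top hFi.lintegral_lt_top.ne (V_ne_zero hη))).ne

theorem cE_anti (F : E → ℝ) {η η' : ℝ} (h : η ≤ η') (x : E) : cE F η' x ≤ cE F η x := by
  exact cgfun_ind fun _ hr => cgfun_le F x (h.trans hr)

theorem H1c_cR {F : E → ℝ} (hFi : Integrable F) {η : ℝ} (hη : 0 < η) : H1c F (cR F η) η := by
  intro z r hr
  rw [cR, ENNReal.ofReal_toReal (cE_ne_top hFi hη z)]
  exact cgfun_le' F z hη hr

lemma cgfun_cmp (F : E → ℝ) {η : ℝ} (hη : 0 < η) (x y : E) :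
    cE F η x ≤ cE F η y * ENNReal.ofReal ((1 + dist x y / η) ^ Module.finrank ℝ E) := by
  refine cgfun_ind fun r hr => ?_
  have hD := dist_nonneg (x := x) (y := y)
  rw [ENNReal.div_le_iff (V_ne_zero (hη.trans_le hr)) (V_ne_top r), mul_assoc]
  calc I F x r ≤ I F y (r + dist x y) := lintegral_mono_set (ball_subset_ball' le_rfl)
    _ ≤ cE F η y * V E (r + dist x y) := cgfun_le' F y hη (by linarith)
    _ ≤ _ := by
        refine mul_le_mul_right (V_le_of_le_mul (by positivity) ?_) _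
        rw [add_mul, one_mul, div_mul_eq_mul_div, add_le_add_iff_left, le_div_iff₀ hη]
        exact mul_le_mul_of_nonneg_left hr hD

theorem lipschitz_cR {F : E → ℝ} (hFi : Integrable F) {η : ℝ} (hη : 0 < η) :
    ∃ K, LipschitzWith K (cR F η) := by
  have hB := (ENNReal.div_lt_top hFi.lintegral_lt_top.ne (V_ne_zero (E := E) hη)).ne
  refine ⟨_, LipschitzWith.of_le_add_mul' (((∫⁻ y, ENNReal.ofReal (F y)) / V E η).toReal *
    Module.finrank ℝ E / η) fun x y => ?_⟩
  have h := ENNReal.toReal_mono (ENNReal.mul_ne_top (cE_ne_top hFi hη y) ENNReal.ofReal_ne_top)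
    (cgfun_cmp F hη x y)
  rw [ENNReal.toReal_mul, ENNReal.toReal_ofReal (by positivity)] at h
  refine (gfun_real ENNReal.toReal_nonneg (ENNReal.toReal_mono hB (cE_le F x)) (by positivity)
    h).trans (le_of_eq ?_)
  rw [cR]
  ring

theorem measurable_cE {F : E → ℝ} (hFi : Integrable F) {η : ℝ} (hη : 0 < η) :
    Measurable (cE F η) := by
  obtain ⟨K, hK⟩ := lipschitz_cR hFi hη
  have e : cE F η = fun x => ENNReal.ofReal (cR F η x) :=
    funext fun x => (ENNReal.ofReal_toReal (cE_ne_top hFi hη x)).symm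
  rw [e]
  exact hK.continuous.measurable.ennreal_ofReal

theorem opt_of_lt_c [Nontrivial E] {F : E → ℝ} (hFi : Integrable F) {η η' : ℝ} (hη : 0 < η)
    (hη' : η ≤ η') {x : E} (h : cR F η' x < cR F η x) :
    ∃ r, η ≤ r ∧ r ≤ η' ∧ I F x r = ENNReal.ofReal (cR F η x) * V E r := by
  have cV : ContinuousOn (fun r : ℝ => V E r) (Icc η η') := by
    refine ContinuousOn.congr (f := fun r =>
      ENNReal.ofReal (r ^ Module.finrank ℝ E) * V E 1) (Continuous.continuousOn ?_) fun r hr =>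
      Measure.addHaar_ball_of_pos _ _ (hη.trans_le hr.1)
    exact (ENNReal.continuous_mul_const (V_ne_top 1)).comp
      (ENNReal.continuous_ofReal.comp (by fun_prop))
  have cI : Continuous fun r : ℝ => I F x r :=
    (gfun_cont hFi).comp (f := fun r : ℝ => (x, r)) (by fun_prop)
  have cΦ : ContinuousOn (fun r : ℝ => I F x r / V E r) (Icc η η') := fun r hr =>
    ENNReal.Tendsto.div cI.continuousWithinAt
      (Or.inr (V_ne_zero (hη.trans_le hr.1))) (cV r hr) (Or.inl (V_ne_top _))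
  obtain ⟨r, hr, hmax⟩ := isCompact_Icc.exists_isMaxOn (nonempty_Icc.2 hη') cΦ
  have h1 : cE F η' x < cE F η x :=
    (ENNReal.toReal_lt_toReal (cE_ne_top hFi (hη.trans_le hη') x) (cE_ne_top hFi hη x)).1 h
  have h2 : cE F η x ≤ max (I F x r / V E r) (cE F η' x) := cgfun_ind fun s hs => by
    rcases le_total s η' with h3 | h3
    · exact le_max_of_le_left (hmax (a := s) ⟨hs, h3⟩)
    · exact le_max_of_le_right (cgfun_le F x h3)
  have h3 : I F x r / V E r = cE F η x :=
    le_antisymm (cgfun_le F x hr.1) ((le_max_iff.1 h2).resolve_right h1.not_ge)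
  refine ⟨r, hr.1, hr.2, ?_⟩
  rw [cR, ENNReal.ofReal_toReal (cE_ne_top hFi hη x), ← h3,
    ENNReal.div_mul_cancel (V_ne_zero (hη.trans_le hr.1)) (V_ne_top _)]

theorem Mc_eq_iSup {f : E → ℝ} (x : E) :
    Mc f x = ⨆ n : ℕ, cE (fun y => |f y|) ((1 / 2) ^ n) x := by
  have e : Mc f x = ⨆ (r : ℝ) (_ : 0 < r), I (fun y => |f y|) x r / V E r := by
    simp only [Mc, I, Real.enorm_eq_ofReal_abs, vol_ball]
  rw [e]
  refine le_antisymm (iSup₂_le fun r hr => ?_) (iSup_le fun n => cgfun_ind fun r hr =>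
    le_iSup₂_of_le r (lt_of_lt_of_le (by positivity) hr) le_rfl)
  obtain ⟨n, hn⟩ := exists_pow_lt_of_lt_one hr (by norm_num : (1 / 2 : ℝ) < 1)
  exact le_iSup_of_le n (cgfun_le _ x hn.le)

lemma cgfun_half {F : E → ℝ} (hF : Measurable F) {η : ℝ} (hη : 0 < η) (x : E) :
    cE F (η / 2) x ≤ cE F η x + (V E (η / 2))⁻¹ * (V E η)⁻¹ * ∫⁻ y in ball x (2 * η),
      ∫⁻ v in ball (0 : E) (4 * η), ENNReal.ofReal |F (y + v) - F y| := by
  refine cgfun_ind fun r hr => ?_
  rcases le_total η r with h | h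
  · exact le_add_right (cgfun_le F x h)
  have h0 : 0 < r := by linarith
  set Q : E → ℝ≥0∞ := fun y => ∫⁻ v in ball (0 : E) (4 * η), ENNReal.ofReal |F (y + v) - F y|
    with hQ
  have h1 : ∀ y ∈ ball x r, ENNReal.ofReal (F y) ≤ cE F η x + (V E η)⁻¹ * Q y := by
    intro y hy
    have a1 : ENNReal.ofReal (F y) * V E η ≤ cE F η x * V E η + Q y := by
      calc _ = ∫⁻ _ in ball x η, ENNReal.ofReal (F y) := by rw [setLIntegral_const, vol_ball]
        _ ≤ ∫⁻ y' in ball x η, (ENNReal.ofReal (F y') + ENNReal.ofReal |F y' - F y|) :=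
          lintegral_mono fun y' => (ENNReal.ofReal_le_ofReal
            (by linarith [neg_abs_le (F y' - F y)])).trans ENNReal.ofReal_add_le
        _ = I F x η + ∫⁻ y' in ball x η, ENNReal.ofReal |F y' - F y| :=
          lintegral_add_left hF.ennreal_ofReal _
        _ ≤ _ := by
          refine add_le_add (cgfun_le' F x hη le_rfl) ?_
          have a2 := setLIntegral_ball_add (fun y' => ENNReal.ofReal |F y' - F y|) 0 y (4 * η)
          simp only [hQ, add_comm y]
          rw [a2, zero_add]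
          refine lintegral_mono_set (ball_subset_ball' ?_)
          linarith [mem_ball'.1 hy]
    rw [← ENNReal.le_div_iff_mul_le (Or.inl (V_ne_zero hη)) (Or.inl (V_ne_top _)),
      ENNReal.add_div, ENNReal.mul_div_cancel_right (V_ne_zero hη) (V_ne_top _),
      ENNReal.div_eq_inv_mul] at a1
    exact a1
  have h2 : I F x r ≤ cE F η x * V E r + (V E η)⁻¹ * ∫⁻ y in ball x (2 * η), Q y := by
    refine (setLIntegral_mono' measurableSet_ball h1).trans ?_
    rw [lintegral_add_left measurable_const, setLIntegral_const, vol_ball,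
      lintegral_const_mul' _ _ (ENNReal.inv_ne_top.2 (V_ne_zero hη))]
    gcongr
    linarith
  refine (ENNReal.div_le_div_right h2 _).trans ?_
  rw [ENNReal.add_div, ENNReal.mul_div_cancel_right (V_ne_zero h0) (V_ne_top _),
    ENNReal.div_eq_inv_mul, mul_assoc]
  gcongr
  exact V_mono hr

theorem cE_half : ∃ C : ℝ≥0∞, C ≠ ⊤ ∧ ∀ (F : E → ℝ), Measurable F → ∀ M : ℝ≥0∞,
    (∀ v : E, ∫⁻ y, ENNReal.ofReal |F (y + v) - F y| ≤ ENNReal.ofReal ‖v‖ * M) →
    ∀ η : ℝ, 0 < η → ∫⁻ x, (cE F (η / 2) x - cE F η x) ≤ C * ENNReal.ofReal η * M := by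
  obtain ⟨C, hC, -, hV⟩ := exists_V_le (E := E) 4
  refine ⟨C * C * 4, by finiteness, fun F hF M hM η hη => ?_⟩
  have m : Measurable fun p : E × E => ENNReal.ofReal |F (p.1 + p.2) - F p.1| := by fun_prop
  have n1 := V_ne_zero (E := E) (half_pos hη)
  have n2 := V_ne_zero (E := E) hη
  have h1 : ∫⁻ y, ∫⁻ v in ball (0 : E) (4 * η), ENNReal.ofReal |F (y + v) - F y|
      ≤ 4 * ENNReal.ofReal η * M * V E (4 * η) := by
    rw [lintegral_lintegral_swap m.aemeasurable, V, ← setLIntegral_const]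
    refine setLIntegral_mono' measurableSet_ball fun v hv => (hM v).trans (mul_le_mul_left ?_ _)
    rw [← ENNReal.ofReal_ofNat 4, ← ENNReal.ofReal_mul (by norm_num)]
    exact ENNReal.ofReal_le_ofReal (mem_ball_zero_iff.1 hv).le
  refine (lintegral_mono fun x => tsub_le_iff_left.2 (cgfun_half hF hη x)).trans ?_
  rw [lintegral_const_mul' _ _ (by finiteness), gfun_avg m.lintegral_prod_right']
  calc _ ≤ (V E (η / 2))⁻¹ * (V E η)⁻¹ * (C * V E (η / 2) *
        (4 * ENNReal.ofReal η * M * (C * V E η))) := by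
        gcongr
        · exact hV _ _ (by positivity) (by linarith)
        · exact h1.trans (mul_le_mul_right (hV _ _ hη.le le_rfl) _)
    _ = ((V E (η / 2))⁻¹ * V E (η / 2)) * ((V E η)⁻¹ * V E η) *
        (C * C * 4 * ENNReal.ofReal η * M) := by ring
    _ = _ := by
        rw [ENNReal.inv_mul_cancel n1 (V_ne_top _), ENNReal.inv_mul_cancel n2 (V_ne_top _), one_mul,
          one_mul]

/-- sets of small mass outside which all averages of `γ` are bounded -/
theorem exists_BadC {γ : E → ℝ≥0∞} (hγ : Measurable γ) (hfin : ∫⁻ y, γ y ≠ ⊤) :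
    ∃ Bad : ℕ → Set E, (∀ n, MeasurableSet (Bad n)) ∧
      Tendsto (fun n => ∫⁻ y in Bad n, γ y) atTop (𝓝 0) ∧
      ∀ (n : ℕ) (y0 : E), y0 ∉ Bad n → ∀ ρ : ℝ, 0 < ρ →
        ∫⁻ y in ball y0 ρ, γ y ≤ n * V E (2 * ρ) := by
  set Bad : ℕ → Set E := fun n => ⋃ q : ℚ, ⋃ _ : 0 < (q : ℝ),
    {y0 | n * V E q < ∫⁻ y in ball y0 q, γ y} with hB
  have Bm : ∀ n, MeasurableSet (Bad n) := fun n =>
    MeasurableSet.iUnion fun q => MeasurableSet.iUnion fun _ => measurableSet_lt measurable_const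
      (measurable_ball_lintegral (f := fun _ y => γ y) (hγ.comp measurable_snd) measurable_id _)
  have nB : ∀ {n y0}, y0 ∉ Bad n ↔ ∀ q : ℚ, 0 < (q : ℝ) →
      ∫⁻ y in ball y0 q, γ y ≤ n * V E q := by
    simp only [hB, mem_iUnion, mem_ofPred_eq, not_exists, not_lt, implies_true]
  refine ⟨Bad, Bm, lim_set hγ.aemeasurable hfin Bm ?_, fun n y0 hy ρ hρ => ?_⟩
  · have := isFiniteMeasure_withDensity hfin
    filter_upwards [Besicovitch.ae_tendsto_rnDeriv (volume.withDensity γ) (volume : Measure E),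
      Measure.rnDeriv_withDensity (volume : Measure E) hγ, ae_lt_top hγ hfin] with y0 h1 h2 h3
    rw [h2] at h1
    obtain ⟨σ, hσ, h4⟩ := (nhdsGT_basis (0 : ℝ)).eventually_iff.1
      (h1.eventually_lt_const (ENNReal.lt_add_right h3.ne one_ne_zero))
    obtain ⟨N, hN⟩ := ENNReal.exists_nat_gt (r := γ y0 + 1 + (∫⁻ y, γ y) / V E σ)
      (by have := h3.ne; have := V_ne_zero (E := E) hσ; finiteness)
    refine Or.inr ((eventually_ge_atTop N).mono fun n hn => nB.2 fun q hq => ?_)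
    rw [← ENNReal.div_le_iff (V_ne_zero hq) (V_ne_top _)]
    refine le_trans ?_ (hN.le.trans (Nat.cast_le.2 hn))
    rcases lt_or_ge (q : ℝ) σ with h5 | h5
    · have h6 : volume.withDensity γ (closedBall y0 q) / volume (closedBall y0 q) < _ :=
        h4 ⟨hq, h5⟩
      rw [withDensity_apply _ measurableSet_closedBall, Measure.addHaar_closedBall _ _ hq.le,
        ← Measure.addHaar_ball_of_pos _ y0 hq, vol_ball] at h6
      exact le_add_right
        ((ENNReal.div_le_div_right (lintegral_mono_set ball_subset_closedBall) _).trans h6.le)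
    · exact le_add_left (ENNReal.div_le_div (setLIntegral_le_lintegral _ _) (V_mono h5))
  · obtain ⟨q, q1, q2⟩ := exists_rat_btwn (show ρ < 2 * ρ by linarith)
    exact (lintegral_mono_set (ball_subset_ball q1.le)).trans
      ((nB.1 hy q (hρ.trans q1)).trans (mul_le_mul_right (V_mono q2.le) _))

end Vale.Agent.P137
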