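import Vale.Agent.P137.Lim

namespace Vale.Agent.P137

open MeasureTheory Metric Set Filter Topology
open scoped ENNReal RealInnerProductSpace

variable {E : Type*} [NormedAddCommGroup E] [InnerProductSpace ℝ E] [FiniteDimensional ℝ E]
  [MeasurableSpace E] [BorelSpace E]

omit [FiniteDimensional ℝ E] [MeasurableSpace E] [BorelSpace E] in
/-- bounded sequences converge weakly along ultrafilters -/
lemma clim_weak [CompleteSpace E] (U : Ultrafilter ℕ) (a : ℕ → E) (C : ℝ) (h : ∀ n, ‖a n‖ ≤ C) :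
    ∃ w : E, ∀ ψ, Tendsto (fun n => ⟪a n, ψ⟫) U (𝓝 ⟪w, ψ⟫) := by
  obtain ⟨l, -, hl⟩ := (WeakDual.isCompact_closedBall (0 : StrongDual ℝ E) C).ultrafilter_le_nhds
    (U.map fun n => StrongDual.toWeakDual (InnerProductSpace.toDual ℝ E (a n)))
    (le_principal_iff.2 (mem_map.2 (Eventually.of_forall fun n => by simpa using h n)))
  refine ⟨(InnerProductSpace.toDual ℝ E).symm (WeakDual.toStrongDual l), fun ψ => ?_⟩
  rw [InnerProductSpace.toDual_symm_apply]
  exact ((WeakDual.eval_continuous ψ).tendsto l).comp hl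

section

variable {α : Type*} [MeasurableSpace α] {μ : Measure α}

omit [FiniteDimensional ℝ E] [MeasurableSpace E] [BorelSpace E] in
lemma clim_pair (f ψ : α → E) {B : ℝ} (hB : ∀ᵐ x ∂μ, ‖ψ x‖ ≤ B) :
    ‖∫ x, ⟪f x, ψ x⟫ ∂μ‖ₑ ≤ ENNReal.ofReal B * ∫⁻ x, ‖f x‖ₑ ∂μ := by
  rw [← lintegral_const_mul' _ _ ENNReal.ofReal_ne_top]
  refine (enorm_integral_le_lintegral_enorm _).trans (lintegral_mono_ae (hB.mono fun x hx => ?_))
  rw [← ofReal_norm, ← ofReal_norm, ← ENNReal.ofReal_mul ((norm_nonneg _).trans hx), mul_comm]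
  exact ENNReal.ofReal_le_ofReal
    ((norm_inner_le_norm _ _).trans (mul_le_mul_of_nonneg_left hx (norm_nonneg _)))

omit [FiniteDimensional ℝ E] [MeasurableSpace E] [BorelSpace E] in
lemma clim_pair_sub {f f' ψ : α → E} (hf : Integrable f μ) (hf' : Integrable f' μ)
    (hψ : AEStronglyMeasurable ψ μ) {B : ℝ} (hB : ∀ x, ‖ψ x‖ ≤ B) :
    ‖∫ x, ⟪f x, ψ x⟫ ∂μ - ∫ x, ⟪f' x, ψ x⟫ ∂μ‖ₑ ≤
      ENNReal.ofReal B * ∫⁻ x, ‖f x - f' x‖ₑ ∂μ := by
  have h : ∀ {f : α → E}, Integrable f μ → Integrable (fun x => ⟪f x, ψ x⟫) μ := fun hf =>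
    (hf.norm.mul_const B).mono' (hf.1.inner hψ) (Eventually.of_forall fun x =>
      (norm_inner_le_norm _ _).trans (mul_le_mul_of_nonneg_left (hB x) (norm_nonneg _)))
  rw [← integral_sub (h hf) (h hf')]
  simp only [← inner_sub_left]
  exact clim_pair _ _ (Eventually.of_forall hB)

omit [FiniteDimensional ℝ E] [MeasurableSpace E] [BorelSpace E] in
/-- mean bounds pass to weak limits -/
lemma clim_bound {l : Filter ℕ} [l.NeBot] {a : ℕ → Lp E 2 μ} {w : Lp E 2 μ}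
    (h : ∀ ψ, Tendsto (fun n => ⟪a n, ψ⟫) l (𝓝 ⟪w, ψ⟫)) {c : ℝ≥0∞}
    (hc : ∀ n, ∫⁻ x, ‖a n x‖ₑ ∂μ ≤ c) : ∫⁻ x, ‖w x‖ₑ ∂μ ≤ c := by
  have wm := Lp.aestronglyMeasurable w
  have h1 : ∀ δ : ℝ, 0 < δ → ∫⁻ x, ENNReal.ofReal ((‖w x‖ + δ)⁻¹ * ‖w x‖ ^ 2) ∂μ ≤ c := by
    intro δ hδ
    have m : MemLp (fun x => (‖w x‖ + δ)⁻¹ • w x) 2 μ := (Lp.memLp w).of_le_mul (c := δ⁻¹)
      (((wm.norm.aemeasurable.add_const δ).inv).aestronglyMeasurable.smul wm)
      (Eventually.of_forall fun x => by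
        rw [norm_smul, Real.norm_of_nonneg (by positivity)]
        gcongr
        exact le_add_of_nonneg_left (norm_nonneg _))
    have e : (fun x => ⟪w x, m.toLp _ x⟫) =ᵐ[μ] fun x => (‖w x‖ + δ)⁻¹ * ‖w x‖ ^ 2 :=
      m.coeFn_toLp.mono fun x hx => by
        simp only [hx, inner_smul_right, real_inner_self_eq_norm_sq]
    rw [← ofReal_integral_eq_lintegral_ofReal ((L2.integrable_inner w _).congr e)
      (Eventually.of_forall fun x => by positivity), ← integral_congr_ae e, ← L2.inner_def]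
    refine le_trans (Real.ofReal_le_enorm _) (le_of_tendsto' (h _).enorm fun n => ?_)
    rw [L2.inner_def]
    refine (clim_pair _ _ (B := 1) (m.coeFn_toLp.mono fun x hx => ?_)).trans (by simpa using hc n)
    rw [hx, norm_smul, Real.norm_of_nonneg (by positivity), inv_mul_le_one₀ (by positivity)]
    linarith
  have t : ∀ x, Tendsto (fun j : ℕ => ENNReal.ofReal ((‖w x‖ + 1 / ((j : ℝ) + 1))⁻¹ * ‖w x‖ ^ 2))
      atTop (𝓝 ‖w x‖ₑ) := fun x => by
    rw [← ofReal_norm]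
    refine ENNReal.tendsto_ofReal ?_
    rcases (norm_nonneg (w x)).eq_or_lt with h0 | h0
    · simp [← h0]
    · have h2 := ((tendsto_one_div_add_atTop_nhds_zero_nat.const_add ‖w x‖).inv₀
        (by simpa using h0.ne')).mul_const (‖w x‖ ^ 2)
      rwa [add_zero, sq, inv_mul_cancel_left₀ h0.ne', ← sq] at h2
  calc _ = ∫⁻ x, liminf (fun j : ℕ =>
        ENNReal.ofReal ((‖w x‖ + 1 / ((j : ℝ) + 1))⁻¹ * ‖w x‖ ^ 2)) atTop ∂μ :=
        lintegral_congr fun x => (t x).liminf_eq.symm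
    _ ≤ _ := (lintegral_liminf_le' fun j => (((wm.norm.aemeasurable.add_const _).inv).mul
        (wm.norm.aemeasurable.pow_const 2)).ennreal_ofReal).trans
      (liminf_le_of_frequently_le' (Frequently.of_forall fun j => h1 _ (by positivity)))

omit [MeasurableSpace E] [BorelSpace E] in
lemma clim_trunc (a : ℕ → α → E) (ha : ∀ n, Integrable (a n) μ) {M : ℝ≥0∞} (hM : M ≠ ⊤)
    (hb : ∀ n, ∫⁻ x, ‖a n x‖ₑ ∂μ ≤ M) {L : ℝ} (hL : ∀ n x, ‖a n x‖ ≤ L) (hL0 : 0 ≤ L)
    (U : Ultrafilter ℕ) : ∃ (b : ℕ → Lp E 2 μ) (w : Lp E 2 μ), (∀ n, b n =ᵐ[μ] a n) ∧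
      ∀ ψ, Tendsto (fun n => ⟪b n, ψ⟫) U (𝓝 ⟪w, ψ⟫) := by
  have h1 : ∀ n x, ‖a n x‖ ^ 2 ≤ L * ‖a n x‖ := fun n x => by
    rw [sq]
    exact mul_le_mul_of_nonneg_right (hL n x) (norm_nonneg _)
  have i : ∀ n, Integrable (fun x => ‖a n x‖ ^ 2) μ := fun n =>
    ((ha n).norm.const_mul L).mono' ((ha n).1.norm.pow 2) (Eventually.of_forall fun x => by
      rw [Real.norm_of_nonneg (sq_nonneg _)]
      exact h1 n x)
  have m : ∀ n, MemLp (a n) 2 μ := fun n => (memLp_two_iff_integrable_sq_norm (ha n).1).2 (i n)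
  obtain ⟨w, hw⟩ := clim_weak U (fun n => (m n).toLp _) (Real.sqrt (L * M.toReal)) fun n => by
    refine Real.le_sqrt_of_sq_le ?_
    rw [← real_inner_self_eq_norm_sq, L2.inner_def, integral_congr_ae (g := fun x => ‖a n x‖ ^ 2)
      ((m n).coeFn_toLp.mono fun x hx => by simp only [hx, real_inner_self_eq_norm_sq])]
    refine (integral_mono (i n) ((ha n).norm.const_mul L) (h1 n)).trans ?_
    rw [integral_const_mul, integral_norm_eq_lintegral_enorm (ha n).1]
    exact mul_le_mul_of_nonneg_left (ENNReal.toReal_mono hM (hb n)) hL0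
  exact ⟨_, w, fun n => (m n).coeFn_toLp, hw⟩

/-- weak compactness of uniformly integrable sequences -/
lemma clim_dp (H : ℕ → α → E) (Hm : ∀ n, Measurable (H n)) {M : ℝ≥0∞} (hM : M ≠ ⊤)
    (hb : ∀ n, ∫⁻ x, ‖H n x‖ₑ ∂μ ≤ M) (hui : ∀ ε : ℝ≥0∞, 0 < ε → ∃ L : ℝ, ∀ n,
      ∫⁻ x in {x | L < ‖H n x‖}, ‖H n x‖ₑ ∂μ ≤ ε) (U : Ultrafilter ℕ) :
    ∃ W : α → E, Integrable W μ ∧ ∫⁻ x, ‖W x‖ₑ ∂μ ≤ M ∧ ∀ ψ : α → E, MemLp ψ 2 μ → ∀ B : ℝ,
      (∀ x, ‖ψ x‖ ≤ B) →
      Tendsto (fun n => ∫ x, ⟪H n x, ψ x⟫ ∂μ) U (𝓝 (∫ x, ⟪W x, ψ x⟫ ∂μ)) := by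
  have p : ∀ k : ℕ, (0 : ℝ) < 1 / ((k : ℝ) + 1) := fun k => by positivity
  have p0 := tendsto_one_div_add_atTop_nhds_zero_nat (𝕜 := ℝ)
  choose L hL using fun k : ℕ => hui _ (ENNReal.ofReal_pos.2 (p k))
  have Hi : ∀ n, Integrable (H n) μ := fun n =>
    ⟨(Hm n).aestronglyMeasurable, (hb n).trans_lt hM.lt_top⟩
  have Sm : ∀ k n, MeasurableSet {x | L k < ‖H n x‖} := fun k n =>
    measurableSet_lt measurable_const (Hm n).norm
  let T : ℕ → ℕ → α → E := fun k n => {x | L k < ‖H n x‖}ᶜ.indicator (H n)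
  have Ti : ∀ k n, Integrable (T k n) μ := fun k n => (Hi n).indicator (Sm k n).compl
  have Tb : ∀ k n, ∫⁻ x, ‖T k n x‖ₑ ∂μ ≤ M := fun k n => le_trans (lintegral_mono fun x => by
    rw [← ofReal_norm, ← ofReal_norm]
    exact ENNReal.ofReal_le_ofReal (norm_indicator_le_norm_self _ _)) (hb n)
  have Td : ∀ k n, ∫⁻ x, ‖H n x - T k n x‖ₑ ∂μ ≤ ENNReal.ofReal (1 / ((k : ℝ) + 1)) := by
    refine fun k n => le_trans (le_of_eq ?_) (hL k n)
    rw [← lintegral_indicator (Sm k n)]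
    refine lintegral_congr fun x => ?_
    by_cases hx : x ∈ {x | L k < ‖H n x‖}
    · simp only [T, indicator_of_mem hx, indicator_of_notMem (notMem_compl_iff.2 hx), sub_zero]
    · simp only [T, indicator_of_notMem hx, indicator_of_mem (mem_compl hx), sub_self, enorm_zero]
  choose b w hbe hw using fun k => clim_trunc (T k) (Ti k) hM (Tb k) (L := max (L k) 0)
    (fun n x => by
      by_cases hx : x ∈ {x | L k < ‖H n x‖}
      · simp only [T, indicator_of_notMem (notMem_compl_iff.2 hx), norm_zero, le_max_right]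
      · simp only [T, indicator_of_mem (mem_compl hx)]
        exact le_max_of_le_left (not_lt.1 hx)) (le_max_right _ _) U
  have wb : ∀ k, ∫⁻ x, ‖w k x‖ₑ ∂μ ≤ M := fun k => clim_bound (hw k) fun n =>
    (lintegral_congr_ae ((hbe k n).mono fun x hx => congrArg (‖·‖ₑ) hx)).le.trans (Tb k n)
  have wi : ∀ k, Integrable (w k) μ := fun k =>
    ⟨Lp.aestronglyMeasurable _, (wb k).trans_lt hM.lt_top⟩
  have wd : ∀ k j, ∫⁻ x, ‖w k x - w j x‖ₑ ∂μ ≤
      ENNReal.ofReal (1 / ((k : ℝ) + 1)) + ENNReal.ofReal (1 / ((j : ℝ) + 1)) := fun k j => by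
    refine le_trans (lintegral_congr_ae ((Lp.coeFn_sub (w k) (w j)).mono fun x hx =>
      congrArg (‖·‖ₑ) hx)).ge (clim_bound (l := U) (a := fun n => b k n - b j n) (fun ψ => by
        simpa only [inner_sub_left] using (hw k ψ).sub (hw j ψ)) fun n => ?_)
    refine le_trans ?_ (add_le_add (Td k n) (Td j n))
    refine le_trans (lintegral_mono_ae ?_) (lintegral_add_left'
      (f := fun x => ‖H n x - T k n x‖ₑ) ((Hi n).sub (Ti k n)).1.enorm _).le
    filter_upwards [Lp.coeFn_sub (b k n) (b j n), hbe k n, hbe j n] with x h1 h2 h3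
    rw [h1, Pi.sub_apply, h2, h3, enorm_sub_rev (H n x),
      show T k n x - T j n x = (T k n x - H n x) + (H n x - T j n x) by abel]
    exact enorm_add_le _ _
  have c : CauchySeq fun k => (wi k).toL1 _ := by
    refine cauchySeq_of_le_tendsto_0 (fun k : ℕ => 1 / ((k : ℝ) + 1) + 1 / ((k : ℝ) + 1))
      (fun k j N hk hj => ?_) (by simpa only [add_zero] using p0.add p0)
    rw [dist_edist, Integrable.edist_toL1_toL1]
    refine ENNReal.toReal_le_of_le_ofReal (by positivity) ?_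
    simp only [edist_eq_enorm_sub]
    rw [ENNReal.ofReal_add (p N).le (p N).le]
    exact (wd k j).trans (add_le_add (ENNReal.ofReal_le_ofReal (Nat.one_div_le_one_div hk))
      (ENNReal.ofReal_le_ofReal (Nat.one_div_le_one_div hj)))
  obtain ⟨W, hW⟩ := cauchySeq_tendsto_of_complete c
  have t : Tendsto (fun k => ∫⁻ x, ‖w k x - W x‖ₑ ∂μ) atTop (𝓝 0) := by
    have h1 := ENNReal.tendsto_ofReal (tendsto_iff_norm_sub_tendsto_zero.1 hW)
    rw [ENNReal.ofReal_zero] at h1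
    refine h1.congr fun k => (L1.ofReal_norm_sub_eq_lintegral _ _).trans (lintegral_congr_ae ?_)
    exact (wi k).coeFn_toL1.mono fun x hx => by simp only [hx]
  refine ⟨W, L1.integrable_coeFn W, ?_, fun ψ hψ B hB => ?_⟩
  · rw [← L1.ofReal_norm_eq_lintegral]
    refine le_of_tendsto' (ENNReal.tendsto_ofReal hW.norm) fun k => ?_
    rw [L1.ofReal_norm_eq_lintegral]
    exact (lintegral_congr_ae ((wi k).coeFn_toL1.mono fun x hx => congrArg (‖·‖ₑ) hx)).le.trans
      (wb k)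
  refine TendstoUniformly.tendsto_of_eventually_tendsto (p := atTop)
    (F := fun k n => ∫ x, ⟪T k n x, ψ x⟫ ∂μ) (L := fun k => ∫ x, ⟪w k x, ψ x⟫ ∂μ) ?_
    (Eventually.of_forall fun k => ?_) ?_
  · refine EMetric.tendstoUniformly_iff.2 fun ε hε => ?_
    have t1 := ENNReal.Tendsto.const_mul (a := ENNReal.ofReal B)
      (ENNReal.tendsto_ofReal p0)
      (Or.inr ENNReal.ofReal_ne_top)
    rw [ENNReal.ofReal_zero, mul_zero] at t1
    filter_upwards [t1.eventually_lt_const hε] with k hk n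
    rw [edist_eq_enorm_sub]
    exact ((clim_pair_sub (Hi n) (Ti k n) hψ.1 hB).trans (mul_le_mul_right (Td k n) _)).trans_lt hk
  · have h1 := hw k (hψ.toLp _)
    simp only [L2.inner_def] at h1
    rw [integral_congr_ae (g := fun x => ⟪w k x, ψ x⟫)
      (hψ.coeFn_toLp.mono fun x hx => by simp only [hx])] at h1
    refine h1.congr fun n => integral_congr_ae ?_
    filter_upwards [hψ.coeFn_toLp, hbe k n] with x h2 h3
    rw [h2, h3]
  · have t1 := ENNReal.Tendsto.const_mul (a := ENNReal.ofReal B) t (Or.inr ENNReal.ofReal_ne_top)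
    rw [mul_zero] at t1
    refine tendsto_iff_edist_tendsto_0.2 (tendsto_of_tendsto_of_tendsto_of_le_of_le
      tendsto_const_nhds t1 (fun _ => zero_le) fun k => ?_)
    simp only [edist_eq_enorm_sub]
    exact clim_pair_sub (wi k) (L1.integrable_coeFn W) hψ.1 hB

end

/-- passing to the limit under uniform integrability of the gradients -/
theorem limit_grad_ui (g : ℕ → E → ℝ) (u : E → ℝ) (hlip : ∀ n, ∃ K, LipschitzWith K (g n))
    (M : ℝ≥0∞) (hM : M ≠ ⊤) (hb : ∀ n, ∫⁻ x, ‖fderiv ℝ (g n) x‖ₑ ≤ M)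
    (hui : ∀ ε : ℝ≥0∞, 0 < ε → ∃ L : ℝ, ∀ n,
      ∫⁻ x in {x | L < ‖fderiv ℝ (g n) x‖}, ‖fderiv ℝ (g n) x‖ₑ ≤ ε)
    (hu : AEStronglyMeasurable u volume)
    (hconv : Tendsto (fun n => ∫⁻ x, ‖u x - g n x‖ₑ) atTop (𝓝 0)) :
    LocallyIntegrable u volume ∧
      ∃ H : E → E, Integrable H ∧ IsWeakGrad u H ∧ ∫⁻ x, ‖H x‖ₑ ≤ M := by
  have gc : ∀ n, Continuous (g n) := fun n => (hlip n).elim fun K h => h.continuous
  have hn : ∀ T : E →L[ℝ] ℝ, ‖(InnerProductSpace.toDual ℝ E).symm T‖ₑ = ‖T‖ₑ := fun T =>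
    LinearIsometryEquiv.enorm_map _ _
  obtain ⟨W, Wi, Wb, hW⟩ := clim_dp (μ := volume)
    (fun n x => (InnerProductSpace.toDual ℝ E).symm (fderiv ℝ (g n) x))
    (fun n => (InnerProductSpace.toDual ℝ E).symm.continuous.measurable.comp
      (measurable_fderiv ℝ (g n))) hM (by simpa only [hn] using hb)
    (by simpa only [hn, LinearIsometryEquiv.norm_map] using hui) (Ultrafilter.of atTop)
  refine ⟨?_, W, Wi, fun φ hφ hc v => ?_, Wb⟩
  · obtain ⟨n, hn⟩ := (hconv.eventually (gt_mem_nhds ENNReal.zero_lt_top)).exists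
    have i : Integrable fun x => u x - g n x := ⟨hu.sub (gc n).aestronglyMeasurable, hn⟩
    have := i.locallyIntegrable.add (gc n).locallyIntegrable
    refine (show u = _ from funext fun x => ?_) ▸ this
    simp
  have cD : Continuous fun y => fderiv ℝ φ y v :=
    (hφ.continuous_fderiv (by simp)).clm_apply continuous_const
  have sD := hc.fderiv_apply ℝ v
  obtain ⟨B', hB'⟩ := cD.bounded_above_of_compact_support sD
  obtain ⟨K', hK'⟩ := ContDiff.lipschitzWith_of_hasCompactSupport hc hφ (by simp)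
  have e : ∀ n, ∫ x, g n x * fderiv ℝ φ x v = -∫ x, fderiv ℝ (g n) x v * φ x := fun n => by
    obtain ⟨K, hK⟩ := hlip n
    have h1 := hK.integral_lineDeriv_mul_eq (μ := volume) hK' hc v
    simp only [(hφ.differentiable (by simp) _).lineDeriv_eq_fderiv, map_neg, neg_mul,
      integral_neg] at h1
    have h2 : ∫ x, fderiv ℝ (g n) x v * φ x = ∫ x, lineDeriv ℝ (g n) x v * φ x :=
      integral_congr_ae (hK.ae_differentiableAt.mono fun x hx => by
        simp only [hx.lineDeriv_eq_fderiv])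
    rw [h2, h1, neg_neg]
    simp only [mul_comm]
  have t1 := lim_mul (B := B') (hu.mul cD.aestronglyMeasurable) (fun n =>
    ((gc n).mul cD).integrable_of_hasCompactSupport sD.mul_left) (fun n x => by
      rw [← sub_mul, enorm_mul, mul_comm, enorm_sub_rev, ← ofReal_norm (fderiv ℝ φ x v)]
      exact mul_le_mul_left (ENNReal.ofReal_le_ofReal (hB' x)) _) hconv
  have cψ : Continuous fun x => φ x • v := hφ.continuous.smul continuous_const
  have sψ : HasCompactSupport fun x => φ x • v := hc.smul_right (f' := fun _ => v)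
  obtain ⟨B, hB⟩ := cψ.bounded_above_of_compact_support sψ
  have t2 := hW _ (cψ.memLp_of_hasCompactSupport sψ) B hB
  simp only [inner_smul_right, InnerProductSpace.toDual_symm_apply, mul_comm (φ _)] at t2
  exact tendsto_nhds_unique ((t1.congr e).mono_left (Ultrafilter.of_le atTop)) t2.neg

end Vale.Agent.P137
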