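import Vale.Agent.P137.Est
import Vale.Agent.P137.Pat2
import Vale.Agent.P137.BadSet
import Vale.Agent.P137.Gfun
import Vale.Agent.P137.Lim

namespace Vale.Agent.P137

open MeasureTheory Metric Set Filter Topology
open scoped ENNReal RealInnerProductSpace

lemma fin_flip (φ : ℝ → ℝ≥0∞) (t : ℝ) (J : ℕ) :
    ∑ j ∈ Finset.range (J + 1), φ (2 ^ j * (t * (1 / 2) ^ J)) =
      ∑ i ∈ Finset.range (J + 1), φ (t * (1 / 2) ^ i) := by
  rw [← Finset.sum_flip (fun i => φ (t * (1 / 2) ^ i))]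
  refine Finset.sum_congr rfl fun j hj => ?_
  obtain ⟨k, rfl⟩ := Nat.exists_eq_add_of_le (Nat.lt_succ_iff.1 (Finset.mem_range.1 hj))
  rw [Nat.add_sub_cancel_left, pow_add]
  congr 1
  simp only [one_div, inv_pow]
  field_simp

lemma fin_tel {a : ℕ → ℝ≥0∞} (h : Monotone a) (n : ℕ) :
    ⨆ m, a m ≤ a n + ∑' k, (a (k + n + 1) - a (k + n)) := by
  have h1 : ∀ j, a (j + n) ≤ a n + ∑ k ∈ Finset.range j, (a (k + n + 1) - a (k + n)) := by
    intro j
    induction j with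
    | zero => simp
    | succ j ih =>
      rw [Finset.sum_range_succ, ← add_assoc, Nat.add_right_comm]
      exact le_add_tsub.trans (add_le_add ih le_rfl)
  exact iSup_le fun m => (h (Nat.le_add_right m n)).trans
    ((h1 m).trans (add_le_add le_rfl (ENNReal.sum_le_tsum _)))

variable {E : Type*} [NormedAddCommGroup E] [InnerProductSpace ℝ E] [FiniteDimensional ℝ E]
  [MeasurableSpace E] [BorelSpace E]

lemma fin_anti {F : E → ℝ} (hFi : Integrable F) {η η' : ℝ} (hη : 0 < η) (h : η ≤ η') (x : E) :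
    gR F η' x ≤ gR F η x := ENNReal.toReal_mono (gE_ne_top hFi hη x) (gE_anti F h x)

lemma fin_cont {F : E → ℝ} (hFi : Integrable F) {η : ℝ} (hη : 0 < η) : Continuous (gR F η) :=
  (lipschitz_gR hFi hη).elim fun _ h => h.continuous

lemma fin_zero [Nontrivial E] {F : E → ℝ} (hFi : Integrable F) {η : ℝ} (hη : 0 < η) {x : E}
    (h : ∀ j : ℕ, gR F η x ≤ gR F (2 ^ j * η) x) : fderiv ℝ (gR F η) x = 0 := by
  have h0 : gE F η x = 0 := by
    by_contra h0
    obtain ⟨n, hn⟩ := ENNReal.exists_nat_mul_gt (mul_ne_zero h0 (V_ne_zero (E := E) hη))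
      hFi.lintegral_lt_top.ne
    have hp : 0 < 2 ^ n * η := by positivity
    have h1 := ((ENNReal.toReal_le_toReal (gE_ne_top hFi hη x) (gE_ne_top hFi hp x)).1
      (h n)).trans (gE_le F x)
    rw [ENNReal.le_div_iff_mul_le (Or.inl (V_ne_zero hp)) (Or.inl (V_ne_top _)),
      V_mul (by positivity)] at h1
    refine hn.not_ge (le_trans ?_ h1)
    rw [mul_left_comm, ← ENNReal.ofReal_natCast]
    refine mul_le_mul_right (mul_le_mul_left (ENNReal.ofReal_le_ofReal ?_) _) _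
    refine le_trans ?_ (le_self_pow₀ (one_le_pow₀ one_le_two) Module.finrank_pos.ne')
    exact_mod_cast Nat.lt_two_pow_self.le
  refine IsLocalMin.fderiv_eq_zero (Eventually.of_forall fun y => ?_)
  rw [gR, h0]
  exact ENNReal.toReal_nonneg

lemma fin_conv {f : E → ℝ} (hf : Measurable f) (hfi : Integrable f) {M : ℝ≥0∞} (hM : M ≠ ⊤)
    (hT : ∀ v : E, ∫⁻ y, ENNReal.ofReal |(|f (y + v)| - |f y|)| ≤ ENNReal.ofReal ‖v‖ * M) :
    (∀ᵐ x, Mt f x < ⊤) ∧ Measurable (Mt f) ∧ Tendsto (fun n : ℕ =>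
      ∫⁻ x, ‖(Mt f x).toReal - gR (fun y => |f y|) ((1 / 2) ^ n) x‖ₑ) atTop (𝓝 0) := by
  obtain ⟨C, hC, h⟩ := gE_half (E := E)
  set F : E → ℝ := fun y => |f y| with hF
  have Fi : Integrable F := hfi.abs
  have p : ∀ n : ℕ, (0 : ℝ) < (1 / 2) ^ n := fun n => by positivity
  have gm := fun n => measurable_gE Fi (p n)
  have mono : ∀ x, Monotone fun n : ℕ => gE F ((1 / 2) ^ n) x := fun x m n h =>
    gE_anti F (pow_le_pow_of_le_one (by norm_num) (by norm_num) h) x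
  set D : ℕ → E → ℝ≥0∞ := fun n x =>
    ∑' k, (gE F ((1 / 2) ^ (k + n + 1)) x - gE F ((1 / 2) ^ (k + n)) x) with hD
  have h1 : ∀ n x, Mt f x ≤ gE F ((1 / 2) ^ n) x + D n x := fun n x => by
    rw [Mt_eq_iSup]; exact fin_tel (mono x) n
  have h2 : ∀ n, ∫⁻ x, D n x ≤ ∑' k, C * ENNReal.ofReal ((1 / 2) ^ (k + n)) * M := fun n => by
    refine (lintegral_tsum fun k => ((gm (k + n + 1)).sub (gm (k + n))).aemeasurable).le.trans ?_
    refine ENNReal.tsum_le_tsum fun k => le_trans (le_of_eq ?_) (h F hf.abs M hT _ (p _))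
    rw [pow_succ, mul_one_div]
    rfl
  have h3 : ∑' k, C * ENNReal.ofReal ((1 / 2) ^ k) * M ≠ ⊤ := by
    rw [ENNReal.tsum_mul_right, ENNReal.tsum_mul_left,
      ← ENNReal.ofReal_tsum_of_nonneg (fun k => (p k).le) summable_geometric_two]
    finiteness
  have h4 : ∀ᵐ x, Mt f x < ⊤ := by
    have := ae_lt_top (Measurable.tsum fun k => (gm (k + 0 + 1)).sub (gm (k + 0)))
      (ne_top_of_le_ne_top h3 (h2 0))
    filter_upwards [this] with x hx
    exact (h1 0 x).trans_lt (ENNReal.add_lt_top.2 ⟨(gE_ne_top Fi (p 0) x).lt_top, hx⟩)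
  refine ⟨h4, ?_, tendsto_of_tendsto_of_tendsto_of_le_of_le tendsto_const_nhds
    (ENNReal.tendsto_sum_nat_add _ h3) (fun _ => zero_le) fun n => le_trans ?_ (h2 n)⟩
  · rw [show Mt f = _ from funext Mt_eq_iSup]
    exact Measurable.iSup gm
  · refine lintegral_mono_ae (h4.mono fun x hx => ?_)
    have h5 : gE F ((1 / 2) ^ n) x ≤ Mt f x := by
      rw [Mt_eq_iSup]; exact le_iSup (fun n : ℕ => gE F ((1 / 2) ^ n) x) n
    rw [gR, ← ENNReal.toReal_sub_of_le h5 hx.ne, Real.enorm_eq_ofReal ENNReal.toReal_nonneg]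
    exact ENNReal.ofReal_toReal_le.trans (tsub_le_iff_left.2 (h1 n x))

lemma fin_meas [Nontrivial E] : ∃ C : ℝ≥0∞, C ≠ ⊤ ∧ ∀ (f : E → ℝ) (G : E → E), Measurable f →
    Measurable G → Integrable f → Integrable G → IsWeakGrad f G → (∀ᵐ x, Mt f x < ⊤) ∧
      LocallyIntegrable (fun x => (Mt f x).toReal) volume ∧ ∃ H : E → E, Integrable H ∧
        IsWeakGrad (fun x => (Mt f x).toReal) H ∧ ∫⁻ x, ‖H x‖ₑ ≤ C * ∫⁻ x, ‖G x‖ₑ := by
  obtain ⟨A, K, C, hA, hC, hE⟩ := EST (E := E)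
  obtain ⟨C1, hC1, hS⟩ := sum_bb (E := E) A hA
  obtain ⟨c, hc⟩ := pow_unbounded_of_one_lt K (one_lt_two (α := ℝ))
  refine ⟨C * (C1 + 1), by finiteness, fun f G hf hG hfi hGi hw => ?_⟩
  set F : E → ℝ := fun y => |f y| with hF
  set M := ∫⁻ x, ‖G x‖ₑ with hM
  have hM' : M ≠ ⊤ := hGi.2.ne
  have Fi : Integrable F := hfi.abs
  have Fm : Measurable F := hf.abs
  have p : ∀ n : ℕ, (0 : ℝ) < (1 / 2) ^ n := fun n => by positivity
  have hU := LTr_abs hf hG hfi hGi hw MeasurableSet.univ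
  rw [Measure.restrict_univ] at hU
  have hT : ∀ v : E, ∫⁻ y, ENNReal.ofReal |F (y + v) - F y| ≤ ENNReal.ofReal ‖v‖ * M := fun v => by
    simpa using hU v _ (lt_add_one _)
  have hX : ∀ {η η' : ℝ}, 0 < η → η ≤ η' → MeasurableSet {x | gR F η' x < gR F η x} :=
    fun h h' => measurableSet_lt (fin_cont Fi (h.trans_le h')).measurable (fin_cont Fi h).measurable
  have hb : ∀ η : ℝ, 0 < η → ∫⁻ x, ‖fderiv ℝ (gR F η) x‖ₑ ≤ C * (C1 + 1) * M := by
    intro η hη
    have l : ∀ j : ℕ, η ≤ 2 ^ j * η := fun j =>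
      le_mul_of_one_le_left hη.le (one_le_pow₀ one_le_two)
    have mono : Monotone fun j : ℕ => {x | gR F (2 ^ j * η) x < gR F η x} := fun i j h x hx =>
      lt_of_le_of_lt (fin_anti Fi (by positivity) (by gcongr; norm_num) x) hx
    rw [← setLIntegral_eq_of_support_subset (s := ⋃ j : ℕ, {x | gR F (2 ^ j * η) x < gR F η x})
      fun x hx => by_contra fun h => hx (by
        rw [fin_zero Fi hη fun j => not_lt.1 fun h' => h (mem_iUnion.2 ⟨j, h'⟩), ← ofReal_norm,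
          norm_zero, ENNReal.ofReal_zero]),
      setLIntegral_iUnion_of_directed _ mono.directed_le]
    refine iSup_le fun j => (hE F _ univ M η (2 ^ j * η) (j + c) _ Fm (fun _ => abs_nonneg _)
      (fin_cont Fi hη) (fun _ => ENNReal.toReal_nonneg) hη ?_ (H1_gR Fi hη)
      (fun _ h => absurd (mem_univ _) h) hU (hX hη (l j))
      fun x hx => opt_of_lt Fi hη (l j) hx).trans ?_
    · rw [pow_add, mul_comm _ (2 ^ c), mul_assoc]
      gcongr
    · rw [mul_assoc, add_mul, one_mul]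
      gcongr
      exact hS F Fm M hT η hη _
  obtain ⟨Bad, Bm, Bt, hB⟩ := exists_Bad hf hG hfi hGi hw A hA
  have hfin : ∑' i, bb F A (2 ^ c * (1 / 2) ^ i) ≠ ⊤ := by
    refine ne_top_of_le_ne_top (ENNReal.mul_ne_top hC1 hM') ?_
    rw [ENNReal.tsum_eq_iSup_nat]
    refine iSup_le fun J => (Finset.sum_le_sum_of_subset (Finset.range_mono J.le_succ)).trans ?_
    rw [← fin_flip (bb F A)]
    exact hS F Fm M hT _ (by positivity) _
  have hε := ENNReal.Tendsto.const_mul (a := C)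
    ((ENNReal.tendsto_sum_nat_add _ hfin).add Bt) (Or.inr hC)
  rw [add_zero, mul_zero] at hε
  obtain ⟨h1, h2, h3⟩ := fin_conv hf hfi hM' hT
  refine ⟨h1, limit_grad (fun n => gR F ((1 / 2) ^ n)) _ (fun n => lipschitz_gR Fi (p n))
    (fun x m n h => fin_anti Fi (p n) (pow_le_pow_of_le_one (by norm_num) (by norm_num) h) x) _
    (by finiteness) (fun n => hb _ (p n)) _ hε (fun m n h => ?_)
    h2.ennreal_toReal.aestronglyMeasurable h3⟩
  obtain ⟨k, rfl⟩ := Nat.exists_eq_add_of_le h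
  have l : ((1 : ℝ) / 2) ^ (m + k) ≤ (1 / 2) ^ m :=
    pow_le_pow_of_le_one (by norm_num) (by norm_num) h
  have e : ((1 : ℝ) / 2) ^ (m + k) = 2 ^ c * (1 / 2) ^ m * (1 / 2) ^ (k + c) := by
    simp only [pow_add, one_div, inv_pow]
    field_simp
  refine (hE F _ (Bad m) _ _ ((1 / 2) ^ m) (k + c) _ Fm (fun _ => abs_nonneg _)
    (fin_cont Fi (p _)) (fun _ => ENNReal.toReal_nonneg) (p _) ?_ (H1_gR Fi (p _))
    (hB m _ _ (p _) (fun _ => ENNReal.toReal_nonneg) (H1_gR Fi (p _)))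
    (LTr_abs hf hG hfi hGi hw (Bm m)) (hX (p _) l) fun x hx => opt_of_lt Fi (p _) l hx).trans ?_
  · calc K * (1 / 2) ^ m ≤ 2 ^ c * (1 / 2) ^ m := by gcongr
      _ = _ := by
        simp only [pow_add, one_div, inv_pow]
        field_simp
  · rw [e, fin_flip (bb F A)]
    gcongr
    refine le_trans (le_of_eq (Finset.sum_congr rfl fun i _ => ?_)) (ENNReal.sum_le_tsum _)
    rw [pow_add, mul_assoc, mul_comm (_ ^ m)]

theorem main [Nontrivial E] : ∃ C : ℝ, ∀ (f : E → ℝ) (G : E → E), Integrable f → Integrable G →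
    IsWeakGrad f G → (∀ᵐ x, Mt f x < ⊤) ∧ LocallyIntegrable (fun x => (Mt f x).toReal) volume ∧
      ∃ H : E → E, Integrable H ∧ IsWeakGrad (fun x => (Mt f x).toReal) H ∧
        ∫ x, ‖H x‖ ≤ C * ∫ x, ‖G x‖ := by
  obtain ⟨C, hC, h⟩ := fin_meas (E := E)
  refine ⟨C.toReal, fun f G hf hG hw => ?_⟩
  have ef := hf.1.ae_eq_mk
  have eG := hG.1.ae_eq_mk
  have e : Mt f = Mt (hf.1.mk f) := funext fun x => by
    have : ∀ c r, ∫⁻ y in ball c r, ‖f y‖ₑ = ∫⁻ y in ball c r, ‖hf.1.mk f y‖ₑ := fun c r =>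
      lintegral_congr_ae (ae_restrict_of_ae (ef.mono fun y hy => by simp only [hy]))
    simp only [Mt, this]
  obtain ⟨h1, h2, H, h3, h4, h5⟩ := h _ _ hf.1.measurable_mk hG.1.measurable_mk (hf.congr ef)
    (hG.congr eG) fun φ hφ hc v => by
      rw [← integral_congr_ae (f := fun x => f x * fderiv ℝ φ x v)
        (ef.mono fun y hy => by simp only [hy]), hw φ hφ hc v]
      exact congrArg _ (integral_congr_ae (eG.mono fun y hy => by simp only [hy]))
  rw [e]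
  refine ⟨h1, h2, H, h3, h4, ?_⟩
  rw [integral_norm_eq_lintegral_enorm h3.1, integral_norm_eq_lintegral_enorm hG.1,
    ← ENNReal.toReal_mul, lintegral_congr_ae (eG.mono fun y hy => congrArg (‖·‖ₑ) hy)]
  exact ENNReal.toReal_mono (ENNReal.mul_ne_top hC (hG.congr eG).2.ne) h5

end Vale.Agent.P137
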