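import Vale.Agent.P137.Defs

namespace Vale.Agent.P137

open MeasureTheory Metric Set Filter Topology
open scoped ENNReal RealInnerProductSpace ContDiff

variable {E : Type*} [NormedAddCommGroup E] [InnerProductSpace ℝ E] [FiniteDimensional ℝ E]
  [MeasurableSpace E] [BorelSpace E]

lemma sob_prod {h : E → ℝ} (hm : Measurable h) (hi : Integrable h) (v : E) :
    Integrable (fun p : E × ℝ => h (p.1 + p.2 • v))
      ((volume : Measure E).prod (volume.restrict (Ioc (0 : ℝ) 1))) := by
  have m : Measurable fun p : E × ℝ => h (p.1 + p.2 • v) := hm.comp (by fun_prop)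
  refine (integrable_prod_iff' m.aestronglyMeasurable).2
    ⟨Eventually.of_forall fun t => hi.comp_add_right (t • v), ?_⟩
  have e : (fun t : ℝ => ∫ y, ‖h (y + t • v)‖) = fun _ => ∫ y, ‖h y‖ :=
    funext fun t => integral_add_right_eq_self (fun y => ‖h y‖) _
  exact e ▸ integrable_const _

omit [FiniteDimensional ℝ E] [MeasurableSpace E] [BorelSpace E] in
lemma sob_ftc {φ : E → ℝ} (hφ : ContDiff ℝ ∞ φ) (y v : E) :
    ∫ t in Ioc (0 : ℝ) 1, fderiv ℝ φ (y - t • v) v = φ y - φ (y - v) := by
  have hd : ∀ t : ℝ, HasDerivAt (fun t : ℝ => -φ (y - t • v)) (fderiv ℝ φ (y - t • v) v) t := by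
    intro t
    have h1 : HasDerivAt (fun s : ℝ => y - s • v) (-v) t := by
      simpa using ((hasDerivAt_id t).smul_const v).const_sub y
    have h2 := ((hφ.differentiable (by simp) _).hasFDerivAt.comp_hasDerivAt t h1).fun_neg
    simpa using h2
  have hc : Continuous fun t : ℝ => fderiv ℝ φ (y - t • v) v :=
    ((hφ.continuous_fderiv (by simp)).comp (by fun_prop)).clm_apply continuous_const
  rw [← intervalIntegral.integral_of_le zero_le_one,
    intervalIntegral.integral_eq_sub_of_hasDerivAt (fun t _ => hd t) (hc.intervalIntegrable _ _)]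
  simp
  ring

lemma sob_ae {f : E → ℝ} {G : E → E} (hG : Measurable G) (hfi : Integrable f)
    (hGi : Integrable G) (hw : IsWeakGrad f G) (v : E) :
    ∀ᵐ y, f (y + v) - f y = ∫ t in Ioc (0 : ℝ) 1, ⟪G (y + t • v), v⟫ := by
  have hP := sob_prod (h := fun y => ⟪G y, v⟫) (hG.inner measurable_const) (hGi.inner_const v) v
  refine ae_eq_of_integral_contDiff_smul_eq ((hfi.comp_add_right v).sub hfi).locallyIntegrable
    hP.integral_prod_left.locallyIntegrable fun φ hφ hs => ?_
  obtain ⟨B, hB⟩ := hφ.continuous.bounded_above_of_compact_support hs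
  have cD : Continuous fun y => fderiv ℝ φ y v :=
    (hφ.continuous_fderiv (by simp)).clm_apply continuous_const
  obtain ⟨B', hB'⟩ := cD.bounded_above_of_compact_support (hs.fderiv_apply ℝ v)
  have i1 : Integrable (Function.uncurry fun (y : E) (t : ℝ) => φ y * ⟪G (y + t • v), v⟫)
      ((volume : Measure E).prod (volume.restrict (Ioc (0 : ℝ) 1))) :=
    hP.bdd_mul (hφ.continuous.comp continuous_fst).aestronglyMeasurable
      (Eventually.of_forall fun p => hB p.1)
  have i2 : Integrable (Function.uncurry fun (y : E) (t : ℝ) => f y * fderiv ℝ φ (y - t • v) v)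
      ((volume : Measure E).prod (volume.restrict (Ioc (0 : ℝ) 1))) :=
    (hfi.comp_fst _).mul_bdd (cD.comp (by fun_prop)).aestronglyMeasurable
      (Eventually.of_forall fun p => hB' _)
  have e1 : ∀ t : ℝ, ∫ y, φ y * ⟪G (y + t • v), v⟫ = -∫ y, f y * fderiv ℝ φ (y - t • v) v := by
    intro t
    have h := hw (fun y => φ (y - t • v)) (hφ.comp (contDiff_id.sub contDiff_const))
      (hs.comp_homeomorph (Homeomorph.subRight (t • v))) v
    simp only [fderiv_comp_sub] at h
    rw [h, neg_neg, ← integral_add_right_eq_self (fun y => ⟪G y, v⟫ * φ (y - t • v)) (t • v)]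
    simp only [add_sub_cancel_right, mul_comm]
  have j1 : Integrable fun y => f y * φ y :=
    hfi.mul_bdd hφ.continuous.aestronglyMeasurable (Eventually.of_forall hB)
  have j2 : Integrable fun y => f y * φ (y - v) :=
    hfi.mul_bdd (hφ.continuous.comp (by fun_prop)).aestronglyMeasurable
      (Eventually.of_forall fun y => hB _)
  simp only [smul_eq_mul, ← integral_const_mul]
  rw [integral_integral_swap i1]
  simp only [e1]
  rw [integral_neg, ← integral_integral_swap i2]
  simp only [integral_const_mul, sob_ftc hφ, mul_sub]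
  rw [integral_sub j1 j2, ← integral_add_right_eq_self (fun y => f y * φ (y - v)) v, neg_sub,
    ← integral_sub (j2.comp_add_right v) j1]
  simp only [add_sub_cancel_right, mul_comm]

/-- translation estimate for Sobolev functions after subtracting a linear function -/
theorem LT0 {f : E → ℝ} {G : E → E} (hf : Measurable f) (hG : Measurable G) (hfi : Integrable f)
    (hGi : Integrable G) (hw : IsWeakGrad f G) (G0 v : E) {U U' : Set E} (hU : MeasurableSet U)
    (hU' : MeasurableSet U') (h : ∀ y ∈ U, ∀ t ∈ Icc (0 : ℝ) 1, y + t • v ∈ U') :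
    ∫⁻ y in U, ENNReal.ofReal |f (y + v) - f y - ⟪G0, v⟫| ≤
      ENNReal.ofReal ‖v‖ * ∫⁻ y in U', ‖G y - G0‖ₑ := by
  have _ := hf
  have hP := sob_prod (h := fun y => ⟪G y, v⟫) (hG.inner measurable_const) (hGi.inner_const v) v
  have m : Measurable fun p : E × ℝ => ‖G (p.1 + p.2 • v) - G0‖ₑ :=
    ((hG.comp (by fun_prop)).sub measurable_const).enorm
  calc _ ≤ ∫⁻ y in U, ENNReal.ofReal ‖v‖ * ∫⁻ t in Ioc (0 : ℝ) 1, ‖G (y + t • v) - G0‖ₑ := by
        refine lintegral_mono_ae (ae_restrict_of_ae ?_)
        filter_upwards [sob_ae hG hfi hGi hw v, hP.prod_right_ae] with y h1 h2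
        have e : f (y + v) - f y - ⟪G0, v⟫ = ∫ t in Ioc (0 : ℝ) 1, ⟪G (y + t • v) - G0, v⟫ := by
          simp only [inner_sub_left]
          rw [integral_sub h2 (integrable_const _), h1]
          simp
        rw [e, ← Real.enorm_eq_ofReal_abs, ← lintegral_const_mul' _ _ ENNReal.ofReal_ne_top]
        refine (enorm_integral_le_lintegral_enorm _).trans (lintegral_mono fun t => ?_)
        rw [← ofReal_norm, ← ofReal_norm, ← ENNReal.ofReal_mul (norm_nonneg _),
          mul_comm]
        exact ENNReal.ofReal_le_ofReal (norm_inner_le_norm _ _)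
    _ = ENNReal.ofReal ‖v‖ * ∫⁻ t in Ioc (0 : ℝ) 1, ∫⁻ y in U, ‖G (y + t • v) - G0‖ₑ := by
        rw [lintegral_const_mul' _ _ ENNReal.ofReal_ne_top,
          lintegral_lintegral_swap m.aemeasurable]
    _ ≤ ENNReal.ofReal ‖v‖ * ∫⁻ _ in Ioc (0 : ℝ) 1, ∫⁻ y in U', ‖G y - G0‖ₑ := by
        refine mul_le_mul_right (setLIntegral_mono' measurableSet_Ioc fun t ht => ?_) _
        exact setLIntegral_add_le (fun y => ‖G y - G0‖ₑ) hU hU' _
          fun y hy => h y hy t (Ioc_subset_Icc_self ht)
    _ = _ := by simp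

theorem LTr_abs {f : E → ℝ} {G : E → E} (hf : Measurable f) (hG : Measurable G)
    (hfi : Integrable f) (hGi : Integrable G) (hw : IsWeakGrad f G) {Bad : Set E}
    (hB : MeasurableSet Bad) : LTr (fun y => |f y|) Bad (∫⁻ y in Bad, ‖G y‖ₑ) := by
  intro v ρ hv
  have h := LT0 hf hG hfi hGi hw 0 v (isClosed_ball_subset Bad ρ).measurableSet hB
    fun y hy t ht => hy (by
      rw [mem_ball_iff_norm, add_sub_cancel_left, norm_smul, Real.norm_eq_abs, abs_of_nonneg ht.1]
      exact (mul_le_of_le_one_left (norm_nonneg v) ht.2).trans_lt hv)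
  simp only [inner_zero_left, sub_zero] at h
  exact le_trans (lintegral_mono fun y =>
    ENNReal.ofReal_le_ofReal (abs_abs_sub_abs_le_abs_sub _ _)) h

end Vale.Agent.P137
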