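import Vale.Agent.P137.CEst
import Vale.Agent.P137.CGfun
import Vale.Agent.P137.CLim
import Vale.Agent.P137.Sob
import Vale.Agent.P137.Final

namespace Vale.Agent.P137

open MeasureTheory Metric Set Filter Topology
open scoped ENNReal RealInnerProductSpace

variable {E : Type*} [NormedAddCommGroup E] [InnerProductSpace ℝ E] [FiniteDimensional ℝ E]
  [MeasurableSpace E] [BorelSpace E]

lemma cfin_anti {F : E → ℝ} (hFi : Integrable F) {η η' : ℝ} (hη : 0 < η) (h : η ≤ η') (x : E) :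
    cR F η' x ≤ cR F η x := ENNReal.toReal_mono (cE_ne_top hFi hη x) (cE_anti F h x)

lemma cfin_cont {F : E → ℝ} (hFi : Integrable F) {η : ℝ} (hη : 0 < η) : Continuous (cR F η) :=
  (lipschitz_cR hFi hη).elim fun _ h => h.continuous

lemma cfin_zero [Nontrivial E] {F : E → ℝ} (hFi : Integrable F) {η : ℝ} (hη : 0 < η) {x : E}
    (h : ∀ j : ℕ, cR F η x ≤ cR F (2 ^ j * η) x) : fderiv ℝ (cR F η) x = 0 := by
  have h0 : cE F η x = 0 := by
    by_contra h0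
    obtain ⟨n, hn⟩ := ENNReal.exists_nat_mul_gt (mul_ne_zero h0 (V_ne_zero (E := E) hη))
      hFi.lintegral_lt_top.ne
    have hp : 0 < 2 ^ n * η := by positivity
    have h1 := ((ENNReal.toReal_le_toReal (cE_ne_top hFi hη x) (cE_ne_top hFi hp x)).1
      (h n)).trans (cE_le F x)
    rw [ENNReal.le_div_iff_mul_le (Or.inl (V_ne_zero hp)) (Or.inl (V_ne_top _)),
      V_mul (by positivity)] at h1
    refine hn.not_ge (le_trans ?_ h1)
    rw [mul_left_comm, ← ENNReal.ofReal_natCast]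
    refine mul_le_mul_right (mul_le_mul_left (ENNReal.ofReal_le_ofReal ?_) _) _
    refine le_trans ?_ (le_self_pow₀ (one_le_pow₀ one_le_two) Module.finrank_pos.ne')
    exact_mod_cast Nat.lt_two_pow_self.le
  refine IsLocalMin.fderiv_eq_zero (Eventually.of_forall fun y => ?_)
  rw [cR, h0]
  exact ENNReal.toReal_nonneg

lemma cfin_conv {f : E → ℝ} (hf : Measurable f) (hfi : Integrable f) {M : ℝ≥0∞} (hM : M ≠ ⊤)
    (hT : ∀ v : E, ∫⁻ y, ENNReal.ofReal |(|f (y + v)| - |f y|)| ≤ ENNReal.ofReal ‖v‖ * M) :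
    (∀ᵐ x, Mc f x < ⊤) ∧ Measurable (Mc f) ∧ Tendsto (fun n : ℕ =>
      ∫⁻ x, ‖(Mc f x).toReal - cR (fun y => |f y|) ((1 / 2) ^ n) x‖ₑ) atTop (𝓝 0) := by
  obtain ⟨C, hC, h⟩ := cE_half (E := E)
  set F : E → ℝ := fun y => |f y| with hF
  have Fi : Integrable F := hfi.abs
  have p : ∀ n : ℕ, (0 : ℝ) < (1 / 2) ^ n := fun n => by positivity
  have gm := fun n => measurable_cE Fi (p n)
  have mono : ∀ x, Monotone fun n : ℕ => cE F ((1 / 2) ^ n) x := fun x m n h =>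
    cE_anti F (pow_le_pow_of_le_one (by norm_num) (by norm_num) h) x
  set D : ℕ → E → ℝ≥0∞ := fun n x =>
    ∑' k, (cE F ((1 / 2) ^ (k + n + 1)) x - cE F ((1 / 2) ^ (k + n)) x) with hD
  have h1 : ∀ n x, Mc f x ≤ cE F ((1 / 2) ^ n) x + D n x := fun n x => by
    rw [Mc_eq_iSup]; exact fin_tel (mono x) n
  have h2 : ∀ n, ∫⁻ x, D n x ≤ ∑' k, C * ENNReal.ofReal ((1 / 2) ^ (k + n)) * M := fun n => by
    refine (lintegral_tsum fun k => ((gm (k + n + 1)).sub (gm (k + n))).aemeasurable).le.trans ?_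
    refine ENNReal.tsum_le_tsum fun k => le_trans (le_of_eq ?_) (h F hf.abs M hT _ (p _))
    rw [pow_succ, mul_one_div]
    rfl
  have h3 : ∑' k, C * ENNReal.ofReal ((1 / 2) ^ k) * M ≠ ⊤ := by
    rw [ENNReal.tsum_mul_right, ENNReal.tsum_mul_left,
      ← ENNReal.ofReal_tsum_of_nonneg (fun k => (p k).le) summable_geometric_two]
    finiteness
  have h4 : ∀ᵐ x, Mc f x < ⊤ := by
    have := ae_lt_top (Measurable.tsum fun k => (gm (k + 0 + 1)).sub (gm (k + 0)))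
      (ne_top_of_le_ne_top h3 (h2 0))
    filter_upwards [this] with x hx
    exact (h1 0 x).trans_lt (ENNReal.add_lt_top.2 ⟨(cE_ne_top Fi (p 0) x).lt_top, hx⟩)
  refine ⟨h4, ?_, tendsto_of_tendsto_of_tendsto_of_le_of_le tendsto_const_nhds
    (ENNReal.tendsto_sum_nat_add _ h3) (fun _ => zero_le) fun n => le_trans ?_ (h2 n)⟩
  · rw [show Mc f = _ from funext Mc_eq_iSup]
    exact Measurable.iSup gm
  · refine lintegral_mono_ae (h4.mono fun x hx => ?_)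
    have h5 : cE F ((1 / 2) ^ n) x ≤ Mc f x := by
      rw [Mc_eq_iSup]; exact le_iSup (fun n : ℕ => cE F ((1 / 2) ^ n) x) n
    rw [cR, ← ENNReal.toReal_sub_of_le h5 hx.ne, Real.enorm_eq_ofReal ENNReal.toReal_nonneg]
    exact ENNReal.ofReal_toReal_le.trans (tsub_le_iff_left.2 (h1 n x))

lemma cfin_tail : ∃ C : ℝ≥0∞, C ≠ ⊤ ∧ ∀ (F : E → ℝ), Measurable F →
    ∀ M : ℝ≥0∞, (∀ v : E, ∫⁻ y, ENNReal.ofReal |F (y + v) - F y| ≤ ENNReal.ofReal ‖v‖ * M) →
    ∀ t : ℝ, 0 < t → ∑' i : ℕ, bb F 1 (t / 2 ^ i) ≤ C * M := by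
  obtain ⟨C, hC, hS⟩ := sum_bb (E := E) 1 one_pos
  refine ⟨C, hC, fun F Fm M hT t ht => ?_⟩
  simp only [div_eq_mul_one_div t, ← one_div_pow]
  rw [ENNReal.tsum_eq_iSup_nat]
  refine iSup_le fun J => (Finset.sum_le_sum_of_subset (Finset.range_mono J.le_succ)).trans ?_
  rw [← fin_flip (bb F 1)]
  exact hS F Fm M hT _ (by positivity) _

lemma cfin_big (A : ℝ) (hA : 0 < A) : ∃ C : ℝ≥0∞, C ≠ ⊤ ∧ ∀ (F g : E → ℝ) (γ : E → ℝ≥0∞)
    (Bad : Set E) (N : ℝ≥0∞) (η r : ℝ) (x : E), Measurable F → (∀ y, 0 ≤ F y) → (∀ y, 0 ≤ g y) →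
    0 < η → H1c F g η → LTl F γ → η ≤ r → I F x r = ENNReal.ofReal (g x) * V E r →
    (∀ y0, y0 ∉ Bad → ∀ ρ : ℝ, 0 < ρ → ∫⁻ y in ball y0 ρ, γ y ≤ N * V E (2 * ρ)) →
    N * C < ‖fderiv ℝ g x‖ₑ → ball x (A * r) ⊆ Bad := by
  obtain ⟨C, hC, -, hV⟩ := exists_V_le (E := E) (2 * (A + 2))
  refine ⟨C, hC, fun F g γ Bad N η r x Fm F0 g0 hη hH hL hr hI hB hN y0 hy => ?_⟩
  have r0 := hη.trans_le hr
  by_contra h
  refine hN.not_ge ((ENNReal.mul_le_mul_iff_left (V_ne_zero (E := E) r0) (V_ne_top r)).1 ?_)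
  calc _ ≤ ∫⁻ y in ball x (2 * r), γ y := GB Fm F0 g0 hη hH hL hr hI
    _ ≤ ∫⁻ y in ball y0 ((A + 2) * r), γ y :=
        lintegral_mono_set (ball_subset_ball' (by linarith [mem_ball'.1 hy]))
    _ ≤ N * V E (2 * ((A + 2) * r)) := hB y0 h _ (by positivity)
    _ ≤ _ := by
        rw [mul_assoc N]
        exact mul_le_mul_right (hV _ _ r0.le (mul_assoc _ _ _).ge) _

lemma cfin_meas [Nontrivial E] : ∃ C : ℝ≥0∞, C ≠ ⊤ ∧ ∀ (f : E → ℝ) (G : E → E), Measurable f →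
    Measurable G → Integrable f → Integrable G → IsWeakGrad f G → (∀ᵐ x, Mc f x < ⊤) ∧
      LocallyIntegrable (fun x => (Mc f x).toReal) volume ∧ ∃ H : E → E, Integrable H ∧
        IsWeakGrad (fun x => (Mc f x).toReal) H ∧ ∫⁻ x, ‖H x‖ₑ ≤ C * ∫⁻ x, ‖G x‖ₑ := by
  obtain ⟨A, c, C, hA, hC, hE⟩ := ESTC (E := E)
  obtain ⟨C1, hC1, hS⟩ := cfin_tail (E := E)
  obtain ⟨C2, hC2, hQ⟩ := cfin_big (E := E) A hA
  refine ⟨C * (C1 + 1), by finiteness, fun f G hf hG hfi hGi hw => ?_⟩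
  set F : E → ℝ := fun y => |f y| with hF
  set M := ∫⁻ x, ‖G x‖ₑ with hM
  have hM' : M ≠ ⊤ := hGi.2.ne
  have Fi : Integrable F := hfi.abs
  have Fm : Measurable F := hf.abs
  have p : ∀ n : ℕ, (0 : ℝ) < (1 / 2) ^ n := fun n => by positivity
  have hL : LTl F fun y => ‖G y‖ₑ := fun v U U' hU hU' h => by
    have h1 := LT0 hf hG hfi hGi hw 0 v hU hU' h
    simp only [inner_zero_left, sub_zero] at h1
    exact le_trans (lintegral_mono fun y =>
      ENNReal.ofReal_le_ofReal (abs_abs_sub_abs_le_abs_sub _ _)) h1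
  have hT : ∀ v : E, ∫⁻ y, ENNReal.ofReal |F (y + v) - F y| ≤ ENNReal.ofReal ‖v‖ * M := fun v => by
    simpa using hL v univ univ MeasurableSet.univ MeasurableSet.univ fun _ _ _ _ => mem_univ _
  have hX : ∀ {η η' : ℝ}, 0 < η → η ≤ η' → MeasurableSet {x | cR F η' x < cR F η x} :=
    fun h h' => measurableSet_lt (cfin_cont Fi (h.trans_le h')).measurable
      (cfin_cont Fi h).measurable
  have hb : ∀ η : ℝ, 0 < η → ∫⁻ x, ‖fderiv ℝ (cR F η) x‖ₑ ≤ C * (C1 + 1) * M := by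
    intro η hη
    have l : ∀ j : ℕ, η ≤ 2 ^ j * η := fun j =>
      le_mul_of_one_le_left hη.le (one_le_pow₀ one_le_two)
    have mono : Monotone fun j : ℕ => {x | cR F (2 ^ j * η) x < cR F η x} := fun i j h x hx =>
      lt_of_le_of_lt (cfin_anti Fi (by positivity) (by gcongr; norm_num) x) hx
    rw [← setLIntegral_eq_of_support_subset (s := ⋃ j : ℕ, {x | cR F (2 ^ j * η) x < cR F η x})
      fun x hx => by_contra fun h => hx (by
        rw [cfin_zero Fi hη fun j => not_lt.1 fun h' => h (mem_iUnion.2 ⟨j, h'⟩), ← ofReal_norm,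
          norm_zero, ENNReal.ofReal_zero]),
      setLIntegral_iUnion_of_directed _ mono.directed_le]
    refine iSup_le fun j => (withDensity_apply _ (hX hη (l j))).ge.trans
      ((hE F _ _ univ η j _ Fm (fun _ => abs_nonneg _) Fi (cfin_cont Fi hη)
        (fun _ => ENNReal.toReal_nonneg) hη (H1c_cR Fi hη) hG.enorm MeasurableSet.univ hL
        fun x hx => (opt_of_lt_c Fi hη (l j) hx).imp fun r hr =>
          ⟨hr.1, hr.2.1, hr.2.2, subset_univ _⟩).trans ?_)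
    rw [mul_assoc C, add_mul, one_mul, Measure.restrict_univ]
    gcongr
    exact hS F Fm M hT _ (by positivity)
  have hb' : C * (C1 + 1) * M ≠ ⊤ := by finiteness
  obtain ⟨Bad, Bm, Bt, hB⟩ := exists_BadC hG.enorm hM'
  have hfin : ∑' i : ℕ, bb F 1 (2 ^ c / 2 ^ i) ≠ ⊤ :=
    ne_top_of_le_ne_top (ENNReal.mul_ne_top hC1 hM') (hS F Fm M hT _ (by positivity))
  have hε := ENNReal.Tendsto.const_mul (a := C)
    ((ENNReal.tendsto_sum_nat_add _ hfin).add Bt) (Or.inr hC)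
  rw [add_zero, mul_zero] at hε
  obtain ⟨h1, h2, h3⟩ := cfin_conv hf hfi hM' hT
  refine ⟨h1, limit_grad_ui (fun n => cR F ((1 / 2) ^ n)) _ (fun n => lipschitz_cR Fi (p n)) _
    hb' (fun n => hb _ (p n)) (fun ε ε0 => ?_) h2.ennreal_toReal.aestronglyMeasurable h3⟩
  have ε2 := ENNReal.half_pos ε0.ne'
  obtain ⟨m, hm⟩ := (ENNReal.tendsto_nhds_zero.1 hε _ ε2).exists
  have Sm : ∀ (L : ℝ) (n : ℕ), MeasurableSet {x | L < ‖fderiv ℝ (cR F ((1 / 2) ^ n)) x‖} :=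
    fun L n => measurableSet_lt measurable_const (measurable_fderiv ℝ _).norm
  have h4 : ∀ᶠ j : ℕ in atTop, ∀ n ∈ Finset.range (m + 1),
      ∫⁻ x in {x | (j : ℝ) < ‖fderiv ℝ (cR F ((1 / 2) ^ n)) x‖},
        ‖fderiv ℝ (cR F ((1 / 2) ^ n)) x‖ₑ ≤ ε / 2 := by
    refine (Finset.eventually_all _).2 fun n _ => ENNReal.tendsto_nhds_zero.1
      (lim_set (measurable_fderiv ℝ _).enorm.aemeasurable (ne_top_of_le_ne_top hb' (hb _ (p n)))
        (fun j => Sm j n) (Eventually.of_forall fun x => Or.inr ?_)) _ ε2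
    exact (tendsto_natCast_atTop_atTop.eventually_ge_atTop
      ‖fderiv ℝ (cR F ((1 / 2) ^ n)) x‖).mono fun j hj h => hj.not_gt h
  obtain ⟨j, h5, h6⟩ := (h4.and (tendsto_natCast_atTop_atTop.eventually_ge_atTop
    ((m : ℝ≥0∞) * C2).toReal)).exists
  refine ⟨j, fun n => ?_⟩
  rcases le_total n m with h | h
  · exact (h5 n (Finset.mem_range.2 (Nat.lt_succ_of_le h))).trans ENNReal.half_le_self
  obtain ⟨k, rfl⟩ := Nat.exists_eq_add_of_le h
  have l : ((1 : ℝ) / 2) ^ (m + k) ≤ (1 / 2) ^ m :=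
    pow_le_pow_of_le_one (by norm_num) (by norm_num) h
  have e : (2 : ℝ) ^ k * (1 / 2) ^ (m + k) = (1 / 2) ^ m := by
    simp only [pow_add, one_div, inv_pow]
    field_simp
  have Xm := (Sm j (m + k)).inter (hX (p _) l)
  rw [← lintegral_inter_add_sdiff _ _ (hX (p _) l), ← ENNReal.add_halves ε]
  refine add_le_add ((withDensity_apply _ Xm).ge.trans ((hE F _ _ (Bad m) _ k _ Fm
    (fun _ => abs_nonneg _) Fi (cfin_cont Fi (p _)) (fun _ => ENNReal.toReal_nonneg) (p _)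
    (H1c_cR Fi (p _)) hG.enorm (Bm m) hL fun x hx => (opt_of_lt_c Fi (p _) l hx.2).imp
      fun r hr => ⟨hr.1, hr.2.1.trans e.ge, hr.2.2, hQ F _ _ _ m _ r x Fm (fun _ => abs_nonneg _)
        (fun _ => ENNReal.toReal_nonneg) (p _) (H1c_cR Fi (p _)) hL hr.1 hr.2.2 (hB m) ?_⟩).trans
    (le_trans (le_of_eq ?_) hm))) (le_trans ?_ (h5 m (Finset.self_mem_range_succ m)))
  · rw [← ofReal_norm]
    exact (ENNReal.lt_ofReal_iff_toReal_lt (by finiteness)).2 (h6.trans_lt hx.1)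
  · rw [e]
    congr 3
    funext i
    congr 1
    simp only [pow_add, one_div, inv_pow]
    field_simp
  · rw [← lintegral_indicator ((Sm j _).diff (hX (p _) l)), ← lintegral_indicator (Sm j m)]
    obtain ⟨K, hK⟩ := lipschitz_cR Fi (p m)
    obtain ⟨K', hK'⟩ := lipschitz_cR Fi (p (m + k))
    refine lintegral_mono_ae ?_
    filter_upwards [hK.ae_differentiableAt (μ := volume), hK'.ae_differentiableAt (μ := volume)]
      with x d1 d2
    refine indicator_apply_le' (fun hx => ?_) (fun _ => zero_le)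
    have h7 := lim_fderiv_eq (cfin_anti Fi (p _) l) (le_antisymm (cfin_anti Fi (p _) l x)
      (not_lt.1 hx.2)) d1 d2
    rw [indicator_of_mem (show x ∈ {x | (j : ℝ) < ‖fderiv ℝ (cR F ((1 / 2) ^ m)) x‖} by
      rw [mem_ofPred_eq, h7]
      exact hx.1), h7]

theorem mainC [Nontrivial E] : ∃ C : ℝ, ∀ (f : E → ℝ) (G : E → E), Integrable f → Integrable G →
    IsWeakGrad f G → (∀ᵐ x, Mc f x < ⊤) ∧ LocallyIntegrable (fun x => (Mc f x).toReal) volume ∧
      ∃ H : E → E, Integrable H ∧ IsWeakGrad (fun x => (Mc f x).toReal) H ∧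
        ∫ x, ‖H x‖ ≤ C * ∫ x, ‖G x‖ := by
  obtain ⟨C, hC, h⟩ := cfin_meas (E := E)
  refine ⟨C.toReal, fun f G hf hG hw => ?_⟩
  have ef := hf.1.ae_eq_mk
  have eG := hG.1.ae_eq_mk
  have e : Mc f = Mc (hf.1.mk f) := funext fun x => by
    have : ∀ r, ∫⁻ y in ball x r, ‖f y‖ₑ = ∫⁻ y in ball x r, ‖hf.1.mk f y‖ₑ := fun r =>
      lintegral_congr_ae (ae_restrict_of_ae (ef.mono fun y hy => by simp only [hy]))
    simp only [Mc, this]
  obtain ⟨h1, h2, H, h3, h4, h5⟩ := h _ _ hf.1.measurable_mk hG.1.measurable_mk (hf.congr ef)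
    (hG.congr eG) fun φ hφ hc v => by
      rw [← integral_congr_ae (f := fun x => f x * fderiv ℝ φ x v)
        (ef.mono fun y hy => by simp only [hy]), hw φ hφ hc v]
      exact congrArg _ (integral_congr_ae (eG.mono fun y hy => by simp only [hy]))
  rw [e]
  refine ⟨h1, h2, H, h3, h4, ?_⟩
  rw [integral_norm_eq_lintegral_enorm h3.1, integral_norm_eq_lintegral_enorm hG.1,
    ← ENNReal.toReal_mul, lintegral_congr_ae (eG.mono fun y hy => congrArg (‖·‖ₑ) hy)]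
  exact ENNReal.toReal_mono (ENNReal.mul_ne_top hC (hG.congr eG).2.ne) h5

end Vale.Agent.P137
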