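import Vale.Agent.P137.CDefs
import Vale.Agent.P137.CAP
import Vale.Agent.P137.TL

namespace Vale.Agent.P137

open MeasureTheory Metric Set Filter Topology
open scoped ENNReal RealInnerProductSpace

variable {E : Type*} [NormedAddCommGroup E] [InnerProductSpace ℝ E] [FiniteDimensional ℝ E]
  [MeasurableSpace E] [BorelSpace E]

lemma cip_step {F : E → ℝ} (hF : Measurable F) (hF0 : ∀ y, 0 ≤ F y) {c v : E} {r τ : ℝ}
    {X : ℝ≥0∞} (h1 : I F c r ≠ ⊤) (h2 : I F (c + v) r ≤ I F c r)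
    (h3 : ∀ δ : E, ‖δ‖ ≤ τ → ∫⁻ w in ball c r, ENNReal.ofReal (F w - F (w + (v + δ))) ≤ X)
    {d : E} (hd : ‖d‖ ≤ τ) :
    ∫⁻ y in ball c r ∩ {y | y + d ∈ ball c r}, ENNReal.ofReal |F (y + d) - F y| ≤ 6 * X := by
  have a0 : ∫⁻ y in ball c r, ENNReal.ofReal |F (y + v) - F y| ≤ 2 * X := by
    refine (tl_two hF hF0 h1 h2).trans (mul_le_mul_right ?_ _)
    simpa only [add_zero] using h3 0 (by rw [norm_zero]; linarith [norm_nonneg d])
  have a1 := h3 d hd
  have a2 := h3 (-d) (by rwa [norm_neg])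
  have hS := tl_mset (measurableSet_ball (x := c) (ε := r)) d
  have pw : ∀ y : E, ENNReal.ofReal |F (y + d) - F y| ≤
      (ENNReal.ofReal (F y - F (y + (v + d))) + ENNReal.ofReal |F (y + v) - F y|) +
      (ENNReal.ofReal (F (y + d) - F (y + d + (v + -d))) +
        ENNReal.ofReal |F (y + d + v) - F (y + d)|) := by
    intro y
    rw [show y + d + (v + -d) = y + v by abel, show y + (v + d) = y + d + v by abel]
    rcases le_total (F y) (F (y + d)) with k | k
    · rw [abs_of_nonneg (by linarith)]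
      calc _ ≤ ENNReal.ofReal (|F (y + v) - F y| + (F (y + d) - F (y + v))) :=
            ENNReal.ofReal_le_ofReal (by linarith [le_abs_self (F (y + v) - F y)])
        _ ≤ _ := ENNReal.ofReal_add_le
        _ ≤ _ := add_le_add le_add_self le_self_add
    · rw [abs_of_nonpos (by linarith)]
      calc _ ≤ ENNReal.ofReal ((F y - F (y + d + v)) + |F (y + d + v) - F (y + d)|) :=
            ENNReal.ofReal_le_ofReal (by linarith [le_abs_self (F (y + d + v) - F (y + d))])
        _ ≤ _ := ENNReal.ofReal_add_le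
        _ ≤ _ := add_le_add le_self_add le_add_self
  refine (lintegral_mono pw).trans ?_
  rw [lintegral_add_left (by fun_prop), lintegral_add_left (by fun_prop),
    lintegral_add_left (by fun_prop)]
  refine le_trans (add_le_add (add_le_add ((lintegral_mono_set inter_subset_left).trans a1)
    ((lintegral_mono_set inter_subset_left).trans a0)) (add_le_add
    ((setLIntegral_add_le (fun y => ENNReal.ofReal (F y - F (y + (v + -d)))) hS measurableSet_ball
      d fun y hy => hy.2).trans a2)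
    ((setLIntegral_add_le (fun y => ENNReal.ofReal |F (y + v) - F y|) hS measurableSet_ball
      d fun y hy => hy.2).trans a0))) (le_of_eq (by ring))

lemma cip_core {F : E → ℝ} (hF : Measurable F) (hF0 : ∀ y, 0 ≤ F y) {c v : E} {r τ : ℝ}
    (hr : 0 < r) (hτ : 0 < τ) {X : ℝ≥0∞} (h1 : I F c r ≠ ⊤) (h2 : I F (c + v) r ≤ I F c r)
    (h3 : ∀ δ : E, ‖δ‖ ≤ τ → ∫⁻ w in ball c r, ENNReal.ofReal (F w - F (w + (v + δ))) ≤ X) :
    ∫⁻ w in ball (0 : E) (2 * r), ∫⁻ y in ball c r ∩ {y | y + w ∈ ball c r},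
      ENNReal.ofReal |F (y + w) - F y| ≤
      ENNReal.ofReal (6 * (2 * r / τ + 1)) * X * V E (2 * r) := by
  have k0 : 0 < 2 * r / τ := by positivity
  have k1 := Nat.le_ceil (2 * r / τ)
  have k2 := (Nat.ceil_lt_add_one k0.le).le
  generalize ⌈2 * r / τ⌉₊ = N at k1 k2
  have hN : (0 : ℝ) < N := by linarith
  rw [← vol_ball (0 : E) (2 * r), ← setLIntegral_const]
  refine setLIntegral_mono' measurableSet_ball fun w hw => ?_
  have s1 := tl_four hF c r ((N : ℝ)⁻¹ • w) N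
  rw [smul_smul, mul_inv_cancel₀ hN.ne', one_smul] at s1
  have s2 := cip_step hF hF0 h1 h2 h3 (d := (N : ℝ)⁻¹ • w) (by
    rw [mem_ball_zero_iff] at hw
    rw [norm_smul, Real.norm_of_nonneg (by positivity), inv_mul_le_iff₀ hN]
    rw [div_le_iff₀ hτ] at k1
    linarith)
  refine s1.trans ((mul_le_mul_right s2 _).trans ?_)
  rw [← mul_assoc, ENNReal.ofReal_mul (by norm_num), ENNReal.ofReal_ofNat, mul_comm (6 : ℝ≥0∞),
    ← ENNReal.ofReal_natCast]
  gcongr

lemma cip_swap {F : E → ℝ} (hF : Measurable F) (c : E) (r : ℝ) :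
    ∫⁻ y in ball c r, ∫⁻ y' in ball c r, ENNReal.ofReal |F y' - F y| ≤
      ∫⁻ w in ball (0 : E) (2 * r), ∫⁻ y in ball c r ∩ {y | y + w ∈ ball c r},
        ENNReal.ofReal |F (y + w) - F y| := by
  have hS : MeasurableSet {p : E × E | p.1 + p.2 ∈ ball c r} :=
    measurableSet_ball.preimage (by fun_prop : Measurable fun p : E × E => p.1 + p.2)
  have e : ∀ w : E, ∫⁻ y in ball c r ∩ {y | y + w ∈ ball c r}, ENNReal.ofReal |F (y + w) - F y| =
      ∫⁻ y in ball c r, {p : E × E | p.1 + p.2 ∈ ball c r}.indicator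
        (fun p => ENNReal.ofReal |F (p.1 + p.2) - F p.1|) (y, w) := by
    intro w
    have hw : MeasurableSet {y : E | y + w ∈ ball c r} :=
      measurableSet_ball.preimage (by fun_prop : Measurable fun y : E => y + w)
    rw [inter_comm, ← Measure.restrict_restrict hw, ← lintegral_indicator hw]
    rfl
  simp only [e]
  rw [← lintegral_lintegral_swap (f := fun y w => {p : E × E | p.1 + p.2 ∈ ball c r}.indicator
    (fun p => ENNReal.ofReal |F (p.1 + p.2) - F p.1|) (y, w))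
    (Measurable.aemeasurable (Measurable.indicator (by fun_prop) hS))]
  refine setLIntegral_mono' measurableSet_ball fun y hy => ?_
  refine le_trans (le_of_eq (setLIntegral_congr_fun measurableSet_ball fun y' hy' => ?_))
    (setLIntegral_add_le _ measurableSet_ball measurableSet_ball (-y) fun y' hy' => ?_)
  · rw [indicator_of_mem (by simpa using hy')]
    simp
  · rw [mem_ball, dist_eq_norm] at hy hy'
    rw [mem_ball_zero_iff, show y' + -y = (y' - c) - (y - c) by abel]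
    linarith [norm_sub_le (y' - c) (y - c)]

/-- Poincare inequality inside a ball whose uphill translate has a smaller integral -/
theorem IP {F : E → ℝ} (hF : Measurable F) (hF0 : ∀ y, 0 ≤ F y) {c v : E} {r τ : ℝ} (hr : 0 < r)
    (hτ : 0 < τ) {X : ℝ≥0∞} (h1 : I F c r ≠ ⊤) (h2 : I F (c + v) r ≤ I F c r)
    (h3 : ∀ δ : E, ‖δ‖ ≤ τ → ∫⁻ w in ball c r, ENNReal.ofReal (F w - F (w + (v + δ))) ≤ X) :
    ∫⁻ y in ball c r, ∫⁻ y' in ball c r, ENNReal.ofReal |F y' - F y| ≤
      ENNReal.ofReal (6 * (2 * r / τ + 1)) * X * V E (2 * r) :=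
  (cip_swap hF c r).trans (cip_core hF hF0 hr hτ h1 h2 h3)

theorem IPc {F : E → ℝ} (hF : Measurable F) (hFi : LocallyIntegrable F volume) {c c' : E}
    {r r' : ℝ} (hr' : 0 < r') (hsub : ball c' r' ⊆ ball c r) :
    da F (av F c' r') (ball c r) * V E r' ≤
      ∫⁻ y in ball c r, ∫⁻ y' in ball c r, ENNReal.ofReal |F y' - F y| := by
  have _ := hF
  rw [da, ← lintegral_mul_const' _ _ (V_ne_top r')]
  refine lintegral_mono fun y => le_trans ?_ (lintegral_mono_set hsub)
  have k := ofReal_av_le (fun y' => F y' - F y) c' hr'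
  rwa [av_sub hFi (locallyIntegrable_const _), av_const _ _ hr', abs_sub_comm] at k

lemma cip_ceil {b t0 : ℝ} (hb : 0 ≤ b) (ht : 0 < t0) :
    ∃ n : ℕ, b ≤ n * t0 ∧ n * t0 ≤ b + t0 := by
  have k0 : 0 ≤ b / t0 := div_nonneg hb ht.le
  refine ⟨⌈b / t0⌉₊, (div_le_iff₀ ht).1 (Nat.le_ceil _), ?_⟩
  calc (⌈b / t0⌉₊ : ℝ) * t0 ≤ (b / t0 + 1) * t0 := by gcongr; exact (Nat.ceil_lt_add_one k0).le
    _ = b + t0 := by field_simp

lemma cip_one {F : E → ℝ} (hF : Measurable F) {t : ℝ} {x e qp qm : E} {r h a t0 τ β B : ℝ}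
    {m M : ℕ} (hr : 0 < r) (he : ‖e‖ ≤ 2) (hra : 16 * r ≤ a) (hah : a ≤ h)
    (hqp : dist (x + h • e) qp ≤ a / 4) (hqm : dist (x - h • e) qm ≤ a / 4)
    (sp : Sp {y | t < F y}ᶜ qp a) (sm : Sp {y | t < F y} qm a) (ht0 : 0 < t0) (ht2 : t0 ≤ r / 2)
    (hβ0 : 0 ≤ β) (hβ : β ≤ h / 2) (hM : M * t0 ≤ h / 2) (hB : 2 * h + t0 ≤ B * t0)
    (hBm : 2 * B ≤ 2 ^ m) (hτ : 0 ≤ τ) (hBτ : B * τ ≤ r) :
    ∫⁻ s in ball (t0 • e) τ, ∫⁻ y in ball (x + β • e) (2 * r),
      ENNReal.ofReal (F y - F (y + (M : ℝ) • s)) ≤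
      (2 * 2 ^ m + 4) * PP F x ((2 * 2 ^ m + 4) * h) := by
  have hp1 : (1 : ℝ) ≤ 2 ^ m := one_le_pow₀ (by norm_num)
  have hh : 0 < h := by linarith
  obtain ⟨j, j1, j2⟩ := cip_ceil (b := h + β) (by linarith) ht0
  obtain ⟨n, n1, n2⟩ := cip_ceil (b := h - β) (by linarith) ht0
  have jB : (j : ℝ) ≤ B := le_of_mul_le_mul_right (by linarith) ht0
  have nB : (n : ℝ) ≤ B := le_of_mul_le_mul_right (by linarith) ht0
  have B1 : 1 ≤ B := le_of_mul_le_mul_right (by linarith) ht0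
  have hτr : τ ≤ r := by nlinarith
  have hMn : M ≤ n := by
    have : (M : ℝ) * t0 ≤ n * t0 := by linarith
    exact_mod_cast le_of_mul_le_mul_right this ht0
  have geo : ∀ (k : ℕ) (b : ℝ), (k : ℝ) ≤ B → b ≤ k * t0 → k * t0 ≤ b + t0 →
      ∀ s ∈ ball (t0 • e) τ, ‖(k : ℝ) • s - b • e‖ ≤ 2 * r := by
    intro k b k1 k2 k3 s hs
    rw [mem_ball, dist_eq_norm] at hs
    have g2 : ‖(k * t0 - b) • e‖ ≤ r / 2 * 2 := by
      rw [norm_smul, Real.norm_of_nonneg (by linarith)]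
      exact mul_le_mul (by linarith) he (norm_nonneg _) (by linarith)
    have g3 : ‖(k : ℝ) • (s - t0 • e)‖ ≤ r := by
      rw [norm_smul, Real.norm_of_nonneg (Nat.cast_nonneg _)]
      exact (mul_le_mul k1 hs.le (norm_nonneg _) (by linarith)).trans hBτ
    rw [show (k : ℝ) • s - b • e = (k * t0 - b) • e + (k : ℝ) • (s - t0 • e) by module]
    linarith [norm_add_le ((k * t0 - b) • e) ((k : ℝ) • (s - t0 • e))]
  have hhe : ‖h • e‖ ≤ h * 2 := by
    rw [norm_smul, Real.norm_of_nonneg (by linarith)]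
    exact mul_le_mul_of_nonneg_left he (by linarith)
  have hA : 4 * h ≤ (2 * 2 ^ m + 4) * h := by nlinarith
  have s1 := NI hF t m (M := M) (j := j) (n := n) hMn
    (by exact_mod_cast (by push_cast; linarith : ((j + n : ℕ) : ℝ) ≤ ((2 ^ m : ℕ) : ℝ)))
    (U := ball (x + β • e) (2 * r)) (W := ball (t0 • e) τ) (Pm := ball qm a) (Pp := ball qp a)
    measurableSet_ball measurableSet_ball measurableSet_ball measurableSet_ball
    (fun y hy s hs => by
      have := geo j (h + β) jB j1 j2 s hs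
      rw [dist_eq_norm] at hqm
      rw [mem_ball, dist_eq_norm] at hy
      rw [mem_ball, dist_eq_norm, show y - (j : ℝ) • s - qm =
        (y - (x + β • e)) - ((j : ℝ) • s - (h + β) • e) + (x - h • e - qm) by module]
      linarith [norm_add_le ((y - (x + β • e)) - ((j : ℝ) • s - (h + β) • e)) (x - h • e - qm),
        norm_sub_le (y - (x + β • e)) ((j : ℝ) • s - (h + β) • e)])
    (fun y hy s hs => by
      have := geo n (h - β) nB n1 n2 s hs
      rw [dist_eq_norm] at hqp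
      rw [mem_ball, dist_eq_norm] at hy
      rw [mem_ball, dist_eq_norm, show y + (n : ℝ) • s - qp =
        (y - (x + β • e)) + ((n : ℝ) • s - (h - β) • e) + (x + h • e - qp) by module]
      linarith [norm_add_le ((y - (x + β • e)) + ((n : ℝ) • s - (h - β) • e)) (x + h • e - qp),
        norm_add_le (y - (x + β • e)) ((n : ℝ) • s - (h - β) • e)])
    (z := x) (ρ := 2 * h) (τ := h) (R := (2 * 2 ^ m + 4) * h) (by linarith) (by linarith)
    (ball_subset_ball' (by
      rw [dist_eq_norm, add_sub_cancel_left, norm_smul, Real.norm_of_nonneg hβ0]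
      nlinarith [norm_nonneg e]))
    (ball_subset_ball' (by
      rw [dist_zero_right, norm_smul, Real.norm_of_nonneg ht0.le]
      nlinarith [norm_nonneg e]))
    (by nlinarith)
  have ha0 : 0 < a := by linarith
  have s2 := S1hi hF t (w := qm) (u := 0) (z := x) (ρ := a) (a := a) (R := (2 * 2 ^ m + 4) * h) ha0
    (by rw [add_zero, ← two_mul]; exact sm) (by rw [sub_zero, ← two_mul]; exact sm)
    (by
      have := dist_triangle qm (x - h • e) x
      rw [dist_comm qm (x - h • e), dist_eq_norm (x - h • e) x, sub_sub_cancel_left,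
        norm_neg] at this
      linarith) (by rw [norm_zero]; linarith)
  have s3 := S1lo hF t (w := qp) (u := 0) (z := x) (ρ := a) (a := a) (R := (2 * 2 ^ m + 4) * h) ha0
    (by rw [add_zero, ← two_mul]; exact sp) (by rw [sub_zero, ← two_mul]; exact sp)
    (by
      have := dist_triangle qp (x + h • e) x
      rw [dist_comm qp (x + h • e), dist_eq_norm (x + h • e) x, add_sub_cancel_left] at this
      linarith) (by rw [norm_zero]; linarith)
  generalize PP F x ((2 * 2 ^ m + 4) * h) = X at *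
  refine s1.trans ?_
  have : V E τ ≤ V E a := V_mono (by linarith)
  rw [vol_ball]
  calc _ ≤ 2 * 2 ^ m * X + V E a * (du F t (ball qm a) + dv F t (ball qp a)) := by gcongr
    _ = 2 * 2 ^ m * X + (du F t (ball qm a) * V E a + dv F t (ball qp a) * V E a) := by ring
    _ ≤ 2 * 2 ^ m * X + (2 * X + 2 * X) := by gcongr
    _ = _ := by ring

/-- the translation lemma for centred balls -/
theorem TLc (L : ℝ) : ∃ (A : ℝ) (C : ℝ≥0∞), 0 < A ∧ C ≠ ⊤ ∧ ∀ (F : E → ℝ), Measurable F →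
    (∀ y, 0 ≤ F y) → ∀ (t : ℝ) (x e qp qm : E) (r h a l : ℝ), 0 ≤ t → 0 < r →
    ‖e‖ ≤ 2 → h ≤ L * r → 16 * r ≤ a → a ≤ h → r / 16 ≤ l → l ≤ h →
    dist (x + h • e) qp ≤ a / 4 → dist (x - h • e) qm ≤ a / 4 →
    Sp {y | t < F y}ᶜ qp a → Sp {y | t < F y} qm a →
    I F x r = ENNReal.ofReal t * V E r → I F (x + l • e) r ≤ ENNReal.ofReal t * V E r →
    da F t (ball x r) * V E h ≤ C * PP F x (A * h) := by
  obtain ⟨M, hM⟩ : ∃ M : ℕ, max L 1 ≤ M := exists_nat_ge _
  have hML : L ≤ M := (le_max_left _ _).trans hM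
  have hM1 : (1 : ℝ) ≤ M := (le_max_right _ _).trans hM
  obtain ⟨B, hB⟩ : ∃ B : ℝ, B = 64 * M ^ 2 + 1 := ⟨_, rfl⟩
  have hMB : M ≤ B := by nlinarith
  have hB0 : 0 < B := by linarith
  obtain ⟨m, hm⟩ : ∃ m : ℕ, 2 * B < 2 ^ m := pow_unbounded_of_one_lt _ one_lt_two
  obtain ⟨C1, c1, -, hC1⟩ := exists_V_le (E := E) (M * (2 * B))
  obtain ⟨C2, c2, -, hC2⟩ := exists_V_le (E := E) 2
  refine ⟨2 * 2 ^ m + 4, C1 * C2 * (ENNReal.ofReal (6 * (4 * B + 1)) * (2 * (2 * 2 ^ m + 4))),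
    by positivity, by finiteness,
    fun F hF hF0 t x e qp qm r h a l ht hr he hhL hra hah hrl hlh hqp hqm sp sm hI hv => ?_⟩
  have hhM : h ≤ M * r := hhL.trans (by gcongr)
  have hl : 0 < l := by linarith
  obtain ⟨t0, ht0, hMt⟩ : ∃ t0 : ℝ, 0 < t0 ∧ M * t0 = l / 2 :=
    ⟨l / (2 * M), by positivity, by field_simp⟩
  obtain ⟨τ, hτ, hBτ⟩ : ∃ τ : ℝ, 0 < τ ∧ B * (2 * τ) = r :=
    ⟨r / (2 * B), by positivity, by field_simp⟩
  have ht2 : t0 ≤ r / 2 := le_of_mul_le_mul_left (by linarith) (by linarith : (0 : ℝ) < M)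
  have hBt : 2 * h + t0 ≤ B * t0 := by
    have : B * t0 = 64 * M * (M * t0) + t0 := by rw [hB]; ring
    rw [this, hMt]
    nlinarith
  have one := fun β hβ0 hβ => cip_one hF (β := β) (M := M) (m := m) (τ := 2 * τ) hr he hra hah hqp
    hqm sp sm ht0 ht2 hβ0 hβ (by linarith) hBt hm.le (by linarith) hBτ.le
  have s1 := one 0 le_rfl (by linarith)
  have s2 := one (l / 2) (by linarith) (by linarith)
  rw [zero_smul, add_zero] at s1
  generalize PP F x ((2 * 2 ^ m + 4) * h) = X at *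
  have e2 : V E τ * (V E τ)⁻¹ = 1 := ENNReal.mul_inv_cancel (V_ne_zero hτ) (V_ne_top τ)
  have hM0 : (0 : ℝ) < 2 * M := by linarith
  have h3 : ∀ δ : E, ‖δ‖ ≤ τ → ∫⁻ w in ball x r, ENNReal.ofReal (F w - F (w + (l • e + δ))) ≤
      (V E τ)⁻¹ * (2 * ((2 * 2 ^ m + 4) * X)) := by
    intro δ hδ
    have hW : ball (t0 • e + (2 * M : ℝ)⁻¹ • δ) τ ⊆ ball (t0 • e) (2 * τ) := by
      refine ball_subset_ball' ?_
      rw [dist_eq_norm, add_sub_cancel_left, norm_smul, Real.norm_of_nonneg (by positivity)]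
      have : (2 * M : ℝ)⁻¹ ≤ 1 := inv_le_one_of_one_le₀ (by linarith)
      nlinarith [norm_nonneg δ]
    have k := cap_two hF (U := ball x r) (U₁ := ball x (2 * r))
      (U₂ := ball (x + (l / 2) • e) (2 * r)) measurableSet_ball measurableSet_ball
      (t0 • e + (2 * M : ℝ)⁻¹ • δ) τ M (ball_subset_ball (by linarith))
      (fun w hw s hs => by
        have k1 := hW hs
        rw [mem_ball, dist_eq_norm] at k1 hw ⊢
        have k2 : ‖(M : ℝ) • (s - t0 • e)‖ ≤ r := by
          rw [norm_smul, Real.norm_of_nonneg (Nat.cast_nonneg _)]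
          exact (mul_le_mul hMB k1.le (norm_nonneg _) hB0.le).trans hBτ.le
        rw [← hMt, show w + (M : ℝ) • s - (x + (M * t0) • e) =
          (w - x) + (M : ℝ) • (s - t0 • e) by module]
        linarith [norm_add_le (w - x) ((M : ℝ) • (s - t0 • e))]) hW
    rw [smul_add, smul_smul, smul_smul, mul_inv_cancel₀ hM0.ne', one_smul,
      show 2 * M * t0 = l by linarith] at k
    have k' := k.trans (add_le_add s1 s2)
    calc _ = (V E τ)⁻¹ * (V E τ * ∫⁻ w in ball x r,
          ENNReal.ofReal (F w - F (w + (l • e + δ)))) := by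
          rw [← mul_assoc, mul_comm (V E τ)⁻¹, e2, one_mul]
      _ ≤ _ := by rw [two_mul ((2 * 2 ^ m + 4) * X)]; gcongr
  have s4 := (tl_five hF hF0 ht hI).trans (cip_core hF hF0 hr hτ
    (by rw [hI]; exact ENNReal.mul_ne_top ENNReal.ofReal_ne_top (V_ne_top r))
    (by rw [hI]; exact hv) h3)
  rw [show 2 * r / τ = 4 * B by rw [← hBτ]; field_simp; ring] at s4
  have v1 := hC1 τ h hτ.le (by rw [← hBτ] at hhM; linarith)
  have v2 := hC2 r (2 * r) hr.le le_rfl
  refine (ENNReal.mul_le_mul_iff_left (V_ne_zero (E := E) hr) (V_ne_top r)).1 ?_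
  calc _ ≤ da F t (ball x r) * (C1 * V E τ) * V E r := by gcongr
    _ = C1 * V E τ * (da F t (ball x r) * V E r) := by ring
    _ ≤ C1 * V E τ * (ENNReal.ofReal (6 * (4 * B + 1)) *
        ((V E τ)⁻¹ * (2 * ((2 * 2 ^ m + 4) * X))) * (C2 * V E r)) :=
        mul_le_mul_right (s4.trans (mul_le_mul_right v2 _)) _
    _ = (V E τ * (V E τ)⁻¹) * (C1 * C2 * (ENNReal.ofReal (6 * (4 * B + 1)) *
        (2 * (2 * 2 ^ m + 4))) * X * V E r) := by ring
    _ = _ := by rw [e2, one_mul]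

end Vale.Agent.P137
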