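import Vale.Agent.P137.CDefs

namespace Vale.Agent.P137

open MeasureTheory Metric Set Filter Topology
open scoped ENNReal RealInnerProductSpace

variable {E : Type*} [NormedAddCommGroup E] [InnerProductSpace ℝ E] [FiniteDimensional ℝ E]
  [MeasurableSpace E] [BorelSpace E]

theorem cmoll_bound (f k : E → ℝ) {ρ M : ℝ} (hk0 : ∀ t, ρ ≤ ‖t‖ → k t = 0)
    (hk : ∀ t, |k t| ≤ M) {w w' : E} (hw : dist w w' < ρ) :
    ENNReal.ofReal |∫ t, (f t - f w') * k (w - t)| ≤
      ENNReal.ofReal M * ∫⁻ v in ball (0 : E) (2 * ρ), ENNReal.ofReal |f (w' + v) - f w'| := by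
  have e : ∫⁻ v in ball (0 : E) (2 * ρ), ENNReal.ofReal |f (w' + v) - f w'| =
      ∫⁻ t in ball w' (2 * ρ), ENNReal.ofReal |f t - f w'| := by
    have := setLIntegral_ball_add (fun t => ENNReal.ofReal |f t - f w'|) 0 w' (2 * ρ)
    rw [zero_add] at this
    rw [← this]
    simp only [add_comm w']
  rw [e, ← lintegral_const_mul' _ _ ENNReal.ofReal_ne_top, ← lintegral_indicator measurableSet_ball,
    ← Real.norm_eq_abs, ofReal_norm]
  refine (enorm_integral_le_lintegral_enorm _).trans (lintegral_mono fun t => ?_)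
  by_cases ht : t ∈ ball w' (2 * ρ)
  · rw [indicator_of_mem ht, ← ofReal_norm, Real.norm_eq_abs, abs_mul, mul_comm,
      ← ENNReal.ofReal_mul ((abs_nonneg _).trans (hk 0))]
    exact ENNReal.ofReal_le_ofReal (mul_le_mul_of_nonneg_right (hk _) (abs_nonneg _))
  · rw [hk0 (w - t) (by
      rw [mem_ball, not_lt] at ht
      rw [← dist_eq_norm]
      linarith [dist_triangle t w w', dist_comm w t])]
    simp

theorem cmoll_split {f k : E → ℝ} (hf : LocallyIntegrable f volume) (hk : Continuous k)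
    (hc : HasCompactSupport k) (c : ℝ) (w : E) :
    ∫ t, (f t - c) * k (w - t) = (∫ t, f t * k (w - t)) - c * ∫ t, k t := by
  have h1 : Integrable (fun t => f t * k (w - t)) :=
    hc.convolutionExists_right (ContinuousLinearMap.mul ℝ ℝ) hf hk w
  have h2 : Integrable (fun t => k (w - t)) := (hk.integrable_of_hasCompactSupport hc).comp_sub_left w
  simp only [sub_mul]
  rw [integral_sub h1 (h2.const_mul c), integral_const_mul, integral_sub_left_eq_self k]

theorem cmoll_deriv {f ψ : E → ℝ} (hf : LocallyIntegrable f volume) (hψ : ContDiff ℝ 1 ψ)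
    (hc : HasCompactSupport ψ) (w u : E) :
    fderiv ℝ (fun x => ∫ t, f t * ψ (x - t)) w u = ∫ t, f t * fderiv ℝ ψ (w - t) u := by
  have h1 : HasFDerivAt (fun x => ∫ t, f t * ψ (x - t)) _ w :=
    hc.hasFDerivAt_convolution_right (ContinuousLinearMap.mul ℝ ℝ) hf hψ w
  rw [h1.fderiv, convolution_precompR_apply _ hf (hc.fderiv ℝ) (hψ.continuous_fderiv one_ne_zero)]
  rfl

theorem cmoll_gen {f ψ : E → ℝ} (hf : LocallyIntegrable f volume) (hψ : ContDiff ℝ 1 ψ)
    (hc : HasCompactSupport ψ) (h1 : ∫ t, ψ t = 1) {ρ M : ℝ} (hρ : 0 < ρ)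
    (h0 : ∀ t, ρ ≤ ‖t‖ → ψ t = 0 ∧ fderiv ℝ ψ t = 0) (hM : ∀ t, |ψ t| ≤ M)
    (hM' : ∀ t, ‖fderiv ℝ ψ t‖ * ρ ≤ M) :
    ∃ g : E → ℝ, ContDiff ℝ 1 g ∧
      (∀ w, ENNReal.ofReal |f w - g w| ≤ ENNReal.ofReal M *
        ∫⁻ v in ball (0 : E) (2 * ρ), ENNReal.ofReal |f (w + v) - f w|) ∧
      ∀ w w', dist w w' < ρ → ‖fderiv ℝ g w‖ₑ * ENNReal.ofReal ρ ≤ ENNReal.ofReal M *
        ∫⁻ v in ball (0 : E) (2 * ρ), ENNReal.ofReal |f (w' + v) - f w'| := by
  refine ⟨fun x => ∫ t, f t * ψ (x - t),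
    hc.contDiff_convolution_right (n := 1) (ContinuousLinearMap.mul ℝ ℝ) hf hψ, fun w => ?_,
    fun w w' hw => ?_⟩
  · have := cmoll_bound f ψ (fun t ht => (h0 t ht).1) hM (w := w) (w' := w) (by simpa using hρ)
    rwa [cmoll_split hf hψ.continuous hc, h1, mul_one, abs_sub_comm] at this
  set X := ENNReal.ofReal M * ∫⁻ v in ball (0 : E) (2 * ρ), ENNReal.ofReal |f (w' + v) - f w'|
  by_cases hX : X = ⊤
  · rw [hX]; exact le_top
  have key : ∀ u : E, ‖u‖ = 1 → ‖fderiv ℝ (fun x => ∫ t, f t * ψ (x - t)) w u‖ ≤ X.toReal / ρ := by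
    intro u hu
    have hk : Continuous fun t => fderiv ℝ ψ t u :=
      (hψ.continuous_fderiv one_ne_zero).clm_apply continuous_const
    have hkc : HasCompactSupport fun t => fderiv ℝ ψ t u := hc.fderiv_apply ℝ u
    have z : ∫ t, fderiv ℝ ψ t u = 0 := by
      have a1 := cmoll_deriv (f := fun _ => (1 : ℝ)) (locallyIntegrable_const 1) hψ hc 0 u
      simp only [one_mul] at a1
      rw [integral_sub_left_eq_self (fun t => fderiv ℝ ψ t u)] at a1
      rw [← a1]
      simp only [integral_sub_left_eq_self ψ]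
      simp
    have a2 := cmoll_bound f (fun t => ρ * fderiv ℝ ψ t u) (M := M)
      (fun t ht => by simp [(h0 t ht).2]) (fun t => by
        rw [abs_mul, abs_of_pos hρ, mul_comm]
        refine le_trans (mul_le_mul_of_nonneg_right ?_ hρ.le) (hM' t)
        simpa [hu] using (fderiv ℝ ψ t).le_opNorm u) hw
    have a3 : ∫ t, (f t - f w') * (ρ * fderiv ℝ ψ (w - t) u) =
        ρ * fderiv ℝ (fun x => ∫ t, f t * ψ (x - t)) w u := by
      rw [cmoll_deriv hf hψ hc, ← sub_zero (∫ t, f t * fderiv ℝ ψ (w - t) u), ← mul_zero (f w'),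
        ← z, ← cmoll_split hf hk hkc, ← integral_const_mul]
      simp only [mul_left_comm]
    rw [a3, abs_mul, abs_of_pos hρ] at a2
    rw [le_div_iff₀ hρ, Real.norm_eq_abs, mul_comm]
    exact (ENNReal.ofReal_le_iff_le_toReal hX).1 a2
  have h5 := ContinuousLinearMap.opNorm_le_of_unit_norm (by positivity) key
  rw [le_div_iff₀ hρ] at h5
  rw [← ofReal_norm, ← ENNReal.ofReal_mul (norm_nonneg _)]
  exact (ENNReal.ofReal_le_iff_le_toReal hX).2 h5

/-- mollification at scale `ρ` -/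
theorem moll : ∃ C : ℝ, 0 < C ∧ ∀ (f : E → ℝ), Measurable f → LocallyIntegrable f volume →
    ∀ ρ : ℝ, 0 < ρ → ∃ g : E → ℝ, ContDiff ℝ 1 g ∧
      (∀ w, ENNReal.ofReal |f w - g w| ≤ ENNReal.ofReal C * om f ρ w) ∧
      ∀ w w', dist w w' < ρ → ‖fderiv ℝ g w‖ₑ * ENNReal.ofReal ρ ≤ ENNReal.ofReal C * om f ρ w' := by
  let b : ContDiffBump (0 : E) := ⟨1 / 4, 1 / 2, by norm_num, by norm_num⟩
  let φ : E → ℝ := b.normed volume
  have hφ : ContDiff ℝ 1 φ := b.contDiff_normed (n := 1)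
  have hφc : HasCompactSupport φ := b.hasCompactSupport_normed
  have hφ1 : ∫ t, φ t = 1 := b.integral_normed
  have hφ0 : ∀ t, 1 ≤ ‖t‖ → φ t = 0 ∧ fderiv ℝ φ t = 0 := fun t ht => by
    have : t ∉ tsupport φ := by
      rw [b.tsupport_normed_eq, mem_closedBall_zero_iff, not_le]
      show 1 / 2 < ‖t‖
      linarith
    exact ⟨image_eq_zero_of_notMem_tsupport this, fderiv_of_notMem_tsupport ℝ this⟩
  obtain ⟨K1, hK1⟩ := hφ.continuous.bounded_above_of_compact_support hφc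
  obtain ⟨K2, hK2⟩ := (hφ.continuous_fderiv one_ne_zero).bounded_above_of_compact_support
    (hφc.fderiv ℝ)
  set K := max K1 K2
  have hK : 0 ≤ K := (norm_nonneg _).trans ((hK1 0).trans (le_max_left _ _))
  refine ⟨K * (V E 1).toReal + 1, by positivity, fun f _ hf ρ hρ => ?_⟩
  have hd : 0 < ρ ^ Module.finrank ℝ E := by positivity
  have hD : ∀ t, HasFDerivAt (fun t => (ρ ^ Module.finrank ℝ E)⁻¹ * φ (ρ⁻¹ • t))
      ((ρ ^ Module.finrank ℝ E)⁻¹ • ρ⁻¹ • fderiv ℝ φ (ρ⁻¹ • t)) t := fun t => by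
    have a1 : HasFDerivAt (fun t : E => ρ⁻¹ • t) (ρ⁻¹ • ContinuousLinearMap.id ℝ E) t :=
      (hasFDerivAt_id t).const_smul ρ⁻¹
    have a2 := ((hφ.differentiable one_ne_zero (ρ⁻¹ • t)).hasFDerivAt.comp t a1).const_mul
      (ρ ^ Module.finrank ℝ E)⁻¹
    refine a2.congr_fderiv ?_
    ext u
    simp
  have hn : ∀ t : E, ρ ≤ ‖t‖ → 1 ≤ ‖ρ⁻¹ • t‖ := fun t ht => by
    rw [norm_smul, Real.norm_of_nonneg (by positivity), inv_mul_eq_div, one_le_div hρ]
    exact ht
  obtain ⟨g, hg, h1, h2⟩ := cmoll_gen (ψ := fun t => (ρ ^ Module.finrank ℝ E)⁻¹ * φ (ρ⁻¹ • t)) hf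
    (contDiff_const.mul (hφ.comp (contDiff_const_smul ρ⁻¹)))
    ((hφc.comp_smul (inv_ne_zero hρ.ne')).mul_left)
    (by rw [integral_const_mul, Measure.integral_comp_inv_smul_of_nonneg _ _ hρ.le, hφ1,
      smul_eq_mul, mul_one, inv_mul_cancel₀ hd.ne']) hρ (M := (ρ ^ Module.finrank ℝ E)⁻¹ * K)
    (fun t ht => by rw [(hD t).fderiv]; simp [hφ0 _ (hn t ht)])
    (fun t => by
      rw [abs_mul, abs_of_pos (inv_pos.2 hd)]
      exact mul_le_mul_of_nonneg_left ((hK1 _).trans (le_max_left _ _)) (by positivity))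
    (fun t => by
      rw [(hD t).fderiv, norm_smul, norm_smul, Real.norm_of_nonneg (by positivity),
        Real.norm_of_nonneg (by positivity), mul_assoc, mul_right_comm, inv_mul_cancel₀ hρ.ne',
        one_mul]
      exact mul_le_mul_of_nonneg_left ((hK2 _).trans (le_max_right _ _)) (by positivity))
  have hC : ENNReal.ofReal ((ρ ^ Module.finrank ℝ E)⁻¹ * K) ≤
      ENNReal.ofReal (K * (V E 1).toReal + 1) * (V E ρ)⁻¹ := by
    rw [← div_eq_mul_inv, ENNReal.le_div_iff_mul_le (Or.inl (V_ne_zero hρ))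
      (Or.inl (V_ne_top ρ))]
    have := V_mul (E := E) hρ 1
    rw [mul_one] at this
    rw [this, ← ENNReal.ofReal_toReal (V_ne_top (E := E) 1), ← ENNReal.ofReal_mul hd.le,
      ← ENNReal.ofReal_mul (by positivity), ENNReal.toReal_ofReal ENNReal.toReal_nonneg]
    refine ENNReal.ofReal_le_ofReal ?_
    field_simp
    linarith
  refine ⟨g, hg, fun w => (h1 w).trans ?_, fun w w' hw => (h2 w w' hw).trans ?_⟩
  · rw [om, ← mul_assoc]
    gcongr
  · rw [om, ← mul_assoc]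
    gcongr

end Vale.Agent.P137
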