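import Vale.Agent.P137.CDE

namespace Vale.Agent.P137

open MeasureTheory Metric Set Filter Topology
open scoped ENNReal RealInnerProductSpace

variable {E : Type*} [NormedAddCommGroup E] [InnerProductSpace ℝ E] [FiniteDimensional ℝ E]
  [MeasurableSpace E] [BorelSpace E]

/-- pairs of separated points almost equidistant from a given point -/
def cntS (h σ θ : ℝ) : Set (E × E × E) :=
  {p | θ / 8 * h ≤ dist p.2.1 p.2.2 ∧ |dist p.1 p.2.1 - dist p.1 p.2.2| ≤ 48 * σ ∧
    dist p.1 p.2.1 ≤ 4 * h ∧ dist p.1 p.2.2 ≤ 4 * h}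

/-- bilinear mass -/
noncomputable def cntB (Ω : E → ℝ≥0∞) (h σ θ : ℝ) (y : E) : ℝ≥0∞ :=
  ∫⁻ q : E × E, (cntS h σ θ).indicator (fun p : E × E × E => Ω p.2.1 * Ω p.2.2) (y, q)
    ∂((volume : Measure E).prod volume)

lemma cnt_measS (h σ θ : ℝ) : MeasurableSet (cntS (E := E) h σ θ) := by
  refine IsClosed.measurableSet ?_
  unfold cntS
  simp only [ofPred_and]
  refine IsClosed.inter (isClosed_le (by fun_prop) (by fun_prop)) ?_
  refine IsClosed.inter (isClosed_le (by fun_prop) (by fun_prop)) ?_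
  exact IsClosed.inter (isClosed_le (by fun_prop) (by fun_prop))
    (isClosed_le (by fun_prop) (by fun_prop))

lemma cnt_measK {Ω : E → ℝ≥0∞} (hΩ : Measurable Ω) (h σ θ : ℝ) :
    Measurable ((cntS h σ θ).indicator (fun p : E × E × E => Ω p.2.1 * Ω p.2.2)) :=
  Measurable.indicator (by fun_prop) (cnt_measS h σ θ)

lemma cnt_measB {Ω : E → ℝ≥0∞} (hΩ : Measurable Ω) (h σ θ : ℝ) : Measurable (cntB Ω h σ θ) :=
  (cnt_measK hΩ h σ θ).lintegral_prod_right'

lemma cnt_int {Ω : E → ℝ≥0∞} (hΩ : Measurable Ω) {h σ θ : ℝ} {z : E} {K : ℝ≥0∞}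
    (hK : ∀ w w' : E, θ / 8 * h ≤ dist w w' →
      volume {y ∈ ball z h | |dist y w - dist y w'| ≤ 48 * σ ∧ dist y w ≤ 4 * h ∧
        dist y w' ≤ 4 * h} ≤ K) :
    ∫⁻ y in ball z h, cntB Ω h σ θ y ≤ (∫⁻ w, Ω w) * (∫⁻ w, Ω w) * K := by
  unfold cntB
  rw [lintegral_lintegral_swap (f := fun (y : E) (q : E × E) =>
    (cntS h σ θ).indicator (fun p : E × E × E => Ω p.2.1 * Ω p.2.2) (y, q))
    (cnt_measK hΩ h σ θ).aemeasurable, ← lintegral_prod_mul hΩ.aemeasurable hΩ.aemeasurable,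
    ← lintegral_mul_const _ (by fun_prop)]
  refine lintegral_mono fun q => ?_
  by_cases hq : θ / 8 * h ≤ dist q.1 q.2
  · have hT : MeasurableSet {y : E | (y, q) ∈ cntS h σ θ} :=
      (cnt_measS h σ θ).preimage (by fun_prop : Measurable fun y : E => (y, q))
    have e1 : (fun y : E => (cntS h σ θ).indicator
        (fun p : E × E × E => Ω p.2.1 * Ω p.2.2) (y, q)) =
        {y : E | (y, q) ∈ cntS h σ θ}.indicator (fun _ => Ω q.1 * Ω q.2) := by
      funext y
      by_cases hy : (y, q) ∈ cntS h σ θ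
      · rw [indicator_of_mem hy, indicator_of_mem (show y ∈ {y : E | (y, q) ∈ cntS h σ θ} from hy)]
      · rw [indicator_of_notMem hy,
          indicator_of_notMem (show y ∉ {y : E | (y, q) ∈ cntS h σ θ} from hy)]
    rw [e1, lintegral_indicator_const hT, Measure.restrict_apply hT]
    refine mul_le_mul_right (le_trans (measure_mono ?_) (hK q.1 q.2 hq)) _
    rintro y ⟨hy, hy'⟩
    exact ⟨hy', hy.2⟩
  · have e1 : (fun y : E => (cntS h σ θ).indicator
        (fun p : E × E × E => Ω p.2.1 * Ω p.2.2) (y, q)) = fun _ => 0 := by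
      funext y
      exact indicator_of_notMem (fun hy => hq hy.1) _
    rw [e1]
    simp

lemma cnt_pick {Ω : E → ℝ≥0∞} (hΩ : Measurable Ω) (hfin : ∫⁻ w, Ω w ≠ ⊤) {h σ θ s : ℝ}
    {m ω y : E} (hσ : 0 < σ) (hσh : 64 * σ ≤ h) (hs : h ≤ s) (hs' : s ≤ 2 * h) (hθ : 0 < θ)
    (hω : ‖ω‖ ≤ 2) (hy : y ∈ ball m (4 * σ)) (t : ℝ≥0∞) (ht : t ≠ ⊤) :
    ∃ a : ℝ, |a| ≤ 4 ∧
      ∫⁻ w in {w | |dist w m - s| < 20 * σ ∧ θ / 2 < |a + ⟪ω, w - m⟫ / s|}, Ω w ≤
        t + cntB Ω h σ θ y / t := by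
  have hh : 0 < h := by linarith
  have hs0 : 0 < s := by linarith
  set Sh : Set E := {w | |dist w m - s| < 20 * σ} with hSh
  have hShm : MeasurableSet Sh := (isOpen_lt (by fun_prop) (by fun_prop)).measurableSet
  have hle : ∀ a : ℝ, ∫⁻ w in {w | |dist w m - s| < 20 * σ ∧ θ / 2 < |a + ⟪ω, w - m⟫ / s|}, Ω w ≤
      ∫⁻ w in Sh, Ω w := fun a => lintegral_mono_set fun w hw => hw.1
  by_cases hM : ∫⁻ w in Sh, Ω w = 0
  · exact ⟨0, by norm_num, ((hle 0).trans hM.le).trans zero_le⟩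
  have hMt : ∫⁻ w in Sh, Ω w ≠ ⊤ := ne_top_of_le_ne_top hfin (setLIntegral_le_lintegral _ _)
  set T : Set (E × E) := {q | |dist q.2 m - s| < 20 * σ ∧
    θ / 2 < |-(⟪ω, q.1 - m⟫ / s) + ⟪ω, q.2 - m⟫ / s|} with hT
  have hTm : MeasurableSet T := by
    rw [hT, ofPred_and]
    refine IsOpen.measurableSet ?_
    exact IsOpen.inter (isOpen_lt (by fun_prop) (by fun_prop))
      (isOpen_lt (by fun_prop) (by fun_prop))
  have hk : Measurable (T.indicator fun q : E × E => Ω q.2) :=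
    Measurable.indicator (by fun_prop) hTm
  set out : E → ℝ≥0∞ := fun w' => ∫⁻ w, T.indicator (fun q : E × E => Ω q.2) (w', w) with hout
  have houtm : Measurable out := hk.lintegral_prod_right'
  have hout' : ∀ w', out w' = ∫⁻ w in {w | |dist w m - s| < 20 * σ ∧
      θ / 2 < |-(⟪ω, w' - m⟫ / s) + ⟪ω, w - m⟫ / s|}, Ω w := by
    intro w'
    have hm : MeasurableSet {w : E | |dist w m - s| < 20 * σ ∧
        θ / 2 < |-(⟪ω, w' - m⟫ / s) + ⟪ω, w - m⟫ / s|} :=
      hTm.preimage (by fun_prop : Measurable fun w : E => (w', w))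
    rw [← lintegral_indicator hm]
    rfl
  have hμ : volume.withDensity Ω Sh = ∫⁻ w in Sh, Ω w := withDensity_apply _ hShm
  obtain ⟨w', hw', hav⟩ := exists_le_setLAverage (μ := volume.withDensity Ω) (s := Sh) (f := out)
    (by rw [hμ]; exact hM) (by rw [hμ]; exact hMt) houtm.aemeasurable
  rw [setLAverage_eq, hμ, setLIntegral_withDensity_eq_setLIntegral_mul _ hΩ houtm hShm] at hav
  have hβ : ∫⁻ x in Sh, (Ω * out) x ≤ cntB Ω h σ θ y := by
    unfold cntB
    have hq : Measurable fun q : E × E =>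
        (cntS h σ θ).indicator (fun p : E × E × E => Ω p.2.1 * Ω p.2.2) (y, q) :=
      (cnt_measK hΩ h σ θ).comp (by fun_prop : Measurable fun q : E × E => (y, q))
    rw [lintegral_prod _ hq.aemeasurable, ← lintegral_indicator hShm]
    refine lintegral_mono fun x => ?_
    by_cases hx : x ∈ Sh
    · rw [indicator_of_mem hx, Pi.mul_apply, hout]
      refine (lintegral_const_mul_le _ _).trans (lintegral_mono fun w => ?_)
      by_cases hw : (x, w) ∈ T
      · have hmem : (y, x, w) ∈ cntS h σ θ := by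
          have h1 := abs_lt.1 (show |dist x m - s| < 20 * σ from hx)
          have h2 := abs_lt.1 hw.1
          have h3 : θ / 2 < |-(⟪ω, x - m⟫ / s) + ⟪ω, w - m⟫ / s| := hw.2
          have h4 : dist y m < 4 * σ := hy
          have h5 := abs_le.1 (abs_dist_sub_le y m x)
          have h6 := abs_le.1 (abs_dist_sub_le y m w)
          rw [dist_comm m x] at h5
          rw [dist_comm m w] at h6
          refine ⟨?_, ?_, ?_, ?_⟩
          · have e1 : -(⟪ω, x - m⟫ / s) + ⟪ω, w - m⟫ / s = ⟪ω, w - x⟫ / s := by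
              rw [show w - x = (w - m) - (x - m) by abel, inner_sub_right ω (w - m)]; ring
            rw [e1, abs_div, abs_of_pos hs0, lt_div_iff₀ hs0] at h3
            have h7 : |⟪ω, w - x⟫| ≤ 2 * dist x w := by
              refine (abs_real_inner_le_norm ω _).trans ?_
              rw [dist_comm, dist_eq_norm]
              exact mul_le_mul_of_nonneg_right hω (norm_nonneg _)
            have h8 : θ * h ≤ θ * s := mul_le_mul_of_nonneg_left hs hθ.le
            have h9 : 0 < θ * h := mul_pos hθ hh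
            show θ / 8 * h ≤ dist x w
            linarith
          · show |dist y x - dist y w| ≤ 48 * σ
            rw [abs_le]
            constructor <;> linarith [h1.1, h1.2, h2.1, h2.2, h5.1, h5.2, h6.1, h6.2]
          · show dist y x ≤ 4 * h
            linarith [h1.2, h5.2]
          · show dist y w ≤ 4 * h
            linarith [h2.2, h6.2]
        rw [indicator_of_mem hw, indicator_of_mem hmem]
      · rw [indicator_of_notMem hw, mul_zero]
        exact zero_le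
    · rw [indicator_of_notMem hx]
      exact zero_le
  refine ⟨-(⟪ω, w' - m⟫ / s), ?_, ?_⟩
  · rw [abs_neg, abs_div, abs_of_pos hs0, div_le_iff₀ hs0]
    refine (abs_real_inner_le_norm ω _).trans ?_
    rw [← dist_eq_norm]
    have h1 := (abs_lt.1 (show |dist w' m - s| < 20 * σ from hw')).2
    calc ‖ω‖ * dist w' m ≤ 2 * dist w' m := mul_le_mul_of_nonneg_right hω dist_nonneg
      _ ≤ 4 * s := by linarith
  · have h1 := hle (-(⟪ω, w' - m⟫ / s))
    rw [← hout'] at h1 ⊢
    rcases le_or_gt (out w') t with h2 | h2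
    · exact h2.trans le_self_add
    · refine le_trans ?_ le_add_self
      exact (hav.trans (ENNReal.div_le_div_right hβ _)).trans
        (ENNReal.div_le_div_left (h2.le.trans h1) _)

lemma cnt_dq {F : E → ℝ} {m ω : E} {h σ s τ ρ lam a : ℝ} (hσh : 64 * σ ≤ h)
    (hPk : Pk F m ω h σ s τ ρ lam) (ha : |a| ≤ 4) : av F m s - lam ≤ |Dq F m ω s a τ ρ| := by
  obtain ⟨hs, hs', hτ, hτ', hρ, hρ', hpk⟩ := hPk
  have hρ0 : 0 < ρ := by linarith
  have haτ : |a * τ| ≤ 4 * σ := by
    rw [abs_mul, abs_of_pos hτ]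
    exact mul_le_mul ha (by linarith) hτ.le (by norm_num)
  have haρ : |a * ρ| ≤ 4 * (2 * σ) := by
    rw [abs_mul, abs_of_pos hρ0]
    exact mul_le_mul ha hρ' hρ0.le (by norm_num)
  have haτ' := abs_le.1 haτ
  have haρ' := abs_le.1 haρ
  have p1 := (hpk (s - a * τ) ⟨by linarith [haτ'.1, haτ'.2], by linarith [haτ'.1, haτ'.2]⟩).1
  have p2 := (hpk (s + a * ρ) ⟨by linarith [haρ'.1, haρ'.2], by linarith [haρ'.1, haρ'.2]⟩).2
  refine le_trans ?_ (le_abs_self _)
  unfold Dq
  have h0 : 0 < τ + ρ := by linarith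
  have h1 : (ρ * av F (m - τ • ω) (s - a * τ) + τ * av F (m + ρ • ω) (s + a * ρ)) / (τ + ρ) ≤
      lam := by
    rw [div_le_iff₀ h0]
    have a3 := mul_le_mul_of_nonneg_left p1 hρ0.le
    have a4 := mul_le_mul_of_nonneg_left p2 hτ.le
    linarith
  linarith

/-- narrow peaks without walls: bilinear gain -/
theorem NT : ∃ C : ℝ, 0 < C ∧ ∀ (Ω : E → ℝ≥0∞) (z ω : E) (h σ u L : ℝ), Measurable Ω → 0 < h →
    0 < σ → 0 < u → u ≤ 1 → 64 * σ ≤ u ^ 4 * h → 0 ≤ L → ‖ω‖ ≤ 2 →
    ∫⁻ w in ball z (10 * h), Ω w ≤ ENNReal.ofReal (u * σ / h * L) * V E h →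
    ∃ B : E → ℝ≥0∞, Measurable B ∧
      ∫⁻ y in ball z h, B y ≤ ENNReal.ofReal (C * (u * (σ / h) * L)) * V E h ∧
      ∀ (F : E → ℝ) (m : E) (s τ ρ lam : ℝ), Measurable F → LocallyIntegrable F volume →
        dist m z < h / 2 → Pk F m ω h σ s τ ρ lam →
        (∀ w ∈ ball m (s + 20 * σ), om F (u * σ) w ≤ Ω w) →
        ∀ y ∈ ball m (4 * σ), ENNReal.ofReal (av F m s - lam) ≤ B y := by
  obtain ⟨C1, hC1, hDE⟩ := DE (E := E)
  obtain ⟨C2, hC2, hPK⟩ := PK1 (E := E)
  refine ⟨2 * C1 + C1 * (1 + 6 * C2), by positivity, ?_⟩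
  intro Ω z ω h σ u L hΩ hh hσ hu hu1 hσh hL hω hint
  set Ω' : E → ℝ≥0∞ := (ball z (10 * h)).indicator Ω with hΩ'
  have hΩ'm : Measurable Ω' := hΩ.indicator measurableSet_ball
  set Λ : ℝ≥0∞ := ENNReal.ofReal (u * σ / h * L) * V E h with hΛ
  have hΛt : Λ ≠ ⊤ := ENNReal.mul_ne_top ENNReal.ofReal_ne_top (V_ne_top h)
  have hint' : ∫⁻ w, Ω' w ≤ Λ := by
    rw [hΩ', lintegral_indicator measurableSet_ball]; exact hint
  have hu2 : u ^ 2 ≤ 1 := pow_le_one₀ hu.le hu1
  have hu4 : u ^ 4 ≤ u ^ 2 := pow_le_pow_of_le_one hu.le hu1 (by norm_num)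
  have hθ : 16 * σ ≤ u ^ 2 * h := by
    have := mul_le_mul_of_nonneg_right hu4 hh.le
    linarith
  have hσh' : 64 * σ ≤ h := by
    have := mul_le_mul_of_nonneg_right (hu4.trans hu2) hh.le
    linarith
  set t : ℝ≥0∞ := ENNReal.ofReal u * Λ with ht
  have htt : t ≠ ⊤ := ENNReal.mul_ne_top ENNReal.ofReal_ne_top hΛt
  have hBm := cnt_measB hΩ'm h σ (u ^ 2)
  refine ⟨fun y => (V E h)⁻¹ * (ENNReal.ofReal (2 * C1) * Λ +
    ENNReal.ofReal (C1 / u) * (t + cntB Ω' h σ (u ^ 2) y / t)), by fun_prop, ?_, ?_⟩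
  · have h1 : ∫⁻ y in ball z h, cntB Ω' h σ (u ^ 2) y ≤
        (ENNReal.ofReal (6 * C2 * u) * Λ * V E h) * t := by
      refine (cnt_int hΩ'm (K := ENNReal.ofReal (6 * C2 * u * u) * V E h)
        fun w w' hw => ?_).trans ?_
      · refine (hPK w w' z h (48 * σ) (u ^ 2 / 8) hh (by positivity) (by positivity) hw).trans ?_
        refine mul_le_mul_left (ENNReal.ofReal_le_ofReal ?_) _
        have e1 : 48 * σ / (u ^ 2 / 8 * h) ≤ 6 * u * u := by
          rw [div_le_iff₀ (by positivity)]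
          have : 6 * u * u * (u ^ 2 / 8 * h) = 48 / 64 * (u ^ 4 * h) := by ring
          linarith
        calc _ ≤ C2 * (6 * u * u) := mul_le_mul_of_nonneg_left e1 hC2.le
          _ = _ := by ring
      · rw [ht, ENNReal.ofReal_mul (p := 6 * C2 * u) (by positivity)]
        calc _ ≤ Λ * Λ * (ENNReal.ofReal (6 * C2 * u) * ENNReal.ofReal u * V E h) := by gcongr
          _ = _ := by ring
    have h2 : ∫⁻ y in ball z h, cntB Ω' h σ (u ^ 2) y / t ≤
        ENNReal.ofReal (6 * C2 * u) * Λ * V E h := by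
      simp only [div_eq_mul_inv]
      rw [lintegral_mul_const _ hBm, ← div_eq_mul_inv]
      exact ENNReal.div_le_of_le_mul h1
    rw [lintegral_const_mul _ (by fun_prop), lintegral_add_left measurable_const,
      lintegral_const_mul (ENNReal.ofReal (C1 / u)) (by fun_prop),
      lintegral_add_left measurable_const, setLIntegral_const, setLIntegral_const, vol_ball]
    have h3 : ENNReal.ofReal ((2 * C1 + C1 * (1 + 6 * C2)) * (u * (σ / h) * L)) * V E h =
        (ENNReal.ofReal (2 * C1) + ENNReal.ofReal (C1 / u) *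
          (ENNReal.ofReal u + ENNReal.ofReal (6 * C2 * u))) * Λ := by
      rw [← ENNReal.ofReal_add hu.le (by positivity), ← ENNReal.ofReal_mul (by positivity),
        ← ENNReal.ofReal_add (by positivity) (by positivity), hΛ,
        ← mul_assoc (ENNReal.ofReal _), ← ENNReal.ofReal_mul (by positivity)]
      congr 2
      field_simp
    rw [h3]
    calc _ ≤ (V E h)⁻¹ * (ENNReal.ofReal (2 * C1) * Λ * V E h + ENNReal.ofReal (C1 / u) *
          (t * V E h + ENNReal.ofReal (6 * C2 * u) * Λ * V E h)) := by gcongr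
      _ = ((V E h)⁻¹ * V E h) * ((ENNReal.ofReal (2 * C1) + ENNReal.ofReal (C1 / u) *
          (ENNReal.ofReal u + ENNReal.ofReal (6 * C2 * u))) * Λ) := by rw [ht]; ring
      _ = _ := by rw [ENNReal.inv_mul_cancel (V_ne_zero hh) (V_ne_top h), one_mul]
  · intro F m s τ ρ lam hF hFi hm hPk hom y hy
    have hPk' := hPk
    obtain ⟨hs, hs', hτ, hτ', hρ, hρ', -⟩ := hPk'
    obtain ⟨a, ha, hout⟩ := cnt_pick hΩ'm (ne_top_of_le_ne_top hΛt hint') hσ hσh' hs hs'
      (pow_pos hu 2) hω hy t htt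
    have hsub : ball m (s + 20 * σ) ⊆ ball z (10 * h) := ball_subset_ball' (by linarith)
    have huσ : u * σ ≤ σ := by nlinarith
    have h1 := hDE F Ω' hF hFi hΩ'm m ω h σ (u * σ) s a (u ^ 2) τ ρ (by positivity) huσ hσh' hs hs'
      hω ha hτ (by linarith) (by linarith) hρ' hθ fun w hw => by
        rw [hΩ', indicator_of_mem (hsub hw)]; exact hom w hw
    have e1 : C1 * (1 + u ^ 2 * (σ / (u * σ)) ^ 2) = 2 * C1 := by field_simp; norm_num
    have e2 : C1 * (σ / (u * σ)) = C1 / u := by field_simp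
    rw [e1, e2] at h1
    have h2 : ENNReal.ofReal (av F m s - lam) * V E h ≤ ENNReal.ofReal (2 * C1) * Λ +
        ENNReal.ofReal (C1 / u) * (t + cntB Ω' h σ (u ^ 2) y / t) := by
      refine le_trans (mul_le_mul_left (ENNReal.ofReal_le_ofReal (cnt_dq hσh' hPk ha)) _)
        (h1.trans ?_)
      have h3 := (setLIntegral_le_lintegral (μ := volume) (ball m (s + 20 * σ)) Ω').trans hint'
      gcongr
    calc ENNReal.ofReal (av F m s - lam)
        = (V E h)⁻¹ * (ENNReal.ofReal (av F m s - lam) * V E h) := by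
          rw [mul_comm _ (V E h), ← mul_assoc, ENNReal.inv_mul_cancel (V_ne_zero hh) (V_ne_top h),
            one_mul]
      _ ≤ _ := mul_le_mul_right h2 _

end Vale.Agent.P137
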