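import Vale.Agent.P137.CNarC

namespace Vale.Agent.P137

open MeasureTheory Metric Set Filter Topology
open scoped ENNReal RealInnerProductSpace

variable {E : Type*} [NormedAddCommGroup E] [InnerProductSpace ℝ E] [FiniteDimensional ℝ E]
  [MeasurableSpace E] [BorelSpace E]

lemma nar_id {x : ℝ} (hx : 0 < x) (a : ℝ) (k : ℕ) : a * x ^ (k + 1) * (1 / x) ^ k = a * x := by
  rw [one_div, inv_pow, pow_succ]; field_simp

lemma nar_le {x a : ℝ} (hx : 0 < x) (hx1 : x ≤ 1) (ha : 0 < a) (ha1 : a ≤ 1) (k : ℕ) :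
    a * x ^ (k + 1) ≤ x ∧ a * x ^ (k + 1) ≤ a :=
  ⟨(mul_le_of_le_one_left (by positivity) ha1).trans (pow_le_of_le_one hx.le hx1 (by omega)),
    mul_le_of_le_one_right ha.le (pow_le_one₀ hx.le hx1)⟩

lemma nar_add {A B : E → ℝ≥0∞} (hA : Measurable A) {U : Set E} {a b : ℝ} {v : ℝ≥0∞} (ha : 0 ≤ a)
    (hb : 0 ≤ b) (h1 : ∫⁻ y in U, A y ≤ ENNReal.ofReal a * v)
    (h2 : ∫⁻ y in U, B y ≤ ENNReal.ofReal b * v) :
    ∫⁻ y in U, (A y + B y) ≤ ENNReal.ofReal (a + b) * v := by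
  rw [lintegral_add_left hA, ENNReal.ofReal_add ha hb, add_mul]
  exact add_le_add h1 h2

set_option maxHeartbeats 1000000 in
/-- the narrow peak estimate -/
theorem NARpt [Nontrivial E] (κf : ℝ) (hκf : 0 < κf) (hκf1 : κf ≤ 1) :
    ∃ (M : ℕ) (C : ℝ), 0 < M ∧ 0 < C ∧ ∀ (F : E → ℝ) (z ω : E) (h σ κ H : ℝ), Measurable F →
    (∀ y, 0 ≤ F y) → Integrable F → 0 < σ → 16 * σ ≤ h → 0 < κ → κ ≤ 1 → σ ≤ κ ^ M * h →
    0 ≤ H → ‖ω‖ ≤ 2 → APH F z h (40 * h) (σ ^ 2 / h) H →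
    PP F z (40 * h) ≤ ENNReal.ofReal H * V E h ^ 2 →
    ∃ B : E → ℝ≥0∞, Measurable B ∧
      ∫⁻ y in ball z h, B y ≤ ENNReal.ofReal (C * (κ * (σ / h) * H)) * V E h ∧
      ∀ (m : E) (s τ ρ lam : ℝ), dist m z < h / 2 → Pk F m ω h σ s τ ρ lam →
        (NegP F m h ω κf (σ ^ 2 / h) H ∨ NegP F m h (-ω) κf (σ ^ 2 / h) H) →
        ∀ y ∈ ball m (4 * σ), ENNReal.ofReal (av F m s - lam) ≤ B y := by
  obtain ⟨Cs, κs, hCs, hκs, hκs1, HS⟩ := nar_side (E := E) κf hκf hκf1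
  obtain ⟨Ca, hCa, HA⟩ := nar_da (E := E) κf hκf hκf1
  obtain ⟨Cn, hCn, HN⟩ := nar_NT (E := E)
  obtain ⟨d, hd⟩ : ∃ d, d = 2 * Module.finrank ℝ E := ⟨_, rfl⟩
  rw [← hd] at HS
  have hK : 0 < Cs * Ca + Cs * Ca + Cn * (2 * Cs * Ca) + 1 := by positivity
  refine ⟨1 + 4 * (1 + 8 * (1 + 2 * (1 + (d + 1)) * (d + 1)) * (d + 1)),
    2 / κs + (Cs * Ca + Cs * Ca + Cn * (2 * Cs * Ca) + 1), by omega, by positivity,
    fun F z ω h σ κ H hF hF0 hFI hσ hσh hκ hκ1 hM hH hω hA hP => ?_⟩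
  have hh : 0 < h := by linarith
  have hFi := hFI.locallyIntegrable
  have hε : 0 < σ / h := by positivity
  have hε1 : σ / h ≤ 1 := by rw [div_le_iff₀ hh]; linarith
  have hρ : σ ^ 2 / h = σ / h * σ := by ring
  have hρ1 : σ ^ 2 / h ≤ σ := by rw [hρ]; exact mul_le_of_le_one_left hσ.le hε1
  have key : ∀ (m : E) (s τ ρ lam : ℝ), Pk F m ω h σ s τ ρ lam →
      (NegP F m h ω κf (σ ^ 2 / h) H ∨ NegP F m h (-ω) κf (σ ^ 2 / h) H) →
      ∃ (e : E) (l : ℝ), (e = ω ∨ e = -ω) ∧ ‖e‖ ≤ 2 ∧ NegP F m h e κf (σ ^ 2 / h) H ∧ 0 < l ∧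
        l ≤ 2 * σ ∧ av F (m + l • e) s ≤ lam ∧ av F m s - lam ≤ max l (σ ^ 2 / h) / h * H ∧
        av F m s - lam ≤ 2 * (σ / h) * H := by
    intro m s τ ρ lam hPk hN
    obtain ⟨hs1, hs2, hτ, hτ', hρ, hρ', hav⟩ := hPk
    have hav' := hav s ⟨by linarith, by linarith⟩
    obtain ⟨e, l, h1, h2, h3, h4, h5, h6⟩ : ∃ (e : E) (l : ℝ), (e = ω ∨ e = -ω) ∧ ‖e‖ ≤ 2 ∧
        NegP F m h e κf (σ ^ 2 / h) H ∧ 0 < l ∧ l ≤ 2 * σ ∧ av F (m + l • e) s ≤ lam := by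
      rcases hN with hN | hN
      · exact ⟨ω, ρ, Or.inl rfl, hω, hN, by linarith, hρ', hav'.2⟩
      · exact ⟨-ω, τ, Or.inr rfl, by rwa [norm_neg], hN, hτ, by linarith,
          by rw [smul_neg, ← sub_eq_add_neg]; exact hav'.1⟩
    have h7 := nar_first hF hF0 hFi h3 hκf hκf1 hs1 hs2 h4 (by linarith) h2 hH
    have h8 : max l (σ ^ 2 / h) / h * H ≤ 2 * σ / h * H := by
      gcongr
      exact max_le h5 (by linarith)
    rw [mul_div_assoc] at h8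
    exact ⟨e, l, h1, h2, h3, h4, h5, h6, by linarith, by linarith⟩
  have hX : 0 ≤ κ * (σ / h) * H := by positivity
  by_cases hc : κs < κ ∨ H = 0
  · refine ⟨fun _ => ENNReal.ofReal (2 * (σ / h) * H), measurable_const, ?_,
      fun m s τ ρ lam _ hPk hN y _ => ?_⟩
    · rw [setLIntegral_const, vol_ball]
      refine mul_le_mul_left (ENNReal.ofReal_le_ofReal ?_) _
      rcases hc with hc | rfl
      · have h1 : 2 ≤ 2 / κs * κ := by
          rw [div_mul_eq_mul_div, le_div_iff₀ hκs]; linarith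
        have h2 := mul_le_mul_of_nonneg_right h1 (mul_nonneg hε.le hH)
        linarith [mul_nonneg hK.le hX]
      · simp
    · obtain ⟨e, l, -, -, -, -, -, -, -, h1⟩ := key m s τ ρ lam hPk hN
      exact ENNReal.ofReal_le_ofReal h1
  rw [not_or, not_lt] at hc
  have hH0 : 0 < H := lt_of_le_of_ne hH (Ne.symm hc.2)
  have hHH : H ≤ Ca * H := le_mul_of_one_le_left hH hCa
  obtain ⟨u1, e1⟩ : ∃ u, u = κ * κ ^ (d + 1) := ⟨_, rfl⟩
  obtain ⟨u2, e2⟩ : ∃ u, u = κ * (u1 ^ 2) ^ (d + 1) := ⟨_, rfl⟩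
  obtain ⟨u3, e3⟩ : ∃ u, u = κ * (u2 ^ 8) ^ (d + 1) := ⟨_, rfl⟩
  have eM : κ ^ (1 + 4 * (1 + 8 * (1 + 2 * (1 + (d + 1)) * (d + 1)) * (d + 1))) = κ * u3 ^ 4 := by
    rw [e3, e2, e1]
    simp only [← pow_mul, ← pow_succ']
    congr 1
    ring
  rw [eM] at hM
  have p1 : 0 < u1 := by rw [e1]; positivity
  have p2 : 0 < u2 := by rw [e2]; positivity
  have p3 : 0 < u3 := by rw [e3]; positivity
  have q1 : u1 ≤ 1 := (e1 ▸ (nar_le hκ hκ1 hκ hκ1 d).1).trans hκ1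
  have q2 : u2 ≤ κ := e2 ▸ (nar_le (by positivity) (pow_le_one₀ p1.le q1) hκ hκ1 d).2
  have q3 : u2 ^ 8 ≤ u2 := pow_le_of_le_one p2.le (q2.trans hκ1) (by norm_num)
  have p4 : 0 < u2 ^ 8 := by positivity
  have q4 : u3 ≤ u2 ^ 8 := e3 ▸ (nar_le p4 (by linarith) hκ hκ1 d).1
  have q5 : u3 ^ 4 ≤ u3 := pow_le_of_le_one p3.le (by linarith) (by norm_num)
  have q6 : 64 * σ ≤ u3 ^ 4 * h := by
    have h1 : κ * (u3 ^ 4 * h) ≤ 1 / 64 * (u3 ^ 4 * h) := by gcongr; linarith [hc.1]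
    linarith
  have q7 : u3 ^ 4 * h ≤ u3 * h := by gcongr
  have q8 : u3 * h ≤ u2 ^ 8 * h := by gcongr
  have q9 : σ / h ≤ u3 := by rw [div_le_iff₀ hh]; linarith
  have q10 : σ ^ 2 / h ≤ u3 * σ := by rw [hρ]; gcongr
  have q11 : u3 * σ ≤ u2 * σ := by gcongr; linarith
  have hA' := hA.mono hh le_rfl hHH
  have hP' : PP F z (40 * h) ≤ ENNReal.ofReal (Ca * H) * V E h ^ 2 := hP.trans (by gcongr)
  have r1 : u1 * (1 / κ) ^ d ≤ κ ^ 2 := by rw [e1, nar_id hκ, sq]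
  have r2 : u2 * (1 / u1 ^ 2) ^ d ≤ κ * u1 ^ 2 := by rw [e2, nar_id (by positivity)]
  have r3 : u3 * (1 / u2 ^ 8) ^ d = κ * u2 ^ 8 := by rw [e3, nar_id p4]
  have r4 : 1 ≤ (1 / u2 ^ 8) ^ d := one_le_pow₀ (by rw [le_div_iff₀ p4]; linarith)
  obtain ⟨t1, W1, mW1, a1, a2, a3, B1, mB1, a4, a5⟩ := HS F z ω h σ (σ ^ 2 / h) (Ca * H)
    (av F z (h / 2)) κ u1 u2 hF hFi hh hσ (by positivity) hω hA' hP' hκ hc.1 p1 p2 r1 r2
    (by linarith) (by linarith)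
  obtain ⟨t2, W2, mW2, b1, b2, b3, B2, mB2, b4, b5⟩ := HS (fun y => - F y) z ω h σ (σ ^ 2 / h)
    (Ca * H) (- av F z (h / 2)) κ u1 u2 hF.neg hFi.neg hh hσ (by positivity) hω hA'.neg
    (by rwa [PP_neg]) hκ hc.1 p1 p2 r1 r2 (by linarith) (by linarith)
  generalize (1 / u2 ^ 8) ^ d = N at *
  have s1 : Ca * H ≤ Cs * N * (Ca * H) :=
    le_mul_of_one_le_left (by positivity) (one_le_mul_of_one_le_of_one_le hCs r4)
  have s2 : u3 * (σ / h) * (2 * (Cs * N * (Ca * H)) / u2 ^ 8) =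
      2 * Cs * Ca * (κ * (σ / h) * H) := by
    rw [← mul_div_assoc, div_eq_iff p4.ne']
    linear_combination (2 * Cs * Ca * (σ / h) * H) * r3
  generalize Cs * N * (Ca * H) = T at *
  have s3 : u2 ^ 8 * (2 * T / u2 ^ 8) = 2 * T := by field_simp
  have s4 : 2 * T ≤ 2 * T / u2 ^ 8 := le_div_self (by linarith) p4 (by linarith)
  obtain ⟨B3, mB3, c1, c2⟩ := HN F z ω h σ (σ ^ 2 / h) (Ca * H) (u2 ^ 8) u3 t1 (-t2)
    (2 * T / u2 ^ 8) W1 W2 hF hFi hA' hh hσ (by linarith) (by linarith) p3 q4 (by linarith) q6 q10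
    hω (by linarith) (by linarith) mW1 mW2
    (by rw [s3]; exact a3.trans (mul_le_mul_left (ENNReal.ofReal_le_ofReal (by linarith)) _))
    (by
      rw [s3]
      exact le_trans (le_of_eq (lintegral_congr fun y => by congr 1; ring))
        (b3.trans (mul_le_mul_left (ENNReal.ofReal_le_ofReal (by linarith)) _)))
  rw [s2] at c1
  refine ⟨fun y => B1 y + B2 y + B3 y + ENNReal.ofReal (κ * (σ / h) * H),
    ((mB1.add mB2).add mB3).add measurable_const, ?_, fun m s τ ρ lam hm hPk hN y hy => ?_⟩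
  · refine (nar_addc ((mB1.add mB2).add mB3) (by positivity) hX (nar_add (mB1.add mB2)
      (by positivity) (by positivity) (nar_add mB1 (by positivity) (by positivity) a4 b4)
      c1)).trans (mul_le_mul_left (ENNReal.ofReal_le_ofReal ?_) _)
    have : 0 ≤ 2 / κs * (κ * (σ / h) * H) := by positivity
    linarith
  obtain ⟨e, l, h1, h2, h3, h4, h5, h6, h7, h8⟩ := key m s τ ρ lam hPk hN
  by_cases k1 : av F m s - lam ≤ κ * (σ / h) * H
  · exact (ENNReal.ofReal_le_ofReal k1).trans le_add_self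
  refine le_trans ?_ le_self_add
  have k2 : σ ^ 2 / h ≤ l := by
    by_contra k
    rw [max_eq_right (not_le.1 k).le, hρ, mul_div_assoc] at h7
    refine k1 (h7.trans ?_)
    gcongr
    linarith
  have hda := HA F z m e h _ H s l hF hF0 hFi h3 hPk.1 hPk.2.1 h4 (by linarith) k2 h2 hH hm
    (by linarith)
  have h9 : av F m s - lam ≤ 2 * (σ / h) * (Ca * H) := h8.trans (by gcongr)
  by_cases k3 : ball m (s + 3 * u2 ^ 8 * h) ⊆ W1
  swap
  · exact (a5 F (Or.inl rfl) m e s τ ρ lam hm hPk hda h1 (h3.mono hHH) h9 k3 y hy).trans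
      (le_self_add.trans le_self_add)
  by_cases k4 : ball m (s + 3 * u2 ^ 8 * h) ⊆ W2
  · exact (c2 m s τ ρ lam hm hPk k3 k4 y hy).trans le_add_self
  · exact (b5 F (Or.inr (funext fun y => (neg_neg _).symm)) m (-e) s τ ρ lam hm hPk
      (by rwa [nar_da_neg]) (by rcases h1 with rfl | rfl <;> simp) (h3.mono hHH).neg h9 k4 y
      hy).trans (le_add_self.trans le_self_add)

end Vale.Agent.P137
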