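import Vale.Agent.P137.CSHAux

namespace Vale.Agent.P137

open MeasureTheory Metric Set Filter Topology
open scoped ENNReal RealInnerProductSpace

variable {E : Type*} [NormedAddCommGroup E] [InnerProductSpace ℝ E] [FiniteDimensional ℝ E]
  [MeasurableSpace E] [BorelSpace E]

lemma csh_comb {τ ρ lam X c g a s d e W T P1 P1' P2 P2' l1 l1' l2 l2' w1 w2 R : ℝ}
    (hτ : 0 < τ) (hρ : 0 < ρ) (p1 : P1' - l1' - w1 ≤ lam) (p2 : P2' - l2' - w2 ≤ lam)
    (x1 : P1 - P1' ≤ X) (x2 : P2 - P2' ≤ X) (k1 : l1' - l1 ≤ c) (k3 : l2' - l2 ≤ c)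
    (k2 : w1 ≤ W * (1 - d * ((a * (-τ) - -g) / s) + e))
    (k4 : w2 ≤ W * (1 - d * ((a * ρ - -g) / s) + e))
    (hR : c + W * (- (d * (g / s)) + e) ≤ R) :
    T - W - lam ≤ T - (ρ * (P1 - l1) + τ * (P2 - l2)) / (τ + ρ) + X + R := by
  have h0 : 0 < τ + ρ := by linarith
  have h1 : (ρ * (P1 - l1) + τ * (P2 - l2)) / (τ + ρ) ≤ X + R + W + lam := by
    rw [div_le_iff₀ h0]
    have a1 : P1 - l1 ≤ X + c + lam + W * (1 - d * ((a * (-τ) - -g) / s) + e) := by linarith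
    have a2 : P2 - l2 ≤ X + c + lam + W * (1 - d * ((a * ρ - -g) / s) + e) := by linarith
    have a3 := mul_le_mul_of_nonneg_left a1 hρ.le
    have a4 := mul_le_mul_of_nonneg_left a2 hτ.le
    have a5 := mul_le_mul_of_nonneg_right hR h0.le
    have a6 : ρ * (X + c + lam + W * (1 - d * ((a * (-τ) - -g) / s) + e)) +
        τ * (X + c + lam + W * (1 - d * ((a * ρ - -g) / s) + e)) =
        (X + W + lam) * (τ + ρ) + (c + W * (- (d * (g / s)) + e)) * (τ + ρ) := by ring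
    linarith
  linarith

lemma csh_comb' {τ ρ lam X c g a s d W T P1 P1' P2 P2' l1 l1' l2 l2' w1 w2 R : ℝ}
    (hτ : 0 < τ) (hρ : 0 < ρ) (p1 : P1' + l1' + w1 ≤ lam) (p2 : P2' + l2' + w2 ≤ lam)
    (x1 : P1 - P1' ≤ X) (x2 : P2 - P2' ≤ X) (k1 : l1 - l1' ≤ c) (k3 : l2 - l2' ≤ c)
    (k2 : W * (1 - d * ((a * (-τ) + g) / s)) ≤ w1)
    (k4 : W * (1 - d * ((a * ρ + g) / s)) ≤ w2)
    (hR : c + W * (d * (g / s)) ≤ R) :
    T + W - lam ≤ T - (ρ * (P1 + l1) + τ * (P2 + l2)) / (τ + ρ) + X + R := by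
  have h0 : 0 < τ + ρ := by linarith
  have h1 : (ρ * (P1 + l1) + τ * (P2 + l2)) / (τ + ρ) ≤ X + R - W + lam := by
    rw [div_le_iff₀ h0]
    have a1 : P1 + l1 ≤ X + c + lam - W * (1 - d * ((a * (-τ) + g) / s)) := by linarith
    have a2 : P2 + l2 ≤ X + c + lam - W * (1 - d * ((a * ρ + g) / s)) := by linarith
    have a3 := mul_le_mul_of_nonneg_left a1 hρ.le
    have a4 := mul_le_mul_of_nonneg_left a2 hτ.le
    have a5 := mul_le_mul_of_nonneg_right hR h0.le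
    have a6 : ρ * (X + c + lam - W * (1 - d * ((a * (-τ) + g) / s))) +
        τ * (X + c + lam - W * (1 - d * ((a * ρ + g) / s))) =
        (X - W + lam) * (τ + ρ) + (c + W * (d * (g / s))) * (τ + ρ) := by ring
    linarith
  linarith

/-- shrinking the competitors to avoid a low wall -/
theorem SH : ∃ C : ℝ, 0 < C ∧ ∀ (F Ft P l w : E → ℝ) (m ω p : E) (h σ s τ ρ lam θ X Y : ℝ),
    LocallyIntegrable P volume → LocallyIntegrable l volume → LocallyIntegrable w volume →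
    (∀ y, F y = Ft y - w y) → (∀ y, Ft y = P y - l y) → (∀ y, 0 ≤ w y) → (∀ y, 0 ≤ l y) →
    0 < σ → 64 * σ ≤ h → ‖ω‖ ≤ 2 → Pk F m ω h σ s τ ρ lam → 16 * σ ≤ θ * h → θ ≤ 1 / 8 →
    |dist p m - s| ≤ θ * h → (∀ y, w y ≠ 0 → dist y m ≤ s + 20 * σ → dist y p ≤ θ * h) →
    av P (m - τ • ω) (s - (- (⟪ω, p - m⟫ / s)) * τ) -
      av P (m - τ • ω) (s - (- (⟪ω, p - m⟫ / s)) * τ - 13 * θ * σ) ≤ X →
    av P (m + ρ • ω) (s + (- (⟪ω, p - m⟫ / s)) * ρ) -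
      av P (m + ρ • ω) (s + (- (⟪ω, p - m⟫ / s)) * ρ - 13 * θ * σ) ≤ X →
    av l (m - τ • ω) (s - (- (⟪ω, p - m⟫ / s)) * τ) ≤ Y →
    av l (m + ρ • ω) (s + (- (⟪ω, p - m⟫ / s)) * ρ) ≤ Y → av w m s ≤ Y →
    av F m s - lam ≤ Dq Ft m ω s (- (⟪ω, p - m⟫ / s)) τ ρ + X + C * (θ * (σ / h)) * Y := by
  obtain ⟨C, hC0, hC⟩ := csh_second (Module.finrank ℝ E)
  have hd : (0 : ℝ) ≤ Module.finrank ℝ E := Nat.cast_nonneg _
  refine ⟨26 * (Module.finrank ℝ E + C) + 13 * Module.finrank ℝ E + 16 * C + 1, by positivity, ?_⟩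
  intro F Ft P l w m ω p h σ s τ ρ lam θ X Y hP hl hw hF hFt hw0 hl0 hσ hσh hω hPk hθ hθ' hp hwp
    hX1 hX2 hY1 hY2 hY3
  obtain ⟨hs, hs', hτ, hτ', hρ, hρ', hpk⟩ := hPk
  have hh : 0 < h := by linarith
  have hθ0 : 0 < θ := by
    by_contra hc
    push Not at hc
    nlinarith
  have ha := abs_le.1 (csh_a hh hω hs hθ' hp)
  have e1 : m - τ • ω = m + (-τ) • ω := by rw [neg_smul, sub_eq_add_neg]
  have e2 : s - (- (⟪ω, p - m⟫ / s)) * τ = s + (- (⟪ω, p - m⟫ / s)) * (-τ) := by ring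
  obtain ⟨k1, k2⟩ := csh_one hC0 hC (t := -τ) (Y := Y) hl hw hw0 hl0 hσ hσh hω hs hθ hθ' hp hwp
    (by rw [abs_neg, abs_of_pos hτ]; linarith) (by rw [← e1, ← e2]; exact hY1)
  obtain ⟨k3, k4⟩ := csh_one hC0 hC (t := ρ) (Y := Y) hl hw hw0 hl0 hσ hσh hω hs hθ hθ' hp hwp
    (by rw [abs_of_pos (by linarith)]; linarith) hY2
  rw [← e1, ← e2] at k1 k2
  have hFt' : LocallyIntegrable Ft volume := by
    rw [show Ft = fun y => P y - l y from funext hFt]; exact hP.sub hl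
  have aF : ∀ c r, av F c r = av Ft c r - av w c r := fun c r => by
    rw [show F = fun y => Ft y - w y from funext hF]; exact av_sub hFt' hw c r
  have aFt : ∀ c r, av Ft c r = av P c r - av l c r := fun c r => by
    rw [show Ft = fun y => P y - l y from funext hFt]; exact av_sub hP hl c r
  unfold Dq
  set a := - (⟪ω, p - m⟫ / s) with hadef
  have hθσ : θ * σ ≤ σ / 8 := by nlinarith
  have hθσ0 : 0 < θ * σ := mul_pos hθ0 hσ
  have haτ : |a * τ| ≤ 3 * σ := by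
    rw [abs_mul, abs_of_pos hτ]
    calc _ ≤ 3 * σ := mul_le_mul (abs_le.2 ha) (by linarith) hτ.le (by norm_num)
      _ = _ := rfl
  have haρ : |a * ρ| ≤ 3 * (2 * σ) := by
    rw [abs_mul, abs_of_pos (show 0 < ρ by linarith)]
    exact mul_le_mul (abs_le.2 ha) hρ' (by linarith) (by norm_num)
  have haτ' := abs_le.1 haτ
  have haρ' := abs_le.1 haρ
  have p1 := (hpk (s - a * τ - 13 * θ * σ)
    ⟨by linarith [haτ'.1, haτ'.2], by linarith [haτ'.1, haτ'.2]⟩).1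
  have p2 := (hpk (s + a * ρ - 13 * θ * σ)
    ⟨by linarith [haρ'.1, haρ'.2], by linarith [haρ'.1, haρ'.2]⟩).2
  rw [aF, aFt] at p1 p2
  rw [aF, aFt (m - τ • ω), aFt (m + ρ • ω)]
  have hW0 := av_nonneg hw0 m s
  refine csh_comb (c := 26 * (Module.finrank ℝ E + C) * (θ * (σ / h)) * Y)
    (g := -(13 * θ * σ)) hτ (by linarith) p1 p2 hX1 hX2 k1 k3 (by rw [neg_neg]; exact k2)
    (by rw [neg_neg]; exact k4) ?_
  have q1 : 13 * θ * σ / s ≤ 13 * (θ * (σ / h)) := by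
    have : 13 * θ * σ / s ≤ 13 * θ * σ / h := div_le_div_of_nonneg_left (by positivity) hh hs
    calc _ ≤ _ := this
      _ = _ := by ring
  have q0 : 0 ≤ θ * (σ / h) := by positivity
  have q2 : 0 ≤ 13 * Module.finrank ℝ E * (θ * (σ / h)) + 16 * C * (θ * (σ / h)) := by positivity
  have q3 : - (Module.finrank ℝ E * (-(13 * θ * σ) / s)) + 16 * C * (θ * (σ / h)) ≤
      13 * Module.finrank ℝ E * (θ * (σ / h)) + 16 * C * (θ * (σ / h)) := by
    have := mul_le_mul_of_nonneg_left q1 hd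
    rw [neg_div]
    linarith
  have q4 := mul_le_mul_of_nonneg_left q3 hW0
  have q5 := mul_le_mul_of_nonneg_right hY3 q2
  have q6 := mul_nonneg q0 (hW0.trans hY3)
  linarith

/-- enlarging the competitors to keep a high wall -/
theorem EN : ∃ C : ℝ, 0 < C ∧ ∀ (F Ft P l w : E → ℝ) (m ω p : E) (h σ s τ ρ lam θ X Y : ℝ),
    LocallyIntegrable P volume → LocallyIntegrable l volume → LocallyIntegrable w volume →
    (∀ y, F y = Ft y + w y) → (∀ y, Ft y = P y + l y) → (∀ y, 0 ≤ w y) → (∀ y, 0 ≤ l y) →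
    0 < σ → 64 * σ ≤ h → ‖ω‖ ≤ 2 → Pk F m ω h σ s τ ρ lam → 16 * σ ≤ θ * h → θ ≤ 1 / 8 →
    |dist p m - s| ≤ θ * h → (∀ y, w y ≠ 0 → dist y m ≤ s + 20 * σ → dist y p ≤ θ * h) →
    av P (m - τ • ω) (s - (- (⟪ω, p - m⟫ / s)) * τ) -
      av P (m - τ • ω) (s - (- (⟪ω, p - m⟫ / s)) * τ + 13 * θ * σ) ≤ X →
    av P (m + ρ • ω) (s + (- (⟪ω, p - m⟫ / s)) * ρ) -
      av P (m + ρ • ω) (s + (- (⟪ω, p - m⟫ / s)) * ρ + 13 * θ * σ) ≤ X →
    av l (m - τ • ω) (s - (- (⟪ω, p - m⟫ / s)) * τ) ≤ Y →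
    av l (m + ρ • ω) (s + (- (⟪ω, p - m⟫ / s)) * ρ) ≤ Y → av w m s ≤ Y →
    av F m s - lam ≤ Dq Ft m ω s (- (⟪ω, p - m⟫ / s)) τ ρ + X + C * (θ * (σ / h)) * Y := by
  have hd : (0 : ℝ) ≤ Module.finrank ℝ E := Nat.cast_nonneg _
  refine ⟨26 * Module.finrank ℝ E + 13 * Module.finrank ℝ E + 1, by positivity, ?_⟩
  intro F Ft P l w m ω p h σ s τ ρ lam θ X Y hP hl hw hF hFt hw0 hl0 hσ hσh hω hPk hθ hθ' hp hwp
    hX1 hX2 hY1 hY2 hY3
  obtain ⟨hs, hs', hτ, hτ', hρ, hρ', hpk⟩ := hPk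
  have hh : 0 < h := by linarith
  have hθ0 : 0 < θ := by
    by_contra hc
    push Not at hc
    nlinarith
  have ha := abs_le.1 (csh_a hh hω hs hθ' hp)
  have e1 : m - τ • ω = m + (-τ) • ω := by rw [neg_smul, sub_eq_add_neg]
  have e2 : s - (- (⟪ω, p - m⟫ / s)) * τ = s + (- (⟪ω, p - m⟫ / s)) * (-τ) := by ring
  obtain ⟨k1, k2⟩ := csh_two (t := -τ) (Y := Y) hl hw hw0 hl0 hσ hσh hω hs hθ hθ' hp hwp
    (by rw [abs_neg, abs_of_pos hτ]; linarith) (by rw [← e1, ← e2]; exact hY1)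
  obtain ⟨k3, k4⟩ := csh_two (t := ρ) (Y := Y) hl hw hw0 hl0 hσ hσh hω hs hθ hθ' hp hwp
    (by rw [abs_of_pos (by linarith)]; linarith) hY2
  rw [← e1, ← e2] at k1 k2
  have hFt' : LocallyIntegrable Ft volume := by
    rw [show Ft = fun y => P y + l y from funext hFt]; exact hP.add hl
  have aF : ∀ c r, av F c r = av Ft c r + av w c r := fun c r => by
    rw [show F = fun y => Ft y + w y from funext hF]; exact av_add hFt' hw c r
  have aFt : ∀ c r, av Ft c r = av P c r + av l c r := fun c r => by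
    rw [show Ft = fun y => P y + l y from funext hFt]; exact av_add hP hl c r
  unfold Dq
  set a := - (⟪ω, p - m⟫ / s) with hadef
  have hθσ : θ * σ ≤ σ / 8 := by nlinarith
  have hθσ0 : 0 < θ * σ := mul_pos hθ0 hσ
  have haτ : |a * τ| ≤ 3 * σ := by
    rw [abs_mul, abs_of_pos hτ]
    calc _ ≤ 3 * σ := mul_le_mul (abs_le.2 ha) (by linarith) hτ.le (by norm_num)
      _ = _ := rfl
  have haρ : |a * ρ| ≤ 3 * (2 * σ) := by
    rw [abs_mul, abs_of_pos (show 0 < ρ by linarith)]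
    exact mul_le_mul (abs_le.2 ha) hρ' (by linarith) (by norm_num)
  have haτ' := abs_le.1 haτ
  have haρ' := abs_le.1 haρ
  have p1 := (hpk (s - a * τ + 13 * θ * σ)
    ⟨by linarith [haτ'.1, haτ'.2], by linarith [haτ'.1, haτ'.2]⟩).1
  have p2 := (hpk (s + a * ρ + 13 * θ * σ)
    ⟨by linarith [haρ'.1, haρ'.2], by linarith [haρ'.1, haρ'.2]⟩).2
  rw [aF, aFt] at p1 p2
  rw [aF, aFt (m - τ • ω), aFt (m + ρ • ω)]
  have hW0 := av_nonneg hw0 m s
  refine csh_comb' (c := 26 * Module.finrank ℝ E * (θ * (σ / h)) * Y)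
    (g := 13 * θ * σ) hτ (by linarith) p1 p2 hX1 hX2 k1 k3 k2 k4 ?_
  have q1 : 13 * θ * σ / s ≤ 13 * (θ * (σ / h)) := by
    have : 13 * θ * σ / s ≤ 13 * θ * σ / h := div_le_div_of_nonneg_left (by positivity) hh hs
    calc _ ≤ _ := this
      _ = _ := by ring
  have q0 : 0 ≤ θ * (σ / h) := by positivity
  have q2 : 0 ≤ 13 * Module.finrank ℝ E * (θ * (σ / h)) := by positivity
  have q3 : Module.finrank ℝ E * (13 * θ * σ / s) ≤ 13 * Module.finrank ℝ E * (θ * (σ / h)) := by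
    have := mul_le_mul_of_nonneg_left q1 hd
    linarith
  have q4 := mul_le_mul_of_nonneg_left q3 hW0
  have q5 := mul_le_mul_of_nonneg_right hY3 q2
  have q6 := mul_nonneg q0 (hW0.trans hY3)
  linarith

end Vale.Agent.P137
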