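import Vale.Agent.P137.CTouch
import Vale.Agent.P137.CNT
import Vale.Agent.P137.CSH
import Vale.Agent.P137.CIP

namespace Vale.Agent.P137

open MeasureTheory Metric Set Filter Topology
open scoped ENNReal RealInnerProductSpace

variable {E : Type*} [NormedAddCommGroup E] [InnerProductSpace ℝ E] [FiniteDimensional ℝ E]
  [MeasurableSpace E] [BorelSpace E]

lemma nar_neg {F : E → ℝ} {m e : E} {h κf ρm H s l : ℝ} (hN : NegP F m h e κf ρm H)
    (hκf1 : κf ≤ 1) (hs2 : s ≤ 2 * h) (hl : 0 < l) (hl' : 2 * l ≤ h) (he : ‖e‖ ≤ 2) {δ : E}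
    (hδ : ‖δ‖ ≤ κf * l) :
    ∫⁻ w in ball m s, ENNReal.ofReal (F w - F (w + (l • e + δ))) ≤
      ENNReal.ofReal (max l ρm / h * H) * V E h := by
  refine le_trans (lintegral_mono_set fun w hw => ?_)
    (hN (l • e + δ) l hl (by linarith) (by rwa [add_sub_cancel_left]))
  have h1 : ‖l • e + δ‖ ≤ 3 * l := by
    refine (norm_add_le _ _).trans ?_
    rw [norm_smul, Real.norm_of_nonneg hl.le]
    nlinarith
  rw [mem_ball] at hw
  refine ⟨mem_ball.2 (by linarith), mem_ball.2 ?_⟩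
  have h2 := dist_triangle (w + (l • e + δ)) w m
  rw [dist_eq_norm (w + (l • e + δ)) w, add_sub_cancel_left] at h2
  linarith

/-- first order bound -/
lemma nar_first {F : E → ℝ} (hF : Measurable F) (hF0 : ∀ y, 0 ≤ F y)
    (hFi : LocallyIntegrable F volume) {m e : E} {h κf ρm H s l : ℝ}
    (hN : NegP F m h e κf ρm H) (hκf : 0 < κf) (hκf1 : κf ≤ 1) (hs1 : h ≤ s) (hs2 : s ≤ 2 * h)
    (hl : 0 < l) (hl' : 2 * l ≤ h) (he : ‖e‖ ≤ 2) (hH : 0 ≤ H) :
    av F m s - av F (m + l • e) s ≤ max l ρm / h * H := by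
  have hh : 0 < h := by linarith
  have hs : 0 < s := by linarith
  have h1 := nar_neg hN hκf1 hs2 hl hl' he (δ := 0) (by rw [norm_zero]; positivity)
  rw [add_zero] at h1
  have hX : 0 ≤ max l ρm / h * H := mul_nonneg (div_nonneg (le_max_of_le_left hl.le) hh.le) hH
  have h2 : I F m s ≤ I F (m + l • e) s + ENNReal.ofReal (max l ρm / h * H) * V E s := by
    refine le_trans ?_ (add_le_add le_rfl (h1.trans (mul_le_mul_right (V_mono hs1) _)))
    unfold I
    rw [← setLIntegral_ball_add (fun y => ENNReal.ofReal (F y)),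
      ← lintegral_add_left (by fun_prop)]
    exact lintegral_mono fun w => le_trans (le_of_eq (by congr 1; ring)) ENNReal.ofReal_add_le
  rw [I_eq_av hF0 hFi _ hs, I_eq_av hF0 hFi _ hs, ← add_mul,
    ENNReal.mul_le_mul_iff_left (V_ne_zero hs) (V_ne_top s),
    ← ENNReal.ofReal_add (av_nonneg hF0 _ _) hX,
    ENNReal.ofReal_le_ofReal_iff (add_nonneg (av_nonneg hF0 _ _) hX)] at h2
  linarith

/-- the peak ball is flat -/
lemma nar_da (κf : ℝ) (hκf : 0 < κf) (hκf1 : κf ≤ 1) : ∃ C : ℝ, 1 ≤ C ∧ ∀ (F : E → ℝ)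
    (z m e : E) (h ρm H s l : ℝ), Measurable F → (∀ y, 0 ≤ F y) → LocallyIntegrable F volume →
    NegP F m h e κf ρm H → h ≤ s → s ≤ 2 * h → 0 < l → 2 * l ≤ h → ρm ≤ l → ‖e‖ ≤ 2 → 0 ≤ H →
    dist m z < h / 2 → av F (m + l • e) s ≤ av F m s →
    da F (av F z (h / 2)) (ball m s) ≤ ENNReal.ofReal (C * H) * V E h := by
  have k1 : (1 : ℝ) ≤ 8 ^ Module.finrank ℝ E := one_le_pow₀ (by norm_num)
  have k2 : 0 < 4 / κf := by positivity
  refine ⟨6 * (4 / κf + 1) * 8 ^ Module.finrank ℝ E, by nlinarith,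
    fun F z m e h ρm H s l hF hF0 hFi hN hs1 hs2 hl hl' hρ he hH hm hav => ?_⟩
  have hh : 0 < h := by linarith
  have hs : 0 < s := by linarith
  have h1 := IP hF hF0 (c := m) (v := l • e) hs (mul_pos hκf hl)
    (X := ENNReal.ofReal (max l ρm / h * H) * V E h)
    (by rw [I_eq_av hF0 hFi _ hs]; exact ENNReal.mul_ne_top ENNReal.ofReal_ne_top (V_ne_top s))
    (by rw [I_eq_av hF0 hFi _ hs, I_eq_av hF0 hFi _ hs]; gcongr)
    fun δ hδ => nar_neg hN hκf1 hs2 hl hl' he hδ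
  have h2 := (IPc hF hFi (c := m) (c' := z) (r := s) (half_pos hh)
    (ball_subset_ball' (by rw [dist_comm]; linarith))).trans h1
  rw [max_eq_left hρ] at h2
  have h3 : V E (2 * s) ≤ ENNReal.ofReal (8 ^ Module.finrank ℝ E) * V E (h / 2) :=
    V_le_of_le_mul (by norm_num) (by linarith)
  refine (ENNReal.mul_le_mul_iff_left (V_ne_zero (E := E) (half_pos hh)) (V_ne_top _)).1
    (h2.trans ?_)
  have h4 : 6 * (2 * s / (κf * l) + 1) * (l / h * H) ≤ 6 * (4 / κf + 1) * H := by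
    have e1 : 6 * (2 * s / (κf * l) + 1) * (l / h * H) = 6 * (2 * s / h / κf + l / h) * H := by
      field_simp
    have e2 : 2 * s / h ≤ 4 := by rw [div_le_iff₀ hh]; linarith
    have e3 : l / h ≤ 1 := by rw [div_le_iff₀ hh]; linarith
    rw [e1]
    gcongr
  calc ENNReal.ofReal (6 * (2 * s / (κf * l) + 1)) * (ENNReal.ofReal (l / h * H) * V E h) *
        V E (2 * s)
      = ENNReal.ofReal (6 * (2 * s / (κf * l) + 1) * (l / h * H)) * V E h * V E (2 * s) := by
        rw [ENNReal.ofReal_mul (p := 6 * (2 * s / (κf * l) + 1)) (by positivity)]; ring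
    _ ≤ ENNReal.ofReal (6 * (4 / κf + 1) * H) * V E h *
        (ENNReal.ofReal (8 ^ Module.finrank ℝ E) * V E (h / 2)) := by gcongr
    _ = _ := by
        rw [mul_right_comm _ ((8 : ℝ) ^ Module.finrank ℝ E) H,
          ENNReal.ofReal_mul (q := 8 ^ Module.finrank ℝ E) (by positivity)]
        ring

/-- no wall on either side -/
lemma nar_NT : ∃ C : ℝ, 0 < C ∧ ∀ (F : E → ℝ) (z ω : E) (h σ ρm H κ u a b L : ℝ) (W W' : Set E),
    Measurable F → LocallyIntegrable F volume → APH F z h (40 * h) ρm H → 0 < h → 0 < σ → 0 ≤ H →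
    H ≤ L → 0 < u → u ≤ κ → κ ≤ 1 → 64 * σ ≤ u ^ 4 * h → ρm ≤ u * σ → ‖ω‖ ≤ 2 → a ≤ b →
    b - a ≤ L → MeasurableSet W → MeasurableSet W' →
    ∫⁻ y in W ∩ ball z (20 * h), ENNReal.ofReal (a - F y) ≤ ENNReal.ofReal (κ * L) * V E h →
    ∫⁻ y in W' ∩ ball z (20 * h), ENNReal.ofReal (F y - b) ≤ ENNReal.ofReal (κ * L) * V E h →
    ∃ B : E → ℝ≥0∞, Measurable B ∧
      ∫⁻ y in ball z h, B y ≤ ENNReal.ofReal (C * (u * (σ / h) * L)) * V E h ∧
      ∀ (m : E) (s τ ρ lam : ℝ), dist m z < h / 2 → Pk F m ω h σ s τ ρ lam →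
        ball m (s + 3 * κ * h) ⊆ W → ball m (s + 3 * κ * h) ⊆ W' →
        ∀ y ∈ ball m (4 * σ), ENNReal.ofReal (av F m s - lam) ≤ B y := by
  obtain ⟨C1, hC1, H1⟩ := touch_tr (E := E)
  obtain ⟨C2, hC2, H2⟩ := touch_hi (E := E)
  obtain ⟨C3, hC3, H3⟩ := NT (E := E)
  refine ⟨C3 * (C1 + C2 + C2), by positivity, fun F z ω h σ ρm H κ u a b L W W' hF hFi hA hh hσ
    hH hL hu huκ hκ hσh hρm hω hab hbL hW hW' hI hI' => ?_⟩
  have hu1 : u ≤ 1 := huκ.trans hκ
  have a1 : u ^ 4 ≤ u := pow_le_of_le_one hu.le hu1 (by norm_num)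
  have a2 : 64 * σ ≤ κ * h := hσh.trans (mul_le_mul_of_nonneg_right (a1.trans huκ) hh.le)
  have a3 : κ * h ≤ h := mul_le_of_le_one_left hh.le hκ
  have a4 : u * σ ≤ σ := mul_le_of_le_one_left hσ.le hu1
  have a5 : 0 < u * σ := mul_pos hu hσ
  have a6 : 0 ≤ u * σ / h * L := mul_nonneg (by positivity) (by linarith)
  have b1 := H1 F z h ρm H (u * σ) a b L hF hA hh hH hL a5 (by linarith) hρm hab hbL
  have b2 := H2 F z h ρm H (u * σ) κ b L W' hF hA hh hH hL a5 (by linarith) hκ hρm hW' hI'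
  have b3 := H2 (fun y => - F y) z h ρm H (u * σ) κ (-a) L W hF.neg hA.neg hh hH hL a5
    (by linarith) hκ hρm hW (by simpa only [neg_sub_neg] using hI)
  have m1 : Measurable fun y => max a (min (F y) b) := by fun_prop
  have m2 : Measurable fun y => max (F y - b) 0 := by fun_prop
  have m3 : Measurable fun y => max (- F y - - a) 0 := by fun_prop
  have m4 := (measurable_om m2 (u * σ)).indicator (isClosed_ball_subset W' (κ * h)).measurableSet
  have m5 := (measurable_om m3 (u * σ)).indicator (isClosed_ball_subset W (κ * h)).measurableSet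
  obtain ⟨B, hB, hB1, hB2⟩ := H3 _ z ω h σ u ((C1 + C2 + C2) * L)
    (((measurable_om m1 (u * σ)).add m4).add m5) hh hσ hu hu1 hσh
    (mul_nonneg (by positivity) (by linarith)) hω (by
      rw [mul_left_comm]
      exact touch_add ((measurable_om m1 _).add m4) (by positivity) hC2 a6
        (touch_add (measurable_om m1 _) hC1 hC2 a6 b1 b2) b3)
  refine ⟨B, hB, hB1.trans (le_of_eq (by congr 2; ring)), fun m s τ ρ lam hm hP k1 k2 =>
    hB2 F m s τ ρ lam hF hFi hm hP fun w hw => ?_⟩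
  have k3 : ball w (κ * h) ⊆ ball m (s + 3 * κ * h) :=
    ball_subset_ball' (by linarith [mem_ball.1 hw])
  have e : F = fun y => (max a (min (F y) b) + max (F y - b) 0) - max (- F y - - a) 0 := by
    funext y
    simp only [max_def, min_def]
    split_ifs <;> linarith
  simp only [Pi.add_apply]
  rw [indicator_of_mem (show w ∈ {w | ball w (κ * h) ⊆ W'} from k3.trans k2),
    indicator_of_mem (show w ∈ {w | ball w (κ * h) ⊆ W} from k3.trans k1)]
  refine le_trans (le_of_eq (congrArg (fun f => om f (u * σ) w) e))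
    ((om_sub_le (m1.add m2) _ _ _).trans
    (add_le_add_left (om_add_le m1 _ _ _) _))

end Vale.Agent.P137
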