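import Vale.Agent.P137.CNarA

namespace Vale.Agent.P137

open MeasureTheory Metric Set Filter Topology
open scoped ENNReal RealInnerProductSpace

variable {E : Type*} [NormedAddCommGroup E] [InnerProductSpace ℝ E] [FiniteDimensional ℝ E]
  [MeasurableSpace E] [BorelSpace E]

lemma nar_addc {B : E → ℝ≥0∞} (hB : Measurable B) {z : E} {h a b : ℝ} (ha : 0 ≤ a) (hb : 0 ≤ b)
    (h1 : ∫⁻ y in ball z h, B y ≤ ENNReal.ofReal a * V E h) :
    ∫⁻ y in ball z h, (B y + ENNReal.ofReal b) ≤ ENNReal.ofReal (a + b) * V E h := by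
  rw [lintegral_add_left hB, setLIntegral_const, vol_ball, ENNReal.ofReal_add ha hb, add_mul]
  exact add_le_add h1 le_rfl

set_option maxHeartbeats 1000000 in
/-- a wall on one side only -/
lemma nar_touch [Nontrivial E] (Ct : ℝ) (hCt : 1 ≤ Ct) : ∃ C u0 : ℝ, 0 < C ∧ 0 < u0 ∧
    ∀ (G : E → ℝ) (z ω : E) (h σ ρm H c0 κ0 u1 u2 t1 th L0 L1 Y : ℝ) (W1 W2 Wh : Set E),
    Measurable G → LocallyIntegrable G volume → 0 < h → 0 < σ → 0 < H → ‖ω‖ ≤ 2 →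
    APH G z h (40 * h) ρm H → u1 ≤ u0 → 0 < u2 → u2 ≤ u1 ^ 2 → 0 < u1 →
    u1 ^ 2 ≤ κ0 → κ0 ≤ 1 → ρm ≤ u2 * σ → 64 * σ ≤ u2 ^ 8 * h → t1 ≤ c0 → c0 ≤ th →
    MeasurableSet W1 → MeasurableSet Wh → W1 ⊆ W2 → H ≤ L0 → L0 ≤ L1 → th - c0 ≤ L0 →
    th - t1 ≤ L1 → u1 * L0 ≤ Y → u2 * L1 ≤ Y →
    ∫⁻ y in Wh ∩ ball z (20 * h), ENNReal.ofReal (G y - th) ≤ ENNReal.ofReal (κ0 * L0) * V E h →
    ∫⁻ y in W1 ∩ ball z (20 * h), ENNReal.ofReal (t1 - G y) ≤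
      ENNReal.ofReal (u1 ^ 2 * L1) * V E h →
    ∃ B : E → ℝ≥0∞, Measurable B ∧
      ∫⁻ y in ball z h, B y ≤ ENNReal.ofReal (C * (σ / h * Y)) * V E h ∧
      ∀ (F : E → ℝ), (F = G ∨ F = fun y => - G y) →
      ∀ (m p : E) (s τ ρ lam : ℝ), dist m z < h / 2 → Pk F m ω h σ s τ ρ lam →
        da G c0 (ball m s) ≤ ENNReal.ofReal H * V E h → p ∉ W2 →
        dist p m ≤ s + 3 * u2 ^ 8 * h → (∀ p', p' ∉ W2 → s - u2 ^ 8 * h ≤ dist p' m) →
        (∀ p', p' ∉ W2 → dist p' m ≤ s + 6 * u2 ^ 8 * h → dist p' p ^ 2 ≤ Ct * u2 ^ 8 * h ^ 2) →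
        (∀ p', p' ∉ W1 → dist p' m ≤ s + 6 * u1 ^ 2 * h → dist p' p ^ 2 ≤ Ct * u1 ^ 2 * h ^ 2) →
        ball m (s + 3 * κ0 * h) ⊆ Wh →
        ∀ y ∈ ball m (4 * σ), ENNReal.ofReal (av F m s - lam) ≤ B y := by
  obtain ⟨C0, u0, hC0, hu0, H0⟩ := TOUCH (E := E) Ct hCt
  obtain ⟨C1, hC1, H1⟩ := SH (E := E)
  obtain ⟨C2, hC2, H2⟩ := EN (E := E)
  refine ⟨C0 + (C0 * (13 * C0 + 1) + (C1 + C2) * C0 * (1 + C0)), min u0 (1 / (8 * C0)),
    by positivity, by positivity, fun G z ω h σ ρm H c0 κ0 u1 u2 t1 th L0 L1 Y W1 W2 Wh hG hGi hh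
    hσ hH hω hA hu1' hu2 h21 hu1 h1κ hκ hρm hσh ht1 hth hW1 hWh hW12 hL0 hL1 hL0' hL1' hY0 hY1
    hI1 hI2 => ?_⟩
  have a0 : C0 * u1 ≤ 1 / 8 := by
    have := hu1'.trans (min_le_right _ _)
    rw [le_div_iff₀ (by positivity)] at this
    linarith
  have a1 : u1 ≤ C0 * u1 := le_mul_of_one_le_left hu1.le hC0
  have a2 : u1 ^ 2 ≤ u1 / 8 := by nlinarith
  have a3 : u2 ^ 8 ≤ u2 := pow_le_of_le_one hu2.le (by linarith) (by norm_num)
  have a4 : u2 ^ 8 * h ≤ C0 * u1 * h / 8 := by nlinarith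
  have a5 : C0 * u1 * h ≤ h / 8 := by nlinarith
  have a6 : σ / h ≤ u2 := by rw [div_le_iff₀ hh]; nlinarith
  have a7 : 0 < σ / h := by positivity
  have a8 : 0 ≤ Y := le_trans (mul_nonneg hu1.le (by linarith)) hY0
  obtain ⟨B, Ft, P, l, w, hB, hB1, iP, il, iw, e1, e2, hw0, hl0, hB2⟩ := H0 G z ω h σ ρm H c0 κ0
    u1 u2 c0 t1 th L0 L1 W1 W2 Wh hG hGi hh hσ hH hω hA hu1 (hu1'.trans (min_le_left _ _)) hu2
    (by linarith [hu1'.trans (min_le_left _ _)]) (by linarith) h1κ hκ hρm hσh ht1 le_rfl hth hW1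
    hWh hW12 hL0 hL1 hL0' hL1' hI1 hI2
  have hK : 0 ≤ (C0 * (13 * C0 + 1) + (C1 + C2) * C0 * (1 + C0)) * (σ / h * Y) := by positivity
  refine ⟨fun y => B y + ENNReal.ofReal
    ((C0 * (13 * C0 + 1) + (C1 + C2) * C0 * (1 + C0)) * (σ / h * Y)), hB.add measurable_const,
    ?_, fun F hFG m p s τ ρ lam hm hP hda hp hpm hp1 hp2 hp3 hWm y hy => ?_⟩
  · rw [add_mul C0]
    refine nar_addc hB (by positivity) hK (hB1.trans (mul_le_mul_left (ENNReal.ofReal_le_ofReal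
      (mul_le_mul_of_nonneg_left ?_ (by linarith))) _))
    rw [mul_comm u2, mul_assoc]
    exact mul_le_mul_of_nonneg_left hY1 a7.le
  obtain ⟨hs1, hs2, hτ, hτ', hρ, hρ', -⟩ := id hP
  have hs : 0 < s := by linarith
  obtain ⟨b1, b2, b3, b4⟩ := hB2 m p s τ ρ hm hs1 hs2 hτ (by linarith) (by linarith) hρ' hda hp
    hpm hp1 hp2 hp3 hWm
  have c1 : |dist p m - s| ≤ C0 * u1 * h := by
    have := hp1 p hp
    have : 0 ≤ u2 ^ 8 * h := by positivity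
    rw [abs_le]; constructor <;> linarith
  obtain ⟨a, ha⟩ : ∃ a, a = - (⟪ω, p - m⟫ / s) := ⟨_, rfl⟩
  have c2 : |a| ≤ 4 := by
    rw [ha, abs_neg, abs_div, abs_of_pos hs, div_le_iff₀ hs]
    refine (abs_real_inner_le_norm _ _).trans ?_
    rw [← dist_eq_norm]
    have := (abs_le.1 c1).2
    have : dist p m ≤ 2 * s := by linarith
    nlinarith [dist_nonneg (x := p) (y := m), norm_nonneg ω]
  have c3 : dist (m - τ • ω) m + |s - a * τ - s| ≤ 12 * σ := by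
    rw [dist_eq_norm, sub_sub_cancel_left, norm_neg, norm_smul, Real.norm_of_nonneg hτ.le,
      sub_sub_cancel_left, abs_neg, abs_mul, abs_of_pos hτ]
    nlinarith
  have c4 : dist (m + ρ • ω) m + |s + a * ρ - s| ≤ 12 * σ := by
    have hρ0 : 0 < ρ := by linarith
    rw [dist_eq_norm, add_sub_cancel_left, norm_smul, Real.norm_of_nonneg hρ0.le,
      add_sub_cancel_left, abs_mul, abs_of_pos hρ0]
    nlinarith
  have c5 : 0 ≤ 13 * (C0 * u1) * σ := by positivity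
  have c6 : 13 * (C0 * u1) * σ ≤ 4 * σ := by nlinarith
  have c7 : C0 * ((13 * (C0 * u1) * σ + u2 * σ) / h * L0) ≤ C0 * (13 * C0 + 1) * (σ / h * Y) := by
    have k1 : (13 * (C0 * u1) * σ + u2 * σ) / h * L0 = σ / h * ((13 * C0 * u1 + u2) * L0) := by
      ring
    have k2 : (13 * C0 * u1 + u2) * L0 ≤ (13 * C0 + 1) * Y := by
      calc (13 * C0 * u1 + u2) * L0 ≤ (13 * C0 * u1 + u1) * L0 := by
            gcongr <;> linarith
        _ = (13 * C0 + 1) * (u1 * L0) := by ring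
        _ ≤ _ := by gcongr
    rw [k1, mul_assoc C0, mul_left_comm (13 * C0 + 1)]
    gcongr
  have c8 : C0 * u1 * (σ / h) * (H + C0 * (σ / h * L1)) ≤ C0 * (1 + C0) * (σ / h * Y) := by
    have k1 : u1 * H ≤ Y := le_trans (by gcongr) hY0
    have k2 : u1 * (σ / h * L1) ≤ Y := by
      refine le_trans ?_ hY1
      have k3 : 0 ≤ L1 := by linarith
      calc u1 * (σ / h * L1) ≤ 1 * (u2 * L1) := by gcongr; linarith
        _ = _ := one_mul _
    calc C0 * u1 * (σ / h) * (H + C0 * (σ / h * L1))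
        = C0 * (σ / h) * (u1 * H + C0 * (u1 * (σ / h * L1))) := by ring
      _ ≤ C0 * (σ / h) * (Y + C0 * Y) := by gcongr
      _ = _ := by ring
  have c9 : H ≤ H + C0 * (σ / h * L1) :=
    le_add_of_nonneg_right (mul_nonneg (by linarith) (mul_nonneg a7.le (by linarith)))
  have c10 : 0 ≤ C0 * (1 + C0) * (σ / h * Y) := by positivity
  have d1 := b4 _ _ c3
  have d2 := b4 _ _ c4
  replace b1 := b1 y hy
  refine le_trans (ENNReal.ofReal_le_ofReal ?_) (ENNReal.ofReal_add_le.trans (add_le_add b1 le_rfl))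
  rcases hFG with hFG | hFG
  · have f1 := d1.2 (-(13 * (C0 * u1) * σ)) (by rw [abs_neg, abs_of_nonneg c5]; exact c6)
    have f2 := d2.2 (-(13 * (C0 * u1) * σ)) (by rw [abs_neg, abs_of_nonneg c5]; exact c6)
    rw [abs_neg, abs_of_nonneg c5, ← sub_eq_add_neg, ha] at f1 f2
    have := H1 F Ft P l w m ω p h σ s τ ρ lam (C0 * u1) _ _ iP il iw (by rw [hFG]; exact e1) e2
      hw0 hl0 hσ (by linarith) hω hP (by linarith) a0 c1 b2 ((le_abs_self _).trans f1)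
      ((le_abs_self _).trans f2) (ha ▸ d1.1) (ha ▸ d2.1) (b3.trans c9)
    have k1 := mul_le_mul_of_nonneg_left c8 hC1.le
    have k2 := mul_nonneg hC2.le c10
    linarith [le_abs_self (Dq Ft m ω s (- (⟪ω, p - m⟫ / s)) τ ρ)]
  · have f1 := d1.2 (13 * (C0 * u1) * σ) (by rw [abs_of_nonneg c5]; exact c6)
    have f2 := d2.2 (13 * (C0 * u1) * σ) (by rw [abs_of_nonneg c5]; exact c6)
    rw [abs_of_nonneg c5, ha] at f1 f2
    have := H2 F (fun y => - Ft y) (fun y => - P y) l w m ω p h σ s τ ρ lam (C0 * u1)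
      (C0 * ((13 * (C0 * u1) * σ + u2 * σ) / h * L0)) _ iP.neg il iw (fun y => by rw [hFG]; simp only [e1 y]; ring) (fun y => by rw [e2 y]; ring)
      hw0 hl0 hσ (by linarith) hω hP (by linarith) a0 c1 b2
      (by rw [av_neg, av_neg]; linarith [(abs_le.1 f1).1])
      (by rw [av_neg, av_neg]; linarith [(abs_le.1 f2).1])
      (ha ▸ d1.1) (ha ▸ d2.1) (b3.trans c9)
    rw [Dq_neg] at this
    have k1 := mul_le_mul_of_nonneg_left c8 hC2.le
    have k2 := mul_nonneg hC1.le c10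
    linarith [neg_abs_le (Dq Ft m ω s (- (⟪ω, p - m⟫ / s)) τ ρ)]

end Vale.Agent.P137
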