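import Vale.Agent.P137.CNarB

namespace Vale.Agent.P137

open MeasureTheory Metric Set Filter Topology
open scoped ENNReal RealInnerProductSpace

variable {E : Type*} [NormedAddCommGroup E] [InnerProductSpace ℝ E] [FiniteDimensional ℝ E]
  [MeasurableSpace E] [BorelSpace E]

lemma nar_da_neg (F : E → ℝ) (c : ℝ) (U : Set E) : da (fun y => - F y) (-c) U = da F c U := by
  unfold da
  refine lintegral_congr fun y => ?_
  rw [neg_sub_neg, abs_sub_comm]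

lemma nar_pow {x y : ℝ} {d : ℕ} (hd : d ≠ 0) (hx : 0 < x) (hxy : 2 * x ≤ y) (hy : y ≤ 1) :
    1 ≤ (1 / y) ^ (2 * d) ∧ (1 / y) ^ d ≤ (1 / y) ^ (2 * d) ∧
      2 * (1 / y) ^ (2 * d) ≤ (1 / x) ^ (2 * d) := by
  have hy0 : 0 < y := by linarith
  have h1 : 1 ≤ 1 / y := by rw [le_div_iff₀ hy0]; linarith
  refine ⟨one_le_pow₀ h1, pow_le_pow_right₀ h1 (by omega), ?_⟩
  have h2 : 2 * (1 / y) ≤ 1 / x := by
    rw [mul_one_div, div_le_div_iff₀ hy0 hx]; linarith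
  refine le_trans ?_ (pow_le_pow_left₀ (by positivity) h2 _)
  rw [mul_pow]
  exact mul_le_mul_of_nonneg_right (le_self_pow₀ (by norm_num) (by omega)) (by positivity)

set_option maxHeartbeats 1000000 in
/-- all peaks touching a low wall -/
lemma nar_side [Nontrivial E] (κf : ℝ) (hκf : 0 < κf) (hκf1 : κf ≤ 1) :
    ∃ C κs : ℝ, 1 ≤ C ∧ 0 < κs ∧ κs ≤ 1 / 64 ∧
    ∀ (G : E → ℝ) (z ω : E) (h σ ρm H c0 κ u1 u2 : ℝ), Measurable G →
    LocallyIntegrable G volume → 0 < h → 0 < σ → 0 < H → ‖ω‖ ≤ 2 → APH G z h (40 * h) ρm H →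
    PP G z (40 * h) ≤ ENNReal.ofReal H * V E h ^ 2 → 0 < κ → κ ≤ κs → 0 < u1 → 0 < u2 →
    u1 * (1 / κ) ^ (2 * Module.finrank ℝ E) ≤ κ ^ 2 →
    u2 * (1 / u1 ^ 2) ^ (2 * Module.finrank ℝ E) ≤ κ * u1 ^ 2 → ρm ≤ u2 * σ →
    64 * σ ≤ u2 ^ 8 * h →
    ∃ (t : ℝ) (W : Set E), MeasurableSet W ∧
      c0 - C * (1 / u2 ^ 8) ^ (2 * Module.finrank ℝ E) * H ≤ t ∧ t ≤ c0 ∧
      ∫⁻ y in W ∩ ball z (20 * h), ENNReal.ofReal (t - G y) ≤
        ENNReal.ofReal (C * (1 / u2 ^ 8) ^ (2 * Module.finrank ℝ E) * H) * V E h ∧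
      ∃ B : E → ℝ≥0∞, Measurable B ∧
      ∫⁻ y in ball z h, B y ≤ ENNReal.ofReal (C * (κ * (σ / h) * H)) * V E h ∧
      ∀ (F : E → ℝ), (F = G ∨ F = fun y => - G y) →
      ∀ (m e : E) (s τ ρ lam : ℝ), dist m z < h / 2 → Pk F m ω h σ s τ ρ lam →
        da G c0 (ball m s) ≤ ENNReal.ofReal H * V E h → (e = ω ∨ e = -ω) →
        NegP G m h e κf ρm H → av F m s - lam ≤ 2 * (σ / h) * H →
        ¬ ball m (s + 3 * u2 ^ 8 * h) ⊆ W →
        ∀ y ∈ ball m (4 * σ), ENNReal.ofReal (av F m s - lam) ≤ B y := by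
  obtain ⟨Ct, κT, hCt, hκT, hκT1, HT⟩ := TIER (E := E) κf 6 hκf hκf1 (by norm_num)
  obtain ⟨Cn, u0, hCn, hu0, HN⟩ := nar_touch (E := E) Ct hCt
  obtain ⟨Cd, hCd, HD⟩ := DT (E := E)
  have hK : 0 < Cn * (4 * Ct) + 2 * Cd / (κf / 8) ^ 2 := by positivity
  refine ⟨2 * Ct + (Cn * (4 * Ct) + 2 * Cd / (κf / 8) ^ 2), min κT (min u0 (κf / 8)),
    by linarith, by positivity, (min_le_left _ _).trans hκT1,
    fun G z ω h σ ρm H c0 κ u1 u2 hG hGi hh hσ hH hω hA hP hκ hκs hu1 hu2 h1 h2 hρm hσh => ?_⟩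
  have hd : Module.finrank ℝ E ≠ 0 := Module.finrank_pos.ne'
  generalize Module.finrank ℝ E = d at *
  have k1 : κ ≤ κT := hκs.trans (min_le_left _ _)
  have k2 : κ ≤ u0 := hκs.trans ((min_le_right _ _).trans (min_le_left _ _))
  have k3 : κ ≤ κf / 8 := hκs.trans ((min_le_right _ _).trans (min_le_right _ _))
  have k4 : κ ≤ 1 / 64 := k1.trans hκT1
  have k5 : κ ^ 2 ≤ κ / 64 := by nlinarith
  have n0 : 1 ≤ (1 / κ) ^ (2 * d) := (nar_pow hd (half_pos hκ) (by linarith) (by linarith)).1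
  have k6 : u1 ≤ κ ^ 2 := le_trans (le_mul_of_one_le_right hu1.le n0) h1
  have k7 : u1 ^ 2 ≤ u1 := by nlinarith
  have p1 : 0 < u1 ^ 2 := by positivity
  obtain ⟨-, n1, n2⟩ := nar_pow hd p1 (y := κ) (by linarith) (by linarith)
  have k8 : u2 ≤ κ * u1 ^ 2 := le_trans (le_mul_of_one_le_right hu2.le (by linarith)) h2
  have k9 : u2 ≤ u1 ^ 2 / 64 := by nlinarith
  have k10 : u2 ^ 8 ≤ u2 := pow_le_of_le_one hu2.le (by linarith) (by norm_num)
  have p2 : 0 < u2 ^ 8 := by positivity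
  obtain ⟨-, n3, n4⟩ := nar_pow hd p2 (y := u1 ^ 2) (by linarith) (by linarith)
  obtain ⟨-, n5, -⟩ := nar_pow hd (half_pos p2) (y := u2 ^ 8) (by linarith) (by linarith)
  obtain ⟨t1, U1, mU1, a1, a2, a3, a4⟩ := HT G z h (u1 ^ 2) H c0 hG hh p1 (by linarith) hH hP
  obtain ⟨t2, U2, mU2, b1, b2, b3, b4⟩ := HT G z h (u2 ^ 8) H c0 hG hh p2 (by linarith) hH hP
  obtain ⟨t0, U0, mU0, c1, c2, c3, c4⟩ := HT (fun y => - G y) z h κ H (-c0) hG.neg hh hκ k1 hH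
    (by rwa [PP_neg])
  have q0 : 0 ≤ (1 / κ) ^ d := by positivity
  have q1 : 0 ≤ (1 / u1 ^ 2) ^ d := by positivity
  have q2 : 0 ≤ (1 / u2 ^ 8) ^ d := by positivity
  generalize (1 / κ) ^ (2 * d) = N0 at *
  generalize (1 / u1 ^ 2) ^ (2 * d) = N1 at *
  generalize (1 / u2 ^ 8) ^ (2 * d) = N2 at *
  generalize (1 / κ) ^ d = M0 at *
  generalize (1 / u1 ^ 2) ^ d = M1 at *
  generalize (1 / u2 ^ 8) ^ d = M2 at *
  have r0 : 0 < Ct * H := by positivity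
  have r1 : H ≤ Ct * H := le_mul_of_one_le_left hH.le hCt
  have sm : ∀ {a b : ℝ}, a ≤ b → Ct * a * H ≤ Ct * b * H := fun k => by gcongr
  have s0 : Ct * H ≤ Ct * N0 * H := by simpa only [mul_one] using sm n0
  have s1 : 2 * (Ct * N0 * H) ≤ Ct * N1 * H := le_trans (le_of_eq (by ring)) (sm n2)
  have s2 : 2 * (Ct * N1 * H) ≤ Ct * N2 * H := le_trans (le_of_eq (by ring)) (sm n4)
  have s3 := sm n1
  have s4 := sm n3
  have s5 := sm n5
  have s6 : 0 ≤ Ct * M1 * H := by positivity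
  have s7 : 0 ≤ Ct * M2 * H := by positivity
  have s8 : u1 * (2 * (Ct * N0 * H) / κ) ≤ 4 * Ct * κ * H := by
    rw [← mul_div_assoc, div_le_iff₀ hκ]
    have := sm h1
    have : 0 ≤ Ct * κ ^ 2 * H := by positivity
    linarith
  have s9 : u2 * (4 * (Ct * N1 * H) / u1 ^ 2) ≤ 4 * Ct * κ * H := by
    rw [← mul_div_assoc, div_le_iff₀ p1]
    have := sm h2
    linarith
  have s10 : 0 ≤ (Cn * (4 * Ct) + 2 * Cd / (κf / 8) ^ 2) * N2 * H :=
    mul_nonneg (mul_nonneg hK.le (by linarith)) hH.le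
  generalize hT0 : Ct * N0 * H = T0 at *
  generalize hT1 : Ct * N1 * H = T1 at *
  have e0 : κ * (2 * T0 / κ) = 2 * T0 := by field_simp
  have e1 : u1 ^ 2 * (4 * T1 / u1 ^ 2) = 4 * T1 := by field_simp
  have f0 : 2 * T0 ≤ 2 * T0 / κ := le_div_self (by linarith) hκ (by linarith)
  have f1 : 4 * T1 ≤ 4 * T1 / u1 ^ 2 := le_div_self (by linarith) p1 (by linarith)
  have f2 : 2 * T0 / κ ≤ 4 * T1 / u1 ^ 2 := by gcongr <;> linarith
  obtain ⟨B, hB, hB1, hB2⟩ := HN G z ω h σ ρm H c0 κ u1 u2 t1 (-t0) (2 * T0 / κ)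
    (4 * T1 / u1 ^ 2) (4 * Ct * κ * H) U1 (U1 ∪ U2) U0 hG hGi hh hσ hH hω hA (by linarith) hu2
    (by linarith) hu1 (by linarith) (by linarith) hρm hσh (by linarith) (by linarith) mU1 mU0
    subset_union_left (by linarith) f2 (by linarith) (by linarith) s8 s9
    (by
      rw [e0]
      exact le_trans (le_of_eq (lintegral_congr fun y => by congr 1; ring))
        (c3.trans (mul_le_mul_left (ENNReal.ofReal_le_ofReal (by linarith)) _)))
    (by rw [e1]; exact a3.trans (mul_le_mul_left (ENNReal.ofReal_le_ofReal (by linarith)) _))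
  have g1 : u2 ^ 8 * h ≤ u1 ^ 2 * h := by gcongr; linarith
  have g2 : u1 ^ 2 * h ≤ κ * h := by gcongr; linarith
  have g3 : κ * h ≤ κf / 8 * h := by gcongr
  have g4 : κ * h ≤ 1 / 64 * h := by gcongr
  have g5 : ρm ≤ h := by linarith [mul_le_of_le_one_left hσ.le (show u2 ≤ 1 by linarith)]
  have g6 : 0 < u2 ^ 8 * h := by positivity
  obtain ⟨T, mT, hT, hT'⟩ := HD (U1 ∪ U2) U0 z ω h σ κ (κf / 8) hh hσ hκ (by positivity)
    (by linarith) (by linarith) (by linarith) (by linarith) hω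
  refine ⟨t2, U1 ∪ U2, mU1.union mU2, by linarith, by linarith, ?_,
    fun y => B y + T.indicator (fun _ => ENNReal.ofReal (2 * (σ / h) * H)) y,
    hB.add (measurable_const.indicator mT), ?_,
    fun F hFG m e s τ ρ lam hm hPk hda he hN hΔ hW y hy => ?_⟩
  · rw [union_inter_distrib_right]
    refine (lintegral_union_le _ _ _).trans ((add_le_add (le_trans (lintegral_mono fun y =>
      ENNReal.ofReal_le_ofReal (by linarith)) a3) b3).trans ?_)
    rw [← add_mul, ← ENNReal.ofReal_add s6 s7]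
    exact mul_le_mul_left (ENNReal.ofReal_le_ofReal (by linarith)) _
  · have w1 : ∫⁻ y in ball z h, T.indicator (fun _ => ENNReal.ofReal (2 * (σ / h) * H)) y ≤
        ENNReal.ofReal (2 * (σ / h) * H * (Cd * (κ / (κf / 8) ^ 2))) * V E h := by
      refine (setLIntegral_le_lintegral _ _).trans ?_
      rw [lintegral_indicator_const mT, ENNReal.ofReal_mul (p := 2 * (σ / h) * H) (by positivity),
        mul_assoc (ENNReal.ofReal _)]
      gcongr
    rw [lintegral_add_left hB]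
    refine (add_le_add hB1 w1).trans ?_
    rw [← add_mul, ← ENNReal.ofReal_add (by positivity) (by positivity)]
    refine mul_le_mul_left (ENNReal.ofReal_le_ofReal ?_) _
    have : 0 ≤ 2 * Ct * (κ * (σ / h) * H) := by positivity
    have e : Cn * (σ / h * (4 * Ct * κ * H)) + 2 * (σ / h) * H * (Cd * (κ / (κf / 8) ^ 2)) =
      (Cn * (4 * Ct) + 2 * Cd / (κf / 8) ^ 2) * (κ * (σ / h) * H) := by ring
    rw [e, add_mul (2 * Ct)]
    linarith
  obtain ⟨hs1, hs2, -⟩ := id hPk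
  obtain ⟨p, hp1, hp2⟩ := not_subset.1 hW
  rw [mem_ball] at hp1
  have hm' : dist m z ≤ h := by linarith
  have he' : ‖e‖ ≤ 2 := by rcases he with rfl | rfl <;> simpa using hω
  obtain ⟨-, a6, -⟩ := a4 m s hm' hs1 hs2 hda
  obtain ⟨b5, b6, b7⟩ := b4 m s hm' hs1 hs2 hda
  obtain ⟨c5, -, c7⟩ := c4 m s hm' hs1 hs2 (by rwa [nar_da_neg])
  have l1 : ∀ {p}, p ∉ U1 ∪ U2 → p ∉ U1 := fun k k' => k (Or.inl k')
  have l2 : ∀ {p}, p ∉ U1 ∪ U2 → p ∉ U2 := fun k k' => k (Or.inr k')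
  by_cases hh0 : ball m (s + 3 * κ * h) ⊆ U0
  · exact le_trans (hB2 F hFG m p s τ ρ lam hm hPk hda hp2 hp1.le (fun p' k => b5 p' (l2 k))
      (fun p' k k' => b6 p' p (l2 k) (l2 hp2) k' (by linarith))
      (fun p' k k' => a6 p' p k (l1 hp2) k' (by linarith)) hh0 y hy) le_self_add
  obtain ⟨p', hp3, hp4⟩ := not_subset.1 hh0
  rw [mem_ball] at hp3
  have v1 := c7 (-e) ρm (by rwa [norm_neg]) g5 hN.neg p' hp4 (by linarith)
  rw [inner_neg_right] at v1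
  have v2 := hT' m e p p' s hm hs1 hs2 he hp2 hp4 (by linarith) hp3.le
    (b7 e ρm he' g5 hN p (l2 hp2) (by linarith)) (by linarith)
    (fun p k => by linarith [b5 p (l2 k)]) c5 hy
  refine le_trans ?_ le_add_self
  rw [indicator_of_mem v2]
  exact ENNReal.ofReal_le_ofReal hΔ

end Vale.Agent.P137
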