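import Vale.Agent.P137.CDefs

namespace Vale.Agent.P137

open MeasureTheory Metric Set Filter Topology
open scoped ENNReal RealInnerProductSpace

variable {E : Type*} [NormedAddCommGroup E] [InnerProductSpace ℝ E] [FiniteDimensional ℝ E]
  [MeasurableSpace E] [BorelSpace E]

lemma csh_second (d : ℕ) : ∃ C : ℝ, 0 ≤ C ∧ ∀ x : ℝ, |x| ≤ 1 / 4 →
    ((1 + x) ^ d)⁻¹ ≤ 1 - d * x + C * x ^ 2 := by
  induction d with
  | zero => exact ⟨0, le_rfl, fun x _ => by simp⟩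
  | succ d ih =>
    obtain ⟨C, hC, h⟩ := ih
    refine ⟨2 + 2 * d + 2 * C, by positivity, fun x hx => ?_⟩
    have hx' := abs_le.1 hx
    have h1 : 0 < 1 + x := by linarith [hx'.1]
    have hA := h x hx
    have hA0 : 0 ≤ 1 - d * x + C * x ^ 2 := le_trans (by positivity) hA
    have hB : (1 + x)⁻¹ ≤ 1 - x + 2 * x ^ 2 := by
      rw [inv_le_iff_one_le_mul₀ h1]
      nlinarith [sq_nonneg x, mul_nonneg (sq_nonneg x) (show 0 ≤ 1 + 2 * x by linarith [hx'.1])]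
    have hd : (0 : ℝ) ≤ d := Nat.cast_nonneg d
    rw [pow_succ, mul_inv]
    calc ((1 + x) ^ d)⁻¹ * (1 + x)⁻¹ ≤ (1 - d * x + C * x ^ 2) * (1 - x + 2 * x ^ 2) :=
          mul_le_mul hA hB (by positivity) hA0
      _ = 1 - (d + 1) * x + x ^ 2 * (2 + d + C + (-x) * (2 * d + C) + 2 * C * x ^ 2) := by ring
      _ ≤ 1 - (d + 1) * x + x ^ 2 * (2 + 2 * d + 2 * C) := by
          have h2 : (-x) * (2 * d + C) ≤ 1 / 4 * (2 * d + C) :=
            mul_le_mul_of_nonneg_right (by linarith [hx'.1]) (by positivity)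
          have h3 : x ^ 2 ≤ 1 / 16 := by nlinarith [hx'.1, hx'.2]
          have h4 : 2 * C * x ^ 2 ≤ 2 * C * (1 / 16) := mul_le_mul_of_nonneg_left h3 (by positivity)
          have h5 : 2 + d + C + (-x) * (2 * d + C) + 2 * C * x ^ 2 ≤ 2 + 2 * d + 2 * C := by
            linarith
          have := mul_le_mul_of_nonneg_left h5 (sq_nonneg x)
          linarith
      _ = 1 - ((d + 1 : ℕ) : ℝ) * x + (2 + 2 * d + 2 * C) * x ^ 2 := by push_cast; ring

lemma csh_first (d : ℕ) (x : ℝ) (hx : |x| ≤ 1 / 4) : 1 - d * x ≤ ((1 + x) ^ d)⁻¹ := by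
  have hx' := abs_le.1 hx
  have h1 : 0 < 1 + x := by linarith [hx'.1]
  have h2 : 1 - x ≤ (1 + x)⁻¹ := by
    rw [le_inv_comm₀ (by linarith [hx'.2]) h1, le_inv_comm₀ h1 (by linarith [hx'.2]),
      ← one_div, le_div_iff₀ h1]
    nlinarith [sq_nonneg x]
  have h3 := one_add_mul_le_pow (a := -x) (by linarith [hx'.2]) d
  rw [← inv_pow]
  calc 1 - d * x = 1 + d * (-x) := by ring
    _ ≤ (1 + -x) ^ d := h3
    _ ≤ (1 + x)⁻¹ ^ d := pow_le_pow_left₀ (by linarith [hx'.2]) (by linarith) d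

lemma csh_up {d : ℕ} {C : ℝ}
    (hC : ∀ x : ℝ, |x| ≤ 1 / 4 → ((1 + x) ^ d)⁻¹ ≤ 1 - d * x + C * x ^ 2)
    {A A1 s x : ℝ} (hA : 0 ≤ A) (hs : 0 < s) (hx : |x| ≤ 1 / 4)
    (h : A1 * (s * (1 + x)) ^ d ≤ A * s ^ d) : A1 ≤ A * (1 - d * x + C * x ^ 2) := by
  have hx' := abs_le.1 hx
  have h1 : 0 < 1 + x := by linarith [hx'.1]
  have h2 : A1 ≤ A * ((1 + x) ^ d)⁻¹ := by
    rw [← div_eq_mul_inv, le_div_iff₀ (pow_pos h1 d)]
    rw [mul_pow] at h
    have h3 : 0 < s ^ d := pow_pos hs d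
    nlinarith
  exact h2.trans (mul_le_mul_of_nonneg_left (hC x hx) hA)

lemma csh_down {d : ℕ} {A A1 s x : ℝ} (hA : 0 ≤ A) (hs : 0 < s) (hx : |x| ≤ 1 / 4)
    (h : A * s ^ d ≤ A1 * (s * (1 + x)) ^ d) : A * (1 - d * x) ≤ A1 := by
  have hx' := abs_le.1 hx
  have h1 : 0 < 1 + x := by linarith [hx'.1]
  have h2 : A * ((1 + x) ^ d)⁻¹ ≤ A1 := by
    rw [← div_eq_mul_inv, div_le_iff₀ (pow_pos h1 d)]
    rw [mul_pow] at h
    have h3 : 0 < s ^ d := pow_pos hs d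
    nlinarith
  exact (mul_le_mul_of_nonneg_left (csh_first d x hx) hA).trans h2

lemma csh_av_mul (f : E → ℝ) (c : E) {s : ℝ} (hs : 0 < s) :
    av f c s * s ^ Module.finrank ℝ E = (∫ y in ball c s, f y) / (V E 1).toReal := by
  have h1 : (V E s).toReal = s ^ Module.finrank ℝ E * (V E 1).toReal := by
    have := V_mul (E := E) hs 1
    rw [mul_one] at this
    rw [this, ENNReal.toReal_mul, ENNReal.toReal_ofReal (by positivity)]
  have h2 : 0 < (V E 1).toReal := V_toReal_pos one_pos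
  have h3 : 0 < s ^ Module.finrank ℝ E := pow_pos hs _
  unfold av
  rw [h1]
  field_simp

lemma csh_av_le {f : E → ℝ} (hf : LocallyIntegrable f volume) (h0 : ∀ y, 0 ≤ f y) {c1 c2 : E}
    {s1 s2 : ℝ} (h1 : 0 < s1) (h2 : 0 < s2) (h : ∀ y ∈ ball c1 s1, f y ≠ 0 → y ∈ ball c2 s2) :
    av f c1 s1 * s1 ^ Module.finrank ℝ E ≤ av f c2 s2 * s2 ^ Module.finrank ℝ E := by
  rw [csh_av_mul f c1 h1, csh_av_mul f c2 h2]
  refine div_le_div_of_nonneg_right ?_ ENNReal.toReal_nonneg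
  have e1 : ∫ y in ball c1 s1, f y = ∫ y in ball c1 s1 ∩ ball c2 s2, f y := by
    refine setIntegral_eq_of_subset_of_forall_sdiff_eq_zero measurableSet_ball inter_subset_left ?_
    intro y hy
    by_contra hne
    exact hy.2 ⟨hy.1, h y hy.1 hne⟩
  rw [e1]
  exact setIntegral_mono_set (intOn_ball hf c2 s2) (Eventually.of_forall h0)
    (LE.le.eventuallyLE inter_subset_right)

omit [FiniteDimensional ℝ E] [MeasurableSpace E] [BorelSpace E] in
lemma csh_geo {m ω p y : E} {h σ s θ t : ℝ} (hσ : 0 < σ) (hσh : 64 * σ ≤ h) (hω : ‖ω‖ ≤ 2)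
    (hs : h ≤ s) (hθ : 16 * σ ≤ θ * h) (hθ' : θ ≤ 1 / 8) (hp : |dist p m - s| ≤ θ * h)
    (hy : dist y p ≤ θ * h) (ht : |t| ≤ 2 * σ) :
    dist y m ≤ dist y (m + t • ω) - (- (⟪ω, p - m⟫ / s)) * t + 12 * θ * σ ∧
    dist y (m + t • ω) ≤ dist y m + (- (⟪ω, p - m⟫ / s)) * t + 13 * θ * σ := by
  have hh : 0 < h := by linarith
  have hθ0 : 0 < θ := by
    by_contra hc
    push Not at hc
    nlinarith
  have hs0 : 0 < s := by linarith
  set e := y - m with he
  set r := ‖e‖ with hr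
  have hrd : dist y m = r := dist_eq_norm y m
  have hθh : θ * h ≤ h / 8 := by nlinarith
  have hrs : |r - s| ≤ 2 * (θ * h) := by
    have h1 := abs_dist_sub_le y p m
    rw [hrd] at h1
    have h2 := abs_le.1 hp
    have h3 := abs_le.1 (h1.trans hy)
    rw [abs_le]
    constructor <;> linarith [h2.1, h2.2, h3.1, h3.2]
  have hrs' := abs_le.1 hrs
  have hr0 : 3 * h / 4 ≤ r := by linarith [hrs'.1]
  have hr1 : 0 < r := by linarith
  set q := ⟪ω, e⟫ / r with hq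
  have hqr : ⟪ω, e⟫ = q * r := by rw [hq]; field_simp
  have hqb : |q| ≤ 2 := by
    rw [hq, abs_div, abs_of_pos hr1, div_le_iff₀ hr1]
    exact (abs_real_inner_le_norm ω e).trans (mul_le_mul_of_nonneg_right hω hr1.le)
  have hG1 : |-(⟪ω, p - m⟫ / s) + q| ≤ 6 * θ := by
    have e1 : ⟪ω, p - m⟫ = q * r - ⟪ω, y - p⟫ := by
      rw [← hqr, ← inner_sub_right]
      congr 1
      rw [he]; abel
    have e2 : |⟪ω, y - p⟫| ≤ 2 * (θ * h) := by
      refine (abs_real_inner_le_norm ω _).trans ?_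
      rw [← dist_eq_norm]
      exact mul_le_mul hω hy dist_nonneg (by norm_num)
    have e3 : -(⟪ω, p - m⟫ / s) + q = (q * (s - r) + ⟪ω, y - p⟫) / s := by
      rw [e1]; field_simp; ring
    rw [e3, abs_div, abs_of_pos hs0, div_le_iff₀ hs0]
    have e4 : |q * (s - r)| ≤ 2 * (2 * (θ * h)) := by
      rw [abs_mul, abs_sub_comm]
      exact mul_le_mul hqb hrs (abs_nonneg _) (by norm_num)
    have e5 := abs_add_le (q * (s - r)) ⟪ω, y - p⟫
    have e6 : θ * h ≤ θ * s := mul_le_mul_of_nonneg_left hs hθ0.le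
    linarith
  have hta : |(-(⟪ω, p - m⟫ / s) + q) * t| ≤ 12 * θ * σ := by
    rw [abs_mul]
    calc _ ≤ (6 * θ) * (2 * σ) := mul_le_mul hG1 ht (abs_nonneg _) (by positivity)
      _ = _ := by ring
  have hta' := abs_le.1 hta
  have hD : dist y (m + t • ω) = ‖e - t • ω‖ := by
    rw [dist_eq_norm, he]; congr 1; abel
  have hsq : ‖e - t • ω‖ ^ 2 = r ^ 2 - 2 * (t * (q * r)) + t ^ 2 * ‖ω‖ ^ 2 := by
    rw [norm_sub_sq_real, real_inner_smul_right, real_inner_comm, hqr, norm_smul, mul_pow,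
      Real.norm_eq_abs, sq_abs]
  have htq : |t * q| ≤ 4 * σ := by
    rw [abs_mul]
    calc _ ≤ (2 * σ) * 2 := mul_le_mul ht hqb (abs_nonneg _) (by positivity)
      _ = _ := by ring
  have htq' := abs_le.1 htq
  have hG2 : r - t * q ≤ ‖e - t • ω‖ := by
    have h1 : ⟪e, e - t • ω⟫ ≤ r * ‖e - t • ω‖ := real_inner_le_norm _ _
    rw [inner_sub_right, real_inner_self_eq_norm_sq, real_inner_smul_right, real_inner_comm,
      hqr] at h1
    have h2 : r * (r - t * q) ≤ r * ‖e - t • ω‖ := by nlinarith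
    exact le_of_mul_le_mul_left h2 hr1
  have hG3 : ‖e - t • ω‖ ≤ r - t * q + θ * σ := by
    have hpos : h / 2 ≤ r - t * q := by linarith [htq'.2]
    have hθσ : 0 < θ * σ := mul_pos hθ0 hσ
    refine le_of_sq_le_sq ?_ (by linarith)
    rw [hsq]
    have h1 : t ^ 2 ≤ (2 * σ) ^ 2 := by
      rw [← sq_abs t]; exact pow_le_pow_left₀ (abs_nonneg _) ht 2
    have h2 : ‖ω‖ ^ 2 ≤ 2 ^ 2 := pow_le_pow_left₀ (norm_nonneg _) hω 2
    have h3 : t ^ 2 * ‖ω‖ ^ 2 ≤ (2 * σ) ^ 2 * 2 ^ 2 := mul_le_mul h1 h2 (by positivity) (by positivity)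
    have h4 : θ * σ * (h / 2) ≤ θ * σ * (r - t * q) := mul_le_mul_of_nonneg_left hpos hθσ.le
    have h5 : σ * (16 * σ) ≤ σ * (θ * h) := mul_le_mul_of_nonneg_left hθ hσ.le
    have h6 : (r - t * q + θ * σ) ^ 2 = r ^ 2 - 2 * (t * (q * r)) + (t * q) ^ 2 +
      2 * (θ * σ * (r - t * q)) + (θ * σ) ^ 2 := by ring
    rw [h6]
    nlinarith [sq_nonneg (t * q), sq_nonneg (θ * σ)]
  rw [hD, hrd]
  have e7 : (-(⟪ω, p - m⟫ / s) + q) * t = -(⟪ω, p - m⟫ / s) * t + t * q := by ring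
  rw [e7] at hta'
  constructor <;> linarith [hta'.1, hta'.2]

omit [FiniteDimensional ℝ E] [MeasurableSpace E] [BorelSpace E] in
lemma csh_a {m ω p : E} {h s θ : ℝ} (hh : 0 < h) (hω : ‖ω‖ ≤ 2) (hs : h ≤ s) (hθ' : θ ≤ 1 / 8)
    (hp : |dist p m - s| ≤ θ * h) : |- (⟪ω, p - m⟫ / s)| ≤ 3 := by
  have hs0 : 0 < s := by linarith
  rw [abs_neg, abs_div, abs_of_pos hs0, div_le_iff₀ hs0]
  refine (abs_real_inner_le_norm ω _).trans ?_
  rw [← dist_eq_norm]
  have h1 := (abs_le.1 hp).2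
  have h2 : θ * h ≤ h / 8 := by nlinarith
  calc ‖ω‖ * dist p m ≤ 2 * dist p m := mul_le_mul_of_nonneg_right hω dist_nonneg
    _ ≤ 3 * s := by linarith

/-- relative change of radius -/
lemma csh_rel {h σ s b : ℝ} (hσ : 0 < σ) (hσh : 64 * σ ≤ h) (hs : h / 2 ≤ s) (hb : |b| ≤ 8 * σ) :
    s + b = s * (1 + b / s) ∧ |b / s| ≤ 1 / 4 ∧ |b / s| ≤ 2 * (|b| / h) := by
  have hh : 0 < h := by linarith
  have hs0 : 0 < s := by linarith
  refine ⟨by field_simp, ?_, ?_⟩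
  · rw [abs_div, abs_of_pos hs0, div_le_iff₀ hs0]; linarith
  · rw [abs_div, abs_of_pos hs0, div_le_iff₀ hs0]
    have : 2 * (|b| / h) * (h / 2) = |b| := by field_simp
    have h2 : 0 ≤ 2 * (|b| / h) := by positivity
    nlinarith

/-- one competitor, shrinking -/
lemma csh_one {C : ℝ} (hC0 : 0 ≤ C) (hC : ∀ x : ℝ, |x| ≤ 1 / 4 →
      ((1 + x) ^ Module.finrank ℝ E)⁻¹ ≤ 1 - Module.finrank ℝ E * x + C * x ^ 2)
    {l w : E → ℝ} {m ω p : E} {h σ s θ t Y : ℝ}
    (hl : LocallyIntegrable l volume) (hw : LocallyIntegrable w volume)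
    (hw0 : ∀ y, 0 ≤ w y) (hl0 : ∀ y, 0 ≤ l y) (hσ : 0 < σ) (hσh : 64 * σ ≤ h) (hω : ‖ω‖ ≤ 2)
    (hs : h ≤ s) (hθ : 16 * σ ≤ θ * h) (hθ' : θ ≤ 1 / 8) (hp : |dist p m - s| ≤ θ * h)
    (hwp : ∀ y, w y ≠ 0 → dist y m ≤ s + 20 * σ → dist y p ≤ θ * h) (ht : |t| ≤ 2 * σ)
    (hY : av l (m + t • ω) (s + (- (⟪ω, p - m⟫ / s)) * t) ≤ Y) :
    av l (m + t • ω) (s + (- (⟪ω, p - m⟫ / s)) * t - 13 * θ * σ) -
      av l (m + t • ω) (s + (- (⟪ω, p - m⟫ / s)) * t) ≤
        26 * (Module.finrank ℝ E + C) * (θ * (σ / h)) * Y ∧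
    av w (m + t • ω) (s + (- (⟪ω, p - m⟫ / s)) * t - 13 * θ * σ) ≤ av w m s *
      (1 - Module.finrank ℝ E * (((- (⟪ω, p - m⟫ / s)) * t - 13 * θ * σ) / s) +
        16 * C * (θ * (σ / h))) := by
  have hh : 0 < h := by linarith
  have hθ0 : 0 < θ := by
    by_contra hc
    push Not at hc
    nlinarith
  have ha := csh_a hh hω hs hθ' hp
  have hgeo := fun y hy => csh_geo (y := y) hσ hσh hω hs hθ hθ' hp hy ht
  set a := - (⟪ω, p - m⟫ / s) with hadef
  set d := Module.finrank ℝ E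
  have hd : (0 : ℝ) ≤ d := Nat.cast_nonneg d
  have hat : |a * t| ≤ 6 * σ := by
    rw [abs_mul]
    calc _ ≤ 3 * (2 * σ) := mul_le_mul ha ht (abs_nonneg _) (by norm_num)
      _ = _ := by ring
  have hat' := abs_le.1 hat
  have hθσ : 0 < θ * σ := mul_pos hθ0 hσ
  have hδ : 13 * θ * σ ≤ 2 * σ := by nlinarith
  have hδ0 : 0 < 13 * θ * σ := by positivity
  have hs1 : h / 2 ≤ s + a * t := by linarith [hat'.1]
  have hs2 : 0 < s + a * t - 13 * θ * σ := by linarith [hat'.1]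
  constructor
  · obtain ⟨e1, e2, e3⟩ := csh_rel (b := -(13 * θ * σ)) hσ hσh hs1
      (by rw [abs_neg, abs_of_pos hδ0]; linarith)
    have k1 := csh_av_le (c1 := m + t • ω) (c2 := m + t • ω) hl hl0 hs2
      (show 0 < s + a * t by linarith) fun y hy _ => ball_subset_ball (by linarith) hy
    have hA0 := av_nonneg hl0 (m + t • ω) (s + a * t)
    rw [← sub_eq_add_neg] at e1
    have k2 := csh_up hC hA0 (show 0 < s + a * t by linarith) e2 (by rw [← e1]; exact k1)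
    set x := -(13 * θ * σ) / (s + a * t)
    rw [abs_neg, abs_of_pos hδ0] at e3
    have e4 : 2 * (13 * θ * σ / h) = 26 * (θ * (σ / h)) := by ring
    rw [e4] at e3
    have e5 : x ^ 2 ≤ |x| := by
      rw [← sq_abs]; nlinarith [abs_nonneg x]
    have e6 : - (d * x) ≤ d * |x| := by nlinarith [neg_abs_le x]
    have e7 : - (d * x) + C * x ^ 2 ≤ (d + C) * (26 * (θ * (σ / h))) := by
      have := mul_le_mul_of_nonneg_left e5 hC0
      have := mul_le_mul_of_nonneg_left e3 (add_nonneg hd hC0)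
      linarith
    have e8 : 0 ≤ (d + C) * (26 * (θ * (σ / h))) := by positivity
    have e9 := mul_le_mul_of_nonneg_left e7 hA0
    have e10 := mul_le_mul_of_nonneg_right hY e8
    linarith
  · have hb : |a * t - 13 * θ * σ| ≤ 8 * σ := by
      rw [abs_le]; constructor <;> linarith [hat'.1, hat'.2]
    obtain ⟨e1, e2, e3⟩ := csh_rel (s := s) hσ hσh (by linarith) hb
    have k1 := csh_av_le (c1 := m + t • ω) (c2 := m) hw hw0 hs2
      (show 0 < s by linarith) fun y hy hy' => by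
        rw [mem_ball] at hy ⊢
        have h1 : dist y m ≤ s + 20 * σ := by
          have h2 := dist_triangle y (m + t • ω) m
          have h3 : dist (m + t • ω) m ≤ 2 * σ * 2 := by
            rw [dist_self_add_left, norm_smul, Real.norm_eq_abs]
            exact mul_le_mul ht hω (norm_nonneg _) (by positivity)
          linarith [hat'.2]
        have h4 := (hgeo y (hwp y hy' h1)).1
        linarith
    have hA0 := av_nonneg hw0 m s
    rw [← add_sub_assoc] at e1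
    have k2 := csh_up hC hA0 (show 0 < s by linarith) e2 (by rw [← e1]; exact k1)
    refine k2.trans (mul_le_mul_of_nonneg_left ?_ hA0)
    set x := (a * t - 13 * θ * σ) / s
    have e4 : |x| ≤ 16 * (σ / h) := by
      refine e3.trans ?_
      have : |a * t - 13 * θ * σ| / h ≤ 8 * σ / h := div_le_div_of_nonneg_right hb hh.le
      calc _ ≤ 2 * (8 * σ / h) := by linarith
        _ = _ := by ring
    have e5 : 16 * (σ / h) ≤ θ := by
      rw [← mul_div_assoc, div_le_iff₀ hh]; exact hθ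
    have e6 : x ^ 2 ≤ θ * (16 * (σ / h)) := by
      rw [← sq_abs, sq]
      exact mul_le_mul (e4.trans e5) e4 (abs_nonneg _) hθ0.le
    have := mul_le_mul_of_nonneg_left e6 hC0
    linarith

/-- one competitor, enlarging -/
lemma csh_two {l w : E → ℝ} {m ω p : E} {h σ s θ t Y : ℝ}
    (hl : LocallyIntegrable l volume) (hw : LocallyIntegrable w volume)
    (hw0 : ∀ y, 0 ≤ w y) (hl0 : ∀ y, 0 ≤ l y) (hσ : 0 < σ) (hσh : 64 * σ ≤ h) (hω : ‖ω‖ ≤ 2)
    (hs : h ≤ s) (hθ : 16 * σ ≤ θ * h) (hθ' : θ ≤ 1 / 8) (hp : |dist p m - s| ≤ θ * h)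
    (hwp : ∀ y, w y ≠ 0 → dist y m ≤ s + 20 * σ → dist y p ≤ θ * h) (ht : |t| ≤ 2 * σ)
    (hY : av l (m + t • ω) (s + (- (⟪ω, p - m⟫ / s)) * t) ≤ Y) :
    av l (m + t • ω) (s + (- (⟪ω, p - m⟫ / s)) * t) -
      av l (m + t • ω) (s + (- (⟪ω, p - m⟫ / s)) * t + 13 * θ * σ) ≤
        26 * (Module.finrank ℝ E) * (θ * (σ / h)) * Y ∧
    av w m s * (1 - Module.finrank ℝ E * (((- (⟪ω, p - m⟫ / s)) * t + 13 * θ * σ) / s)) ≤
      av w (m + t • ω) (s + (- (⟪ω, p - m⟫ / s)) * t + 13 * θ * σ) := by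
  have hh : 0 < h := by linarith
  have hθ0 : 0 < θ := by
    by_contra hc
    push Not at hc
    nlinarith
  have ha := csh_a hh hω hs hθ' hp
  have hgeo := fun y hy => csh_geo (y := y) hσ hσh hω hs hθ hθ' hp hy ht
  set a := - (⟪ω, p - m⟫ / s) with hadef
  set d := Module.finrank ℝ E
  have hd : (0 : ℝ) ≤ d := Nat.cast_nonneg d
  have hat : |a * t| ≤ 6 * σ := by
    rw [abs_mul]
    calc _ ≤ 3 * (2 * σ) := mul_le_mul ha ht (abs_nonneg _) (by norm_num)
      _ = _ := by ring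
  have hat' := abs_le.1 hat
  have hθσ : 0 < θ * σ := mul_pos hθ0 hσ
  have hδ : 13 * θ * σ ≤ 2 * σ := by nlinarith
  have hδ0 : 0 < 13 * θ * σ := by positivity
  have hs1 : h / 2 ≤ s + a * t := by linarith [hat'.1]
  have hs2 : 0 < s + a * t + 13 * θ * σ := by linarith [hat'.1]
  constructor
  · obtain ⟨e1, e2, e3⟩ := csh_rel (b := 13 * θ * σ) hσ hσh hs1
      (by rw [abs_of_pos hδ0]; linarith)
    have k1 := csh_av_le (c1 := m + t • ω) (c2 := m + t • ω) hl hl0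
      (show 0 < s + a * t by linarith) hs2 fun y hy _ => ball_subset_ball (by linarith) hy
    have hA0 := av_nonneg hl0 (m + t • ω) (s + a * t)
    have k2 := csh_down hA0 (show 0 < s + a * t by linarith) e2 (by rw [← e1]; exact k1)
    set x := (13 * θ * σ) / (s + a * t)
    rw [abs_of_pos hδ0] at e3
    have e4 : 2 * (13 * θ * σ / h) = 26 * (θ * (σ / h)) := by ring
    rw [e4] at e3
    have e7 : d * x ≤ d * (26 * (θ * (σ / h))) :=
      mul_le_mul_of_nonneg_left ((le_abs_self x).trans e3) hd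
    have e8 : 0 ≤ d * (26 * (θ * (σ / h))) := by positivity
    have e9 := mul_le_mul_of_nonneg_left e7 hA0
    have e10 := mul_le_mul_of_nonneg_right hY e8
    linarith
  · have hb : |a * t + 13 * θ * σ| ≤ 8 * σ := by
      rw [abs_le]; constructor <;> linarith [hat'.1, hat'.2]
    obtain ⟨e1, e2, e3⟩ := csh_rel (s := s) hσ hσh (by linarith) hb
    have k1 := csh_av_le (c1 := m) (c2 := m + t • ω) hw hw0
      (show 0 < s by linarith) hs2 fun y hy hy' => by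
        rw [mem_ball] at hy ⊢
        have h4 := (hgeo y (hwp y hy' (by linarith))).2
        linarith
    have hA0 := av_nonneg hw0 m s
    rw [← add_assoc] at e1
    exact csh_down hA0 (show 0 < s by linarith) e2 (by rw [← e1]; exact k1)

end Vale.Agent.P137
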