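import Vale.Agent.P137.Pat1

namespace Vale.Agent.P137

open MeasureTheory Metric Set Filter Topology
open scoped ENNReal RealInnerProductSpace

variable {E : Type*} [NormedAddCommGroup E] [InnerProductSpace ℝ E] [FiniteDimensional ℝ E]
  [MeasurableSpace E] [BorelSpace E]

lemma good_key [Nontrivial E] {F : E → ℝ} (hF : Measurable F) {t : ℝ} {z w : E} {R ρ : ℝ}
    (hρ : 0 < ρ) (h1 : dist w z + 3 * ρ ≤ R)
    (h2 : PP (lev F t) z R ≤ V E (1 / (2 * 2 ^ (3 * Module.finrank ℝ E + 8)) * ρ) ^ 2) :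
    ∃ B : Set E, 4 * volume B ≤ V E (ρ / 2) ∧ ∀ y ∈ ball w ρ, y ∉ B →
      (t < F y → Sp {y | t < F y}ᶜ y (1 / (2 * 2 ^ (3 * Module.finrank ℝ E + 8)) * ρ)) ∧
      (¬ t < F y → Sp {y | t < F y} y (1 / (2 * 2 ^ (3 * Module.finrank ℝ E + 8)) * ρ)) := by
  obtain ⟨m, hm⟩ : ∃ m, m = 3 * Module.finrank ℝ E + 8 := ⟨_, rfl⟩
  rw [← hm] at h2 ⊢
  obtain ⟨a, ha⟩ : ∃ a : ℝ, a = 1 / (2 * 2 ^ m) * ρ := ⟨_, rfl⟩
  rw [← ha] at h2 ⊢
  have ha0 : 0 < a := by rw [ha]; positivity
  have ha1 : 2 ^ m * (2 * a) = ρ := by rw [ha]; field_simp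
  have hL := measurable_lev hF t
  have hS : MeasurableSet {y | t < F y} := measurableSet_lt measurable_const hF
  let df : E → ℝ≥0∞ := fun y => ∫⁻ s in ball (0 : E) (2 * a),
    ENNReal.ofReal |lev F t (y + s) - lev F t y|
  have hdf : Measurable df := Measurable.lintegral_prod_right'
    (f := fun p : E × E => ENNReal.ofReal |lev F t (p.1 + p.2) - lev F t p.1|) (by fun_prop)
  have s1 : 2 ^ m * ∫⁻ y in ball w ρ, df y ≤
      2 * 2 ^ m * V E a ^ 2 + V E (2 * ρ) * V E (2 * a) := by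
    have k := APsum hL m (z := w) (ρ := 2 * ρ) (τ := 2 * a) (R := 3 * ρ) (by linarith)
      (by linarith) (by linarith)
    rw [p1_sum _ _ _ (f := fun (k : ℕ) s u => ENNReal.ofReal
      |lev F t (u + ((k : ℝ) + 1) • s) - lev F t (u + (k : ℝ) • s)|) fun k => by fun_prop] at k
    refine le_trans ?_ (k.trans (add_le_add
      (mul_le_mul_right ((PP_mono _ h1).trans h2) _) ?_))
    · refine le_trans (le_of_eq ?_) (Finset.card_nsmul_le_sum _ _
        (∫⁻ y in ball w ρ, df y) fun k hk => ?_)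
      · simp
      · have hk' : (k : ℝ) ≤ 2 ^ m := by exact_mod_cast (Finset.mem_range.1 hk).le
        simp only [df]
        rw [lintegral_lintegral_swap (Measurable.aemeasurable (by unfold Function.uncurry; fun_prop))]
        refine setLIntegral_mono' measurableSet_ball fun s hs => ?_
        refine le_trans (le_of_eq (lintegral_congr fun u => ?_)) (setLIntegral_add_le
          (fun u => ENNReal.ofReal |lev F t (u + ((k : ℝ) + 1) • s) - lev F t (u + (k : ℝ) • s)|)
          measurableSet_ball measurableSet_ball ((-k : ℝ) • s) fun u hu => p1_mem hu hs ?_)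
        · congr 4 <;> module
        · rw [abs_neg, abs_of_nonneg (Nat.cast_nonneg _)]
          nlinarith
    · calc _ ≤ ∫⁻ _ in ball (0 : E) (2 * a), ∫⁻ _ in ball w (2 * ρ), 1 := by
            refine lintegral_mono fun s => lintegral_mono fun u => ENNReal.ofReal_le_one.2 ?_
            unfold lev
            split_ifs <;> simp
        _ = _ := by rw [setLIntegral_one, setLIntegral_const, vol_ball, vol_ball]
  refine ⟨ball w ρ ∩ {y | V E a < 4 * df y}, ?_, fun y hy hB => ?_⟩
  · have hB : MeasurableSet (ball w ρ ∩ {y | V E a < 4 * df y}) :=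
      measurableSet_ball.inter (measurableSet_lt measurable_const (hdf.const_mul _))
    have s2 : V E a * volume (ball w ρ ∩ {y | V E a < 4 * df y}) ≤ 4 * ∫⁻ y in ball w ρ, df y := by
      rw [← setLIntegral_const, ← lintegral_const_mul' _ _ ENNReal.ofNat_ne_top]
      exact (setLIntegral_mono' hB fun y hy => le_of_lt hy.2).trans
        (lintegral_mono_set inter_subset_left)
    generalize volume (ball w ρ ∩ {y | V E a < 4 * df y}) = B at s2 ⊢
    generalize ∫⁻ y in ball w ρ, df y = J at s1 s2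
    have v1 : V E (2 * a) = 2 ^ Module.finrank ℝ E * V E a := by
      rw [V_mul two_pos, ENNReal.ofReal_pow (by norm_num), ENNReal.ofReal_ofNat]
    have v2 : V E (2 * ρ) = 4 ^ Module.finrank ℝ E * V E (ρ / 2) := by
      rw [show 2 * ρ = 4 * (ρ / 2) by ring, V_mul four_pos, ENNReal.ofReal_pow (by norm_num),
        ENNReal.ofReal_ofNat]
    have v3 : 2 ^ m * V E a ≤ V E (ρ / 2) := by
      rw [show ρ / 2 = 2 ^ m * a by linarith, V_mul (by positivity),
        ENNReal.ofReal_pow (by positivity), ENNReal.ofReal_pow (by norm_num), ENNReal.ofReal_ofNat]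
      refine mul_le_mul_left (le_self_pow₀ (one_le_pow₀ (by norm_num)) ?_) _
      exact Module.finrank_pos.ne'
    have v4 : (2 : ℝ≥0∞) ^ m = 256 * (4 ^ Module.finrank ℝ E * 2 ^ Module.finrank ℝ E) := by
      rw [hm, pow_add, pow_mul, ← mul_pow]; norm_num [mul_comm]
    have v5 : (1 : ℝ≥0∞) ≤ 4 ^ Module.finrank ℝ E * 2 ^ Module.finrank ℝ E :=
      one_le_mul_of_one_le_of_one_le (one_le_pow₀ (by norm_num)) (one_le_pow₀ (by norm_num))
    rw [v1, v2] at s1
    generalize V E (ρ / 2) = Y at *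
    have v6 : (2 : ℝ≥0∞) ^ m ≠ 0 := by simp
    have v7 : (2 : ℝ≥0∞) ^ m ≠ ⊤ := by simp
    generalize (2 : ℝ≥0∞) ^ m = N at *
    generalize (4 : ℝ≥0∞) ^ Module.finrank ℝ E = D4 at *
    generalize (2 : ℝ≥0∞) ^ Module.finrank ℝ E = D2 at *
    refine (ENNReal.mul_le_mul_iff_right v6 v7).1 ((ENNReal.mul_le_mul_iff_right
      (V_ne_zero (E := E) ha0) (V_ne_top a)).1 ?_)
    calc V E a * (N * (4 * B)) = 4 * N * (V E a * B) := by ring
      _ ≤ 4 * N * (4 * J) := by gcongr
      _ = 16 * (N * J) := by ring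
      _ ≤ 16 * (2 * N * V E a ^ 2 + D4 * Y * (D2 * V E a)) := by gcongr
      _ = V E a * (32 * 1 * (N * V E a) + 16 * (D4 * D2) * Y) := by ring
      _ ≤ V E a * (32 * (D4 * D2) * Y + 224 * (D4 * D2) * Y) := by gcongr; norm_num
      _ = V E a * (N * Y) := by rw [v4]; ring
  · have k : 4 * df y ≤ V E a := not_lt.1 fun k => hB ⟨hy, k⟩
    have e : df y = ∫⁻ y' in ball y (2 * a), ENNReal.ofReal |lev F t y' - lev F t y| := by
      simp only [df, add_comm y]
      rw [setLIntegral_ball_add (fun y' => ENNReal.ofReal |lev F t y' - lev F t y|), zero_add]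
    constructor
    · intro hy'
      refine le_trans (mul_le_mul_right (le_of_eq ?_) _) k
      rw [e, ← Measure.restrict_apply hS.compl, ← lintegral_indicator_one hS.compl]
      refine lintegral_congr fun y' => ?_
      by_cases k' : t < F y'
      · rw [indicator_of_notMem (by exact not_not.2 k')]; simp [lev, k', hy']
      · rw [indicator_of_mem (by exact k')]; simp [lev, k', hy']
    · intro hy'
      refine le_trans (mul_le_mul_right (le_of_eq ?_) _) k
      rw [e, ← Measure.restrict_apply hS, ← lintegral_indicator_one hS]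
      refine lintegral_congr fun y' => ?_
      by_cases k' : t < F y'
      · rw [indicator_of_mem (by exact k')]; simp [lev, k', hy']
      · rw [indicator_of_notMem (by exact k')]; simp [lev, k', hy']

/-- with few patterns most small balls are almost full or almost empty -/
theorem GPt [Nontrivial E] : ∃ q : ℝ, 0 < q ∧ q ≤ 1 / 2 ∧ ∀ (F : E → ℝ), Measurable F →
    ∀ (t : ℝ) (z : E) (R : ℝ),
    (∀ (x w : E) (ρ : ℝ), 0 < ρ → dist (x + w) z + 3 * ρ ≤ R → dist (x - w) z + 3 * ρ ≤ R →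
      PP (lev F t) z R ≤ V E (q * ρ) ^ 2 → ∃ u ∈ ball w ρ,
        (Sp {y | t < F y} (x + u) (q * ρ) ∨ Sp {y | t < F y}ᶜ (x + u) (q * ρ)) ∧
        (Sp {y | t < F y} (x - u) (q * ρ) ∨ Sp {y | t < F y}ᶜ (x - u) (q * ρ))) ∧
    (∀ (p : E) (ρ : ℝ), 0 < ρ → dist p z + 6 * ρ ≤ R →
      PP (lev F t) z R ≤ V E (q * (2 * ρ)) ^ 2 → ¬ Sp {y | t < F y}ᶜ p ρ →
      ∃ w ∈ ball p (2 * ρ), Sp {y | t < F y} w (q * (2 * ρ))) := by
  refine ⟨1 / (2 * 2 ^ (3 * Module.finrank ℝ E + 8)), by positivity, ?_, fun F hF t z R =>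
    ⟨fun x w ρ hρ h1 h2 h3 => ?_, fun p ρ hρ h1 h2 h3 => ?_⟩⟩
  · refine one_div_le_one_div_of_le two_pos ?_
    have : (1 : ℝ) ≤ 2 ^ (3 * Module.finrank ℝ E + 8) := one_le_pow₀ (by norm_num)
    linarith
  · obtain ⟨B1, a1, b1⟩ := good_key hF hρ h1 h3
    obtain ⟨B2, a2, b2⟩ := good_key hF hρ h2 h3
    by_contra k
    have c1 : ball w ρ ⊆ (fun v => x + v) ⁻¹' B1 ∪ (fun v => -v) ⁻¹' ((fun v => x + v) ⁻¹' B2) := by
      intro u hu
      by_contra k'
      rw [mem_union, not_or] at k'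
      have d1 := b1 (x + u) (by simpa using hu) k'.1
      have d2 := b2 (x - u) (by simpa [dist_eq_norm, norm_sub_rev] using hu)
        (by rw [sub_eq_add_neg]; exact k'.2)
      refine k ⟨u, hu, ?_, ?_⟩
      · by_cases k1 : t < F (x + u)
        · exact Or.inr (d1.1 k1)
        · exact Or.inl (d1.2 k1)
      · by_cases k1 : t < F (x - u)
        · exact Or.inr (d2.1 k1)
        · exact Or.inl (d2.2 k1)
    have c2 := (measure_mono (μ := volume) c1).trans (measure_union_le _ _)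
    rw [Measure.measure_preimage_neg, measure_preimage_add, measure_preimage_add, vol_ball] at c2
    have c3 : V E (ρ / 2) ≤ V E ρ := V_mono (by linarith)
    have c4 : 4 * V E ρ ≤ 2 * V E ρ := by
      calc 4 * V E ρ ≤ 4 * (volume B1 + volume B2) := by gcongr
        _ = 4 * volume B1 + 4 * volume B2 := by ring
        _ ≤ V E ρ + V E ρ := add_le_add (a1.trans c3) (a2.trans c3)
        _ = 2 * V E ρ := by ring
    have := (ENNReal.mul_le_mul_iff_left (V_ne_zero (E := E) hρ) (V_ne_top ρ)).1 c4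
    norm_num at this
  · obtain ⟨B, a1, b1⟩ := good_key hF (by linarith : 0 < 2 * ρ) (by linarith) h2
    rw [mul_div_cancel_left₀ _ two_ne_zero] at a1
    by_contra k
    refine h3 (le_trans (mul_le_mul_right (measure_mono fun y hy => ?_) _) a1)
    by_contra k'
    exact k ⟨y, hy.2, (b1 y hy.2 k').2 hy.1⟩

end Vale.Agent.P137
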