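import Vale.Agent.P137.CAP
import Vale.Agent.P137.Good

namespace Vale.Agent.P137

open MeasureTheory Metric Set Filter Topology
open scoped ENNReal RealInnerProductSpace

variable {E : Type*} [NormedAddCommGroup E] [InnerProductSpace ℝ E] [FiniteDimensional ℝ E]
  [MeasurableSpace E] [BorelSpace E]

/-- set version of the basic one sided estimate -/
theorem S1set {F : E → ℝ} (hF : Measurable F) (t : ℝ) {U : Set E} (hU : MeasurableSet U) {z : E}
    {a R : ℝ} (ha : 0 < a) (haR : a ≤ R) (hUR : U ⊆ ball z R)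
    (h : ∀ y ∈ U, 4 * volume ({y | t < F y}ᶜ ∩ ball y a) ≤ V E a) :
    dv F t U * V E a ≤ 2 * PP F z R := by
  have hT : MeasurableSet {y | t < F y}ᶜ := (measurableSet_lt measurable_const hF).compl
  set T := {y | t < F y}ᶜ with hTdef
  have hFT : ∀ y, y ∉ T → t ≤ F y := fun y hy => le_of_lt (not_not.1 hy)
  have pw : ∀ y ∈ U, ENNReal.ofReal (t - F y) * V E a ≤
      2 * ∫⁻ v in ball (0 : E) a, pt (F (y - v)) (F y) (F (y + v)) := by
    intro y hy
    let Gd : Set E := ball 0 a ∩ {v | y + v ∉ T ∧ y - v ∉ T}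
    have hG : MeasurableSet Gd := measurableSet_ball.inter
      ((hT.compl.preimage (by fun_prop : Measurable fun v => y + v)).inter
        (hT.compl.preimage (by fun_prop : Measurable fun v => y - v)))
    have c1 : ball 0 a ⊆ Gd ∪ ((fun v => y + v) ⁻¹' (T ∩ ball y a) ∪
        (fun v => -v) ⁻¹' ((fun v => y + v) ⁻¹' (T ∩ ball y a))) := by
      intro v hv
      by_cases k1 : y + v ∈ T
      · exact Or.inr (Or.inl ⟨k1, by simpa using hv⟩)
      by_cases k2 : y - v ∈ T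
      · exact Or.inr (Or.inr ⟨by simpa only [sub_eq_add_neg] using k2, by simpa using hv⟩)
      exact Or.inl ⟨hv, k1, k2⟩
    have c2 := (measure_mono (μ := volume) c1).trans ((measure_union_le _ _).trans
      (add_le_add le_rfl (measure_union_le _ _)))
    rw [Measure.measure_preimage_neg, measure_preimage_add, vol_ball] at c2
    have h1 := h y hy
    have c3 : V E a ≤ 2 * volume Gd := by
      generalize volume (T ∩ ball y a) = α at *
      have d3 : V E a + V E a ≤ 2 * volume Gd + V E a := by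
        calc V E a + V E a = 2 * V E a := by ring
          _ ≤ 2 * (volume Gd + (α + α)) := by gcongr
          _ = 2 * volume Gd + 4 * α := by ring
          _ ≤ _ := by gcongr
      exact ENNReal.le_of_add_le_add_right (V_ne_top a) d3
    calc ENNReal.ofReal (t - F y) * V E a ≤ ENNReal.ofReal (t - F y) * (2 * volume Gd) := by gcongr
      _ = 2 * ∫⁻ _ in Gd, ENNReal.ofReal (t - F y) := by rw [setLIntegral_const]; ring
      _ ≤ 2 * ∫⁻ v in Gd, pt (F (y - v)) (F y) (F (y + v)) := by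
        refine mul_le_mul_right (setLIntegral_mono' hG fun v hv => ?_) _
        exact p2_pt (hFT _ hv.2.2) (hFT _ hv.2.1) _
      _ ≤ _ := mul_le_mul_right (lintegral_mono_set inter_subset_left) _
  unfold dv PP
  rw [← lintegral_mul_const' _ _ (V_ne_top a)]
  refine (setLIntegral_mono' hU pw).trans ?_
  rw [lintegral_const_mul' _ _ ENNReal.ofNat_ne_top,
    lintegral_lintegral_swap (Measurable.aemeasurable (by unfold Function.uncurry; fun_prop))]
  exact mul_le_mul_right ((lintegral_mono_set (ball_subset_ball haR)).trans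
    (lintegral_mono fun v => lintegral_mono_set hUR)) _

lemma ctier_cheb {A B : Set E} (hA : MeasurableSet A) (hAB : A ⊆ B) {φ : E → ℝ} {τ H h r : ℝ}
    (hτ : 0 < τ) (hr : 0 < r) (h1 : ∀ y ∈ A, τ ≤ φ y)
    (h2 : ∫⁻ y in B, ENNReal.ofReal (φ y) ≤ ENNReal.ofReal H * V E h)
    (h3 : 4 * H ≤ τ * r ^ Module.finrank ℝ E) : 4 * volume A ≤ V E (r * h) := by
  have e1 : ENNReal.ofReal τ * volume A ≤ ENNReal.ofReal H * V E h := by
    rw [← setLIntegral_const]
    exact (setLIntegral_mono' hA fun y hy => ENNReal.ofReal_le_ofReal (h1 y hy)).trans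
      ((lintegral_mono_set hAB).trans h2)
  have e2 : ENNReal.ofReal τ * (4 * volume A) ≤ ENNReal.ofReal τ * V E (r * h) := by
    rw [V_mul hr, ← mul_assoc (ENNReal.ofReal τ) (ENNReal.ofReal _), ← ENNReal.ofReal_mul hτ.le,
      mul_left_comm]
    refine (mul_le_mul_right e1 _).trans ?_
    rw [← mul_assoc]
    refine mul_le_mul_left (le_trans (le_of_eq ?_) (ENNReal.ofReal_le_ofReal h3)) _
    rw [ENNReal.ofReal_mul (by norm_num), ENNReal.ofReal_ofNat]
  exact (ENNReal.mul_le_mul_iff_right (by simpa using hτ) ENNReal.ofReal_ne_top).1 e2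

lemma ctier_cover {A1 A2 A3 : Set E} {c : E} {r : ℝ} (hr : 0 < r) (h : ball c r ⊆ A1 ∪ A2 ∪ A3)
    (h1 : 4 * volume A1 ≤ V E r) (h2 : 4 * volume A2 ≤ V E r) (h3 : 4 * volume A3 ≤ V E r) :
    False := by
  have e1 := (measure_mono (μ := volume) h).trans ((measure_union_le _ _).trans
    (add_le_add (measure_union_le _ _) le_rfl))
  rw [vol_ball] at e1
  have e2 : 3 * V E r + V E r ≤ 3 * V E r + 0 := by
    calc 3 * V E r + V E r = 4 * V E r := by ring
      _ ≤ 4 * (volume A1 + volume A2 + volume A3) := by gcongr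
      _ = 4 * volume A1 + 4 * volume A2 + 4 * volume A3 := by ring
      _ ≤ V E r + V E r + V E r := by gcongr
      _ = _ := by ring
  have e3 := ENNReal.le_of_add_le_add_left
    (ENNReal.mul_ne_top ENNReal.ofNat_ne_top (V_ne_top r)) e2
  exact V_ne_zero hr (nonpos_iff_eq_zero.1 e3)

lemma ctier_level {F : E → ℝ} (hF : Measurable F) (z : E) (R c : ℝ) {T : ℝ} (hT : 0 < T) :
    ∃ t ∈ Icc (c - 2 * T) (c - T), PP (lev F t) z R * ENNReal.ofReal T ≤ PP F z R := by
  have hv : volume (Icc (c - 2 * T) (c - T)) = ENNReal.ofReal T := by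
    rw [Real.volume_Icc]; congr 1; ring
  have h0 : ENNReal.ofReal T ≠ 0 := by simpa using hT
  have hm : Measurable fun t : ℝ => PP (lev F t) z R :=
    (measurable_PP_lev hF R).comp (f := fun t : ℝ => (z, t)) (by fun_prop)
  obtain ⟨t, ht, h⟩ := exists_le_setLAverage (μ := volume) (s := Icc (c - 2 * T) (c - T))
    (f := fun t : ℝ => PP (lev F t) z R) (by rwa [hv]) (by rw [hv]; exact ENNReal.ofReal_ne_top)
    hm.aemeasurable
  refine ⟨t, ht, ?_⟩
  rw [setLAverage_eq, hv, ENNReal.le_div_iff_mul_le (Or.inl h0)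
    (Or.inl ENNReal.ofReal_ne_top)] at h
  exact h.trans ((setLIntegral_le_lintegral _ _).trans (layer_PP hF z R))

lemma ctier_mid {F : E → ℝ} (hF : Measurable F) (t : ℝ) {w u z : E} {a R : ℝ} (ha : 0 < a)
    (h1 : Sp {y | t < F y} (w + u) a) (h2 : Sp {y | t < F y} (w - u) a)
    (hw : dist w z + a ≤ R) (hu : ‖u‖ + a ≤ R) (hP : 8 * PP (lev F t) z R ≤ V E a ^ 2) :
    4 * volume ({y | t < F y} ∩ ball w a) ≤ V E a := by
  have hS : MeasurableSet {y | t < F y} := measurableSet_lt measurable_const hF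
  have := S1 (F := fun y => -lev F t y) (measurable_lev hF t).neg 0 hS
    (fun y hy => by simp only [lev]; rw [if_neg (show ¬ t < F y from hy)]; simp) (ρ := a) ha
    (by rw [← two_mul]; exact h1) (by rw [← two_mul]; exact h2) hw hu
  rw [PP_neg] at this
  have e1 : dv (fun y => -lev F t y) 0 (ball w a) = volume ({y | t < F y} ∩ ball w a) := by
    rw [dv, ← Measure.restrict_apply hS, ← lintegral_indicator_one hS]
    refine lintegral_congr fun y => ?_
    by_cases k : t < F y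
    · rw [indicator_of_mem (by exact k)]; simp [lev, k]
    · rw [indicator_of_notMem (by exact k)]; simp [lev, k]
  rw [e1] at this
  refine (ENNReal.mul_le_mul_iff_left (V_ne_zero (E := E) ha) (V_ne_top a)).1 ?_
  calc 4 * volume ({y | t < F y} ∩ ball w a) * V E a
      = 4 * (volume ({y | t < F y} ∩ ball w a) * V E a) := mul_assoc _ _ _
    _ ≤ 4 * (2 * PP (lev F t) z R) := by gcongr
    _ = 8 * PP (lev F t) z R := by ring
    _ ≤ _ := by rw [← sq]; exact hP

omit [FiniteDimensional ℝ E] [MeasurableSpace E] [BorelSpace E] in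
lemma ctier_par {x1 x2 : E} {s b k : ℝ} (hk : k ≤ s) (h1 : ‖x1‖ ≤ b) (h2 : ‖x2‖ ≤ b)
    (h3 : 4 * (b ^ 2 - (s - k) ^ 2) ≤ ‖x1 - x2‖ ^ 2) : ‖(1 / 2 : ℝ) • (x1 + x2)‖ ≤ s - k := by
  have e1 := parallelogram_law_with_norm ℝ x1 x2
  have e2 := pow_le_pow_left₀ (norm_nonneg _) h1 2
  have e3 := pow_le_pow_left₀ (norm_nonneg _) h2 2
  refine le_of_pow_le_pow_left₀ two_ne_zero (by linarith) ?_
  rw [norm_smul, mul_pow, Real.norm_eq_abs, sq_abs]
  nlinarith

omit [FiniteDimensional ℝ E] [MeasurableSpace E] [BorelSpace E] in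
lemma ctier_dir {x e : E} {h κf : ℝ} (hh : 0 < h) (hκ : 0 < κf) (hκ1 : κf ≤ 1) (he : ‖e‖ ≤ 2)
    (hx : h / 2 ≤ ‖x‖) (hxe : -(κf / 4 * h) ≤ ⟪x, e⟫) : ∃ v : E,
      ‖v - (κf * h / 36) • e‖ ≤ κf * (κf * h / 36) ∧
      ‖x - v‖ ^ 2 ≤ ‖x‖ ^ 2 - κf ^ 2 * h ^ 2 / 144 := by
  have hx0 : 0 < ‖x‖ := by linarith
  have hl : 0 < κf * h / 36 := by positivity
  have e1 : ‖(κf / ‖x‖) • x‖ = κf := by
    rw [norm_smul, Real.norm_eq_abs, abs_of_pos (by positivity), div_mul_cancel₀ _ hx0.ne']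
  refine ⟨(κf * h / 36) • (e + (κf / ‖x‖) • x), ?_, ?_⟩
  · rw [smul_add, add_sub_cancel_left, norm_smul, e1, Real.norm_eq_abs, abs_of_pos hl, mul_comm]
  · have e2 : ‖e + (κf / ‖x‖) • x‖ ≤ 3 := (norm_add_le _ _).trans (by rw [e1]; linarith)
    have e3 := pow_le_pow_left₀ (norm_nonneg _) e2 2
    have e4 : κf / ‖x‖ * ‖x‖ ^ 2 = κf * ‖x‖ := by field_simp
    have e5 : κf / 4 * h ≤ ⟪x, e⟫ + κf * ‖x‖ := by nlinarith
    rw [norm_sub_sq_real, real_inner_smul_right, inner_add_right, real_inner_smul_right,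
      real_inner_self_eq_norm_sq, e4, norm_smul, mul_pow, Real.norm_eq_abs, sq_abs]
    have e6 := mul_le_mul_of_nonneg_left e5 hl.le
    have e7 := mul_le_mul_of_nonneg_left e3 (sq_nonneg (κf * h / 36))
    nlinarith

lemma ctier_two {F : E → ℝ} (hF : Measurable F) (t : ℝ) {w1 w2 m z : E} {a k s b h : ℝ}
    (ha : 0 < a) (hak : a ≤ k) (hks : k ≤ s) (hb : b ≤ 3 * h) (hm : dist m z ≤ h) (hs : s ≤ 2 * h)
    (c1 : ‖w1 - m‖ ≤ b) (c2 : ‖w2 - m‖ ≤ b) (b1 : Sp {y | t < F y} w1 a)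
    (b2 : Sp {y | t < F y} w2 a) (hP : 8 * PP (lev F t) z (40 * h) ≤ V E a ^ 2)
    (ch : 4 * volume ({y | t < F y}ᶜ ∩ ball m s) ≤ V E a) :
    dist w1 w2 ^ 2 ≤ 4 * (b ^ 2 - (s - k) ^ 2) := by
  by_contra hc
  have e1 : w1 - m - (w2 - m) = w1 - w2 := by abel
  have e2 := ctier_par hks c1 c2 (by rw [e1, ← dist_eq_norm]; linarith)
  have e3 : dist (m + (1 / 2 : ℝ) • (w1 - m + (w2 - m))) m ≤ s - k := by
    rwa [dist_self_add_left]
  have e4 : ‖(1 / 2 : ℝ) • (w1 - w2)‖ ≤ 3 * h := by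
    rw [norm_smul, ← e1, Real.norm_eq_abs, abs_of_pos one_half_pos]
    linarith [norm_sub_le (w1 - m) (w2 - m)]
  have e5 := ctier_mid hF t (w := m + (1 / 2 : ℝ) • (w1 - m + (w2 - m)))
    (u := (1 / 2 : ℝ) • (w1 - w2)) ha
    (by rwa [show m + (1 / 2 : ℝ) • (w1 - m + (w2 - m)) + (1 / 2 : ℝ) • (w1 - w2) = w1 by module])
    (by rwa [show m + (1 / 2 : ℝ) • (w1 - m + (w2 - m)) - (1 / 2 : ℝ) • (w1 - w2) = w2 by module])
    (by linarith [dist_triangle (m + (1 / 2 : ℝ) • (w1 - m + (w2 - m))) m z]) (by linarith) hP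
  refine ctier_cover (c := m + (1 / 2 : ℝ) • (w1 - m + (w2 - m))) ha (fun y hy => ?_) e5 ch ch
  by_cases hyS : t < F y
  · exact Or.inl (Or.inl ⟨hyS, hy⟩)
  · exact Or.inr ⟨hyS, ball_subset_ball' (by linarith) hy⟩

lemma ctier_neg {F : E → ℝ} (hF : Measurable F) {t c0 T H r h s : ℝ} {w v m : E} (hT : 0 < T)
    (hr : 0 < r) (hh : 0 < h) (ht : t ≤ c0 - T) (hT3 : 4 * H ≤ T / 2 * r ^ Module.finrank ℝ E)
    (hs : s ≤ 2 * h) (h1 : r * h + dist (w - v) m ≤ s) (h2 : r * h + dist w m ≤ 4 * h)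
    (b1 : Sp {y | t < F y} w (r * h)) (hda : da F c0 (ball m s) ≤ ENNReal.ofReal H * V E h)
    (hN : ∫⁻ y in ball m (4 * h) ∩ {y | y + v ∈ ball m (4 * h)},
      ENNReal.ofReal (F y - F (y + v)) ≤ ENNReal.ofReal H * V E h) : False := by
  have mv : Measurable fun y : E => y + v := by fun_prop
  have ha : 0 < r * h := by positivity
  have c6 := ctier_cheb (A := ball m (4 * h) ∩ {y | y + v ∈ ball m (4 * h)} ∩
    {y | T / 2 ≤ F y - F (y + v)}) ((measurableSet_ball.inter (measurableSet_ball.preimage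
    mv)).inter (measurableSet_le measurable_const (hF.sub (hF.comp mv)))) inter_subset_left
    (half_pos hT) hr (fun y hy => hy.2) hN hT3
  have c7 := ctier_cheb (A := ball m s ∩ {y | F y ≤ c0 - T / 2})
    (measurableSet_ball.inter (measurableSet_le hF measurable_const)) inter_subset_left
    (half_pos hT) hr (φ := fun y => |F y - c0|) (fun y hy => by
      have e1 : F y ≤ c0 - T / 2 := hy.2
      exact le_abs.2 (Or.inr (by linarith))) hda hT3
  have c8 : 4 * volume ((fun y => y + v) ⁻¹' ({y | t < F y} ∩ ball w (2 * (r * h)))) ≤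
      V E (r * h) := by
    rw [measure_preimage_add_right]; exact b1
  refine ctier_cover (c := w - v) ha (fun y hy => ?_) c8 c7 c6
  have d1 : dist (y + v) w < r * h := by
    rwa [mem_ball, dist_eq_norm, ← sub_add, sub_add_eq_add_sub, ← dist_eq_norm] at hy
  have d2 : y ∈ ball m s := ball_subset_ball' h1 hy
  by_cases k1 : t < F (y + v)
  · exact Or.inl (Or.inl ⟨k1, mem_ball.2 (by linarith)⟩)
  by_cases k2 : F y ≤ c0 - T / 2
  · exact Or.inl (Or.inr ⟨d2, k2⟩)
  refine Or.inr ⟨⟨ball_subset_ball (by linarith) d2, mem_ball.2 ?_⟩, ?_⟩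
  · linarith [dist_triangle (y + v) w m]
  · show T / 2 ≤ F y - F (y + v)
    linarith

lemma ctier_loc {F : E → ℝ} (hF : Measurable F) {κf B h κ H T r t c0 s : ℝ} {z m : E}
    (hκf : 0 < κf) (hκf1 : κf ≤ 1) (hB : 1 ≤ B) (hh : 0 < h) (hκ : 0 < κ)
    (hk : 720 * (B + 2) * κ ≤ κf ^ 2) (hH : 0 < H) (hT0 : 0 < T) (hr : 0 < r) (hrκ : r ≤ κ)
    (ht : t ≤ c0 - T) (hT3 : 4 * H ≤ T / 2 * r ^ Module.finrank ℝ E)
    (hP8 : 8 * PP (lev F t) z (40 * h) ≤ V E (r * h) ^ 2)
    (hG : ∀ p, dist p z + 3 * (κ * h) ≤ 40 * h → ¬ Sp {y | t < F y}ᶜ p (κ * h / 2) →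
      ∃ w ∈ ball p (κ * h), Sp {y | t < F y} w (r * h))
    (hm : dist m z ≤ h) (hs1 : h ≤ s) (hs2 : s ≤ 2 * h)
    (hda : da F c0 (ball m s) ≤ ENNReal.ofReal H * V E h) :
    (∀ p, p ∉ {y : E | 4 * volume ({y | t < F y}ᶜ ∩ ball y (κ * h)) ≤ V E (κ * h)} →
      s - κ * h ≤ dist p m) ∧
    (∀ p p', p ∉ {y : E | 4 * volume ({y | t < F y}ᶜ ∩ ball y (κ * h)) ≤ V E (κ * h)} →
      p' ∉ {y : E | 4 * volume ({y | t < F y}ᶜ ∩ ball y (κ * h)) ≤ V E (κ * h)} →
      dist p m ≤ s + B * κ * h → dist p' m ≤ s + B * κ * h →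
      dist p p' ^ 2 ≤ (40 * (B + 2) + 8) * κ * h ^ 2) ∧
    (∀ (e : E) (ρm : ℝ), ‖e‖ ≤ 2 → ρm ≤ h → NegP F m h e κf ρm H → ∀ p,
      p ∉ {y : E | 4 * volume ({y | t < F y}ᶜ ∩ ball y (κ * h)) ≤ V E (κ * h)} →
      dist p m ≤ s + B * κ * h → ⟪p - m, e⟫ ≤ - (κf / 8 * h)) := by
  have hκf2 : κf ^ 2 ≤ κf := by nlinarith
  have hBκ : κ ≤ B * κ := le_mul_of_one_le_left hκ.le hB
  have hk1 : 16 * κ ≤ κf := by linarith
  have hk2 : B * κ + 2 * κ ≤ 1 / 720 := by linarith
  have hkh : 0 < κ * h := by positivity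
  have ha : 0 < r * h := by positivity
  have ha1 : r * h ≤ κ * h := mul_le_mul_of_nonneg_right hrκ hh.le
  have hBh : B * κ * h + 2 * (κ * h) ≤ h / 720 := by
    linarith [mul_le_mul_of_nonneg_right hk2 hh.le]
  have hBh0 : 0 < B * κ * h := by positivity
  have hS : MeasurableSet {y | t < F y} := measurableSet_lt measurable_const hF
  set S := {y | t < F y} with hSdef
  have ch1 : 4 * volume (Sᶜ ∩ ball m s) ≤ V E (r * h) :=
    ctier_cheb (hS.compl.inter measurableSet_ball) inter_subset_right (half_pos hT0) hr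
      (φ := fun y => |F y - c0|) (fun y hy => by
        have e1 : F y ≤ t := not_lt.1 hy.1
        exact le_abs.2 (Or.inr (by linarith [ht]))) hda hT3
  have hb : ∀ p, p ∉ {y : E | 4 * volume (Sᶜ ∩ ball y (κ * h)) ≤ V E (κ * h)} →
      s - κ * h ≤ dist p m := by
    intro p hp
    by_contra hc
    refine hp (le_trans (mul_le_mul_right (measure_mono (inter_subset_inter_right _
      (ball_subset_ball' (by linarith)))) _) (ch1.trans (V_mono ha1)))
  have hw : ∀ p, p ∉ {y : E | 4 * volume (Sᶜ ∩ ball y (κ * h)) ≤ V E (κ * h)} →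
      dist p m ≤ s + B * κ * h → ∃ w, dist w p < κ * h ∧ Sp S w (r * h) := by
    intro p hp hpm
    have e1 : 2 * (κ * h / 2) = κ * h := by ring
    refine hG p (by linarith [dist_triangle p m z]) fun hsp => hp ?_
    unfold Sp at hsp
    rw [e1] at hsp
    exact hsp.trans (V_mono (by linarith))
  have hsq : (s + B * κ * h + κ * h) ^ 2 - (s - κ * h) ^ 2 ≤ 5 * (B + 2) * κ * h ^ 2 := by
    have e1 : (s + B * κ * h + κ * h) ^ 2 - (s - κ * h) ^ 2 =
        (B + 2) * κ * h * (2 * s + B * κ * h) := by ring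
    have e2 : (B + 2) * κ * h * (2 * s + B * κ * h) ≤ (B + 2) * κ * h * (5 * h) :=
      mul_le_mul_of_nonneg_left (by linarith) (by positivity)
    linarith
  refine ⟨hb, fun p p' hp hp' h1 h2 => ?_, fun e ρm he hρm hN p hp h1 => ?_⟩
  · obtain ⟨w1, a1, b1⟩ := hw p hp h1
    obtain ⟨w2, a2, b2⟩ := hw p' hp' h2
    have c1 : ‖w1 - m‖ ≤ s + B * κ * h + κ * h := by
      rw [← dist_eq_norm]; linarith [dist_triangle w1 p m]
    have c2 : ‖w2 - m‖ ≤ s + B * κ * h + κ * h := by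
      rw [← dist_eq_norm]; linarith [dist_triangle w2 p' m]
    have c3 := ctier_two hF t ha ha1 (by linarith) (by linarith) hm hs2 c1 c2 b1 b2 hP8 ch1
    have c4 : dist p p' ≤ dist w1 w2 + 2 * (κ * h) := by
      have := dist_triangle4 p w1 w2 p'
      rw [dist_comm p w1] at this
      linarith
    have c5 := pow_le_pow_left₀ dist_nonneg c4 2
    have c6 : (κ * h) ^ 2 ≤ κ * h ^ 2 := by
      rw [mul_pow]
      exact mul_le_mul_of_nonneg_right (by rw [sq]; exact mul_le_of_le_one_left hκ.le (by linarith)) (by positivity)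
    have c8 : (dist w1 w2 + 2 * (κ * h)) ^ 2 ≤ 2 * dist w1 w2 ^ 2 + 8 * (κ * h) ^ 2 := by
      linarith [sq_nonneg (dist w1 w2 - 2 * (κ * h))]
    linarith
  · by_contra hc
    obtain ⟨w, a1, b1⟩ := hw p hp h1
    have c1 : ‖w - m‖ ≤ s + B * κ * h + κ * h := by
      rw [← dist_eq_norm]; linarith [dist_triangle w p m]
    have c2 : h / 2 ≤ ‖w - m‖ := by
      rw [← dist_eq_norm]; linarith [dist_triangle_left p m w, hb p hp]
    have c3 : -(κf / 4 * h) ≤ ⟪w - m, e⟫ := by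
      have e1 : ⟪w - m, e⟫ = ⟪p - m, e⟫ + ⟪w - p, e⟫ := by
        simp only [inner_sub_left]; ring
      have e2 := (abs_le.1 (abs_real_inner_le_norm (w - p) e)).1
      rw [← dist_eq_norm] at e2
      have e3 : dist w p * ‖e‖ ≤ κ * h * 2 := by gcongr
      have e4 : 16 * κ * h ≤ κf * h := by gcongr
      linarith
    obtain ⟨v, hv1, hv2⟩ := ctier_dir hh hκf hκf1 he c2 c3
    have hl : κf * h / 36 ≤ h := by linarith [mul_le_of_le_one_left hh.le hκf1]
    have c4 : dist (w - v) m ≤ s - κ * h := by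
      rw [dist_eq_norm, sub_right_comm]
      refine le_of_pow_le_pow_left₀ two_ne_zero (by linarith) ?_
      have e1 := pow_le_pow_left₀ (norm_nonneg _) c1 2
      have e2 : 720 * (B + 2) * κ * h ^ 2 ≤ κf ^ 2 * h ^ 2 := by gcongr
      linarith
    have c5 := (hN v _ (by positivity) hl hv1).trans (mul_le_mul_left (ENNReal.ofReal_le_ofReal
      (mul_le_of_le_one_left hH.le ((div_le_one hh).2 (max_le hl hρm)))) _)
    rw [← dist_eq_norm] at c1
    exact ctier_neg hF hT0 hr hh ht hT3 hs2 (by linarith) (by linarith) b1 hda c5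

/-- a flat low level: the region where it is not full touches good balls only in a small cap -/
theorem TIER [Nontrivial E] (κf B : ℝ) (hκf : 0 < κf) (hκf1 : κf ≤ 1) (hB : 1 ≤ B) :
    ∃ C κ0 : ℝ, 1 ≤ C ∧ 0 < κ0 ∧ κ0 ≤ 1 / 64 ∧ ∀ (F : E → ℝ) (z : E) (h κ H c0 : ℝ),
    Measurable F → 0 < h → 0 < κ → κ ≤ κ0 → 0 < H →
    PP F z (40 * h) ≤ ENNReal.ofReal H * V E h ^ 2 →
    ∃ (t : ℝ) (U : Set E), MeasurableSet U ∧
      c0 - 2 * (C * (1 / κ) ^ (2 * Module.finrank ℝ E) * H) ≤ t ∧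
      t ≤ c0 - C * (1 / κ) ^ (2 * Module.finrank ℝ E) * H ∧
      (∫⁻ y in U ∩ ball z (20 * h), ENNReal.ofReal (t - F y) ≤
        ENNReal.ofReal (C * (1 / κ) ^ Module.finrank ℝ E * H) * V E h) ∧
      ∀ (m : E) (s : ℝ), dist m z ≤ h → h ≤ s → s ≤ 2 * h →
        da F c0 (ball m s) ≤ ENNReal.ofReal H * V E h →
        (∀ p, p ∉ U → s - κ * h ≤ dist p m) ∧
        (∀ p p', p ∉ U → p' ∉ U → dist p m ≤ s + B * κ * h → dist p' m ≤ s + B * κ * h →
          dist p p' ^ 2 ≤ C * κ * h ^ 2) ∧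
        (∀ (e : E) (ρm : ℝ), ‖e‖ ≤ 2 → ρm ≤ h → NegP F m h e κf ρm H → ∀ p, p ∉ U →
          dist p m ≤ s + B * κ * h → ⟪p - m, e⟫ ≤ - (κf / 8 * h)) := by
  obtain ⟨q, hq0, hq1, hG⟩ := GPt (E := E)
  set d := Module.finrank ℝ E with hd
  have hqd : 0 < q ^ d := pow_pos hq0 d
  have hqd1 : q ^ d ≤ 1 := pow_le_one₀ hq0.le (by linarith)
  have hq8 : 0 < 8 / (q ^ d) ^ 2 := by positivity
  have hκf2 : κf ^ 2 ≤ κf := by nlinarith
  refine ⟨8 / (q ^ d) ^ 2 + (40 * (B + 2) + 8), κf ^ 2 / (720 * (B + 2)), by linarith,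
    by positivity, (div_le_div_iff₀ (by positivity) (by norm_num)).2 (by nlinarith), ?_⟩
  set C : ℝ := 8 / (q ^ d) ^ 2 + (40 * (B + 2) + 8) with hC
  intro F z h κ H c0 hF hh hκ hκ0 hH hPP
  have hk : 720 * (B + 2) * κ ≤ κf ^ 2 := by
    rw [le_div_iff₀ (by positivity)] at hκ0; linarith
  have hBκ : 0 < B * κ := by positivity
  have hκ1 : κ ≤ 1 := by linarith
  have hκd : 0 < κ ^ d := pow_pos hκ d
  have hκd1 : κ ^ d ≤ 1 := pow_le_one₀ hκ.le hκ1
  have hC0 : 2 ≤ C := by linarith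
  have hC8 : 8 ≤ C * (q ^ d) ^ 2 := by
    rw [← div_le_iff₀ (by positivity)]; linarith
  set T : ℝ := C * (1 / κ) ^ (2 * d) * H with hT
  have hT0 : 0 < T := by positivity
  have hT1 : T * (κ ^ d) ^ 2 = C * H := by
    rw [hT, one_div, inv_pow, mul_comm 2 d, pow_mul]; field_simp
  have hT2 : 8 * H ≤ T * ((q * κ) ^ d) ^ 2 := by
    rw [mul_pow, mul_pow, mul_left_comm, hT1]; nlinarith
  have hqk : 0 < q * κ := by positivity
  have hqk1 : (q * κ) ^ d ≤ 1 := by rw [mul_pow]; exact mul_le_one₀ hqd1 hκd.le hκd1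
  have hT3 : 4 * H ≤ T / 2 * (q * κ) ^ d := by
    have e1 : ((q * κ) ^ d) ^ 2 ≤ (q * κ) ^ d := by
      rw [sq]; exact mul_le_of_le_one_left (by positivity) hqk1
    have e2 := mul_le_mul_of_nonneg_left e1 hT0.le
    linarith
  have hkh : 0 < κ * h := by positivity
  have hkh1 : κ * h ≤ h := mul_le_of_le_one_left hh.le hκ1
  obtain ⟨t, ht, hlev⟩ := ctier_level hF z (40 * h) c0 hT0
  have hP8 : 8 * PP (lev F t) z (40 * h) ≤ V E (q * κ * h) ^ 2 := by
    refine (ENNReal.mul_le_mul_iff_left (c := ENNReal.ofReal T) (by simpa using hT0)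
      ENNReal.ofReal_ne_top).1 ?_
    rw [mul_assoc]
    refine (mul_le_mul_right (hlev.trans hPP) _).trans ?_
    rw [V_mul hqk, mul_pow, ← mul_assoc, mul_right_comm _ (V E h ^ 2), ← ENNReal.ofReal_pow
      (by positivity), ← ENNReal.ofReal_mul (by positivity)]
    refine mul_le_mul_left (le_trans (le_of_eq ?_)
      (ENNReal.ofReal_le_ofReal (hT2.trans_eq (mul_comm _ _)))) _
    rw [ENNReal.ofReal_mul (by norm_num), ENNReal.ofReal_ofNat]
  have hS : MeasurableSet {y | t < F y} := measurableSet_lt measurable_const hF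
  set S := {y | t < F y} with hSdef
  have hU : MeasurableSet {y : E | 4 * volume (Sᶜ ∩ ball y (κ * h)) ≤ V E (κ * h)} := by
    have e1 := measurable_ball_lintegral (E := E) (α := E) (f := fun _ w => Sᶜ.indicator 1 w)
      ((measurable_one.indicator hS.compl).comp measurable_snd) measurable_id (κ * h)
    simp only [lintegral_indicator_one hS.compl, Measure.restrict_apply hS.compl, id] at e1
    exact measurableSet_le (e1.const_mul _) measurable_const
  refine ⟨t, _, hU, ht.1, ht.2, ?_, fun m s hm hs1 hs2 hda => ?_⟩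
  · have e1 := S1set hF t (hU.inter measurableSet_ball) (z := z) (R := 40 * h) hkh (by linarith)
      (inter_subset_right.trans (ball_subset_ball (by linarith : 20 * h ≤ 40 * h)))
      fun y hy => hy.1
    refine (ENNReal.mul_le_mul_iff_left (V_ne_zero hkh) (V_ne_top _)).1
      ((e1.trans (mul_le_mul_right hPP _)).trans ?_)
    rw [V_mul hκ, mul_mul_mul_comm, ← sq, ← mul_assoc, ← ENNReal.ofReal_mul (by positivity)]
    refine mul_le_mul_left ?_ _
    rw [← ENNReal.ofReal_ofNat 2, ← ENNReal.ofReal_mul (by norm_num)]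
    refine ENNReal.ofReal_le_ofReal ?_
    have e2 : C * (1 / κ) ^ d * H * κ ^ d = C * H := by rw [one_div, inv_pow]; field_simp
    rw [e2]
    exact mul_le_mul_of_nonneg_right hC0 hH.le
  have e1 : 2 * (κ * h / 2) = κ * h := by ring
  obtain ⟨r1, r2, r3⟩ := ctier_loc hF hκf hκf1 hB hh hκ hk hH hT0 hqk (by nlinarith) ht.2 hT3 hP8
    (fun p hp hsp => by
      have e2 := (hG F hF t z (40 * h)).2 p (κ * h / 2) (half_pos hkh) (by linarith)
      rw [e1, ← mul_assoc] at e2
      exact e2 (le_trans (le_mul_of_one_le_left zero_le (by norm_num)) hP8) hsp) hm hs1 hs2 hda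
  refine ⟨r1, fun p p' hp hp' h1 h2 => (r2 p p' hp hp' h1 h2).trans ?_, r3⟩
  gcongr
  linarith

/-- cutting off the part of the deficiency near the non full region -/
theorem CUT : ∃ C : ℝ, 0 < C ∧ ∀ (F : E → ℝ) (z : E) (h ρm H t κ L ρ : ℝ) (U : Set E),
    Measurable F → MeasurableSet U → 0 < h → 0 ≤ H → 0 ≤ L → 0 < κ → κ ≤ 1 → 0 < ρ →
    4 * ρ ≤ κ * h → APH F z h (40 * h) ρm H →
    ∫⁻ y in U ∩ ball z (20 * h), ENNReal.ofReal (t - F y) ≤ ENNReal.ofReal L * V E h →
    ∃ χ : E → ℝ, Continuous χ ∧ (∀ y, 0 ≤ χ y ∧ χ y ≤ 1) ∧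
      (∀ y, χ y ≠ 1 → (∃ p, p ∉ U) → ∃ p, p ∉ U ∧ dist y p < 2 * κ * h) ∧
      ∫⁻ w in ball z (10 * h), om (fun y => max (t - F y) 0 * χ y) ρ w ≤
        ENNReal.ofReal (C * (max ρ ρm / h * H + ρ / (κ * h) * L)) * V E h := by
  obtain ⟨C, hC, hOM⟩ := OM (E := E)
  refine ⟨C + 2 * 2 ^ Module.finrank ℝ E, by positivity, ?_⟩
  intro F z h ρm H t κ L ρ U hF hU hh hH hL hκ hκ1 hρ hρκ hA hLU
  have hkh : 0 < κ * h := by positivity
  have hkh1 : κ * h ≤ h := by nlinarith
  set χ : E → ℝ := fun y => max 0 (min 1 (infDist y Uᶜ / (κ * h) - 1)) with hχ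
  have hχc : Continuous χ := by
    have := continuous_infDist_pt Uᶜ
    fun_prop
  have hχ01 : ∀ y, 0 ≤ χ y ∧ χ y ≤ 1 := fun y =>
    ⟨le_max_left _ _, max_le zero_le_one (min_le_left _ _)⟩
  have hχU : ∀ y, 0 < χ y → ball y (κ * h) ⊆ U := by
    intro y hy
    have e1 : 0 < infDist y Uᶜ / (κ * h) - 1 :=
      (lt_min_iff.1 ((lt_max_iff.1 hy).resolve_left (lt_irrefl _))).2
    have e2 : κ * h ≤ infDist y Uᶜ := ((one_lt_div hkh).1 (by linarith)).le
    exact (ball_subset_ball e2).trans (ball_infDist_subset_compl.trans (compl_compl U).subset)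
  have hχL : ∀ w v : E, |χ (w + v) - χ w| ≤ ‖v‖ / (κ * h) := by
    intro w v
    refine (abs_max_sub_max_le_max _ _ _ _).trans ?_
    rw [sub_self, abs_zero]
    refine max_le (by positivity) ((abs_min_sub_min_le_max _ _ _ _).trans ?_)
    rw [sub_self, abs_zero, sub_sub_sub_cancel_right, ← sub_div, abs_div, abs_of_pos hkh]
    refine max_le (by positivity) (div_le_div_of_nonneg_right ?_ hkh.le)
    have := (lipschitz_infDist_pt Uᶜ).dist_le_mul (w + v) w
    simpa [Real.dist_eq] using this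
  refine ⟨χ, hχc, hχ01, fun y hy hne => ?_, ?_⟩
  · have e1 : infDist y Uᶜ < 2 * κ * h := by
      by_contra hc
      refine hy ?_
      have e2 : 2 ≤ infDist y Uᶜ / (κ * h) := (le_div_iff₀ hkh).2 (by linarith)
      simp only [hχ]
      rw [min_eq_left (by linarith), max_eq_right zero_le_one]
    obtain ⟨p, hp, hyp⟩ := (infDist_lt_iff hne).1 e1
    exact ⟨p, hp, hyp⟩
  have hU' : MeasurableSet ({w | 0 < χ w} ∩ ball z (10 * h)) :=
    (measurableSet_lt measurable_const hχc.measurable).inter measurableSet_ball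
  have hφ : LipschitzWith 1 fun x : ℝ => min (x - t) 0 :=
    (LipschitzWith.of_dist_le_mul fun a b => by simp).min_const 0
  have hφ' : ∀ y, max (t - F y) 0 = -min (F y - t) 0 := fun y => by
    rw [← max_neg_neg, neg_sub, neg_zero]
  have h1 := hOM F hF z h (40 * h) ρm H hA (fun x => min (x - t) 0)
    (fun a b hab => min_le_min_right _ (sub_le_sub_right hab t)) hφ 0 (U ∩ ball z (20 * h))
    ({w | 0 < χ w} ∩ ball z (10 * h)) (κ * h) ρ L (hU.inter measurableSet_ball) hU'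
    (inter_subset_right.trans (ball_subset_ball (by linarith))) hh hH hL hρ (by linarith)
    (by linarith) (fun w hw => subset_inter (hχU w hw.1)
      (ball_subset_ball' (by linarith [mem_ball.1 hw.2])))
    (le_trans (le_of_eq (lintegral_congr fun y => by
      rw [sub_zero, ← abs_neg, ← hφ', abs_of_nonneg (le_max_right _ _), ENNReal.ofReal_max,
        ENNReal.ofReal_zero, max_eq_left zero_le])) hLU)
  rw [← lintegral_congr (om_neg (fun y => min (F y - t) 0) ρ)] at h1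
  simp only [← hφ'] at h1
  set lo : E → ℝ := fun y => max (t - F y) 0 with hlo
  have mlo : Measurable lo := by fun_prop
  set Ψ : E → ℝ≥0∞ := (U ∩ ball z (20 * h)).indicator fun y => ENNReal.ofReal (t - F y) with hΨ
  have mΨ : Measurable Ψ := Measurable.indicator (by fun_prop) (hU.inter measurableSet_ball)
  have h2 : ∀ w ∈ ball z (10 * h), om (fun y => lo y * χ y) ρ w ≤
      ({w | 0 < χ w} ∩ ball z (10 * h)).indicator (om lo ρ) w +
      (V E ρ)⁻¹ * ENNReal.ofReal (2 * ρ / (κ * h)) * ∫⁻ v in ball (0 : E) (2 * ρ), Ψ (w + v) := by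
    intro w hw
    have e1 : ∀ v ∈ ball (0 : E) (2 * ρ), ENNReal.ofReal (lo (w + v) * |χ (w + v) - χ w|) ≤
        ENNReal.ofReal (2 * ρ / (κ * h)) * Ψ (w + v) := by
      intro v hv
      rw [mem_ball_zero_iff] at hv
      by_cases k : w + v ∈ U
      · have k2 : w + v ∈ ball z (20 * h) := by
          have := dist_triangle (w + v) w z
          rw [dist_self_add_left] at this
          exact mem_ball.2 (by linarith [mem_ball.1 hw])
        rw [hΨ, indicator_of_mem (mem_inter k k2), mul_comm (lo _),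
          ENNReal.ofReal_mul (abs_nonneg _)]
        refine mul_le_mul' (ENNReal.ofReal_le_ofReal ((hχL w v).trans (by gcongr))) ?_
        simp only [hlo]
        rw [ENNReal.ofReal_max, ENNReal.ofReal_zero, max_eq_left zero_le]
      · have k1 : χ (w + v) = 0 := le_antisymm
          (not_lt.1 fun hp => k (hχU _ hp (mem_ball_self hkh))) (hχ01 _).1
        have k2 : χ w = 0 := le_antisymm (not_lt.1 fun hp => k (hχU _ hp
          (by rw [mem_ball, dist_self_add_left]; linarith))) (hχ01 _).1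
        rw [k1, k2]
        simp
    rw [mul_assoc, ← lintegral_const_mul' _ _ ENNReal.ofReal_ne_top]
    by_cases k : 0 < χ w
    · rw [indicator_of_mem (mem_inter (a := {w | 0 < χ w}) k hw), om, om, ← mul_add,
        ← lintegral_add_left (by fun_prop)]
      refine mul_le_mul_right (setLIntegral_mono' measurableSet_ball fun v hv => ?_) _
      refine le_trans ?_ (add_le_add le_rfl (e1 v hv))
      have n1 : 0 ≤ lo (w + v) := le_max_right _ _
      rw [← ENNReal.ofReal_add (abs_nonneg _) (by positivity)]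
      refine ENNReal.ofReal_le_ofReal ?_
      have e2 : lo (w + v) * χ (w + v) - lo w * χ w =
          χ w * (lo (w + v) - lo w) + lo (w + v) * (χ (w + v) - χ w) := by ring
      rw [e2]
      refine (abs_add_le _ _).trans (add_le_add ?_ (by rw [abs_mul, abs_of_nonneg n1]))
      rw [abs_mul, abs_of_pos k]
      exact mul_le_of_le_one_left (abs_nonneg _) (hχ01 w).2
    · have k0 : χ w = 0 := le_antisymm (not_lt.1 k) (hχ01 _).1
      refine le_trans ?_ le_add_self
      rw [om]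
      refine mul_le_mul_right (setLIntegral_mono' measurableSet_ball fun v hv => ?_) _
      refine le_trans (le_of_eq ?_) (e1 v hv)
      have n1 : 0 ≤ lo (w + v) := le_max_right _ _
      rw [k0, mul_zero, sub_zero, sub_zero, abs_mul, abs_of_nonneg n1]
  have h3 : ∫⁻ w in ball z (10 * h), ∫⁻ v in ball (0 : E) (2 * ρ), Ψ (w + v) ≤
      ENNReal.ofReal L * V E h * V E (2 * ρ) := by
    rw [lintegral_lintegral_swap (Measurable.aemeasurable (by unfold Function.uncurry; fun_prop)),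
      ← vol_ball (0 : E) (2 * ρ), ← setLIntegral_const]
    refine lintegral_mono fun v => (setLIntegral_le_lintegral _ _).trans ?_
    rw [lintegral_add_right_eq_self Ψ v, hΨ, lintegral_indicator (hU.inter measurableSet_ball)]
    exact hLU
  refine (setLIntegral_mono' measurableSet_ball h2).trans ?_
  rw [lintegral_add_left ((measurable_om mlo ρ).indicator hU'), lintegral_const_mul' _ _
    (ENNReal.mul_ne_top (ENNReal.inv_ne_top.2 (V_ne_zero hρ)) ENNReal.ofReal_ne_top)]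
  refine (add_le_add ((setLIntegral_le_lintegral _ _).trans ((lintegral_indicator hU' _).trans_le
    h1)) (mul_le_mul_right h3 _)).trans ?_
  have e1 : (V E ρ)⁻¹ * ENNReal.ofReal (2 * ρ / (κ * h)) * (ENNReal.ofReal L * V E h * V E (2 * ρ))
      = ENNReal.ofReal (2 * ρ / (κ * h) * L * 2 ^ Module.finrank ℝ E) * V E h := by
    rw [V_mul two_pos, ENNReal.ofReal_mul (by positivity), ENNReal.ofReal_mul (by positivity)]
    calc _ = ENNReal.ofReal (2 * ρ / (κ * h)) * ENNReal.ofReal L *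
          ENNReal.ofReal (2 ^ Module.finrank ℝ E) * V E h * ((V E ρ)⁻¹ * V E ρ) := by ring
      _ = _ := by rw [ENNReal.inv_mul_cancel (V_ne_zero hρ) (V_ne_top ρ), mul_one]
  have n1 : 0 ≤ max ρ ρm / h * H := mul_nonneg (div_nonneg (le_max_of_le_left hρ.le) hh.le) hH
  have n2 : 0 ≤ ρ / (κ * h) * L := by positivity
  rw [e1, ← add_mul, ← ENNReal.ofReal_add (by positivity) (by positivity)]
  refine mul_le_mul_left (ENNReal.ofReal_le_ofReal ?_) _
  have n3 : 0 ≤ 2 * 2 ^ Module.finrank ℝ E * (max ρ ρm / h * H) := by positivity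
  calc _ = C * (max ρ ρm / h * H + ρ / (κ * h) * L) +
        2 * 2 ^ Module.finrank ℝ E * (ρ / (κ * h) * L) := by ring
    _ ≤ _ := by nlinarith

end Vale.Agent.P137
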