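import Vale.Agent.P137.CTouchA

namespace Vale.Agent.P137

open MeasureTheory Metric Set Filter Topology
open scoped ENNReal RealInnerProductSpace

variable {E : Type*} [NormedAddCommGroup E] [InnerProductSpace ℝ E] [FiniteDimensional ℝ E]
  [MeasurableSpace E] [BorelSpace E]

lemma touch_e1 {x t1 th : ℝ} (c : ℝ) (h : t1 ≤ th) : x + max (t1 - x) 0 * (1 - c) =
    max t1 (min x th) + max (x - th) 0 - max (t1 - x) 0 * c := by
  have : x + max (t1 - x) 0 = max t1 (min x th) + max (x - th) 0 := by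
    simp only [max_def, min_def]
    split_ifs <;> linarith
  linarith

lemma touch_e2 {x t0 th : ℝ} (h : t0 ≤ th) : max x t0 = max t0 (min x th) + max (x - th) 0 := by
  simp only [max_def, min_def]
  split_ifs <;> linarith

lemma touch_e3 {x t1 t0 : ℝ} (c : ℝ) (h : t1 ≤ t0) : max (t0 - x) 0 - max (t1 - x) 0 * (1 - c) =
    max (t1 - x) 0 * c - max t1 (min x t0) + t0 := by
  have : max (t0 - x) 0 - max (t1 - x) 0 = t0 - max t1 (min x t0) := by
    simp only [max_def, min_def]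
    split_ifs <;> linarith
  linarith

lemma touch_e4 {x t1 t0 c : ℝ} (h : t1 ≤ t0) (h0 : 0 ≤ c) (h1 : c ≤ 1) :
    0 ≤ max (t1 - x) 0 * (1 - c) ∧ max (t1 - x) 0 * (1 - c) ≤ max (t0 - x) 0 :=
  ⟨mul_nonneg (le_max_right _ _) (by linarith),
    (mul_le_of_le_one_right (le_max_right _ _) (by linarith)).trans
      (max_le_max (by linarith) le_rfl)⟩

lemma touch_e5 {x t c : ℝ} (h : t ≤ c) : max (t - x) 0 ≤ |x - c| :=
  max_le (by linarith [neg_abs_le (x - c)]) (abs_nonneg _)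

lemma touch_e6 (x t : ℝ) : max (t - x) 0 ≤ |x| + |t| :=
  max_le (by linarith [neg_abs_le x, le_abs_self t]) (by positivity)

/-- decomposition of `F` at a peak touching a low wall -/
theorem TOUCH [Nontrivial E] (Ct : ℝ) (hCt : 1 ≤ Ct) : ∃ C u0 : ℝ, 1 ≤ C ∧ 0 < u0 ∧
    ∀ (F : E → ℝ) (z ω : E) (h σ ρm H c0 κ0 u1 u2 t0 t1 th L0 L1 : ℝ) (W1 W2 Wh : Set E),
    Measurable F → LocallyIntegrable F volume → 0 < h → 0 < σ → 0 < H → ‖ω‖ ≤ 2 →
    APH F z h (40 * h) ρm H → 0 < u1 → u1 ≤ u0 → 0 < u2 → u2 ≤ u0 → u2 ^ 8 ≤ u1 ^ 2 →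
    u1 ^ 2 ≤ κ0 → κ0 ≤ 1 → ρm ≤ u2 * σ → 64 * σ ≤ u2 ^ 8 * h → t1 ≤ t0 → t0 ≤ c0 → c0 ≤ th →
    MeasurableSet W1 → MeasurableSet Wh → W1 ⊆ W2 → H ≤ L0 → L0 ≤ L1 → th - t0 ≤ L0 →
    th - t1 ≤ L1 →
    ∫⁻ y in Wh ∩ ball z (20 * h), ENNReal.ofReal (F y - th) ≤ ENNReal.ofReal (κ0 * L0) * V E h →
    ∫⁻ y in W1 ∩ ball z (20 * h), ENNReal.ofReal (t1 - F y) ≤
      ENNReal.ofReal (u1 ^ 2 * L1) * V E h →
    ∃ (B : E → ℝ≥0∞) (Ft P l w : E → ℝ), Measurable B ∧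
      ∫⁻ y in ball z h, B y ≤ ENNReal.ofReal (C * (u2 * (σ / h) * L1)) * V E h ∧
      LocallyIntegrable P volume ∧ LocallyIntegrable l volume ∧ LocallyIntegrable w volume ∧
      (∀ y, F y = Ft y - w y) ∧ (∀ y, Ft y = P y - l y) ∧ (∀ y, 0 ≤ w y) ∧ (∀ y, 0 ≤ l y) ∧
      ∀ (m p : E) (s τ ρ : ℝ), dist m z < h / 2 → h ≤ s → s ≤ 2 * h → 0 < τ → τ ≤ 2 * σ → 0 < ρ →
        ρ ≤ 2 * σ → da F c0 (ball m s) ≤ ENNReal.ofReal H * V E h → p ∉ W2 →
        dist p m ≤ s + 3 * u2 ^ 8 * h → (∀ p', p' ∉ W2 → s - u2 ^ 8 * h ≤ dist p' m) →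
        (∀ p', p' ∉ W2 → dist p' m ≤ s + 6 * u2 ^ 8 * h → dist p' p ^ 2 ≤ Ct * u2 ^ 8 * h ^ 2) →
        (∀ p', p' ∉ W1 → dist p' m ≤ s + 6 * u1 ^ 2 * h → dist p' p ^ 2 ≤ Ct * u1 ^ 2 * h ^ 2) →
        ball m (s + 3 * κ0 * h) ⊆ Wh →
        (∀ y ∈ ball m (4 * σ), ENNReal.ofReal |Dq Ft m ω s (- (⟪ω, p - m⟫ / s)) τ ρ| ≤ B y) ∧
        (∀ y, w y ≠ 0 → dist y m ≤ s + 20 * σ → dist y p ≤ C * u1 * h) ∧ av w m s ≤ H ∧
        ∀ (c : E) (s' : ℝ), dist c m + |s' - s| ≤ 12 * σ →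
          av l c s' ≤ H + C * (σ / h * L1) ∧
          ∀ δ : ℝ, |δ| ≤ 4 * σ → |av P c s' - av P c (s' + δ)| ≤ C * ((|δ| + u2 * σ) / h * L0) := by
  obtain ⟨C1, hC1, H1⟩ := touch_tr (E := E)
  obtain ⟨C2, hC2, H2⟩ := touch_hi (E := E)
  obtain ⟨C3, hC3, H3⟩ := CUT (E := E)
  obtain ⟨C4, hC4, H4⟩ := touch_fo2 (E := E)
  obtain ⟨C5, u0, hC5, hu0, hu0', H5⟩ := XT (E := E) Ct (by linarith)
  have hK : 0 < C1 + C2 + 2 * C3 := by positivity
  refine ⟨2 + Ct + (C5 + 13 * C4) * (C1 + C2 + 2 * C3), u0,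
    by linarith [mul_pos hC5 hK, mul_pos hC4 hK], hu0, fun F z ω h σ ρm H c0 κ0 u1 u2 t0 t1 th L0 L1 W1 W2 Wh hF hFi hh hσ hH
    hω hA hu1 hu1' hu2 hu2' h21 h1κ hκ hρm hσh ht1 ht0 hth hW1 hWh hW12 hL0 hL1 hL0' hL1' hI1
    hI2 => ?_⟩
  have a1 : 64 * σ ≤ u1 ^ 2 * h := hσh.trans (mul_le_mul_of_nonneg_right h21 hh.le)
  have a2 : u1 ^ 2 * h ≤ κ0 * h := mul_le_mul_of_nonneg_right h1κ hh.le
  have a3 : κ0 * h ≤ h := mul_le_of_le_one_left hh.le hκ
  have a4 : u2 * σ ≤ σ := mul_le_of_le_one_left hσ.le (by linarith)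
  have a5 : 0 < u2 * σ := mul_pos hu2 hσ
  have a6 : 0 ≤ u2 * σ / h * L0 := mul_nonneg (by positivity) (by linarith)
  have a7 : u2 * σ / h * L0 ≤ u2 * σ / h * L1 := mul_le_mul_of_nonneg_left hL1 (by positivity)
  have a8 : u2 ≤ 1 := by linarith
  have a9 : 64 * σ ≤ h := by linarith
  have a10 : 0 ≤ L1 := by linarith
  obtain ⟨χ, hχ, hχ1, hχ2, b3⟩ := H3 F z h ρm H t1 (u1 ^ 2) (u1 ^ 2 * L1) (u2 * σ) W1 hF hW1 hh
    hH.le (mul_nonneg (sq_nonneg _) (by linarith)) (by positivity) (by linarith) a5 (by linarith)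
    hA hI2
  have b3' : ∫⁻ w in ball z (10 * h), om (fun y => max (t1 - F y) 0 * χ y) (u2 * σ) w ≤
      ENNReal.ofReal (2 * C3 * (u2 * σ / h * L1)) * V E h := by
    refine b3.trans (mul_le_mul_left (ENNReal.ofReal_le_ofReal ?_) _)
    have k1 : u2 * σ / (u1 ^ 2 * h) * (u1 ^ 2 * L1) = u2 * σ / h * L1 := by field_simp
    have k2 : u2 * σ / h * H ≤ u2 * σ / h * L1 :=
      mul_le_mul_of_nonneg_left (by linarith) (by positivity)
    rw [max_eq_left hρm, k1]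
    linarith [mul_le_mul_of_nonneg_left k2 hC3.le]
  have b2 := H2 F z h ρm H (u2 * σ) κ0 th L0 Wh hF hA hh hH.le hL0 a5 (by linarith) hκ hρm hWh hI1
  have b1 := fun a b L k1 k2 k3 =>
    H1 F z h ρm H (u2 * σ) a b L hF hA hh hH.le k1 a5 (by linarith) hρm k2 k3
  have hχm := hχ.measurable
  have m1 : ∀ a b : ℝ, Measurable fun y => max a (min (F y) b) := fun a b => by fun_prop
  have m2 : Measurable fun y => max (F y - th) 0 := by fun_prop
  have m3 : Measurable fun y => max (t1 - F y) 0 * χ y := by fun_prop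
  have m4 : Measurable ({w | ball w (κ0 * h) ⊆ Wh}.indicator
      (om (fun y => max (F y - th) 0) (u2 * σ))) :=
    (measurable_om m2 _).indicator (isClosed_ball_subset Wh (κ0 * h)).measurableSet
  have mw : Measurable fun y => max (t1 - F y) 0 * (1 - χ y) := by fun_prop
  have mP : Measurable fun y => max (F y) t0 := by fun_prop
  have ml : Measurable fun y => max (t0 - F y) 0 - max (t1 - F y) 0 * (1 - χ y) := by fun_prop
  have e4 := fun y t (k : t1 ≤ t) => touch_e4 (x := F y) k (hχ1 y).1 (hχ1 y).2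
  have lw := touch_loc hFi mw |t1| fun y => by
    rw [abs_of_nonneg (e4 y t1 le_rfl).1]
    exact (e4 y t1 le_rfl).2.trans (touch_e6 _ _)
  have lP := touch_loc hFi mP |t0| fun y => abs_max_le_max_abs_abs.trans
    (max_le (le_add_of_nonneg_right (abs_nonneg _)) (le_add_of_nonneg_left (abs_nonneg _)))
  have e5 : ∀ y, |max (t0 - F y) 0 - max (t1 - F y) 0 * (1 - χ y)| ≤ max (t0 - F y) 0 := fun y => by
    rw [abs_of_nonneg (sub_nonneg.2 (e4 y t0 ht1).2)]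
    exact sub_le_self _ (e4 y t0 ht1).1
  have ll := touch_loc hFi ml |t0| fun y => (e5 y).trans (touch_e6 _ _)
  obtain ⟨B, hB, hB1, hB2⟩ := H5 (fun w => om (fun y => max t1 (min (F y) th)) (u2 * σ) w +
    {w | ball w (κ0 * h) ⊆ Wh}.indicator (om (fun y => max (F y - th) 0) (u2 * σ)) w +
    om (fun y => max (t1 - F y) 0 * χ y) (u2 * σ) w) W2 z ω h σ u2 ((C1 + C2 + 2 * C3) * L1)
    (((measurable_om (m1 _ _) _).add m4).add (measurable_om m3 _)) hh hσ hu2 hu2' hσh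
    (mul_nonneg hK.le (by linarith)) hω (by
      rw [mul_left_comm]
      exact touch_add ((measurable_om (m1 _ _) _).add m4) (by positivity) (by positivity)
        (a6.trans a7) (touch_add (measurable_om (m1 _ _) _) hC1 hC2 (a6.trans a7)
        (b1 t1 th L1 (by linarith) (by linarith) hL1') (b2.trans (by gcongr))) b3')
  have c1 : 0 ≤ σ / h * L1 := mul_nonneg (by positivity) (by linarith)
  refine ⟨B, fun y => F y + max (t1 - F y) 0 * (1 - χ y), _, _, _, hB,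
    hB1.trans (mul_le_mul_left (ENNReal.ofReal_le_ofReal ?_) _), lP, ll, lw,
    fun y => (add_sub_cancel_right _ _).symm, fun y => ?_, fun y => (e4 y t1 le_rfl).1,
    fun y => sub_nonneg.2 (e4 y t0 ht1).2, fun m p s τ ρ hm hs hs' hτ hτ' hρ hρ' hda hp hpm hp1
      hp2 hp3 hWm => ?_⟩
  · have := mul_nonneg hu2.le c1
    nlinarith only [mul_nonneg (mul_pos hC4 hK).le this, this, hCt]
  · simp only [max_def]
    split_ifs <;> linarith
  have hG : ∀ w ∈ ball m (s + 20 * σ), {w | ball w (κ0 * h) ⊆ Wh}.indicator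
      (om (fun y => max (F y - th) 0) (u2 * σ)) w = om (fun y => max (F y - th) 0) (u2 * σ) w :=
    fun w hw => indicator_of_mem (show ball w (κ0 * h) ⊆ Wh from
      (ball_subset_ball' (by linarith [mem_ball.1 hw])).trans hWm) _
  refine ⟨hB2 _ m p s τ ρ (hF.add mw) (hFi.add lw) hm hs hs' hτ hτ' hρ hρ' hp hpm hp1 hp2
    fun w hw => ?_, fun y hy hy' => ?_, touch_av (fun y => ?_) hh hs hH.le hda,
    fun c s' hc => ⟨?_, fun δ hδ => ?_⟩⟩
  · simp only [touch_e1 _ (ht1.trans (ht0.trans hth)), hG w hw]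
    exact (om_sub_le ((m1 _ _).add m2) _ _ _).trans
      (add_le_add_left (om_add_le (m1 _ _) _ _ _) _)
  · obtain ⟨p', k1, k2⟩ := hχ2 y (fun k => hy (by rw [k, sub_self, mul_zero]))
      ⟨p, fun k => hp (hW12 k)⟩
    refine (touch_near hh hu1 (by linarith only [hu1', hu0']) hCt a1 hy' k2 (hp3 p' k1)).trans ?_
    have k6 : 0 ≤ (C5 + 13 * C4) * (C1 + C2 + 2 * C3) * u1 * h := by positivity
    linarith only [k6]
  · rw [abs_of_nonneg (e4 y t1 le_rfl).1]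
    exact (e4 y c0 (by linarith)).2.trans (touch_e5 le_rfl)
  · have k1 := (H4 _ (fun w => om (fun y => max (t1 - F y) 0 * χ y) (u2 * σ) w +
      om (fun y => max t1 (min (F y) t0)) (u2 * σ) w) ml ll
      ((measurable_om m3 _).add (measurable_om (m1 _ _) _)) z m h σ u2 s _ L1 hσ hu2 a8 a9 hm hs hs'
      (by positivity) a10 (fun w _ => by
        simp only [touch_e3 _ ht1, om_add_const]
        exact om_sub_le m3 _ _ _)
      (touch_add (measurable_om m3 _) (by positivity) hC1 (a6.trans a7) b3'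
        (b1 t1 t0 L1 (hL0.trans hL1) ht1 (by linarith only [ht0, hth, hL1']))) c s' hc).1
    have k2 := touch_av (fun y => (e5 y).trans (touch_e5 ht0)) hh hs hH.le hda
    have k4 : 13 * C4 * (2 * C3 + C1) ≤ 2 + Ct + (C5 + 13 * C4) * (C1 + C2 + 2 * C3) := by
      linarith only [mul_pos hC5 hK, mul_pos hC4 hC2, hCt]
    linarith only [k1, k2, mul_le_mul_of_nonneg_right k4 c1]
  · refine ((H4 _ (fun w => om (fun y => max t0 (min (F y) th)) (u2 * σ) w +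
      {w | ball w (κ0 * h) ⊆ Wh}.indicator (om (fun y => max (F y - th) 0) (u2 * σ)) w) mP lP
      ((measurable_om (m1 _ _) _).add m4) z m h σ u2 s _ L0 hσ hu2 a8 a9 hm hs hs'
      (by positivity) (hH.le.trans hL0) (fun w hw => by
        simp only [touch_e2 (ht0.trans hth), hG w hw]
        exact om_add_le (m1 _ _) _ _ _)
      (touch_add (measurable_om (m1 _ _) _) hC1 hC2 a6 (b1 t0 th L0 hL0 (ht0.trans hth) hL0') b2)
      c s' hc).2 δ hδ).trans (mul_le_mul_of_nonneg_right ?_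
      (mul_nonneg (by positivity) (hH.le.trans hL0)))
    linarith only [mul_pos hC5 hK, mul_pos hC4 hC3, mul_pos hC4 hK, hCt]

end Vale.Agent.P137
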