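import Vale.Agent.P137.CDE

namespace Vale.Agent.P137

open MeasureTheory Metric Set Filter Topology
open scoped ENNReal RealInnerProductSpace

variable {E : Type*} [NormedAddCommGroup E] [InnerProductSpace ℝ E] [FiniteDimensional ℝ E]
  [MeasurableSpace E] [BorelSpace E]

/-- the pinned set -/
def cxt_Th (W : Set E) (h k t0 : ℝ) : Set (E × E) :=
  {q | dist q.1 q.2 < 4 * h} ∩ ({q | |infDist q.1 Wᶜ - dist q.1 q.2| ≤ 4 * k * h} ∩
    ⋂ t ∈ Icc t0 (1 / 2), {q | 5 * k * h ≤ infDist (q.2 + (1 - t) • (q.1 - q.2)) Wᶜ -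
      dist (q.2 + (1 - t) • (q.1 - q.2)) q.2})

lemma cxt_Th_meas (W : Set E) (h k t0 : ℝ) : MeasurableSet (cxt_Th W h k t0) := by
  have hc : Continuous fun y : E => infDist y Wᶜ := continuous_infDist_pt _
  refine (isOpen_lt (by fun_prop) continuous_const).measurableSet.inter
    (IsClosed.measurableSet (IsClosed.inter ?_ ?_))
  · exact isClosed_le ((hc.comp continuous_fst).sub (by fun_prop)).abs continuous_const
  · refine isClosed_biInter fun t _ => isClosed_le continuous_const ?_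
    exact (hc.comp (f := fun q : E × E => q.2 + (1 - t) • (q.1 - q.2)) (by fun_prop)).sub
      (by fun_prop)

lemma cxt_Th_vol [Nontrivial E] : ∃ C : ℝ, 0 < C ∧ ∀ (W : Set E) (h k t0 : ℝ) (w : E), 0 < h →
    0 < k → 0 < t0 → volume {y | (y, w) ∈ cxt_Th W h k t0} ≤ ENNReal.ofReal (C * t0) * V E h := by
  obtain ⟨C, hC, H⟩ := PK3 (E := E)
  refine ⟨4 ^ Module.finrank ℝ E * C, by positivity, fun W h k t0 w hh hk ht => ?_⟩
  have hm : MeasurableSet {y | (y, w) ∈ cxt_Th W h k t0} :=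
    (cxt_Th_meas W h k t0).preimage (f := fun y : E => (y, w)) (by fun_prop)
  refine (H _ w (4 * h) t0 hm ht (fun y hy => hy.1) fun y hy t ht' hy' => ?_).trans ?_
  · have h1 := mem_iInter₂.1 hy.2.2 t ht'
    have h2 := hy'.2.1
    simp only [mem_ofPred_eq] at h1 h2
    have h3 := (abs_le.1 h2).2
    have : 0 < k * h := mul_pos hk hh
    linarith
  · rw [V_mul (by norm_num : (0 : ℝ) < 4), ← mul_assoc, ← ENNReal.ofReal_mul (by positivity)]
    exact le_of_eq (by congr 2; ring)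

lemma cxt_stewart (p y w : E) (t : ℝ) :
    ‖p - (w + (1 - t) • (y - w))‖ ^ 2 =
      (1 - t) * ‖p - y‖ ^ 2 + t * ‖p - w‖ ^ 2 - t * (1 - t) * ‖y - w‖ ^ 2 := by
  have h1 : p - (w + (1 - t) • (y - w)) = (p - w) - (1 - t) • (y - w) := by abel
  have h2 : p - y = (p - w) - (y - w) := by abel
  rw [h1, h2]
  generalize p - w = a
  generalize y - w = b
  rw [norm_sub_sq_real, norm_sub_sq_real, real_inner_smul_right, norm_smul, mul_pow,
    Real.norm_eq_abs, sq_abs]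
  ring

lemma cxt_arith {D A R t t0 k h u N : ℝ} (hh : 0 < h) (hu : 0 < u) (hk : k = u ^ 8) (hk1 : k ≤ 1)
    (ht0 : t0 = 67 * 64 * u ^ 4) (ht : t0 ≤ t) (ht1 : t ≤ 1 / 2) (hR0 : 2 * k * h ≤ R)
    (hR : R ≤ 3 * h) (hD : R - 2 * k * h ≤ D) (hA : u ^ 2 * h / 8 ≤ A) (hN0 : 0 ≤ N)
    (hN : N ^ 2 = (1 - t) * D ^ 2 + t * A ^ 2 - t * (1 - t) * R ^ 2) :
    (1 - t) * R + 5 * k * h ≤ N := by
  have hk0 : 0 < k := by rw [hk]; positivity
  have hkh : 0 < k * h := mul_pos hk0 hh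
  have ht00 : 0 < t0 := by rw [ht0]; positivity
  have htp : 0 < t := ht00.trans_le ht
  have hD2 : (R - 2 * k * h) ^ 2 ≤ D ^ 2 := pow_le_pow_left₀ (by linarith) hD 2
  have hA2 : (u ^ 2 * h / 8) ^ 2 ≤ A ^ 2 := pow_le_pow_left₀ (by positivity) hA 2
  have h1 : 67 * (k * h) * h ≤ t * A ^ 2 := by
    calc 67 * (k * h) * h = t0 * (u ^ 2 * h / 8) ^ 2 := by rw [ht0, hk]; ring
      _ ≤ t * A ^ 2 := mul_le_mul ht hA2 (by positivity) htp.le
  have h2 : (1 - t) * (R - 2 * k * h) ^ 2 ≤ (1 - t) * D ^ 2 :=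
    mul_le_mul_of_nonneg_left hD2 (by linarith)
  have hkk : k * h ≤ h := by nlinarith
  refine le_of_sq_le_sq ?_ hN0
  rw [hN]
  set x := k * h with hx
  have e1 : 2 * k * h = 2 * x := by rw [hx]; ring
  have e2 : 5 * k * h = 5 * x := by rw [hx]; ring
  rw [e1] at h2 hR0
  rw [e2]
  have h3 : x * R ≤ x * (3 * h) := mul_le_mul_of_nonneg_left hR hkh.le
  have h4 : x * x ≤ x * h := mul_le_mul_of_nonneg_left hkk hkh.le
  have h5 : 0 ≤ t * (x * R) := mul_nonneg htp.le (mul_nonneg hkh.le (by linarith))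
  have h6 : 0 ≤ (1 - t) * (x * x) := mul_nonneg (by linarith) (mul_nonneg hkh.le hkh.le)
  nlinarith

lemma cxt_mem {W : Set E} {m p y w : E} {h σ u s Cc k : ℝ} (hh : 0 < h) (hu : 0 < u)
    (hk : k = u ^ 8) (hk1 : k ≤ 1 / 4) (hCu : 64 * Cc * u ^ 4 ≤ 1) (hσ : 64 * σ ≤ k * h)
    (hs1 : h ≤ s) (hs2 : s ≤ 2 * h) (hp : p ∉ W) (hpm : dist p m ≤ s + 3 * k * h)
    (hlo : ∀ p', p' ∉ W → s - k * h ≤ dist p' m)
    (hnear : ∀ p', p' ∉ W → dist p' m ≤ s + 6 * k * h → dist p' p ^ 2 ≤ Cc * k * h ^ 2)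
    (hy : dist y m < 4 * σ) (hw : |dist w m - s| < 20 * σ) (hwp : u ^ 2 * h / 4 ≤ dist w p) :
    (y, w) ∈ cxt_Th W h k (67 * 64 * u ^ 4) := by
  have hk0 : 0 < k := by rw [hk]; positivity
  have hkh : 0 < k * h := mul_pos hk0 hh
  have hkk : k * h ≤ h / 4 := by nlinarith
  have hne : (Wᶜ).Nonempty := ⟨p, hp⟩
  obtain ⟨hw1, hw2⟩ := abs_lt.1 hw
  have hR1 : dist y w ≤ dist y m + dist w m := dist_triangle_right _ _ _
  have hR2 : dist w m ≤ dist y w + dist y m := dist_triangle_left _ _ _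
  have hlo' : ∀ p', p' ∉ W → s - k * h - 4 * σ ≤ dist p' y := fun p' hp' => by
    have := hlo p' hp'
    have := dist_triangle p' y m
    linarith
  have e3 : 3 * k * h = 3 * (k * h) := by ring
  have e4 : 4 * k * h = 4 * (k * h) := by ring
  have e5 : 5 * k * h = 5 * (k * h) := by ring
  have e6 : 6 * k * h = 6 * (k * h) := by ring
  have e2 : 2 * k * h = 2 * (k * h) := by ring
  refine ⟨?_, ?_, mem_iInter₂.2 fun t ht => ?_⟩
  · show dist y w < 4 * h
    linarith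
  · show |infDist y Wᶜ - dist y w| ≤ 4 * k * h
    have h1 : infDist y Wᶜ ≤ dist y p := infDist_le_dist_of_mem hp
    have h2 : s - k * h - 4 * σ ≤ infDist y Wᶜ :=
      (le_infDist hne).2 fun p' hp' => by rw [dist_comm]; exact hlo' p' hp'
    have h3 : dist y p ≤ dist y m + dist p m := dist_triangle_right _ _ _
    rw [abs_le]
    constructor <;> linarith
  · show 5 * k * h ≤ infDist (w + (1 - t) • (y - w)) Wᶜ - dist (w + (1 - t) • (y - w)) w
    have ht0 : 0 < t := lt_of_lt_of_le (by positivity) ht.1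
    have ht1 := ht.2
    have hd : dist (w + (1 - t) • (y - w)) w = (1 - t) * dist y w := by
      rw [dist_eq_norm, add_sub_cancel_left, norm_smul, Real.norm_eq_abs,
        abs_of_nonneg (by linarith), dist_eq_norm]
    have hd' : dist (w + (1 - t) • (y - w)) y = t * dist y w := by
      have : w + (1 - t) • (y - w) - y = (-t) • (y - w) := by
        rw [sub_smul, one_smul, neg_smul]; abel
      rw [dist_eq_norm, this, norm_smul, Real.norm_eq_abs, abs_neg, abs_of_pos ht0, dist_eq_norm]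
    rw [hd, le_sub_iff_add_le', le_infDist hne]
    intro p' hp'
    by_cases hf : dist p' m ≤ s + 6 * k * h
    · have h1 := hnear p' hp' hf
      have h2 : dist p' p ≤ u ^ 2 * h / 8 := by
        refine le_of_sq_le_sq (h1.trans ?_) (by positivity)
        calc Cc * k * h ^ 2 = (64 * Cc * u ^ 4) * (u ^ 2 * h / 8) ^ 2 := by rw [hk]; ring
          _ ≤ 1 * (u ^ 2 * h / 8) ^ 2 := mul_le_mul_of_nonneg_right hCu (by positivity)
          _ = _ := one_mul _
      have h3 : dist w p ≤ dist p' w + dist p' p := dist_triangle_left _ _ _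
      have h4 := hlo' p' hp'
      rw [dist_comm _ p']
      refine cxt_arith (D := dist p' y) (A := dist p' w) hh hu hk (by linarith) rfl ht.1 ht1
        (by linarith) (by linarith) (by linarith) (by linarith) dist_nonneg ?_
      simp only [dist_eq_norm]
      exact cxt_stewart p' y w t
    · have h1 : dist p' m ≤ dist p' y + dist y m := dist_triangle _ _ _
      have h2 : dist p' y ≤ dist (w + (1 - t) • (y - w)) p' + dist (w + (1 - t) • (y - w)) y :=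
        dist_triangle_left _ _ _
      rw [hd'] at h2
      have := not_le.1 hf
      nlinarith

lemma cxt_band {ω m p w : E} {h s u : ℝ} (hh : 0 < h) (hs1 : h ≤ s) (hω : ‖ω‖ ≤ 2)
    (hb : u ^ 2 / 2 < |- (⟪ω, p - m⟫ / s) + ⟪ω, w - m⟫ / s|) : u ^ 2 * h / 4 ≤ dist w p := by
  have hs : 0 < s := hh.trans_le hs1
  have h1 : - (⟪ω, p - m⟫ / s) + ⟪ω, w - m⟫ / s = ⟪ω, w - p⟫ / s := by
    rw [show w - p = (w - m) - (p - m) by abel, inner_sub_right ω (w - m)]; ring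
  rw [h1, abs_div, abs_of_pos hs, lt_div_iff₀ hs] at hb
  have h2 := abs_real_inner_le_norm ω (w - p)
  have h3 : ‖ω‖ * ‖w - p‖ ≤ 2 * ‖w - p‖ := mul_le_mul_of_nonneg_right hω (norm_nonneg _)
  have h4 : u ^ 2 * h ≤ u ^ 2 * s := mul_le_mul_of_nonneg_left hs1 (sq_nonneg u)
  rw [dist_eq_norm]
  linarith

lemma cxt_fubini {Th : Set (E × E)} (hT : MeasurableSet Th) {Ω : E → ℝ≥0∞} (hΩ : Measurable Ω)
    (U : Set E) (K : ℝ≥0∞) (hK : ∀ w, volume {y | (y, w) ∈ Th} ≤ K) :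
    ∫⁻ y, ∫⁻ w in U, Th.indicator (fun q => Ω q.2) (y, w) ≤ (∫⁻ w in U, Ω w) * K := by
  have hm : Measurable (Th.indicator fun q : E × E => Ω q.2) :=
    (hΩ.comp measurable_snd).indicator hT
  rw [lintegral_lintegral_swap (f := fun y w => Th.indicator (fun q => Ω q.2) (y, w))
    hm.aemeasurable, ← lintegral_mul_const _ hΩ]
  refine lintegral_mono fun w => ?_
  have hm' : MeasurableSet {y | (y, w) ∈ Th} := hT.preimage (f := fun y : E => (y, w)) (by fun_prop)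
  calc ∫⁻ y, Th.indicator (fun q => Ω q.2) (y, w)
      = ∫⁻ y, {y | (y, w) ∈ Th}.indicator (fun _ => Ω w) y := rfl
    _ = Ω w * volume {y | (y, w) ∈ Th} := lintegral_indicator_const hm' _
    _ ≤ Ω w * K := by gcongr; exact hK w

/-- narrow peaks touching a wall: the sphere is pinned, so it rarely meets a given point -/
theorem XT [Nontrivial E] (Cc : ℝ) (hCc : 0 < Cc) : ∃ C u0 : ℝ, 0 < C ∧ 0 < u0 ∧ u0 ≤ 1 / 2 ∧
    ∀ (Ω : E → ℝ≥0∞) (W : Set E) (z ω : E) (h σ u L : ℝ), Measurable Ω → 0 < h →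
    0 < σ → 0 < u → u ≤ u0 → 64 * σ ≤ u ^ 8 * h → 0 ≤ L → ‖ω‖ ≤ 2 →
    ∫⁻ w in ball z (10 * h), Ω w ≤ ENNReal.ofReal (u * σ / h * L) * V E h →
    ∃ B : E → ℝ≥0∞, Measurable B ∧
      ∫⁻ y in ball z h, B y ≤ ENNReal.ofReal (C * (u * (σ / h) * L)) * V E h ∧
      ∀ (f : E → ℝ) (m p : E) (s τ ρ : ℝ), Measurable f → LocallyIntegrable f volume →
        dist m z < h / 2 → h ≤ s → s ≤ 2 * h → 0 < τ → τ ≤ 2 * σ → 0 < ρ → ρ ≤ 2 * σ →
        p ∉ W → dist p m ≤ s + 3 * u ^ 8 * h → (∀ p', p' ∉ W → s - u ^ 8 * h ≤ dist p' m) →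
        (∀ p', p' ∉ W → dist p' m ≤ s + 6 * u ^ 8 * h → dist p' p ^ 2 ≤ Cc * u ^ 8 * h ^ 2) →
        (∀ w ∈ ball m (s + 20 * σ), om f (u * σ) w ≤ Ω w) →
        ∀ y ∈ ball m (4 * σ),
          ENNReal.ofReal |Dq f m ω s (- (⟪ω, p - m⟫ / s)) τ ρ| ≤ B y := by
  obtain ⟨C1, hC1, H1⟩ := DE (E := E)
  obtain ⟨C2, hC2, H2⟩ := cxt_Th_vol (E := E)
  refine ⟨2 * C1 + C1 * C2 * (67 * 64), min (1 / 2) (1 / (64 * Cc)), by positivity,
    lt_min (by norm_num) (by positivity), min_le_left _ _, ?_⟩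
  intro Ω W z ω h σ u L hΩ hh hσ hu hu0 hσh hL hω hΛ
  have hu1 : u ≤ 1 / 2 := hu0.trans (min_le_left _ _)
  have hu2 : u ≤ 1 / (64 * Cc) := hu0.trans (min_le_right _ _)
  have hu11 : u ≤ 1 := by linarith
  have hu3 : u ^ 3 ≤ 1 := pow_le_one₀ hu.le hu11
  have hCu : 64 * Cc * u ^ 4 ≤ 1 := by
    rw [le_div_iff₀ (by positivity)] at hu2
    calc 64 * Cc * u ^ 4 = (u * (64 * Cc)) * u ^ 3 := by ring
      _ ≤ 1 * 1 := mul_le_mul hu2 hu3 (by positivity) zero_le_one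
      _ = 1 := one_mul _
  have hk2 : u ^ 8 ≤ u ^ 2 := pow_le_pow_of_le_one hu.le hu11 (by norm_num)
  have hk1 : u ^ 8 ≤ 1 / 4 := hk2.trans (by nlinarith)
  have hkh : u ^ 8 * h ≤ h / 4 := by nlinarith
  have hkh2 : u ^ 8 * h ≤ u ^ 2 * h := mul_le_mul_of_nonneg_right hk2 hh.le
  set Th := cxt_Th W h (u ^ 8) (67 * 64 * u ^ 4) with hTh
  have hT : MeasurableSet Th := cxt_Th_meas _ _ _ _
  set Λ := ∫⁻ w in ball z (10 * h), Ω w with hΛd
  have hm : Measurable (Th.indicator fun q : E × E => Ω q.2) :=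
    (hΩ.comp measurable_snd).indicator hT
  have hG : Measurable fun y : E =>
      ∫⁻ w in ball z (10 * h), Th.indicator (fun q => Ω q.2) (y, w) :=
    hm.lintegral_prod_right'
  have hV0 := V_ne_zero (E := E) hh
  have hV1 := V_ne_top (E := E) h
  refine ⟨fun y => (V E h)⁻¹ * (ENNReal.ofReal (2 * C1) * Λ + ENNReal.ofReal (C1 / u) *
    ∫⁻ w in ball z (10 * h), Th.indicator (fun q => Ω q.2) (y, w)),
    (measurable_const.add (hG.const_mul _)).const_mul _, ?_, ?_⟩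
  · beta_reduce
    rw [lintegral_const_mul' _ _ (ENNReal.inv_ne_top.2 hV0),
      lintegral_add_left measurable_const, setLIntegral_const, vol_ball, lintegral_const_mul _ hG]
    have h1 := (setLIntegral_le_lintegral (ball z h) _).trans
      (cxt_fubini hT hΩ (ball z (10 * h)) _ fun w =>
        H2 W h (u ^ 8) (67 * 64 * u ^ 4) w hh (by positivity) (by positivity))
    have h2 : C1 / u * (C2 * (67 * 64 * u ^ 4)) ≤ C1 * C2 * (67 * 64) := by
      calc C1 / u * (C2 * (67 * 64 * u ^ 4)) = C1 * C2 * (67 * 64) * u ^ 3 := by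
            field_simp
        _ ≤ C1 * C2 * (67 * 64) * 1 := mul_le_mul_of_nonneg_left hu3 (by positivity)
        _ = _ := mul_one _
    calc _ ≤ (V E h)⁻¹ * (ENNReal.ofReal (2 * C1) * Λ * V E h + ENNReal.ofReal (C1 / u) *
          (Λ * (ENNReal.ofReal (C2 * (67 * 64 * u ^ 4)) * V E h))) := by gcongr
      _ = ((V E h)⁻¹ * V E h) * ((ENNReal.ofReal (2 * C1) + ENNReal.ofReal (C1 / u) *
          ENNReal.ofReal (C2 * (67 * 64 * u ^ 4))) * Λ) := by ring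
      _ ≤ 1 * (ENNReal.ofReal (2 * C1 + C1 * C2 * (67 * 64)) *
          (ENNReal.ofReal (u * σ / h * L) * V E h)) := by
          rw [ENNReal.inv_mul_cancel hV0 hV1, ← ENNReal.ofReal_mul (by positivity),
            ← ENNReal.ofReal_add (by positivity) (by positivity)]
          gcongr
      _ = _ := by
          rw [one_mul, ← mul_assoc, ← ENNReal.ofReal_mul (by positivity)]
          congr 2; ring
  · intro f m p s τ ρ hf hfi hmz hs1 hs2 hτ hτ2 hρ hρ2 hp hpm hlo hnear hom y hy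
    have hs : 0 < s := hh.trans_le hs1
    have ha : |- (⟪ω, p - m⟫ / s)| ≤ 4 := by
      rw [abs_neg, abs_div, abs_of_pos hs, div_le_iff₀ hs]
      have h2 := abs_real_inner_le_norm ω (p - m)
      have h3 : ‖ω‖ * ‖p - m‖ ≤ 2 * ‖p - m‖ := mul_le_mul_of_nonneg_right hω (norm_nonneg _)
      rw [dist_eq_norm] at hpm
      linarith
    have key := H1 f Ω hf hfi hΩ m ω h σ (u * σ) s (- (⟪ω, p - m⟫ / s)) (u ^ 2) τ ρ
      (by positivity) (by nlinarith) (by linarith) hs1 hs2 hω ha hτ hτ2 hρ hρ2 (by linarith) hom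
    have e1 : C1 * (1 + u ^ 2 * (σ / (u * σ)) ^ 2) = 2 * C1 := by field_simp; ring
    have e2 : C1 * (σ / (u * σ)) = C1 / u := by field_simp
    rw [e1, e2] at key
    have hsub : ball m (s + 20 * σ) ⊆ ball z (10 * h) := ball_subset_ball' (by linarith)
    beta_reduce
    rw [← ENNReal.div_eq_inv_mul, ENNReal.le_div_iff_mul_le (Or.inl hV0) (Or.inl hV1)]
    refine key.trans (add_le_add (mul_le_mul_right (lintegral_mono_set hsub) _)
      (mul_le_mul_right ?_ _))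
    have hS : MeasurableSet {w : E | |dist w m - s| < 20 * σ ∧
        u ^ 2 / 2 < |- (⟪ω, p - m⟫ / s) + ⟪ω, w - m⟫ / s|} := by
      have c1 : Continuous fun w : E => |dist w m - s| := by fun_prop
      have c2 : Continuous fun w : E => |- (⟪ω, p - m⟫ / s) + ⟪ω, w - m⟫ / s| := by fun_prop
      exact ((isOpen_lt c1 continuous_const).inter (isOpen_lt continuous_const c2)).measurableSet
    rw [← lintegral_indicator hS, ← lintegral_indicator measurableSet_ball]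
    refine lintegral_mono (indicator_le fun w hw => ?_)
    have hwz : w ∈ ball z (10 * h) := hsub (by
      have := (abs_lt.1 hw.1).2
      rw [mem_ball]; linarith)
    have hwT : (y, w) ∈ Th := cxt_mem hh hu rfl hk1 hCu hσh hs1 hs2 hp hpm hlo hnear hy hw.1
      (cxt_band hh hs1 hω hw.2)
    rw [indicator_of_mem hwz, indicator_of_mem hwT]

/-- the thin set for one direction -/
def cxt_Te (Wm Wp : Set E) (z e : E) (h κ c : ℝ) : Set E :=
  ball z h ∩ ({y | |infDist y Wmᶜ - infDist y Wpᶜ| ≤ 6 * κ * h} ∩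
    ⋂ τ ∈ Icc 0 (c * h / 8), ({y | infDist (y + τ • e) Wpᶜ ≤ infDist y Wpᶜ - c * τ / 8 + 6 * κ * h} ∩
      {y | infDist (y + τ • -e) Wmᶜ ≤ infDist y Wmᶜ - c * τ / 8 + 6 * κ * h}))

lemma cxt_Te_meas (Wm Wp : Set E) (z e : E) (h κ c : ℝ) :
    MeasurableSet (cxt_Te Wm Wp z e h κ c) := by
  have hm : Continuous fun y : E => infDist y Wmᶜ := continuous_infDist_pt _
  have hp : Continuous fun y : E => infDist y Wpᶜ := continuous_infDist_pt _
  refine measurableSet_ball.inter (IsClosed.measurableSet (IsClosed.inter ?_ ?_))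
  · exact isClosed_le (hm.sub hp).abs continuous_const
  · refine isClosed_biInter fun τ _ => IsClosed.inter ?_ ?_
    · exact isClosed_le (hp.comp (f := fun y : E => y + τ • e) (by fun_prop))
        ((hp.sub continuous_const).add continuous_const)
    · exact isClosed_le (hm.comp (f := fun y : E => y + τ • -e) (by fun_prop))
        ((hm.sub continuous_const).add continuous_const)

lemma cxt_Te_vol : ∃ C : ℝ, 0 < C ∧ ∀ (Wm Wp : Set E) (z e : E) (h κ c : ℝ), 0 < h → 0 < κ →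
    0 < c → c ≤ 1 → ‖e‖ ≤ 2 →
    volume (cxt_Te Wm Wp z e h κ c) ≤ ENNReal.ofReal (C * (κ / c ^ 2)) * V E h := by
  obtain ⟨C, hC, H⟩ := PK4 (E := E)
  refine ⟨C * 776, by positivity, fun Wm Wp z e h κ c hh hκ hc hc1 he => ?_⟩
  refine (H _ z e h (97 * κ * h / c) (c * h / 8) (cxt_Te_meas Wm Wp z e h κ c) (by positivity)
    (by positivity) (by nlinarith) he inter_subset_left fun y hy τ hτ hy' => ?_).trans
    (le_of_eq ?_)
  · have hτ0 : 0 ≤ τ := le_trans (by positivity) hτ.1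
    have h1 : infDist (y + τ • e) Wpᶜ ≤ infDist y Wpᶜ - c * τ / 8 + 6 * κ * h :=
      (mem_iInter₂.1 hy.2.2 τ ⟨hτ0, hτ.2⟩).1
    have h2 : infDist (y + τ • e + τ • -e) Wmᶜ ≤
        infDist (y + τ • e) Wmᶜ - c * τ / 8 + 6 * κ * h :=
      (mem_iInter₂.1 hy'.2.2 τ ⟨hτ0, hτ.2⟩).2
    rw [smul_neg, add_neg_cancel_right] at h2
    have h3 : |infDist y Wmᶜ - infDist y Wpᶜ| ≤ 6 * κ * h := hy.2.1
    have h4 : |infDist (y + τ • e) Wmᶜ - infDist (y + τ • e) Wpᶜ| ≤ 6 * κ * h := hy'.2.1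
    have h5 := hτ.1
    rw [div_le_iff₀ hc] at h5
    have h6 := (abs_le.1 h3).1
    have h7 := (abs_le.1 h4).2
    have : 0 < κ * h := mul_pos hκ hh
    linarith
  · congr 2
    field_simp
    ring

lemma cxt_wall {W : Set E} {m e p y : E} {h σ κ c s : ℝ} (hh : 0 < h) (hκ : 0 < κ) (hc : 0 < c)
    (hc1 : c ≤ 1) (hκ1 : κ ≤ 1 / 16) (hσ1 : 4 * σ ≤ κ * h) (hσ2 : 64 * σ ≤ c * h) (he : ‖e‖ ≤ 2)
    (hs1 : h ≤ s) (hs2 : s ≤ 2 * h) (hp : p ∉ W) (hpm : dist p m ≤ s + 3 * κ * h)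
    (hi : c * h ≤ ⟪p - m, e⟫) (hlo : ∀ p, p ∉ W → s - κ * h ≤ dist p m) (hy : dist y m < 4 * σ) :
    s - 2 * (κ * h) ≤ infDist y Wᶜ ∧ infDist y Wᶜ ≤ s + 4 * (κ * h) ∧
      ∀ τ ∈ Icc 0 (c * h / 8),
        infDist (y + τ • e) Wᶜ ≤ infDist y Wᶜ - c * τ / 8 + 6 * κ * h := by
  have hne : (Wᶜ).Nonempty := ⟨p, hp⟩
  have hkh : κ * h ≤ h / 16 := by nlinarith
  have hch : c * h ≤ h := by nlinarith
  have e3 : 3 * κ * h = 3 * (κ * h) := by ring
  have e6 : 6 * κ * h = 6 * (κ * h) := by ring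
  have h1 : s - 2 * (κ * h) ≤ infDist y Wᶜ := (le_infDist hne).2 fun p' hp' => by
    have := hlo p' hp'
    have := dist_triangle_left p' m y
    linarith
  have h2 : infDist y Wᶜ ≤ dist y p := infDist_le_dist_of_mem hp
  have h3 : dist y p ≤ s + 4 * (κ * h) := by
    have := dist_triangle_right y p m
    linarith
  refine ⟨h1, h2.trans h3, fun τ hτ => ?_⟩
  have h4 : infDist (y + τ • e) Wᶜ ≤ dist (y + τ • e) p := infDist_le_dist_of_mem hp
  have hτ0 := hτ.1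
  have hτ1 := hτ.2
  have hcτ : c * τ ≤ h / 8 := by nlinarith
  have h5 : dist (y + τ • e) p ≤ dist y p - c * τ / 8 := by
    refine le_of_sq_le_sq ?_ (by linarith)
    have h6 : ⟪y - m, e⟫ ≤ c * h / 8 := by
      have a1 := real_inner_le_norm (y - m) e
      have a2 : ‖y - m‖ * ‖e‖ ≤ ‖y - m‖ * 2 := mul_le_mul_of_nonneg_left he (norm_nonneg _)
      rw [dist_eq_norm] at hy
      linarith
    have h7 : ⟪y - p, e⟫ = ⟪y - m, e⟫ - ⟪p - m, e⟫ := by
      rw [← inner_sub_left]; congr 1; abel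
    have h8 : dist (y + τ • e) p ^ 2 = dist y p ^ 2 + 2 * (τ * ⟪y - p, e⟫) + τ ^ 2 * ‖e‖ ^ 2 := by
      rw [dist_eq_norm, dist_eq_norm, show y + τ • e - p = (y - p) + τ • e by abel,
        norm_add_sq_real, real_inner_smul_right, norm_smul, mul_pow, Real.norm_eq_abs, sq_abs]
    have h9 : ‖e‖ ^ 2 ≤ 2 ^ 2 := pow_le_pow_left₀ (norm_nonneg _) he 2
    have h10 : τ ^ 2 * ‖e‖ ^ 2 ≤ τ * (c * h / 2) := by
      calc τ ^ 2 * ‖e‖ ^ 2 ≤ τ ^ 2 * 2 ^ 2 := mul_le_mul_of_nonneg_left h9 (sq_nonneg _)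
        _ = τ * (4 * τ) := by ring
        _ ≤ τ * (c * h / 2) := mul_le_mul_of_nonneg_left (by linarith) hτ0
    have h11 : τ * ⟪y - p, e⟫ ≤ τ * (- (7 * (c * h) / 8)) :=
      mul_le_mul_of_nonneg_left (by linarith) hτ0
    have h12 : (c * τ) * dist y p ≤ (c * τ) * (9 * h / 4) :=
      mul_le_mul_of_nonneg_left (by linarith) (mul_nonneg hc.le hτ0)
    have h13 : 0 ≤ c * τ * h := mul_nonneg (mul_nonneg hc.le hτ0) hh.le
    rw [h8]
    nlinarith [sq_nonneg (c * τ / 8)]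
  linarith

/-- spheres touching a low wall behind and a high wall ahead have centres in a thin set -/
theorem DT : ∃ C : ℝ, 0 < C ∧ ∀ (Wm Wp : Set E) (z ω : E) (h σ κ c : ℝ), 0 < h → 0 < σ → 0 < κ →
    0 < c → c ≤ 1 → κ ≤ 1 / 16 → 4 * σ ≤ κ * h → 64 * σ ≤ c * h → ‖ω‖ ≤ 2 →
    ∃ T : Set E, MeasurableSet T ∧ volume T ≤ ENNReal.ofReal (C * (κ / c ^ 2)) * V E h ∧
      ∀ (m e pm pp : E) (s : ℝ), dist m z < h / 2 → h ≤ s → s ≤ 2 * h → (e = ω ∨ e = -ω) →
        pm ∉ Wm → pp ∉ Wp → dist pm m ≤ s + 3 * κ * h → dist pp m ≤ s + 3 * κ * h →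
        ⟪pm - m, e⟫ ≤ - (c * h) → c * h ≤ ⟪pp - m, e⟫ →
        (∀ p, p ∉ Wm → s - κ * h ≤ dist p m) → (∀ p, p ∉ Wp → s - κ * h ≤ dist p m) →
        ball m (4 * σ) ⊆ T := by
  obtain ⟨C, hC, H⟩ := cxt_Te_vol (E := E)
  refine ⟨2 * C, by positivity, fun Wm Wp z ω h σ κ c hh hσ hκ hc hc1 hκ1 hσ1 hσ2 hω => ?_⟩
  refine ⟨cxt_Te Wm Wp z ω h κ c ∪ cxt_Te Wm Wp z (-ω) h κ c,
    (cxt_Te_meas _ _ _ _ _ _ _).union (cxt_Te_meas _ _ _ _ _ _ _), ?_, ?_⟩
  · refine (measure_union_le _ _).trans ((add_le_add (H Wm Wp z ω h κ c hh hκ hc hc1 hω)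
      (H Wm Wp z (-ω) h κ c hh hκ hc hc1 (by rwa [norm_neg]))).trans (le_of_eq ?_))
    rw [← add_mul, ← ENNReal.ofReal_add (by positivity) (by positivity)]
    congr 2; ring
  · intro m e pm pp s hmz hs1 hs2 he hpm hpp h1 h2 h3 h4 h5 h6 y hy
    have he2 : ‖e‖ ≤ 2 := by
      rcases he with rfl | rfl
      · exact hω
      · rwa [norm_neg]
    have hy' : dist y m < 4 * σ := hy
    obtain ⟨a1, a2, a3⟩ := cxt_wall hh hκ hc hc1 hκ1 hσ1 hσ2 he2 hs1 hs2 hpp h2 h4 h6 hy'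
    obtain ⟨b1, b2, b3⟩ := cxt_wall (e := -e) hh hκ hc hc1 hκ1 hσ1 hσ2 (by rwa [norm_neg]) hs1 hs2
      hpm h1 (by rw [inner_neg_right]; linarith) h5 hy'
    have hT : y ∈ cxt_Te Wm Wp z e h κ c := by
      refine ⟨?_, ?_, mem_iInter₂.2 fun τ hτ => ⟨a3 τ hτ, b3 τ hτ⟩⟩
      · have := dist_triangle y m z
        have hkh : κ * h ≤ h / 16 := by nlinarith
        rw [mem_ball]; linarith
      · show |infDist y Wmᶜ - infDist y Wpᶜ| ≤ 6 * κ * h
        rw [abs_le]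
        constructor <;> linarith
    rcases he with rfl | rfl
    · exact Or.inl hT
    · exact Or.inr hT

end Vale.Agent.P137
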