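import Vale.Agent.P137.CTier
import Vale.Agent.P137.CXT

namespace Vale.Agent.P137

open MeasureTheory Metric Set Filter Topology
open scoped ENNReal RealInnerProductSpace

variable {E : Type*} [NormedAddCommGroup E] [InnerProductSpace ℝ E] [FiniteDimensional ℝ E]
  [MeasurableSpace E] [BorelSpace E]

lemma touch_tr : ∃ C : ℝ, 0 < C ∧ ∀ (F : E → ℝ) (z : E) (h ρm H ρ a b L : ℝ), Measurable F →
    APH F z h (40 * h) ρm H → 0 < h → 0 ≤ H → H ≤ L → 0 < ρ → ρ ≤ h → ρm ≤ ρ → a ≤ b →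
    b - a ≤ L → ∫⁻ w in ball z (10 * h), om (fun y => max a (min (F y) b)) ρ w ≤
      ENNReal.ofReal (C * (ρ / h * L)) * V E h := by
  obtain ⟨C, hC, H⟩ := OM (E := E)
  refine ⟨C * (1 + 20 ^ Module.finrank ℝ E), by positivity,
    fun F z h ρm H' ρ a b L hF hA hh hH hL hρ hρh hm hab hb => ?_⟩
  have hL0 : 0 ≤ L := hH.trans hL
  refine (H F hF z h _ ρm H' hA (fun x => max a (min x b))
    (fun x y hxy => max_le_max le_rfl (min_le_min hxy le_rfl))
    ((LipschitzWith.id.min_const b).const_max a) a (ball z (20 * h)) (ball z (10 * h)) (10 * h) ρ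
    (20 ^ Module.finrank ℝ E * L) measurableSet_ball measurableSet_ball
    (ball_subset_ball (by linarith)) hh hH (by positivity) hρ (by linarith) (by linarith)
    (fun w hw => ball_subset_ball' (by linarith [mem_ball.1 hw])) ?_).trans ?_
  · calc _ ≤ ∫⁻ _ in ball z (20 * h), ENNReal.ofReal L := by
          refine lintegral_mono fun w => ENNReal.ofReal_le_ofReal ?_
          rw [abs_of_nonneg (by linarith [le_max_left a (min (F w) b)])]
          linarith [max_le hab (min_le_right (F w) b)]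
      _ = _ := by
          rw [setLIntegral_const, vol_ball, V_mul (by norm_num), ← mul_assoc,
            ← ENNReal.ofReal_mul hL0, mul_comm L]
  · rw [max_eq_left hm]
    refine mul_le_mul_left (ENNReal.ofReal_le_ofReal ?_) _
    have h1 : ρ / h * H' ≤ ρ / h * L := by gcongr
    have h2 : ρ / (10 * h) ≤ ρ / h := by gcongr; linarith
    have h3 := mul_le_mul_of_nonneg_right h2 (by positivity : 0 ≤ 20 ^ Module.finrank ℝ E * L)
    rw [mul_assoc]
    refine mul_le_mul_of_nonneg_left ?_ hC.le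
    linarith

lemma touch_hi : ∃ C : ℝ, 0 < C ∧ ∀ (F : E → ℝ) (z : E) (h ρm H ρ κ t L : ℝ) (W : Set E),
    Measurable F → APH F z h (40 * h) ρm H → 0 < h → 0 ≤ H → H ≤ L → 0 < ρ → 2 * ρ ≤ κ * h →
    κ ≤ 1 → ρm ≤ ρ → MeasurableSet W →
    ∫⁻ y in W ∩ ball z (20 * h), ENNReal.ofReal (F y - t) ≤ ENNReal.ofReal (κ * L) * V E h →
    ∫⁻ w in ball z (10 * h), {w | ball w (κ * h) ⊆ W}.indicator
      (om (fun y => max (F y - t) 0) ρ) w ≤ ENNReal.ofReal (C * (ρ / h * L)) * V E h := by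
  obtain ⟨C, hC, H⟩ := OM (E := E)
  refine ⟨C * 2, by positivity, fun F z h ρm H' ρ κ t L W hF hA hh hH hL hρ hκ hκ1 hm hW hI => ?_⟩
  have hκ0 : 0 < κ := (pos_iff_pos_of_mul_pos (by linarith : 0 < κ * h)).2 hh
  have hκh : κ * h ≤ h := mul_le_of_le_one_left hh.le hκ1
  have hG := (isClosed_ball_subset W (κ * h)).measurableSet
  rw [lintegral_indicator hG, Measure.restrict_restrict hG]
  refine (H F hF z h _ ρm H' hA (fun x => max (x - t) 0)
    (fun x y hxy => max_le_max (sub_le_sub_right hxy t) le_rfl)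
    (LipschitzWith.max_const (LipschitzWith.of_dist_le_mul fun x y => by simp) 0) 0
    (W ∩ ball z (20 * h)) _ (κ * h) ρ (κ * L) (hW.inter measurableSet_ball)
    (hG.inter measurableSet_ball) (inter_subset_right.trans (ball_subset_ball (by linarith))) hh hH
    (mul_nonneg hκ0.le (hH.trans hL)) hρ hκ (by linarith)
    (fun w hw => subset_inter hw.1 (ball_subset_ball' (by linarith [mem_ball.1 hw.2])))
    (le_trans (le_of_eq (lintegral_congr fun w => ?_)) hI)).trans ?_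
  · rw [sub_zero, abs_of_nonneg (le_max_right _ _), ENNReal.ofReal_max, ENNReal.ofReal_zero,
      max_eq_left zero_le]
  · rw [max_eq_left hm]
    refine mul_le_mul_left (ENNReal.ofReal_le_ofReal ?_) _
    have h1 : ρ / h * H' ≤ ρ / h * L := by gcongr
    have h2 : ρ / (κ * h) * (κ * L) = ρ / h * L := by field_simp
    rw [mul_assoc, h2]
    refine mul_le_mul_of_nonneg_left ?_ hC.le
    linarith

lemma touch_fo : ∃ C : ℝ, 0 < C ∧ ∀ (f : E → ℝ) (Ω : E → ℝ≥0∞), Measurable f →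
    LocallyIntegrable f volume → Measurable Ω → ∀ (z m c1 c2 : E) (h ρ0 s1 s2 δ R X : ℝ), 0 < h →
    0 < ρ0 → h / 2 ≤ s1 → h / 2 ≤ s2 → dist c1 c2 + |s1 - s2| ≤ δ → dist c1 m + s1 + ρ0 ≤ R →
    dist c2 m + s2 + ρ0 ≤ R → (∀ w ∈ ball m R, om f ρ0 w ≤ Ω w) → R + dist m z ≤ 10 * h → 0 ≤ X →
    ∫⁻ w in ball z (10 * h), Ω w ≤ ENNReal.ofReal X * V E h →
    |av f c1 s1 - av f c2 s2| ≤ C * (1 + δ / ρ0) * X := by
  obtain ⟨C, hC, H⟩ := FO (E := E)
  refine ⟨C, hC, fun f Ω hf hi hΩ z m c1 c2 h ρ0 s1 s2 δ R X hh hρ h1 h2 h3 h4 h5 h6 h7 hX h8 => ?_⟩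
  have hδ : 0 ≤ δ := le_trans (by positivity) h3
  have := (H f Ω hf hi hΩ m c1 c2 h ρ0 s1 s2 δ R hh hρ h1 h2 h3 h4 h5 h6).trans
    (mul_le_mul_right ((lintegral_mono_set (ball_subset_ball' h7)).trans h8) _)
  rwa [← mul_assoc, ← ENNReal.ofReal_mul (by positivity),
    ENNReal.mul_le_mul_iff_left (V_ne_zero hh) (V_ne_top h),
    ENNReal.ofReal_le_ofReal_iff (by positivity)] at this

lemma touch_fo2 : ∃ C : ℝ, 0 < C ∧ ∀ (f : E → ℝ) (Ω : E → ℝ≥0∞), Measurable f →
    LocallyIntegrable f volume → Measurable Ω → ∀ (z m : E) (h σ u s K L : ℝ), 0 < σ → 0 < u →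
    u ≤ 1 → 64 * σ ≤ h → dist m z < h / 2 → h ≤ s → s ≤ 2 * h → 0 ≤ K → 0 ≤ L →
    (∀ w ∈ ball m (s + 20 * σ), om f (u * σ) w ≤ Ω w) →
    ∫⁻ w in ball z (10 * h), Ω w ≤ ENNReal.ofReal (K * (u * σ / h * L)) * V E h →
    ∀ (c : E) (s' : ℝ), dist c m + |s' - s| ≤ 12 * σ →
      av f c s' ≤ av f m s + 13 * C * K * (σ / h * L) ∧
      ∀ δ : ℝ, |δ| ≤ 4 * σ → |av f c s' - av f c (s' + δ)| ≤ C * K * ((|δ| + u * σ) / h * L) := by
  obtain ⟨C, hC, H⟩ := touch_fo (E := E)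
  refine ⟨C, hC, fun f Ω hf hi hΩ z m h σ u s K L hσ hu hu1 hh hm hs hs' hK hL h1 h2 c s' hc => ?_⟩
  have h0 : 0 < h := by linarith
  have a4 : u * σ ≤ σ := mul_le_of_le_one_left hσ.le hu1
  have k0 := abs_le.1 (show |s' - s| ≤ 12 * σ - dist c m by linarith)
  have k1 := dist_nonneg (x := c) (y := m)
  refine ⟨?_, fun δ hδ => ?_⟩
  · have k2 := H f Ω hf hi hΩ z m c m h (u * σ) s' s (12 * σ) (s + 20 * σ) _ h0 (by positivity)
      (by linarith) (by linarith) hc (by linarith) (by rw [dist_self]; linarith) h1 (by linarith)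
      (by positivity) h2
    have k3 : C * (1 + 12 * σ / (u * σ)) * (K * (u * σ / h * L)) =
        (u + 12) * (C * K * (σ / h * L)) := by field_simp
    have k4 := mul_le_mul_of_nonneg_right (show u + 12 ≤ 13 by linarith)
      (show 0 ≤ C * K * (σ / h * L) by positivity)
    linarith [(abs_le.1 k2).2]
  · have k0' := abs_le.1 hδ
    refine (H f Ω hf hi hΩ z m c c h (u * σ) s' (s' + δ) |δ| (s + 20 * σ) _ h0 (by positivity)
      (by linarith) (by linarith) (by simp) (by linarith) (by linarith) h1 (by linarith)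
      (by positivity) h2).trans_eq ?_
    field_simp
    ring

lemma touch_near {y m p p' : E} {h σ s u Ct : ℝ} (hh : 0 < h) (hu : 0 < u) (hu1 : u ≤ 1)
    (hCt : 1 ≤ Ct) (h1 : 64 * σ ≤ u ^ 2 * h) (h2 : dist y m ≤ s + 20 * σ)
    (h3 : dist y p' < 2 * u ^ 2 * h)
    (h4 : dist p' m ≤ s + 6 * u ^ 2 * h → dist p' p ^ 2 ≤ Ct * u ^ 2 * h ^ 2) :
    dist y p ≤ (2 + Ct) * u * h := by
  have k0 : 0 < u ^ 2 * h := by positivity
  have k3 := h4 (by linarith [dist_triangle_left p' m y])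
  have k4 : dist p' p ≤ Ct * u * h := by
    refine (abs_le_of_sq_le_sq' (k3.trans ?_) (by positivity)).2
    have : 0 ≤ Ct * (u ^ 2 * h ^ 2) := by positivity
    nlinarith
  have k5 : u ^ 2 * h ≤ u * h := mul_le_mul_of_nonneg_right (by nlinarith) hh.le
  linarith [dist_triangle y p' p]

lemma touch_av {f F : E → ℝ} {c0 H h s : ℝ} {m : E} (hf : ∀ y, |f y| ≤ |F y - c0|) (hh : 0 < h)
    (hs : h ≤ s) (hH : 0 ≤ H) (hd : da F c0 (ball m s) ≤ ENNReal.ofReal H * V E h) :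
    av f m s ≤ H := by
  have hs0 := hh.trans_le hs
  have := (ofReal_av_le f m hs0).trans ((lintegral_mono fun y =>
    ENNReal.ofReal_le_ofReal (hf y)).trans (hd.trans (mul_le_mul_right (V_mono hs) _)))
  rw [ENNReal.mul_le_mul_iff_left (V_ne_zero hs0) (V_ne_top s),
    ENNReal.ofReal_le_ofReal_iff hH] at this
  exact (le_abs_self _).trans this

lemma touch_loc {f F : E → ℝ} (hF : LocallyIntegrable F volume) (hf : Measurable f) (K : ℝ)
    (h : ∀ y, |f y| ≤ |F y| + K) : LocallyIntegrable f volume :=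
  (LocallyIntegrable.add (f := fun y => ‖F y‖) (fun x => (hF x).norm)
    (locallyIntegrable_const K)).mono hf.aestronglyMeasurable
    (Eventually.of_forall fun y => (h y).trans (le_abs_self _))

lemma touch_add {f g : E → ℝ≥0∞} (hf : Measurable f) {U : Set E} {a b X : ℝ} {v : ℝ≥0∞}
    (ha : 0 < a) (hb : 0 < b) (hX : 0 ≤ X) (h1 : ∫⁻ w in U, f w ≤ ENNReal.ofReal (a * X) * v)
    (h2 : ∫⁻ w in U, g w ≤ ENNReal.ofReal (b * X) * v) :
    ∫⁻ w in U, (f w + g w) ≤ ENNReal.ofReal ((a + b) * X) * v := by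
  rw [lintegral_add_left hf, add_mul, ENNReal.ofReal_add (by positivity) (by positivity), add_mul]
  exact add_le_add h1 h2

end Vale.Agent.P137
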