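import Vale.Agent.P137.Stmt

namespace Vale.Agent.P137

open MeasureTheory Metric Set Filter Topology
open scoped ENNReal

variable {E : Type*} [NormedAddCommGroup E] [InnerProductSpace ℝ E] [FiniteDimensional ℝ E]
  [MeasurableSpace E] [BorelSpace E]

variable (E) in
/-- volume of a ball of radius `r` -/
noncomputable def V (r : ℝ) : ℝ≥0∞ := volume (ball (0 : E) r)

/-- distance from `b` to the interval with end points `a`, `c` -/
noncomputable def pt (a b c : ℝ) : ℝ≥0∞ := ENNReal.ofReal ((|b - a| + |c - b| - |c - a|) / 2)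

/-- total amount of three point patterns near `z` at scale `R` -/
noncomputable def PP (F : E → ℝ) (z : E) (R : ℝ) : ℝ≥0∞ :=
  ∫⁻ v in ball (0 : E) R, ∫⁻ y in ball z R, pt (F (y - v)) (F y) (F (y + v))

/-- indicator of the superlevel set -/
noncomputable def lev (F : E → ℝ) (t : ℝ) (y : E) : ℝ := if t < F y then 1 else 0

/-- deviation below the level `t` -/
noncomputable def dv (F : E → ℝ) (t : ℝ) (U : Set E) : ℝ≥0∞ :=
  ∫⁻ y in U, ENNReal.ofReal (t - F y)

/-- deviation above the level `t` -/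
noncomputable def du (F : E → ℝ) (t : ℝ) (U : Set E) : ℝ≥0∞ :=
  ∫⁻ y in U, ENNReal.ofReal (F y - t)

/-- total deviation from the level `t` -/
noncomputable def da (F : E → ℝ) (t : ℝ) (U : Set E) : ℝ≥0∞ :=
  ∫⁻ y in U, ENNReal.ofReal |F y - t|

/-- integral over a ball -/
noncomputable def I (F : E → ℝ) (c : E) (r : ℝ) : ℝ≥0∞ := ∫⁻ y in ball c r, ENNReal.ofReal (F y)

/-- `T` is sparse around `w` at scale `a` -/
def Sp (T : Set E) (w : E) (a : ℝ) : Prop := 4 * volume (T ∩ ball w (2 * a)) ≤ V E a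

/-- normalised pattern mass at scale `h` -/
noncomputable def bb (F : E → ℝ) (A h : ℝ) : ℝ≥0∞ :=
  (ENNReal.ofReal h)⁻¹ * (V E h ^ 2)⁻¹ * ∫⁻ z, PP F z (A * h)

/-- `g` dominates the averages over balls of radius at least `η` -/
def H1 (F g : E → ℝ) (η : ℝ) : Prop :=
  ∀ z c r, η ≤ r → dist z c ≤ r → I F c r ≤ ENNReal.ofReal (g z) * V E r

/-- `g x` is an average over a ball with radius in `[η, η']` -/
def Opt (F g : E → ℝ) (η η' : ℝ) (x : E) : Prop :=
  ∃ c r, η ≤ r ∧ r ≤ η' ∧ dist x c ≤ r ∧ I F c r = ENNReal.ofReal (g x) * V E r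

/-- near good points superlevel sets have density at most one half -/
def HG (F g : E → ℝ) (Bad : Set E) (η η' A : ℝ) : Prop :=
  ∀ y0, y0 ∉ Bad → ∀ x w a, η ≤ a → a ≤ A * η' → dist x y0 ≤ A * a → dist w y0 ≤ A * a →
    2 * volume ({y | g x < F y} ∩ ball w a) ≤ V E a

/-- translation estimate inside `Bad` -/
def LTr (F : E → ℝ) (Bad : Set E) (Γ : ℝ≥0∞) : Prop :=
  ∀ (v : E) (ρ : ℝ), ‖v‖ < ρ →
    ∫⁻ y in {y | ball y ρ ⊆ Bad}, ENNReal.ofReal |F (y + v) - F y| ≤ ENNReal.ofReal ‖v‖ * Γ

/-- points where `g` increases in direction `ω` and stays above its value for time `σ` -/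
def Inj (g : E → ℝ) (ω : E) (σ : ℝ) : Set E :=
  {x | DifferentiableAt ℝ g x ∧ 0 < fderiv ℝ g x ω ∧ ∀ ρ ∈ Icc (0 : ℝ) σ, g x ≤ g (x + ρ • ω)}

/-- start condition for the stopping argument: empty behind, full ahead, inside `Bad` -/
def Start (F : E → ℝ) (Bad : Set E) (b : ℝ) (x : E) (t : ℝ) (ω : E) (h : ℝ) : Prop :=
  4 * volume ({y | t < F y} ∩ ball (x - h • ω) (3 * (b / 16) * h)) ≤ V E (b / 16 * h) ∧
  4 * volume ({y | t < F y}ᶜ ∩ ball (x + h • ω) (3 * (b / 16) * h)) ≤ V E (b / 16 * h) ∧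
  ball x (9 * h) ⊆ Bad

/-- end condition for the stopping argument: an empty ball ahead -/
def Stop (F : E → ℝ) (b : ℝ) (x : E) (t : ℝ) (ω : E) (h0 h : ℝ) : Prop :=
  ∃ (w : E) (ρ : ℝ), h - h0 ≤ ρ ∧ ρ ≤ 2 * h ∧ dist w (x + ρ • ω) ≤ b / 8 * h ∧
    Sp {y | t < F y} w (b * h)

/-- maximal function over closed balls of radius at least `η`, extended valued -/
noncomputable def gE (F : E → ℝ) (η : ℝ) (x : E) : ℝ≥0∞ :=
  ⨆ (c : E) (r : ℝ) (_ : η ≤ r) (_ : dist x c ≤ r), I F c r / V E r

/-- maximal function over closed balls of radius at least `η` -/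
noncomputable def gR (F : E → ℝ) (η : ℝ) (x : E) : ℝ := (gE F η x).toReal

/-! ### basic facts -/

lemma vol_ball (z : E) (r : ℝ) : volume (ball z r) = V E r :=
  Measure.addHaar_ball_center _ _ _

lemma V_ne_top (r : ℝ) : V E r ≠ ⊤ := measure_ball_lt_top.ne

lemma V_pos {r : ℝ} (hr : 0 < r) : 0 < V E r := measure_ball_pos _ _ hr

lemma V_ne_zero {r : ℝ} (hr : 0 < r) : V E r ≠ 0 := (V_pos hr).ne'

lemma V_mono {r s : ℝ} (h : r ≤ s) : V E r ≤ V E s := measure_mono (ball_subset_ball h)

lemma V_mul {t : ℝ} (ht : 0 < t) (r : ℝ) :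
    V E (t * r) = ENNReal.ofReal (t ^ Module.finrank ℝ E) * V E r :=
  Measure.addHaar_ball_mul_of_pos _ _ ht _

/-- comparison of volumes at comparable scales -/
lemma V_le_of_le_mul {t r s : ℝ} (ht : 0 < t) (h : s ≤ t * r) :
    V E s ≤ ENNReal.ofReal (t ^ Module.finrank ℝ E) * V E r := by
  rw [← V_mul ht]; exact V_mono h

lemma exists_V_le (t : ℝ) :
    ∃ C : ℝ≥0∞, C ≠ ⊤ ∧ C ≠ 0 ∧ ∀ r s : ℝ, 0 ≤ r → s ≤ t * r → V E s ≤ C * V E r := by
  refine ⟨ENNReal.ofReal ((max t 1) ^ Module.finrank ℝ E), ENNReal.ofReal_ne_top, ?_, ?_⟩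
  · have : 0 < (max t 1) ^ Module.finrank ℝ E := pow_pos (lt_max_of_lt_right one_pos) _
    simpa using this
  · intro r s hr hs
    exact V_le_of_le_mul (lt_max_of_lt_right one_pos)
      (hs.trans (mul_le_mul_of_nonneg_right (le_max_left _ _) hr))

lemma lintegral_smul_eq (f : E → ℝ≥0∞) {t : ℝ} (ht : 0 < t) :
    ∫⁻ v, f v = ENNReal.ofReal (t ^ Module.finrank ℝ E) * ∫⁻ v, f (t • v) := by
  have h1 : ∫⁻ v, f (t • v) = ∫⁻ v, f v ∂(Measure.map (t • ·) (volume : Measure E)) := by
    rw [(measurableEmbedding_const_smul₀ ht.ne').lintegral_map]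
  rw [h1, Measure.map_addHaar_smul _ ht.ne', lintegral_smul_measure, smul_eq_mul, ← mul_assoc,
    ← ENNReal.ofReal_mul (by positivity), abs_of_pos (by positivity), mul_inv_cancel₀ (by positivity)]
  simp

lemma measurable_pt : Measurable fun p : ℝ × ℝ × ℝ => pt p.1 p.2.1 p.2.2 := by
  unfold pt; fun_prop

@[fun_prop]
lemma Measurable.pt' {α : Type*} [MeasurableSpace α] {a b c : α → ℝ} (ha : Measurable a)
    (hb : Measurable b) (hc : Measurable c) : Measurable fun x => pt (a x) (b x) (c x) := by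
  unfold pt; fun_prop

lemma pt_neg (a b c : ℝ) : pt (-a) (-b) (-c) = pt a b c := by
  unfold pt
  rw [show -b - -a = -(b - a) by ring, show -c - -b = -(c - b) by ring,
    show -c - -a = -(c - a) by ring, abs_neg, abs_neg, abs_neg]

lemma PP_neg (F : E → ℝ) (z : E) (R : ℝ) : PP (fun y => - F y) z R = PP F z R := by
  simp only [PP, pt_neg]

lemma PP_mono (F : E → ℝ) {z z' : E} {R R' : ℝ} (h : dist z z' + R ≤ R') :
    PP F z R ≤ PP F z' R' := by
  unfold PP
  have hR : R ≤ R' := le_trans (by linarith [dist_nonneg (x := z) (y := z')]) h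
  refine (lintegral_mono_set (ball_subset_ball hR)).trans (lintegral_mono fun v => ?_)
  exact lintegral_mono_set (ball_subset_ball' (by linarith))

lemma measurable_lev {F : E → ℝ} (hF : Measurable F) (t : ℝ) : Measurable (lev F t) := by
  unfold lev
  exact Measurable.ite (measurableSet_lt measurable_const hF) measurable_const measurable_const

lemma measurable_lev₂ {F : E → ℝ} (hF : Measurable F) :
    Measurable fun p : E × ℝ => lev F p.2 p.1 := by
  unfold lev
  exact Measurable.ite (measurableSet_lt measurable_snd (hF.comp measurable_fst))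
    measurable_const measurable_const

/-- measurability of integrals over moving balls -/
lemma measurable_ball_lintegral {α : Type*} [MeasurableSpace α] {f : α → E → ℝ≥0∞}
    (hf : Measurable fun p : α × E => f p.1 p.2) {c : α → E} (hc : Measurable c) (r : ℝ) :
    Measurable fun a => ∫⁻ y in ball (c a) r, f a y := by
  have : (fun a => ∫⁻ y in ball (c a) r, f a y) =
      fun a => ∫⁻ y, ({p : α × E | dist p.2 (c p.1) < r}).indicator (fun p => f p.1 p.2) (a, y) := by
    funext a
    rw [← lintegral_indicator measurableSet_ball]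
    rfl
  rw [this]
  refine Measurable.lintegral_prod_right' (hf.indicator ?_)
  exact measurableSet_lt (measurable_snd.dist (hc.comp measurable_fst)) measurable_const

lemma measurable_PP₂ {α : Type*} [MeasurableSpace α] {F : α → E → ℝ}
    (hF : Measurable fun p : α × E => F p.1 p.2) {c : α → E} (hc : Measurable c) (R : ℝ) :
    Measurable fun a => PP (F a) (c a) R := by
  unfold PP
  refine Measurable.lintegral_prod_right' (f := fun p : α × E =>
    ∫⁻ y in ball (c p.1) R, pt (F p.1 (y - p.2)) (F p.1 y) (F p.1 (y + p.2))) ?_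
  refine measurable_ball_lintegral (α := α × E)
    (f := fun p y => pt (F p.1 (y - p.2)) (F p.1 y) (F p.1 (y + p.2))) ?_
    (hc.comp measurable_fst) R
  refine Measurable.pt' ?_ ?_ ?_
  · exact hF.comp (f := fun q : (α × E) × E => (q.1.1, q.2 - q.1.2)) (by fun_prop)
  · exact hF.comp (f := fun q : (α × E) × E => (q.1.1, q.2)) (by fun_prop)
  · exact hF.comp (f := fun q : (α × E) × E => (q.1.1, q.2 + q.1.2)) (by fun_prop)

lemma measurable_PP {F : E → ℝ} (hF : Measurable F) (R : ℝ) : Measurable fun z => PP F z R :=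
  measurable_PP₂ (α := E) (F := fun _ => F) (hF.comp measurable_snd) measurable_id R

lemma measurable_PP_lev {F : E → ℝ} (hF : Measurable F) (R : ℝ) :
    Measurable fun p : E × ℝ => PP (lev F p.2) p.1 R :=
  measurable_PP₂ (α := E × ℝ) (F := fun p => lev F p.2)
    ((measurable_lev₂ hF).comp (f := fun q : (E × ℝ) × E => (q.2, q.1.2)) (by fun_prop))
    measurable_fst R

lemma setLIntegral_ball_add (f : E → ℝ≥0∞) (c v : E) (r : ℝ) :
    ∫⁻ y in ball c r, f (y + v) = ∫⁻ y in ball (c + v) r, f y := by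
  rw [← lintegral_indicator measurableSet_ball, ← lintegral_indicator measurableSet_ball,
    ← lintegral_add_right_eq_self ((ball (c + v) r).indicator f) v]
  refine lintegral_congr fun y => ?_
  by_cases h : y ∈ ball c r
  · rw [indicator_of_mem h, indicator_of_mem (by simpa using h)]
  · rw [indicator_of_notMem h, indicator_of_notMem (by simpa using h)]

/-- translating the domain of integration -/
lemma setLIntegral_add_le (f : E → ℝ≥0∞) {U P : Set E} (hU : MeasurableSet U)
    (hP : MeasurableSet P) (v : E) (h : ∀ y ∈ U, y + v ∈ P) :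
    ∫⁻ y in U, f (y + v) ≤ ∫⁻ y in P, f y := by
  rw [← lintegral_indicator hU, ← lintegral_indicator hP,
    ← lintegral_add_right_eq_self (P.indicator f) v]
  refine lintegral_mono fun y => ?_
  by_cases hy : y ∈ U
  · rw [indicator_of_mem hy, indicator_of_mem (h y hy)]
  · rw [indicator_of_notMem hy]; exact zero_le

lemma isClosed_ball_subset (Bad : Set E) (ρ : ℝ) : IsClosed {y : E | ball y ρ ⊆ Bad} := by
  have : {y : E | ball y ρ ⊆ Bad} = ⋂ w ∈ Badᶜ, {y | ρ ≤ dist w y} := by
    ext y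
    simp only [mem_setOf_eq, mem_iInter, mem_compl_iff]
    constructor
    · intro h w hw
      by_contra hh
      exact hw (h (by simpa using hh))
    · intro h w hw
      by_contra hh
      have := h w hh
      rw [mem_ball] at hw
      linarith
  rw [this]
  exact isClosed_biInter fun w _ => isClosed_le continuous_const (by fun_prop)

lemma bb_mono (F : E → ℝ) {A A' h : ℝ} (hA : A ≤ A') (hh : 0 ≤ h) : bb F A h ≤ bb F A' h := by
  unfold bb
  gcongr with z
  exact PP_mono F (by simpa using mul_le_mul_of_nonneg_right hA hh)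

end Vale.Agent.P137
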