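import Vale.Agent.P137.Pat1
import Vale.Agent.P137.Pat2

namespace Vale.Agent.P137

open MeasureTheory Metric Set Filter Topology
open scoped ENNReal RealInnerProductSpace

variable {E : Type*} [NormedAddCommGroup E] [InnerProductSpace ℝ E] [FiniteDimensional ℝ E]
  [MeasurableSpace E] [BorelSpace E]

/-- the mass of the level set ahead, seen from a point outside the level set -/
lemma negB_inner {F : E → ℝ} (hF : Measurable F) (t : ℝ) {c ω y : E} {h r M : ℝ} (hM : 0 < M)
    (hy : y ∈ ball c r) (hyS : ¬ t < F y) :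
    volume ({y | t < F y} ∩ ball (c + h • ω) r) ≤ ENNReal.ofReal (M ^ Module.finrank ℝ E) *
      ∫⁻ s in ball ((h / M) • ω) (2 * r / M),
        ENNReal.ofReal (-lev F t y - -lev F t (y + M • s)) := by
  have hS : MeasurableSet ({y | t < F y} ∩ ball (c + h • ω) r) :=
    (measurableSet_lt measurable_const hF).inter measurableSet_ball
  rw [← lintegral_indicator_one hS,
    ← lintegral_add_left_eq_self (({y | t < F y} ∩ ball (c + h • ω) r).indicator 1) y,
    lintegral_smul_eq _ hM, ← lintegral_indicator measurableSet_ball]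
  refine mul_le_mul_right (lintegral_mono fun s => ?_) _
  by_cases hs : y + M • s ∈ {y | t < F y} ∩ ball (c + h • ω) r
  · rw [indicator_of_mem hs, indicator_of_mem]
    · have h1 : t < F (y + M • s) := hs.1
      simp [lev, h1, hyS]
    · have h1 := hs.2
      rw [mem_ball, dist_eq_norm] at h1 hy ⊢
      have h2 : M • (s - (h / M) • ω) = (y + M • s - (c + h • ω)) - (y - c) := by
        rw [smul_sub, smul_smul, mul_div_cancel₀ _ hM.ne']
        abel
      have h3 : ‖M • (s - (h / M) • ω)‖ < 2 * r := by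
        rw [h2]
        linarith [norm_sub_le (y + M • s - (c + h • ω)) (y - c)]
      rw [norm_smul, Real.norm_of_nonneg hM.le] at h3
      rw [lt_div_iff₀ hM]
      linarith
  · rw [indicator_of_notMem hs]
    exact zero_le

/-- an up jump followed by an empty ball creates patterns -/
theorem negB (b : ℝ) (hb : 0 < b) (hb1 : b ≤ 1) : ∃ (N : ℕ) (A : ℝ) (C : ℝ≥0∞), 16 / b ≤ N ∧
    0 < A ∧ C ≠ ⊤ ∧ ∀ (F : E → ℝ), Measurable F → ∀ (t : ℝ) (c ω : E) (h : ℝ) (n : ℕ),
    ‖ω‖ ≤ 2 → 0 < h → N ≤ n → n ≤ 3 * N →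
    4 * volume ({y | t < F y} ∩ ball (c + ((n : ℝ) / N * h) • ω) (3 / 2 * (b * h))) ≤ V E (b * h) →
    volume ({y | t < F y}ᶜ ∩ ball c (b / 16 * h)) *
      volume ({y | t < F y} ∩ ball (c + h • ω) (b / 16 * h)) ≤ C * PP (lev F t) c (A * h) := by
  obtain ⟨N, hN⟩ : ∃ N : ℕ, 16 / b ≤ N := exists_nat_ge _
  have hN16 : (16 : ℝ) ≤ N := le_trans (by rw [le_div_iff₀ hb]; linarith) hN
  have hN0 : (0 : ℝ) < N := by linarith
  obtain ⟨m, hm⟩ : ∃ m : ℕ, 3 * N ≤ 2 ^ m := ⟨3 * N, Nat.lt_two_pow_self.le⟩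
  have h2m : (0 : ℝ) < 2 ^ m := by positivity
  refine ⟨N, 7 + 6 * 2 ^ m, ENNReal.ofReal ((N : ℝ) ^ Module.finrank ℝ E) * (2 * 2 ^ m + 2), hN,
    by positivity, by finiteness, ?_⟩
  intro F hF t c ω h n hω hh hNn hn3 hsp
  have hS : MeasurableSet {y | t < F y} := measurableSet_lt measurable_const hF
  have hl := measurable_lev hF t
  have hbh : 0 < b * h := mul_pos hb hh
  have hbh1 : b * h ≤ h := by nlinarith
  have hnN : (n : ℝ) ≤ 3 * N := by exact_mod_cast hn3
  set r : ℝ := b / 16 * h with hr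
  have hr0 : 0 < r := by positivity
  set W : Set E := ball ((h / N) • ω) (2 * r / N) with hW
  set w : E := c + ((n : ℝ) / N * h) • ω with hw
  set R : ℝ := (7 + 6 * 2 ^ m) * h with hR
  have hmeas : Measurable fun p : E × E =>
      ENNReal.ofReal (-lev F t p.1 - -lev F t (p.1 + (N : ℝ) • p.2)) := by
    refine Measurable.ennreal_ofReal (Measurable.sub (hl.comp measurable_fst).neg
      (hl.comp (f := fun p : E × E => p.1 + (N : ℝ) • p.2) ?_).neg)
    fun_prop
  have h1 : volume ({y | t < F y}ᶜ ∩ ball c r) * volume ({y | t < F y} ∩ ball (c + h • ω) r) ≤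
      ENNReal.ofReal ((N : ℝ) ^ Module.finrank ℝ E) * ∫⁻ s in W, ∫⁻ y in ball c r,
        ENNReal.ofReal (-lev F t y - -lev F t (y + (N : ℝ) • s)) := by
    rw [mul_comm, ← setLIntegral_const, ← lintegral_lintegral_swap hmeas.aemeasurable,
      ← lintegral_const_mul' _ _ ENNReal.ofReal_ne_top]
    refine le_trans (setLIntegral_mono' (hS.compl.inter measurableSet_ball) fun y hy =>
      negB_inner hF t hN0 hy.2 hy.1) (lintegral_mono_set inter_subset_right)
  have hp : ∀ y ∈ ball c r, ∀ s ∈ W, y + (n : ℝ) • s ∈ ball w (b * h / 2) := by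
    intro y hy s hs
    rw [mem_ball, dist_eq_norm] at hy hs ⊢
    have h2 : y + (n : ℝ) • s - w = (y - c) + (n : ℝ) • (s - (h / N) • ω) := by
      rw [hw, smul_sub, smul_smul, show (n : ℝ) * (h / N) = n / N * h by ring]
      abel
    have h3 : ‖(n : ℝ) • (s - (h / N) • ω)‖ ≤ 6 * r := by
      rw [norm_smul, Real.norm_of_nonneg (Nat.cast_nonneg n)]
      calc (n : ℝ) * ‖s - (h / N) • ω‖ ≤ (3 * N) * (2 * r / N) :=
            mul_le_mul hnN hs.le (norm_nonneg _) (by positivity)
        _ = 6 * r := by field_simp; ring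
    rw [h2]
    have h4 := norm_add_le (y - c) ((n : ℝ) • (s - (h / N) • ω))
    have h5 : 7 * r ≤ b * h / 2 := by rw [hr]; nlinarith
    linarith
  have hWτ : W ⊆ ball 0 (3 * h) := by
    refine ball_subset_ball' ?_
    rw [dist_zero_right, norm_smul, Real.norm_of_nonneg (by positivity)]
    have h2 : h / N ≤ h := div_le_self hh.le (by linarith)
    have h3 : 2 * r / N ≤ 2 * r := div_le_self (by positivity) (by linarith)
    have h4 : h / N * ‖ω‖ ≤ h * 2 := mul_le_mul h2 hω (norm_nonneg _) hh.le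
    have h5 : 2 * r ≤ h := by rw [hr]; nlinarith
    linarith
  have hrh : r ≤ h := by rw [hr]; nlinarith
  have h2 := NI (F := fun y => -lev F t y) hl.neg 0 m (M := N) (j := 0) (n := n) hNn
    (by omega) (U := ball c r) (W := W) (Pm := univ) (Pp := ball w (b * h / 2))
    measurableSet_ball measurableSet_ball MeasurableSet.univ measurableSet_ball
    (fun _ _ _ _ => mem_univ _) hp (z := c) (ρ := r) (τ := 3 * h) (R := R) hr0.le
    (by positivity) subset_rfl hWτ (by rw [hR]; nlinarith)
  have hdu : du (fun y => -lev F t y) 0 univ = 0 := by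
    unfold du
    refine (lintegral_congr fun y => ?_).trans lintegral_zero
    by_cases hy : t < F y <;> simp [lev, hy]
  have hdv : dv (fun y => -lev F t y) 0 (ball w (b * h / 2)) =
      volume ({y | t < F y} ∩ ball w (b * h / 2)) := by
    unfold dv
    rw [← Measure.restrict_apply hS, ← lintegral_indicator_one hS]
    refine lintegral_congr fun y => ?_
    by_cases hy : t < F y
    · rw [indicator_of_mem (show y ∈ {y | t < F y} from hy)]
      simp [lev, hy]
    · rw [indicator_of_notMem (show y ∉ {y | t < F y} from hy)]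
      simp [lev, hy]
  have hwc : dist w c ≤ 6 * h := by
    rw [hw, dist_self_add_left, norm_smul, Real.norm_of_nonneg (by positivity)]
    have h3 : (n : ℝ) / N ≤ 3 := by rw [div_le_iff₀ hN0]; linarith
    calc (n : ℝ) / N * h * ‖ω‖ ≤ 3 * h * 2 :=
          mul_le_mul (mul_le_mul_of_nonneg_right h3 hh.le) hω (norm_nonneg _) (by positivity)
      _ = 6 * h := by ring
  have h3 := UPhi hF t (w := w) (z := c) (ρ := b * h / 2) (a := b * h) (R := R) hbh
    (by rw [show b * h / 2 + b * h = 3 / 2 * (b * h) by ring]; exact hsp)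
    (by rw [hR]; nlinarith) (by rw [hR]; nlinarith)
  have h4 : volume W ≤ V E (b * h) := by
    rw [hW, vol_ball]
    refine V_mono ?_
    have h3 : 2 * r / N ≤ 2 * r := div_le_self (by positivity) (by linarith)
    have h5 : 2 * r ≤ b * h := by rw [hr]; nlinarith
    linarith
  rw [hdu, hdv, zero_add, PP_neg] at h2
  refine h1.trans ?_
  rw [mul_assoc]
  refine mul_le_mul_right (h2.trans ?_) _
  rw [add_mul]
  refine add_le_add le_rfl (le_trans ?_ h3)
  rw [mul_comm]
  exact mul_le_mul_right h4 _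

end Vale.Agent.P137
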