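import Mathlib

namespace Vale.Agent.P137

open MeasureTheory Metric
open scoped ENNReal ContDiff RealInnerProductSpace

variable {E : Type*} [NormedAddCommGroup E] [InnerProductSpace ℝ E] [FiniteDimensional ℝ E]
  [MeasurableSpace E] [BorelSpace E]

/-- The uncentered Hardy-Littlewood maximal function over open Euclidean balls containing `x`. -/
noncomputable def Mt (f : E → ℝ) (x : E) : ℝ≥0∞ :=
  ⨆ (c : E) (r : ℝ) (_ : x ∈ ball c r), (∫⁻ y in ball c r, ‖f y‖ₑ) / volume (ball c r)

/-- `G` is the weak (distributional) gradient of `f`. -/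
def IsWeakGrad (f : E → ℝ) (G : E → E) : Prop :=
  ∀ φ : E → ℝ, ContDiff ℝ ∞ φ → HasCompactSupport φ → ∀ v : E,
    ∫ x, f x * fderiv ℝ φ x v = - ∫ x, ⟪G x, v⟫ * φ x

end Vale.Agent.P137
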